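import Crest.Agent.Lib.CycleRamsey.BCExcBridge

/-!
# The exceptional patterns of `(q, r) = (4, 2)`, `k = 6` (helper31, row 54, S0075)

The home of the bad pair contributes only its exit, the other three homes two vertices each.
-/

set_option autoImplicit false
set_option linter.unusedSectionVars false
set_option linter.unusedVariables false

namespace Crest.Agent.CycleRamsey

open SimpleGraph

variable {V : Type} [Fintype V] [DecidableEq V] {G : SimpleGraph V}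
variable {Q : Finset V} {k : ℕ} {v : ℤ → V} {I : Finset V}

/-- The pattern `[0, 0, 0, 2]` for `(q, r) = (4, 2)`. -/
def patE1a : List Bool := [true, true, true, true, false, false]

/-- Labels for the pattern. -/
def labE1a (i : ℕ) : ℕ := [0, 0, 0, 1, 1, 0].getD i 0


theorem labCheckE1a : ∀ a < 6, ∀ b < 6, a ≠ b → labE1a a = labE1a b → hamCheck patE1a 6 a b = true := by decide

theorem E1a (S : ExcSetup G Q patE1a 6 v I) (hq : Q.card = 4) :
    ∃ T, Indep G T ∧ 7 ≤ T.card := by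
  obtain ⟨u, hu⟩ := S.exists_exits
  have hcard : ∀ i, 4 ≤ (Aof G v (u i)).card := by
    intro i
    have := S.card_Aof_ge (u := u i) (S.Ioff _ (hu i).1) labE1a 2 (by decide)
      (fun a ha b hb hab hl => idxPath_of_hamCheck (labCheckE1a a ha b hb hab hl))
    omega
  have hag : ∀ i, AG G (Aof G v (u i)) 2 := fun i => S.AG_two (subset_refl _) (by rw [hq]; exact hcard i)
  have hs : AG G ({u 3} : Finset V) 1 := AG.one (Finset.mem_singleton_self _)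
  have h12 := AG.union (hag 1) (hag 2) (S.A_clean (hu 1).1 (hu 2).1 (hu 1).2 (hu 2).2 ⟨[1, 0, 5, 4, 3, 2], by decide⟩ ⟨[1, 0, 3, 2], by decide⟩ ⟨[1, 0, 2], by decide⟩)
  have h123 := AG.union h12 (hag 4) (Clean.union_left (S.A_clean (hu 1).1 (hu 4).1 (hu 1).2 (hu 4).2 ⟨[1, 2, 3, 0, 5, 4], by decide⟩ ⟨[1, 0, 3, 4], by decide⟩ ⟨[1, 3, 4], by decide⟩) (S.A_clean (hu 2).1 (hu 4).1 (hu 2).2 (hu 4).2 ⟨[2, 1, 3, 0, 5, 4], by decide⟩ ⟨[2, 0, 3, 4], by decide⟩ ⟨[2, 3, 4], by decide⟩))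
  have hall := AG.union hs h123 (Clean.union_right (Clean.union_right (S.exit_clean (hu 1).1 (hu 3).1 (hu 1).2 (hu 3).2 ⟨[1, 2, 0, 5, 4, 3], by decide⟩ ⟨[1, 0, 2, 3], by decide⟩) (S.exit_clean (hu 2).1 (hu 3).1 (hu 2).2 (hu 3).2 ⟨[2, 1, 0, 5, 4, 3], by decide⟩ ⟨[2, 0, 1, 3], by decide⟩)) (S.exit_clean (hu 4).1 (hu 3).1 (hu 4).2 (hu 3).2 ⟨[4, 5, 0, 1, 2, 3], by decide⟩ ⟨[4, 5, 0, 3], by decide⟩))
  exact hall.exists_indep

/-- The pattern `[0, 1, 0, 1]` for `(q, r) = (4, 2)`. -/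
def patE1b : List Bool := [true, true, false, true, true, false]

/-- Labels for the pattern. -/
def labE1b (i : ℕ) : ℕ := [0, 1, 0, 0, 1, 0].getD i 0


theorem labCheckE1b : ∀ a < 6, ∀ b < 6, a ≠ b → labE1b a = labE1b b → hamCheck patE1b 6 a b = true := by decide

theorem E1b (S : ExcSetup G Q patE1b 6 v I) (hq : Q.card = 4) :
    ∃ T, Indep G T ∧ 7 ≤ T.card := by
  obtain ⟨u, hu⟩ := S.exists_exits
  have hcard : ∀ i, 4 ≤ (Aof G v (u i)).card := by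
    intro i
    have := S.card_Aof_ge (u := u i) (S.Ioff _ (hu i).1) labE1b 2 (by decide)
      (fun a ha b hb hab hl => idxPath_of_hamCheck (labCheckE1b a ha b hb hab hl))
    omega
  have hag : ∀ i, AG G (Aof G v (u i)) 2 := fun i => S.AG_two (subset_refl _) (by rw [hq]; exact hcard i)
  have hs : AG G ({u 2} : Finset V) 1 := AG.one (Finset.mem_singleton_self _)
  have h12 := AG.union (hag 1) (hag 4) (S.A_clean (hu 1).1 (hu 4).1 (hu 1).2 (hu 4).2 ⟨[1, 2, 3, 0, 5, 4], by decide⟩ ⟨[1, 0, 3, 4], by decide⟩ ⟨[1, 0, 4], by decide⟩)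
  have h123 := AG.union h12 (hag 5) (Clean.union_left (S.A_clean (hu 1).1 (hu 5).1 (hu 1).2 (hu 5).2 ⟨[1, 2, 3, 0, 4, 5], by decide⟩ ⟨[1, 0, 4, 5], by decide⟩ ⟨[1, 0, 5], by decide⟩) (S.A_clean (hu 4).1 (hu 5).1 (hu 4).2 (hu 5).2 ⟨[4, 1, 2, 3, 0, 5], by decide⟩ ⟨[4, 1, 0, 5], by decide⟩ ⟨[4, 0, 5], by decide⟩))
  have hall := AG.union hs h123 (Clean.union_right (Clean.union_right (S.exit_clean (hu 1).1 (hu 2).1 (hu 1).2 (hu 2).2 ⟨[1, 0, 5, 4, 3, 2], by decide⟩ ⟨[1, 0, 3, 2], by decide⟩) (S.exit_clean (hu 4).1 (hu 2).1 (hu 4).2 (hu 2).2 ⟨[4, 5, 0, 1, 3, 2], by decide⟩ ⟨[4, 0, 1, 2], by decide⟩)) (S.exit_clean (hu 5).1 (hu 2).1 (hu 5).2 (hu 2).2 ⟨[5, 0, 1, 4, 3, 2], by decide⟩ ⟨[5, 0, 1, 2], by decide⟩))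
  exact hall.exists_indep

end Crest.Agent.CycleRamsey
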