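import Crest.Agent.Lib.CycleRamsey.BCBoundary5
import Crest.Agent.Lib.CycleRamsey.BCExcE1

/-!
# The boundary steps with `q = 4` (helper11, row 54, S0075)

`(q, r) = (4, 2)` and `(4, 3)`: exclusion of `s = 1, 3` by `excl_fail`, of `s = 4` by direct closures;
the exceptions are the long ear `(4,3)` (`excE2`) and the two patterns of `(4,2)` (`E1a`, `E1b`).
-/

set_option autoImplicit false
set_option linter.unusedSectionVars false
set_option linter.unusedVariables false
set_option linter.unreachableTactic false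
set_option linter.unusedTactic false

namespace Crest.Agent.CycleRamsey

open SimpleGraph
open Crest.Agent.Lib.CycleRamsey

variable {V : Type} [DecidableEq V] {G : SimpleGraph V}

/-- Closing a path through one vertex. -/
lemma close1 {a b m : V} (g : G.Walk a b) (hg : g.IsPath) (h1 : G.Adj b m) (h2 : G.Adj m a)
    (hm : m ∉ g.support) (hlen : 1 ≤ g.length) : HasCycle G (g.length + 2) := by
  have hp : (Walk.cons h2 g).IsPath := hg.cons hm
  refine ⟨b, Walk.cons h1 (Walk.cons h2 g), cycle_of_path hp h1 (by simp; omega), by simp⟩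

/-- Closing a path through two vertices. -/
lemma close2 {a b m₁ m₂ : V} (g : G.Walk a b) (hg : g.IsPath) (h1 : G.Adj b m₁) (h2 : G.Adj m₁ m₂)
    (h3 : G.Adj m₂ a) (hne : m₁ ≠ m₂) (hm1 : m₁ ∉ g.support) (hm2 : m₂ ∉ g.support) :
    HasCycle G (g.length + 3) := by
  have hp : (Walk.cons h3 g).IsPath := hg.cons hm2
  have hp' : (Walk.cons h2 (Walk.cons h3 g)).IsPath := hp.cons (by
    simp only [Walk.support_cons, List.mem_cons, not_or]
    exact ⟨hne, hm1⟩)
  refine ⟨b, Walk.cons h1 (Walk.cons h2 (Walk.cons h3 g)), cycle_of_path hp' h1 (by simp), ?_⟩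
  simp

section
variable {n : ℕ} {v : ℤ → V} {Q : Finset V}

lemma cyc_ne (hc : CycFn G n v) {x y : ℤ} (h1 : 0 < x - y) (h2 : x - y < n) : v x ≠ v y := by
  intro h
  have := hc.inj_window h h2 (by omega)
  omega

lemma offQ_mem (hc : CycFn G n v) {t : ℤ} (h : v t ∉ Q) : v t ∈ offQ v n Q :=
  Finset.mem_sdiff.2 ⟨(mem_cycVerts hc).2 ⟨t, rfl⟩, h⟩

/-- With at most `m` vertices off `Q`: `m + 1` vertices off `Q` are impossible. -/
lemma n_ge_of_off (hc : CycFn G n v) (hQv : ∀ a ∈ Q, ∃ t, v t = a) {t : ℤ} (h : v t ∉ Q) :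
    Q.card + 1 ≤ n := by
  have h1 := card_offQ hc hQv
  have h2 : 0 < (offQ v n Q).card := Finset.card_pos.2 ⟨_, offQ_mem hc h⟩
  omega

end

/-- `s = 1, 3` for `q = 4`. -/
theorem excl_q4 {n r : ℕ} {v : ℤ → V} (hc : CycFn G n v) {Q : Finset V}
    (hQ : ∀ x ∈ Q, ∀ y ∈ Q, x ≠ y → G.Adj x y) (hQv : ∀ a ∈ Q, ∃ t, v t = a)
    (hq : Q.card = 4) (hr : r = 2 ∨ r = 3)
    (hn : n ≤ Q.card + r) (hno : ¬ HasCycle G (Q.card + r + 1))
    (hmax : ∀ (u : V) (c : G.Walk u u), c.IsCycle → (∀ a ∈ Q, a ∈ c.support) →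
      c.length ≤ Q.card + r → c.length ≤ n)
    {i j : ℤ} (hi : v (i + 1) ∈ Q) (hj : v (j + 1) ∈ Q) (hij : v i ≠ v j)
    (g : G.Walk (v i) (v j)) (hg : g.IsPath)
    (hoff : ∀ z ∈ g.support, z ≠ v i → z ≠ v j → ∀ t, z ≠ v t)
    (hlen : g.length = 2 ∨ g.length = 4) : r = 3 ∧ HasEar G Q 3 := by
  classical
  obtain ⟨n', v', A, C, b, m, e, s, hc', hQv', hn', hs, hAa, hms, hCl, hAC, hCc, hes, he1,
    hL1, hR1, hfail, hbd, hmin, hnoX⟩ :=
    excl_fail hc hQ hQv (by omega) hn hno hmax hi hj hij g hg hoff (by omega)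
  have hQne : ∃ i0, v' i0 ∈ Q := by
    obtain ⟨a, ha⟩ : Q.Nonempty := Finset.card_pos.1 (by omega)
    obtain ⟨t, ht⟩ := hQv' a ha
    exact ⟨t, ht ▸ ha⟩
  have hQne' : ∃ i0, (fun i => v' (-i)) i0 ∈ Q := by
    obtain ⟨i0, hi0⟩ := hQne
    exact ⟨-i0, by simpa using hi0⟩
  have hs3 : s = 3 := by
    rcases hlen with h | h <;> omega
  have he : e = 1 ∨ e = 2 := by omega
  have hA := hAa.closed hc'
  have hAcard := hAa.card hc'
  have hC' : ArcClosed v' Q (C \ A) := hCl.sdiff hA
  set L := (leftEnds v' Q (C \ A)).card with hL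
  set R := (leftEnds (fun i => v' (-i)) Q (C \ A)).card with hR
  have hcc : (C \ A).card + A.card = C.card := Finset.card_sdiff_add_card_eq_card hAC
  have hLc : 1 ≤ (C \ A).card → 1 ≤ L ∧ 1 ≤ R := by
    intro h
    have hne : (C \ A).Nonempty := Finset.card_pos.1 h
    exact ⟨Finset.card_pos.2 (exists_leftEnd hc' hQne hC' hne),
      Finset.card_pos.2 (exists_leftEnd hc'.rev hQne' hC'.rev hne)⟩
  have hNcard := card_offQ hc' hQv'
  rcases he with rfl | rfl
  · -- `e = 1`: drop a `2`-arc or count
    exfalso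
    by_cases hex : ∃ B : Finset V, B ⊆ C \ A ∧ B.Nonempty ∧ ArcClosed v' Q B ∧
        ArcClosed v' Q ((C \ A) \ B) ∧ B.card ≤ 2
    · obtain ⟨B, hB, hBne, hBc, hBc', hB2⟩ := hex
      have h2 := hmin B hB hBne hBc hBc'
      have hBcard : B.card = 2 := by omega
      have hX : ArcClosed v' Q (offQ v' n' Q \ B) := (offQ_closed hc').sdiff hBc
      have hBN : B ⊆ offQ v' n' Q := hBc.subset_offQ hc'
      have hXcard : (offQ v' n' Q \ B).card + B.card = (offQ v' n' Q).card :=
        Finset.card_sdiff_add_card_eq_card hBN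
      exact hnoX _ hX (by omega) (by omega)
    · have hm3 : ∀ B : Finset V, B ⊆ C \ A → B.Nonempty → ArcClosed v' Q B →
          ArcClosed v' Q ((C \ A) \ B) → 2 + 1 ≤ B.card := by
        intro B hB hBne hBc hBc'
        by_contra hlt
        exact hex ⟨B, hB, hBne, hBc, hBc', by omega⟩
      have h3L := card_leftEnds_mul_le hc' hQne hC' 2 hm3
      have h3R := card_leftEnds_mul_le hc'.rev hQne' hC'.rev 2
        (fun B hB hne h1 h2 => hm3 B hB hne h1.of_rev h2.of_rev)
      rw [← hL] at h3L
      rw [← hR] at h3R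
      rcases hr with rfl | rfl <;> omega
  · -- `e = 2`
    have hc1 : 1 ≤ (C \ A).card := by
      by_contra hcon
      have h0 : (C \ A).card = 0 := by omega
      have h1 : ∀ (w : ℤ → V), (leftEnds w Q (C \ A)).card ≤ (C \ A).card := by
        intro w
        apply Finset.card_le_card
        intro x hx
        exact (mem_leftEnds.1 hx).1
      have h2 := h1 v'
      have h3 := h1 (fun i => v' (-i))
      omega
    have hLR := hLc hc1
    have hr3 : r = 3 := by
      rcases hr with rfl | rfl <;> omega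
    subst hr3
    refine ⟨rfl, ?_⟩
    have hm : m = 3 := by omega
    rw [← hm]
    exact hAa.hasEar hc' (by omega) hQv' (by omega)

/-- `s = 4`, `k = 7`: the case `v j = v (i + 1)`. -/
lemma s4_k7_B {n : ℕ} {v : ℤ → V} (hc : CycFn G n v) {Q : Finset V}
    (hQ : ∀ x ∈ Q, ∀ y ∈ Q, x ≠ y → G.Adj x y) (hQv : ∀ a ∈ Q, ∃ t, v t = a)
    (hq : Q.card = 4) (hn : n ≤ 7) (hno : ¬ HasCycle G 8)
    {i j : ℤ} (hi : v (i + 1) ∈ Q) (hij : v i ≠ v j)
    (g : G.Walk (v i) (v j)) (hg : g.IsPath)
    (hoff : ∀ z ∈ g.support, z ≠ v i → z ≠ v j → ∀ t, z ≠ v t)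
    (hlen : g.length = 5) (hji : v j = v (i + 1)) : HasEar G Q 3 := by
  classical
  have hn3 := hc.n_ge
  have hoffD : ∀ t, v t ≠ v i → v t ≠ v j → v t ∉ g.support :=
    fun t h1 h2 hmem => hoff _ hmem h1 h2 t rfl
  have hoffQ : ∀ x ∈ Q, x ≠ v i → x ≠ v j → x ∉ g.support := by
    intro x hx h1 h2
    obtain ⟨t, rfl⟩ := hQv x hx
    exact hoffD t h1 h2
  have hz'Q : v j ∈ Q := hji ▸ hi
  have hN : ∀ (h : HasCycle G (g.length + 3)), False := by
    intro h
    rw [hlen] at h
    exact hno h
  by_cases hzQ : v i ∈ Q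
  · -- two more vertices of `Q`
    exfalso
    have hc2 : 2 ≤ ((Q.erase (v i)).erase (v j)).card := by
      rw [Finset.card_erase_of_mem (Finset.mem_erase.2 ⟨hij.symm, hz'Q⟩),
        Finset.card_erase_of_mem hzQ, hq]
    obtain ⟨x, hx, y, hy, hxy⟩ := Finset.one_lt_card.1 (by omega : 1 < ((Q.erase (v i)).erase (v j)).card)
    simp only [Finset.mem_erase] at hx hy
    exact hN (close2 g hg (hQ _ hz'Q _ hx.2.2 hx.1.symm) (hQ _ hx.2.2 _ hy.2.2 hxy)
      (hQ _ hy.2.2 _ hzQ hy.2.1) hxy (hoffQ x hx.2.2 hx.2.1 hx.1) (hoffQ y hy.2.2 hy.2.1 hy.1))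
  · have hn5 := n_ge_of_off hc hQv hzQ
    have hne1 : v (i - 1) ≠ v i := cyc_ne hc (x := i) (y := i - 1) (by omega) (by omega) |>.symm
    have hne2 : v (i - 1) ≠ v j := by
      rw [hji]
      exact (cyc_ne hc (x := i + 1) (y := i - 1) (by omega) (by omega)).symm
    have hadj1 : G.Adj (v (i - 1)) (v i) := by
      have := hc.adj (i - 1)
      simpa using this
    by_cases hw1 : v (i - 1) ∈ Q
    · exfalso
      -- one more vertex of `Q`
      have hc2 : 1 ≤ ((Q.erase (v j)).erase (v (i - 1))).card := by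
        rw [Finset.card_erase_of_mem (Finset.mem_erase.2 ⟨hne2, hw1⟩),
          Finset.card_erase_of_mem hz'Q, hq]
        omega
      obtain ⟨x, hx⟩ := Finset.card_pos.1 (by omega : 0 < ((Q.erase (v j)).erase (v (i - 1))).card)
      simp only [Finset.mem_erase] at hx
      have hxi : x ≠ v i := fun h => hzQ (h ▸ hx.2.2)
      exact hN (close2 g hg (hQ _ hz'Q _ hx.2.2 hx.2.1.symm) (hQ _ hx.2.2 _ hw1 hx.1) hadj1 hx.1
        (hoffQ x hx.2.2 hxi hx.2.1) (hoffD _ hne1 hne2))
    · -- the second predecessor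
      have hoff1 := offQ_mem hc hw1
      have hoff0 := offQ_mem hc hzQ
      have hcard2 : 2 ≤ (offQ v n Q).card := by
        have : ({v (i - 1), v i} : Finset V) ⊆ offQ v n Q := by
          intro z hz
          simp only [Finset.mem_insert, Finset.mem_singleton] at hz
          rcases hz with rfl | rfl <;> assumption
        have h2 := Finset.card_le_card this
        rwa [Finset.card_pair hne1] at h2
      have hNc := card_offQ hc hQv
      have hn6 : 6 ≤ n := by omega
      have hne3 : v (i - 2) ≠ v j := by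
        rw [hji]
        exact (cyc_ne hc (x := i + 1) (y := i - 2) (by omega) (by omega)).symm
      have hne4 : v (i - 2) ≠ v (i - 1) :=
        (cyc_ne hc (x := i - 1) (y := i - 2) (by omega) (by omega)).symm
      have hne5 : v (i - 2) ≠ v i :=
        (cyc_ne hc (x := i) (y := i - 2) (by omega) (by omega)).symm
      have hadj2 : G.Adj (v (i - 2)) (v (i - 1)) := by
        have := hc.adj (i - 2)
        have e : i - 2 + 1 = i - 1 := by ring
        rwa [e] at this
      by_cases hw2 : v (i - 2) ∈ Q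
      · exfalso
        exact hN (close2 g hg (hQ _ hz'Q _ hw2 hne3.symm) hadj2 hadj1 hne4
          (hoffQ _ hw2 hne5 hne3) (hoffD _ hne1 hne2))
      · -- a `3`-arc
        have hw3 : v (i - 3) ∈ Q := by
          by_contra hw3
          have hsub : ({v (i - 3), v (i - 2), v (i - 1), v i} : Finset V) ⊆ offQ v n Q := by
            intro z hz
            simp only [Finset.mem_insert, Finset.mem_singleton] at hz
            rcases hz with rfl | rfl | rfl | rfl
            · exact offQ_mem hc hw3
            · exact offQ_mem hc hw2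
            · exact hoff1
            · exact hoff0
          have h2 := Finset.card_le_card hsub
          have h4 : ({v (i - 3), v (i - 2), v (i - 1), v i} : Finset V).card = 4 := by
            rw [Finset.card_insert_of_notMem, Finset.card_insert_of_notMem, Finset.card_insert_of_notMem,
              Finset.card_singleton]
            · simpa using hne1
            · simp only [Finset.mem_insert, Finset.mem_singleton, not_or]
              exact ⟨hne4, hne5⟩
            · simp only [Finset.mem_insert, Finset.mem_singleton, not_or]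
              exact ⟨(cyc_ne hc (x := i - 2) (y := i - 3) (by omega) (by omega)).symm,
                (cyc_ne hc (x := i - 1) (y := i - 3) (by omega) (by omega)).symm,
                (cyc_ne hc (x := i) (y := i - 3) (by omega) (by omega)).symm⟩
          omega
        have hArc : IsArc v Q ((Finset.range 3).image (fun t : ℕ => v (i - 2 + t))) (i - 2) 3 := by
          refine ⟨?_, ?_, ?_, ?_⟩
          · have e : i - 2 - 1 = i - 3 := by ring
            rw [e]
            exact hw3
          · have e : i - 2 + ((3 : ℕ) : ℤ) = i + 1 := by push_cast; ring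
            rw [e]
            exact hi
          · intro t ht
            interval_cases t
            · simpa using hw2
            · have e : i - 2 + ((1 : ℕ) : ℤ) = i - 1 := by push_cast; ring
              rw [e]
              exact hw1
            · have e : i - 2 + ((2 : ℕ) : ℤ) = i := by push_cast; ring
              rw [e]
              exact hzQ
          · intro z
            simp only [Finset.mem_image, Finset.mem_range]
        exact hArc.hasEar hc (by norm_num) hQv (by omega)

/-- `s = 4`, `k = 7`. -/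
theorem s4_k7 {n : ℕ} {v : ℤ → V} (hc : CycFn G n v) {Q : Finset V}
    (hQ : ∀ x ∈ Q, ∀ y ∈ Q, x ≠ y → G.Adj x y) (hQv : ∀ a ∈ Q, ∃ t, v t = a)
    (hq : Q.card = 4) (hn : n ≤ 7) (hno : ¬ HasCycle G 8)
    {i j : ℤ} (hi : v (i + 1) ∈ Q) (hj : v (j + 1) ∈ Q) (hij : v i ≠ v j)
    (g : G.Walk (v i) (v j)) (hg : g.IsPath)
    (hoff : ∀ z ∈ g.support, z ≠ v i → z ≠ v j → ∀ t, z ≠ v t)
    (hlen : g.length = 5) : HasEar G Q 3 := by
  classical
  have hn3 := hc.n_ge
  by_cases h1 : v j = v (i + 1)
  · exact s4_k7_B hc hQ hQv hq hn hno hi hij g hg hoff hlen h1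
  by_cases h2 : v i = v (j + 1)
  · refine s4_k7_B hc hQ hQv hq hn hno hj hij.symm g.reverse hg.reverse ?_ (by simpa using hlen) h2
    intro z hz h3 h4 t
    rw [Walk.support_reverse, List.mem_reverse] at hz
    exact hoff z hz h4 h3 t
  exfalso
  have hoffD : ∀ t, v t ≠ v i → v t ≠ v j → v t ∉ g.support :=
    fun t h1 h2 hmem => hoff _ hmem h1 h2 t rfl
  have hpp : v (j + 1) ≠ v (i + 1) := by
    intro h
    apply hij
    have := shift_eq hc (-1) h
    simpa using this.symm
  have e1 : v (j + 1) ≠ v j := cyc_ne hc (by omega) (by omega)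
  have e2 : v (i + 1) ≠ v i := cyc_ne hc (by omega) (by omega)
  apply hno
  have := close2 g hg (hc.adj j) (hQ _ hj _ hi hpp) (hc.adj i).symm hpp
    (hoffD _ (Ne.symm h2) e1) (hoffD _ e2 (Ne.symm h1))
  rwa [hlen] at this

variable [Fintype V]

theorem boundaryStep_4_3 : BoundaryStep 4 3 := by
  intro V _ _ G a h ha Q hQ hqc hmax
  classical
  have h3 : 3 ≤ Q.card := by omega
  have hk : Q.card + 3 = 4 + 3 := by omega
  have hear : ¬ HasEar G Q 3 := by
    intro hE
    exact ear_false (q := 4) (r := 3) (by norm_num) (by norm_num) h ha hQ hqc hmax hE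
      (fun Q' I v S hq => excE2 S hq) (by decide)
  obtain ⟨u, c, hcy, hcQ, hcle, hcmax⟩ := exists_longest_cycle hQ h3 (by omega : Q.card ≤ 4 + 3)
  have hv := cycFn_of_isCycle hcy
  have hQv : ∀ a ∈ Q, ∃ t, cyc c t = a := fun a ha => exists_cyc_eq hcy (hcQ a ha)
  obtain ⟨I, hI1, hI2, hI3⟩ := exists_exit_set h (by omega) hv hcle
  have hno := h.noCycle
  obtain ⟨T, hT, hTc⟩ := CT hv hQ hQv (by rw [hqc]; exact hmax) (r := 3) (by omega) hcle (by omega)
    (by omega) h.degree_ge h.noCycle hI1 hI2 hI3
    (by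
      intro i j hi hj hij g hg hoff hlen
      rcases hlen with hl | hl | hl
      · exact hear (excl_q4 hv hQ hQv hqc (Or.inr rfl) (by omega) (by rw [hqc]; exact hno)
          (fun u' c' h1 h2 h4 => hcmax u' c' h1 h2 (by omega)) hi hj hij g hg hoff (Or.inl hl)).2
      · exact hear (excl_q4 hv hQ hQv hqc (Or.inr rfl) (by omega) (by rw [hqc]; exact hno)
          (fun u' c' h1 h2 h4 => hcmax u' c' h1 h2 (by omega)) hi hj hij g hg hoff (Or.inr hl)).2
      · exact hear (s4_k7 hv hQ hQv hqc hcle hno hi hj hij g hg hoff hl))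
  have := h.noIndep T hT
  omega

/-- A cycle of length `6` with a pattern of `(4,2)`. -/
lemma pattern_false {a : ℕ} (h : MinCE (4 + 2) a G) (ha : a ≤ 4 + 2) {Q : Finset V}
    (hQ : ∀ x ∈ Q, ∀ y ∈ Q, x ≠ y → G.Adj x y)
    (hω : ∀ K : Finset V, (∀ x ∈ K, ∀ y ∈ K, x ≠ y → G.Adj x y) → K.card ≤ 4)
    {v : ℤ → V} (hc : CycFn G 6 v) (b : ℤ) {pat : List Bool} (hpat : pat.length = 6)
    (hthm : ∀ (Q' I : Finset V) (v : ℤ → V), ExcSetup G Q' pat 6 v I → Q'.card = 4 →
      ∃ T, Indep G T ∧ 7 ≤ T.card)
    (hcount : (Finset.univ.filter (fun i : Fin 6 => patAt pat i = true)).card = 4)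
    (hpQ : ∀ t : ℕ, t < 6 → patAt pat t = true → v (b + t) ∈ Q) : False := by
  classical
  have hne : seg v b 6 ≠ [] := by simp [seg]
  have hlast : (seg v b 6).getLast hne = v (b + 5) := by
    have h1 := getLast?_seg v b 5
    rw [List.getLast?_eq_some_getLast hne] at h1
    simpa using h1
  have hhead : (seg v b 6).head hne = v b := by
    have h1 := head?_seg v b 5
    rw [List.head?_eq_some_head hne] at h1
    simpa using h1
  obtain ⟨Q', I, w, hS, hQ'⟩ := excSetup_of_list h (by norm_num) (pat := pat) hpat (seg v b 6)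
    (length_seg _ _ _) (seg_nodup hc _ _ (le_refl _)) (seg_chain hc _ _) hne
    (by
      rw [hlast, hhead]
      have h1 := hc.adj (b + 5)
      have h2 : v (b + 5 + 1) = v b := by
        rw [hc.eq_iff]
        have e : b + 5 + 1 - b = ((6 : ℕ) : ℤ) := by push_cast; ring
        rw [e]
      rwa [h2] at h1) hQ
    (by
      intro t ht hp
      have ht' : t < 6 := by simpa [length_seg] using ht
      simp only [seg, List.getElem_map, List.getElem_range]
      exact hpQ t ht' hp) hcount hω
  obtain ⟨T, hT, hTc⟩ := hthm Q' I w hS hQ'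
  exact MinCE.false_of_indep h ha hT hTc

/-- `s = 4`, `k = 6`: the case `v j = v (i + 1)`, `v i ∉ Q`. -/
lemma s4_k6_D {a n : ℕ} (h : MinCE (4 + 2) a G) (ha : a ≤ 4 + 2) {v : ℤ → V} (hc : CycFn G n v)
    {Q : Finset V} (hQ : ∀ x ∈ Q, ∀ y ∈ Q, x ≠ y → G.Adj x y) (hQv : ∀ a ∈ Q, ∃ t, v t = a)
    (hq : Q.card = 4) (hω : ∀ K : Finset V, (∀ x ∈ K, ∀ y ∈ K, x ≠ y → G.Adj x y) → K.card ≤ 4)
    (hn : n ≤ 6) (hno : ¬ HasCycle G 7)
    {i j : ℤ} (hi : v (i + 1) ∈ Q) (hij : v i ≠ v j)
    (g : G.Walk (v i) (v j)) (hg : g.IsPath)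
    (hoff : ∀ z ∈ g.support, z ≠ v i → z ≠ v j → ∀ t, z ≠ v t)
    (hlen : g.length = 5) (hji : v j = v (i + 1)) (hzQ : v i ∉ Q) : False := by
  classical
  have hn3 := hc.n_ge
  have hoffD : ∀ t, v t ≠ v i → v t ≠ v j → v t ∉ g.support :=
    fun t h1 h2 hmem => hoff _ hmem h1 h2 t rfl
  have hz'Q : v j ∈ Q := hji ▸ hi
  have hN : ∀ (h : HasCycle G (g.length + 2)), False := by
    intro h
    rw [hlen] at h
    exact hno h
  have hn5 := n_ge_of_off hc hQv hzQ
  have hne1 : v (i - 1) ≠ v i := (cyc_ne hc (x := i) (y := i - 1) (by omega) (by omega)).symm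
  have hne2 : v (i - 1) ≠ v j := by
    rw [hji]
    exact (cyc_ne hc (x := i + 1) (y := i - 1) (by omega) (by omega)).symm
  have hadj1 : G.Adj (v (i - 1)) (v i) := by
    have := hc.adj (i - 1)
    simpa using this
  by_cases hw1 : v (i - 1) ∈ Q
  · exact hN (close1 g hg (hQ _ hz'Q _ hw1 hne2.symm) hadj1 (hoffD _ hne1 hne2) (by omega))
  · have hoff1 := offQ_mem hc hw1
    have hoff0 := offQ_mem hc hzQ
    have hsub : ({v (i - 1), v i} : Finset V) ⊆ offQ v n Q := by
      intro z hz
      simp only [Finset.mem_insert, Finset.mem_singleton] at hz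
      rcases hz with rfl | rfl <;> assumption
    have hc2 := Finset.card_le_card hsub
    rw [Finset.card_pair hne1] at hc2
    have hNc := card_offQ hc hQv
    have hn6 : n = 6 := by omega
    subst hn6
    have heq : ({v (i - 1), v i} : Finset V) = offQ v 6 Q :=
      Finset.eq_of_subset_of_card_le hsub (by rw [Finset.card_pair hne1]; omega)
    have hother : ∀ x : ℤ, v x ≠ v (i - 1) → v x ≠ v i → v x ∈ Q := by
      intro x h1 h2
      by_contra hx
      have := offQ_mem hc hx
      rw [← heq] at this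
      simp only [Finset.mem_insert, Finset.mem_singleton] at this
      rcases this with h | h
      · exact h1 h
      · exact h2 h
    refine pattern_false h ha hQ hω hc (i + 1) (pat := patE1a) rfl
      (fun Q' I w S hq' => E1a S hq') (by decide) ?_
    intro t ht hp
    have ht4 : t < 4 := by
      interval_cases t <;> first | omega | exact absurd hp (by decide)
    apply hother
    · exact cyc_ne hc (by omega) (by omega)
    · exact cyc_ne hc (by omega) (by omega)

/-- `s = 4`, `k = 6`. -/
theorem s4_k6 {a n : ℕ} (h : MinCE (4 + 2) a G) (ha : a ≤ 4 + 2) {v : ℤ → V} (hc : CycFn G n v)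
    {Q : Finset V} (hQ : ∀ x ∈ Q, ∀ y ∈ Q, x ≠ y → G.Adj x y) (hQv : ∀ a ∈ Q, ∃ t, v t = a)
    (hq : Q.card = 4) (hω : ∀ K : Finset V, (∀ x ∈ K, ∀ y ∈ K, x ≠ y → G.Adj x y) → K.card ≤ 4)
    (hn : n ≤ 6) (hno : ¬ HasCycle G 7)
    {i j : ℤ} (hi : v (i + 1) ∈ Q) (hj : v (j + 1) ∈ Q) (hij : v i ≠ v j)
    (g : G.Walk (v i) (v j)) (hg : g.IsPath)
    (hoff : ∀ z ∈ g.support, z ≠ v i → z ≠ v j → ∀ t, z ≠ v t)
    (hlen : g.length = 5) : False := by
  classical
  have hn3 := hc.n_ge
  have hoffD : ∀ t, v t ≠ v i → v t ≠ v j → v t ∉ g.support :=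
    fun t h1 h2 hmem => hoff _ hmem h1 h2 t rfl
  have hN : ∀ (h : HasCycle G (g.length + 2)), False := by
    intro h
    rw [hlen] at h
    exact hno h
  have e1 : v (j + 1) ≠ v j := cyc_ne hc (by omega) (by omega)
  have e2 : v (i + 1) ≠ v i := cyc_ne hc (by omega) (by omega)
  by_cases hA : v j ∈ Q ∧ v j ≠ v (i + 1)
  · exact hN (close1 g hg (hQ _ hA.1 _ hi hA.2) (hc.adj i).symm (hoffD _ e2 (Ne.symm hA.2)) (by omega))
  by_cases hB : v i ∈ Q ∧ v i ≠ v (j + 1)
  · exact hN (close1 g hg (hc.adj j) (hQ _ hj _ hB.1 (Ne.symm hB.2)) (hoffD _ (Ne.symm hB.2) e1) (by omega))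
  by_cases hzj : v j ∈ Q
  · have hji : v j = v (i + 1) := by
      by_contra hcon
      exact hA ⟨hzj, hcon⟩
    by_cases hzi : v i ∈ Q
    · have hij' : v i = v (j + 1) := by
        by_contra hcon
        exact hB ⟨hzi, hcon⟩
      have h1 := shift_eq hc 1 hji
      have h2 : v i = v (i + 1 + 1) := hij'.trans h1
      exact cyc_ne hc (x := i + 1 + 1) (y := i) (by omega) (by omega) h2.symm
    · exact s4_k6_D h ha hc hQ hQv hq hω hn hno hi hij g hg hoff hlen hji hzi
  · by_cases hzi : v i ∈ Q
    · have hij' : v i = v (j + 1) := by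
        by_contra hcon
        exact hB ⟨hzi, hcon⟩
      refine s4_k6_D h ha hc hQ hQv hq hω hn hno hj hij.symm g.reverse hg.reverse ?_ (by simpa using hlen)
        hij' hzj
      intro z hz h3 h4 t
      rw [Walk.support_reverse, List.mem_reverse] at hz
      exact hoff z hz h4 h3 t
    · -- both off `Q`
      have hsub : ({v i, v j} : Finset V) ⊆ offQ v n Q := by
        intro z hz
        simp only [Finset.mem_insert, Finset.mem_singleton] at hz
        rcases hz with rfl | rfl
        · exact offQ_mem hc hzi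
        · exact offQ_mem hc hzj
      have hc2 := Finset.card_le_card hsub
      rw [Finset.card_pair hij] at hc2
      have hNc := card_offQ hc hQv
      have hn6 : n = 6 := by omega
      subst hn6
      have heq : ({v i, v j} : Finset V) = offQ v 6 Q :=
        Finset.eq_of_subset_of_card_le hsub (by rw [Finset.card_pair hij]; omega)
      have hother : ∀ x : ℤ, v x ≠ v i → v x ≠ v j → v x ∈ Q := by
        intro x h1 h2
        by_contra hx
        have := offQ_mem hc hx
        rw [← heq] at this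
        simp only [Finset.mem_insert, Finset.mem_singleton] at this
        rcases this with h' | h'
        · exact h1 h'
        · exact h2 h'
      obtain ⟨s, hs, hjs⟩ := hc.exists_window (i + 1) j
      have hper : v (i + 1 + ((5 : ℕ) : ℤ)) = v i := by
        rw [hc.eq_iff]
        have e : i + 1 + ((5 : ℕ) : ℤ) - i = ((6 : ℕ) : ℤ) := by push_cast; ring
        rw [e]
      have hjs1 : v (j + 1) = v (i + 1 + (s : ℤ) + 1) := shift_eq hc 1 hjs
      interval_cases s
      · exact hzj (by simpa [hjs] using hi)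
      · -- distance 2
        have hadj : G.Adj (v j) (v (i + 1)) := by
          rw [hjs]
          have := hc.adj (i + 1)
          have e : i + 1 + ((1 : ℕ) : ℤ) = i + 1 + 1 := by push_cast; ring
          rw [e]
          exact this.symm
        have hne : v (i + 1) ≠ v j := by
          intro he
          exact hzj (he ▸ hi)
        exact hN (close1 g hg hadj (hc.adj i).symm (hoffD _ e2 hne) (by omega))
      · -- distance 3
        refine pattern_false h ha hQ hω hc (i + 1) (pat := patE1b) rfl
          (fun Q' I w S hq' => E1b S hq') (by decide) ?_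
        intro t ht hp
        have hj2 : v j = v (i + 1 + ((2 : ℕ) : ℤ)) := hjs
        interval_cases t
        · apply hother
          · exact cyc_ne hc (by omega) (by omega)
          · rw [hj2]
            exact (cyc_ne hc (by omega) (by omega)).symm
        · apply hother
          · exact cyc_ne hc (by omega) (by omega)
          · rw [hj2]
            exact (cyc_ne hc (by omega) (by omega)).symm
        · exact absurd hp (by decide)
        · apply hother
          · exact cyc_ne hc (by omega) (by omega)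
          · rw [hj2]
            exact cyc_ne hc (by omega) (by omega)
        · apply hother
          · exact cyc_ne hc (by omega) (by omega)
          · rw [hj2]
            exact cyc_ne hc (by omega) (by omega)
        · exact absurd hp (by decide)
      · -- distance 4
        have hadj : G.Adj (v (j + 1)) (v i) := by
          have h1 : v (j + 1 + 1) = v i := by
            have := shift_eq hc 1 hjs1
            rw [this]
            rw [hc.eq_iff]
            have e : i + 1 + ((3 : ℕ) : ℤ) + 1 + 1 - i = ((6 : ℕ) : ℤ) := by push_cast; ring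
            rw [e]
          have := hc.adj (j + 1)
          rwa [h1] at this
        have hne : v (j + 1) ≠ v i := hadj.ne
        exact hN (close1 g hg (hc.adj j) hadj (hoffD _ hne e1) (by omega))
      · -- distance 5
        exfalso
        apply hzi
        have h2 : v (j + 1) = v i := by
          rw [hjs1]
          rw [hc.eq_iff]
          have e : i + 1 + ((4 : ℕ) : ℤ) + 1 - i = ((6 : ℕ) : ℤ) := by push_cast; ring
          rw [e]
        rw [← h2]
        exact hj
      · exact hij (hjs.trans hper).symm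

theorem boundaryStep_4_2 : BoundaryStep 4 2 := by
  intro V _ _ G a h ha Q hQ hqc hmax
  classical
  have h3 : 3 ≤ Q.card := by omega
  obtain ⟨u, c, hcy, hcQ, hcle, hcmax⟩ := exists_longest_cycle hQ h3 (by omega : Q.card ≤ 4 + 2)
  have hv := cycFn_of_isCycle hcy
  have hQv : ∀ a ∈ Q, ∃ t, cyc c t = a := fun a ha => exists_cyc_eq hcy (hcQ a ha)
  obtain ⟨I, hI1, hI2, hI3⟩ := exists_exit_set h (by omega) hv hcle
  have hno := h.noCycle
  obtain ⟨T, hT, hTc⟩ := CT hv hQ hQv (by rw [hqc]; exact hmax) (r := 2) (by omega) hcle (by omega)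
    (by omega) h.degree_ge h.noCycle hI1 hI2 hI3
    (by
      intro i j hi hj hij g hg hoff hlen
      rcases hlen with hl | hl | hl
      · have := (excl_q4 hv hQ hQv hqc (r := 2) (Or.inl rfl) (by omega) (by rw [hqc]; exact hno)
          (fun u' c' h1 h2 h4 => hcmax u' c' h1 h2 (by omega)) hi hj hij g hg hoff (Or.inl hl)).1
        omega
      · have := (excl_q4 hv hQ hQv hqc (r := 2) (Or.inl rfl) (by omega) (by rw [hqc]; exact hno)
          (fun u' c' h1 h2 h4 => hcmax u' c' h1 h2 (by omega)) hi hj hij g hg hoff (Or.inr hl)).1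
        omega
      · exact s4_k6 h ha hv hQ hQv hqc hmax hcle hno hi hj hij g hg hoff hl)
  have := h.noIndep T hT
  omega

/-- All boundary steps. -/
theorem boundaryStep_all : ∀ q r : ℕ, 4 ≤ q → q ≤ 7 → r + 1 ≤ q → q ≤ r + 2 → 6 ≤ q + r → BoundaryStep q r := by
  intro q r h1 h2 h3 h4 h5
  have hq : q = 4 ∨ q = 5 ∨ q = 6 ∨ q = 7 := by omega
  rcases hq with rfl | rfl | rfl | rfl
  · have hr : r = 2 ∨ r = 3 := by omega
    rcases hr with rfl | rfl
    · exact boundaryStep_4_2
    · exact boundaryStep_4_3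
  · have hr : r = 3 ∨ r = 4 := by omega
    rcases hr with rfl | rfl
    · exact boundaryStep_5_3
    · exact boundaryStep_5_4
  · have hr : r = 4 ∨ r = 5 := by omega
    rcases hr with rfl | rfl
    · exact boundaryStep_6_4
    · exact boundaryStep_6_5
  · have hr : r = 5 ∨ r = 6 := by omega
    rcases hr with rfl | rfl
    · exact boundaryStep_7_5
    · exact boundaryStep_7_6

/-- **The big clique statement.** -/
theorem bigCliqueStatement : BigCliqueStatement := bigClique_of_small boundaryStep_all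

end Crest.Agent.CycleRamsey
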