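import Mathlib

/-!
# Cycle–complete Ramsey numbers: the basic framework (row 54, S0075)

Notation: `k = m - 1`, `a = n - 1`; the statement `CR k a` says that every graph on at least
`k * a + 1` vertices has a cycle of length `k + 1` or an independent set of size `a + 1`.

Contents:
* `HasCycle`, `hasCycle_of_list`: build cycles of a given length from duplicate-free lists;
* `CR`, `frozen_of_CR`: reduction of the frozen statement to `CR`;
* `MinCE`: the structure of a minimal counterexample, `CR_of_no_minCE`;
* (H) `MinCE.card_closedNbhd`: `k * |S| + 1 ≤ |N[S]|` for independent nonempty `S`,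
  `MinCE.degree_ge`: `k ≤ deg v`.
-/

set_option autoImplicit false
set_option linter.unusedSectionVars false

open Finset

namespace Crest.Agent.Lib.CycleRamsey

/-- `G` has a cycle of length exactly `ℓ`. -/
def HasCycle {W : Type} (G : SimpleGraph W) (ℓ : ℕ) : Prop :=
  ∃ v : W, ∃ p : G.Walk v v, p.IsCycle ∧ p.length = ℓ

/-- A walk along a list with consecutive elements adjacent. -/
theorem exists_walk_of_chain {W : Type} (G : SimpleGraph W) :
    ∀ (l : List W) (x : W), (x :: l).IsChain G.Adj →
      ∃ p : G.Walk x ((x :: l).getLast (by simp)), p.support = x :: l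
  | [], x, _ => ⟨SimpleGraph.Walk.nil, by simp⟩
  | y :: l, x, h => by
      have hxy : G.Adj x y := (List.isChain_cons_cons.1 h).1
      have hrest : (y :: l).IsChain G.Adj := (List.isChain_cons_cons.1 h).2
      obtain ⟨p, hp⟩ := exists_walk_of_chain G l y hrest
      have hlast : (x :: y :: l).getLast (by simp) = (y :: l).getLast (by simp) := by
        simp
      rw [hlast]
      exact ⟨SimpleGraph.Walk.cons hxy p, by simp [hp]⟩

/-- A duplicate-free list of at least three vertices with consecutive elements adjacent
and last adjacent to first is a cycle of length `l.length`. -/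
theorem hasCycle_of_list {W : Type} (G : SimpleGraph W) (l : List W) (hne : l ≠ [])
    (hnd : l.Nodup) (hchain : l.IsChain G.Adj)
    (hclose : G.Adj (l.getLast hne) (l.head hne)) (hlen : 3 ≤ l.length) :
    HasCycle G l.length := by
  cases l with
  | nil => exact absurd rfl hne
  | cons x l =>
    obtain ⟨p, hp⟩ := exists_walk_of_chain G l x hchain
    have hpath : p.IsPath := by
      rw [SimpleGraph.Walk.isPath_def, hp]; exact hnd
    simp only [List.head_cons] at hclose
    have hplen : p.length + 1 = (x :: l).length := by
      rw [← SimpleGraph.Walk.length_support, hp]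
    refine ⟨(x :: l).getLast (by simp), SimpleGraph.Walk.cons hclose p, ?_, ?_⟩
    · rw [SimpleGraph.Walk.isCycle_iff_isPath_tail_and_le_length]
      constructor
      · simpa using hpath
      · simp only [SimpleGraph.Walk.length_cons]; omega
    · simp only [SimpleGraph.Walk.length_cons]; omega

/-- Transport of a cycle along a graph homomorphism which is injective. -/
theorem HasCycle.map {W W' : Type} {G : SimpleGraph W} {G' : SimpleGraph W'} (f : G →g G')
    (hf : Function.Injective f) {ℓ : ℕ} (h : HasCycle G ℓ) : HasCycle G' ℓ := by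
  obtain ⟨v, p, hp, hl⟩ := h
  exact ⟨f v, p.map f, (SimpleGraph.Walk.isCycle_map_iff_of_injective hf).2 hp, by simpa using hl⟩

/-- Monotonicity in the graph. -/
theorem HasCycle.mono {W : Type} {G G' : SimpleGraph W} (hle : G ≤ G') {ℓ : ℕ}
    (h : HasCycle G ℓ) : HasCycle G' ℓ :=
  h.map (SimpleGraph.Hom.ofLE hle) (fun _ _ h => h)

/-- A cycle in an induced subgraph (on a subtype) is a cycle in the graph. -/
theorem HasCycle.of_induce {W : Type} {G : SimpleGraph W} {s : Set W} {ℓ : ℕ}
    (h : HasCycle (G.induce s) ℓ) : HasCycle G ℓ :=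
  h.map (SimpleGraph.Embedding.induce (G := G) s).toHom
    (SimpleGraph.Embedding.induce (G := G) s).injective

/-- The Ramsey statement for the pair `(k, a)`: every graph on at least `k * a + 1` vertices
has a cycle of length `k + 1` or an independent set with `a + 1` elements. -/
def CR (k a : ℕ) : Prop :=
  ∀ (V : Type) [Fintype V] [DecidableEq V] (G : SimpleGraph V),
    k * a + 1 ≤ Fintype.card V →
      HasCycle G (k + 1) ∨ ∃ s : Finset V, G.IsIndepSet s ∧ s.card = a + 1

/-- The frozen statement follows from `CR (m - 1) (n - 1)`. -/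
theorem frozen_of_CR (m n : ℕ) (hn : 3 ≤ n) (hnm : n ≤ m) (hCR : CR (m - 1) (n - 1))
    (V : Type) [Fintype V] [DecidableEq V]
    (hV : Fintype.card V = (m - 1) * (n - 1) + 1) (G : SimpleGraph V) :
    (∃ v : V, ∃ p : G.Walk v v, p.IsCycle ∧ p.length = m) ∨
      (∃ s : Finset V, Gᶜ.IsNClique n s) := by
  rcases hCR V G hV.ge with h | ⟨s, hs, hc⟩
  · left
    obtain ⟨v, p, hp, hl⟩ := h
    exact ⟨v, p, hp, by omega⟩
  · right
    refine ⟨s, ?_⟩
    rw [SimpleGraph.isNClique_compl]
    exact ⟨hs, by omega⟩

/-- Independent sets in the induced subgraph give independent sets in the ambient graph. -/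
theorem isIndepSet_map_of_induce {V : Type} (G : SimpleGraph V) (F : Set V)
    (s : Finset F) (hs : (G.induce F).IsIndepSet s) :
    G.IsIndepSet (s.map (Function.Embedding.subtype _) : Finset V) := by
  intro x hx y hy hxy hadj
  simp only [coe_map, Function.Embedding.subtype_apply, Set.mem_image, SetLike.mem_coe] at hx hy
  obtain ⟨x', hx', rfl⟩ := hx
  obtain ⟨y', hy', rfl⟩ := hy
  refine hs hx' hy' ?_ ?_
  · intro h; exact hxy (by rw [h])
  · simpa using hadj

section Min

variable {V : Type} [Fintype V] [DecidableEq V]

/-- A minimal counterexample to `CR` with parameters `(k, a)`.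

* `V` has exactly `k * a + 1` vertices;
* no cycle of length `k + 1`;
* no independent set of size `a + 1`;
* every proper subset `F` of `V` contains an independent set `s` with `|F| ≤ k * |s|`. -/
structure MinCE (k a : ℕ) (G : SimpleGraph V) : Prop where
  card : Fintype.card V = k * a + 1
  noCycle : ¬ HasCycle G (k + 1)
  noIndep : ∀ s : Finset V, G.IsIndepSet s → s.card ≤ a
  proper : ∀ F : Finset V, F ≠ univ → ∃ s ⊆ F, G.IsIndepSet s ∧ F.card ≤ k * s.card

/-- Main reduction: `CR k b` on a subset of the vertex set. -/
theorem exists_indep_of_CR {k b : ℕ} (h : CR k b) (G : SimpleGraph V) (F : Finset V)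
    (hF : k * b + 1 ≤ F.card) :
    HasCycle G (k + 1) ∨ ∃ s ⊆ F, G.IsIndepSet s ∧ s.card = b + 1 := by
  classical
  have hcard : Fintype.card (F : Set V) = F.card := by simp
  rcases h (F : Set V) (G.induce (F : Set V)) (by rw [hcard]; exact hF) with hc | ⟨s, hs, hsc⟩
  · exact Or.inl hc.of_induce
  · refine Or.inr ⟨s.map (Function.Embedding.subtype _), ?_, isIndepSet_map_of_induce G _ s hs, ?_⟩
    · intro x hx
      simp only [mem_map, Function.Embedding.subtype_apply] at hx
      obtain ⟨x', _, rfl⟩ := hx
      exact_mod_cast x'.2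
    · simpa using hsc

/-- A complete graph on at least `k + 1 ≥ 3` vertices has a cycle of length `k+1`. -/
theorem hasCycle_of_no_indep_pair {k : ℕ} (hk : 2 ≤ k) (G : SimpleGraph V)
    (hcard : k + 1 ≤ Fintype.card V) (h : ∀ x y : V, x ≠ y → G.Adj x y) :
    HasCycle G (k + 1) := by
  classical
  obtain ⟨s, hs⟩ := Finset.exists_subset_card_eq (s := (univ : Finset V)) (n := k + 1)
    (by simpa using hcard)
  have hl : s.toList.length = k + 1 := by rw [s.length_toList]; exact hs.2
  have hnd : s.toList.Nodup := s.nodup_toList
  have hne : s.toList ≠ [] := by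
    intro h0; rw [h0] at hl; simp at hl
  have hchain : s.toList.IsChain G.Adj := by
    apply List.Pairwise.isChain
    exact hnd.imp_of_mem (fun _ _ hab => h _ _ hab)
  have hclose : G.Adj (s.toList.getLast hne) (s.toList.head hne) := by
    apply h
    intro heq
    rw [List.head_eq_getElem hne, List.getLast_eq_getElem hne] at heq
    have := (List.Nodup.getElem_inj_iff hnd).1 heq
    omega
  have := hasCycle_of_list G _ hne hnd hchain hclose (by omega)
  rwa [hl] at this

/-- Maximum independent subset of a finset. -/
theorem exists_max_indep (G : SimpleGraph V) (F : Finset V) :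
    ∃ s ⊆ F, G.IsIndepSet s ∧ ∀ t ⊆ F, G.IsIndepSet t → t.card ≤ s.card := by
  classical
  have hne : (F.powerset.filter (fun t : Finset V => G.IsIndepSet (t : Set V))).Nonempty :=
    ⟨∅, by simp [SimpleGraph.IsIndepSet]⟩
  obtain ⟨s, hs, hmax⟩ := Finset.exists_max_image _ Finset.card hne
  simp only [mem_filter, mem_powerset] at hs hmax
  exact ⟨s, hs.1, hs.2, fun t ht hti => hmax t ⟨ht, hti⟩⟩

/-- The induction frame: `CR k a` follows from the non-existence of minimal counterexamples
with parameters `(k, b)`, `b ≤ a`. -/
theorem CR_of_no_minCE (k : ℕ) (a : ℕ)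
    (h : ∀ b ≤ a, ∀ (V : Type) [Fintype V] [DecidableEq V] (G : SimpleGraph V), ¬ MinCE k b G) :
    CR k a := by
  classical
  induction a using Nat.strong_induction_on with
  | _ a ih =>
    have hlt : ∀ b < a, CR k b := fun b hb =>
      ih b hb (fun c hc => h c (by omega))
    intro V _ _ G hcard
    by_contra hcon
    push Not at hcon
    obtain ⟨hcyc, hind⟩ := hcon
    -- pick a subset with exactly `k * a + 1` elements
    obtain ⟨F0, -, hF0⟩ := Finset.exists_subset_card_eq (s := (univ : Finset V)) (n := k * a + 1)
      (by simpa using hcard)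
    have hnoIndep : ∀ s : Finset V, G.IsIndepSet s → s.card ≤ a := by
      intro s hs
      by_contra hgt
      obtain ⟨t, hts, htc⟩ := Finset.exists_subset_card_eq (s := s) (n := a + 1) (by omega)
      exact hind t (hs.mono (by exact_mod_cast hts)) htc
    have hsmall : ∀ F : Finset V, F.card < F0.card → ∃ s ⊆ F, G.IsIndepSet s ∧ F.card ≤ k * s.card := by
      intro F hF
      obtain ⟨s, hsF, hsi, hmax⟩ := exists_max_indep G F
      refine ⟨s, hsF, hsi, ?_⟩
      by_cases hsa : s.card < a
      · by_contra hgt
        rcases exists_indep_of_CR (hlt _ hsa) G F (by omega) with hc | ⟨t, htF, hti, htc⟩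
        · exact hcyc hc
        · have := hmax t htF hti; omega
      · have : s.card = a := le_antisymm (hnoIndep s hsi) (by omega)
        rw [this]; omega
    refine h a le_rfl F0 (G.induce (F0 : Set V)) ⟨?_, ?_, ?_, ?_⟩
    · simpa using hF0
    · exact fun hc => hcyc hc.of_induce
    · intro s hs
      have := hnoIndep _ (isIndepSet_map_of_induce G _ s hs)
      simpa using this
    · intro F hF
      have hlt' : (F.map (Function.Embedding.subtype _)).card < F0.card := by
        rw [Finset.card_map]
        have h1 : F.card < Fintype.card (F0 : Set V) := Finset.card_lt_iff_ne_univ _ |>.2 hF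
        simpa using h1
      obtain ⟨s, hsF, hsi, hsc⟩ := hsmall _ hlt'
      refine ⟨F.filter (fun x : (F0 : Set V) => (x : V) ∈ s), Finset.filter_subset _ _, ?_, ?_⟩
      · intro x hx y hy hxy hadj
        simp only [coe_filter, Set.mem_ofPred_eq] at hx hy
        have hxy' : (x : V) ≠ y := fun he => hxy (Subtype.ext he)
        exact hsi hx.2 hy.2 hxy' (by simpa using hadj)
      · rw [Finset.card_map] at hsc
        have hcard2 : (F.filter (fun x : (F0 : Set V) => (x : V) ∈ s)).card = s.card := by
          have : (F.filter (fun x : (F0 : Set V) => (x : V) ∈ s)).map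
              (Function.Embedding.subtype _) = s := by
            ext y
            simp only [mem_map, mem_filter, Function.Embedding.subtype_apply]
            constructor
            · rintro ⟨x, ⟨_, hx⟩, rfl⟩; exact hx
            · intro hy
              have := hsF hy
              simp only [mem_map, Function.Embedding.subtype_apply] at this
              obtain ⟨x, hx, rfl⟩ := this
              exact ⟨x, ⟨hx, hy⟩, rfl⟩
          rw [← Finset.card_map (Function.Embedding.subtype _), this]
        rw [hcard2]; exact hsc

/-- A minimal counterexample has `a ≠ 0`. -/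
theorem MinCE.a_ne_zero {k a : ℕ} {G : SimpleGraph V} (h : MinCE k a G) : a ≠ 0 := by
  intro ha
  have hc := h.card
  rw [ha] at hc
  have : Nonempty V := Fintype.card_pos_iff.1 (by omega)
  obtain ⟨x⟩ := this
  have := h.noIndep {x} (by simp [SimpleGraph.IsIndepSet])
  simp [ha] at this

/-- A minimal counterexample has `a ≠ 1` when `k ≥ 2`. -/
theorem MinCE.a_ne_one {k a : ℕ} (hk : 2 ≤ k) {G : SimpleGraph V} (h : MinCE k a G) : a ≠ 1 := by
  intro ha
  apply h.noCycle
  apply hasCycle_of_no_indep_pair hk G (by rw [h.card, ha]; omega)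
  intro x y hxy
  by_contra hadj
  have hind : G.IsIndepSet (({x, y} : Finset V) : Set V) := by
    intro u hu w hw huw
    simp only [coe_insert, coe_singleton, Set.mem_insert_iff, Set.mem_singleton_iff] at hu hw
    rcases hu with rfl | rfl <;> rcases hw with rfl | rfl
    · exact absurd rfl huw
    · exact hadj
    · exact fun h => hadj h.symm
    · exact absurd rfl huw
  have := h.noIndep _ hind
  rw [Finset.card_pair hxy, ha] at this
  omega

/-- The open neighbourhood as a finset. -/
noncomputable def nbrs (G : SimpleGraph V) (v : V) : Finset V := by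
  classical exact univ.filter (fun x => G.Adj v x)

omit [DecidableEq V] in
@[simp] theorem mem_nbrs {G : SimpleGraph V} {v x : V} : x ∈ nbrs G v ↔ G.Adj v x := by
  classical
  simp [nbrs]

/-- The closed neighbourhood `N[S]` of a finset. -/
noncomputable def closedNbhd (G : SimpleGraph V) (S : Finset V) : Finset V := by
  classical exact univ.filter (fun x => x ∈ S ∨ ∃ y ∈ S, G.Adj y x)

@[simp] theorem mem_closedNbhd {G : SimpleGraph V} {S : Finset V} {x : V} :
    x ∈ closedNbhd G S ↔ x ∈ S ∨ ∃ y ∈ S, G.Adj y x := by
  classical
  unfold closedNbhd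
  simp

/-- Property (H): in a minimal counterexample, every nonempty independent set `S` satisfies
`|N[S]| ≥ k * |S| + 1`. -/
theorem MinCE.card_closedNbhd {k a : ℕ} {G : SimpleGraph V} (h : MinCE k a G) {S : Finset V}
    (hS : G.IsIndepSet S) (hne : S.Nonempty) :
    k * S.card + 1 ≤ (closedNbhd G S).card := by
  classical
  set F : Finset V := univ \ closedNbhd G S with hF
  have hFne : F ≠ univ := by
    obtain ⟨x, hx⟩ := hne
    intro he
    have : x ∈ F := by rw [he]; exact mem_univ _
    rw [hF, mem_sdiff] at this
    exact this.2 (mem_closedNbhd.2 (Or.inl hx))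
  obtain ⟨s, hsF, hsi, hsc⟩ := h.proper F hFne
  have hdisj : Disjoint S s := by
    rw [Finset.disjoint_left]
    intro x hx hxs
    have := hsF hxs
    rw [hF, mem_sdiff] at this
    exact this.2 (mem_closedNbhd.2 (Or.inl hx))
  have hunion : G.IsIndepSet ((S ∪ s : Finset V) : Set V) := by
    intro x hx y hy hxy hadj
    simp only [coe_union, Set.mem_union, Finset.mem_coe] at hx hy
    have hanti : ∀ x ∈ S, ∀ y ∈ s, ¬ G.Adj x y := by
      intro x hx y hy hadj
      have := hsF hy
      rw [hF, mem_sdiff] at this
      exact this.2 (mem_closedNbhd.2 (Or.inr ⟨x, hx, hadj⟩))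
    rcases hx with hx | hx <;> rcases hy with hy | hy
    · exact hS hx hy hxy hadj
    · exact hanti x hx y hy hadj
    · exact hanti y hy x hx hadj.symm
    · exact hsi hx hy hxy hadj
  have hle := h.noIndep _ hunion
  rw [Finset.card_union_of_disjoint hdisj] at hle
  have hcardF : F.card + (closedNbhd G S).card = k * a + 1 := by
    rw [hF, ← h.card, ← Finset.card_univ]
    exact Finset.card_sdiff_add_card_eq_card (subset_univ _)
  have : k * (S.card + s.card) ≤ k * a := Nat.mul_le_mul_left _ hle
  rw [Nat.mul_add] at this
  omega

/-- Minimum degree in a minimal counterexample: `deg v ≥ k`. -/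
theorem MinCE.degree_ge {k a : ℕ} {G : SimpleGraph V} (h : MinCE k a G) (v : V) :
    k ≤ (nbrs G v).card := by
  classical
  have hH := h.card_closedNbhd (S := {v}) (by simp [SimpleGraph.IsIndepSet]) (by simp)
  have hsub : closedNbhd G {v} ⊆ insert v (nbrs G v) := by
    intro x hx
    simp only [mem_closedNbhd, mem_singleton, exists_eq_left] at hx
    rcases hx with rfl | hx
    · exact mem_insert_self _ _
    · exact mem_insert_of_mem (mem_nbrs.2 hx)
  have := Finset.card_le_card hsub
  have h2 := Finset.card_insert_le v (nbrs G v)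
  simp at hH
  omega

end Min

end Crest.Agent.Lib.CycleRamsey
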