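import Crest.Agent.Lib.CycleRamsey.BCExc
import Crest.Agent.Lib.CycleRamsey.Basic

/-!
# Bridge from a minimal counterexample with an explicit cycle to `ExcSetup` (helper31, row 54)
-/

set_option autoImplicit false
set_option linter.unusedSectionVars false
set_option linter.unusedVariables false

namespace Crest.Agent.CycleRamsey

open SimpleGraph
open Crest.Agent.Lib.CycleRamsey (HasCycle nbrs mem_nbrs MinCE)

variable {V : Type} [Fintype V] [DecidableEq V] {G : SimpleGraph V}

/-- The periodic extension of a function on `Fin k`. -/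
def perExt {k : ℕ} (hk : 0 < k) (c : Fin k → V) (i : ℤ) : V :=
  c ⟨(i % (k : ℤ)).toNat, by
    have h1 := Int.emod_nonneg i (by omega : (k : ℤ) ≠ 0)
    have h2 := Int.emod_lt_of_pos i (by omega : (0 : ℤ) < k)
    omega⟩

theorem perExt_natCast {k : ℕ} (hk : 0 < k) (c : Fin k → V) {i : ℕ} (hi : i < k) :
    perExt hk c (i : ℤ) = c ⟨i, hi⟩ := by
  unfold perExt
  congr 1
  apply Fin.ext
  simp only
  rw [Int.emod_eq_of_lt (by omega) (by omega)]
  simp

/-- From an injective map with the adjacencies of the pattern, to a `PatCyc`. -/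
theorem patCyc_of_fin {k : ℕ} (hk : 3 ≤ k) {pat : List Bool} (hpat : pat.length = k)
    (c : Fin k → V) (hc : Function.Injective c)
    (hadj : ∀ i j : Fin k, i ≠ j → stepOK pat k i j = true → G.Adj (c i) (c j)) :
    PatCyc G ((Finset.univ.filter (fun i : Fin k => patAt pat i = true)).image c) pat k
      (perExt (by omega) c) := by
  have hk0 : 0 < k := by omega
  have hidx : ∀ i : ℤ, ∃ t : Fin k, perExt hk0 c i = c t ∧ ((t : ℕ) : ℤ) = i % (k : ℤ) := by
    intro i
    have h1 := Int.emod_nonneg i (by omega : (k : ℤ) ≠ 0)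
    refine ⟨⟨(i % (k : ℤ)).toNat, ?_⟩, rfl, ?_⟩
    · have h2 := Int.emod_lt_of_pos i (by omega : (0 : ℤ) < k)
      omega
    · simp only
      omega
  refine ⟨⟨?_, ?_, hk⟩, ?_, ?_⟩
  · intro i j
    constructor
    · intro h
      obtain ⟨t, ht, ht'⟩ := hidx i
      obtain ⟨t2, ht2, ht2'⟩ := hidx j
      rw [ht, ht2] at h
      have := hc h
      subst this
      have h3 : i % (k : ℤ) = j % (k : ℤ) := by rw [← ht', ← ht2']
      have := Int.ModEq.dvd (Int.ModEq.symm h3)
      simpa using this
    · intro h
      have h2 : i % (k : ℤ) = j % (k : ℤ) :=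
        Int.emod_eq_emod_iff_emod_sub_eq_zero.2 (Int.emod_eq_zero_of_dvd h)
      obtain ⟨t, ht, ht'⟩ := hidx i
      obtain ⟨t2, ht2, ht2'⟩ := hidx j
      rw [ht, ht2]
      congr 1
      apply Fin.ext
      have : ((t : ℕ) : ℤ) = ((t2 : ℕ) : ℤ) := by rw [ht', ht2', h2]
      exact_mod_cast this
  · intro i
    obtain ⟨t, ht, ht'⟩ := hidx i
    obtain ⟨t2, ht2, ht2'⟩ := hidx (i + 1)
    rw [ht, ht2]
    have hq := Int.emod_add_mul_ediv i (k : ℤ)
    have h3 : (i + 1) % (k : ℤ) = (((t : ℕ) : ℤ) + 1) % (k : ℤ) := by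
      apply Int.emod_eq_emod_iff_emod_sub_eq_zero.2
      apply Int.emod_eq_zero_of_dvd
      rw [ht']
      exact ⟨i / (k : ℤ), by linarith⟩
    have h4 : (t2 : ℕ) = ((t : ℕ) + 1) % k := by
      have : (((t : ℕ) + 1 : ℕ) : ℤ) % (k : ℤ) = ((((t : ℕ) + 1) % k : ℕ) : ℤ) := by
        push_cast
        rfl
      have h5 : ((t2 : ℕ) : ℤ) = (((t : ℕ) + 1) % k : ℕ) := by
        rw [ht2', h3, ← this]
        push_cast
        rfl
      exact_mod_cast h5
    have hne : t ≠ t2 := by
      intro he
      subst he
      have ht1 := t.2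
      by_cases h6 : (t : ℕ) + 1 < k
      · rw [Nat.mod_eq_of_lt h6] at h4
        omega
      · have h7 : (t : ℕ) + 1 = k := by omega
        rw [h7, Nat.mod_self] at h4
        omega
    apply hadj t t2 hne
    simp [stepOK, h4]
  · intro x hx y hy hxy
    simp only [Finset.mem_image, Finset.mem_filter, Finset.mem_univ, true_and] at hx hy
    obtain ⟨i, hi, rfl⟩ := hx
    obtain ⟨j, hj, rfl⟩ := hy
    have hne : i ≠ j := fun he => hxy (by rw [he])
    apply hadj i j hne
    simp [stepOK, hi, hj]
  · intro i hi
    by_cases hlt : i < k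
    · rw [perExt_natCast hk0 c hlt]
      simp only [Finset.mem_image, Finset.mem_filter, Finset.mem_univ, true_and]
      exact ⟨⟨i, hlt⟩, hi, rfl⟩
    · exfalso
      have : patAt pat i = false := by
        unfold patAt
        rw [List.getD_eq_default]
        omega
      rw [this] at hi
      exact absurd hi (by simp)

/-- From a minimal counterexample with an explicit cycle pattern to `ExcSetup`. -/
theorem exists_excSetup {k a q : ℕ} (h : MinCE k a G) (hk : 3 ≤ k) {pat : List Bool}
    (hpat : pat.length = k) (c : Fin k → V) (hc : Function.Injective c)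
    (hadj : ∀ i j : Fin k, i ≠ j → stepOK pat k i j = true → G.Adj (c i) (c j))
    (hqc : (Finset.univ.filter (fun i : Fin k => patAt pat i = true)).card = q)
    (hω : ∀ K : Finset V, (∀ x ∈ K, ∀ y ∈ K, x ≠ y → G.Adj x y) → K.card ≤ q) :
    ∃ (Q I : Finset V), ExcSetup G Q pat k (perExt (by omega) c) I ∧ Q.card = q := by
  classical
  have hk0 : 0 < k := by omega
  have hpc := patCyc_of_fin (G := G) hk hpat c hc hadj
  set Q := (Finset.univ.filter (fun i : Fin k => patAt pat i = true)).image c with hQ
  have hQc : Q.card = q := by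
    rw [hQ, Finset.card_image_of_injective _ hc, hqc]
  set D : Finset V := Finset.univ.image c with hD
  have hDc : D.card = k := by
    rw [hD, Finset.card_image_of_injective _ hc]
    simp
  set F : Finset V := Finset.univ \ D with hF
  have hFc : F.card + k = k * a + 1 := by
    have h1 := Finset.card_sdiff_add_card_eq_card (Finset.subset_univ D)
    rw [Finset.card_univ, h.card, hDc] at h1
    exact h1
  have hFne : F ≠ Finset.univ := by
    intro he
    have hx : c ⟨0, hk0⟩ ∈ F := by rw [he]; exact Finset.mem_univ _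
    rw [hF, Finset.mem_sdiff] at hx
    exact hx.2 (Finset.mem_image_of_mem _ (Finset.mem_univ _))
  obtain ⟨s, hsF, hsi, hsc⟩ := h.proper F hFne
  have hsa := h.noIndep s hsi
  have hsa' : a ≤ s.card := by
    by_contra hlt
    have h1 : s.card + 1 ≤ a := by omega
    have h2 : k * (s.card + 1) ≤ k * a := Nat.mul_le_mul_left _ h1
    rw [Nat.mul_add] at h2
    omega
  have hvD : ∀ i : ℤ, perExt hk0 c i ∈ D := by
    intro i
    exact Finset.mem_image_of_mem _ (Finset.mem_univ _)
  refine ⟨Q, s, ⟨hpc, h.noCycle, h.degree_ge, ?_, ?_, ?_, ?_⟩, hQc⟩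
  · intro K hK
    rw [hQc]
    exact hω K hK
  · intro x hx y hy hxy
    exact hsi hx hy hxy
  · intro x hx i he
    have := hsF hx
    rw [hF, Finset.mem_sdiff] at this
    exact this.2 (he ▸ hvD i)
  · intro i
    by_contra hcon
    push Not at hcon
    set x := perExt hk0 c i with hx
    have hxs : x ∉ s := by
      intro hxs
      have := hsF hxs
      rw [hF, Finset.mem_sdiff] at this
      exact this.2 (hvD i)
    have hind : G.IsIndepSet ((insert x s : Finset V) : Set V) := by
      intro y hy z hz hyz
      simp only [Finset.coe_insert, Set.mem_insert_iff, Finset.mem_coe] at hy hz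
      rcases hy with rfl | hy <;> rcases hz with rfl | hz
      · exact absurd rfl hyz
      · exact hcon z hz
      · exact fun hadj' => hcon y hy hadj'.symm
      · exact hsi hy hz hyz
    have := h.noIndep _ hind
    rw [Finset.card_insert_of_notMem hxs] at this
    omega

/-- An independent set on `k + 1` vertices contradicts a minimal counterexample with `a ≤ k`. -/
theorem MinCE.false_of_indep {k a : ℕ} (h : MinCE k a G) (ha : a ≤ k) {T : Finset V}
    (hT : Indep G T) (hc : k + 1 ≤ T.card) : False := by
  have : G.IsIndepSet (T : Set V) := fun x hx y hy hxy => hT x hx y hy hxy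
  have := h.noIndep T this
  omega

end Crest.Agent.CycleRamsey
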