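import Crest.Agent.Lib.CycleRamsey.BCExc

/-!
# The long ear cases of the big clique lemma (row 54, S0075; helper52)

A cycle through the maximum clique `Q` of length `k = q + r` consisting of `Q` (positions
`0, ..., q - 1`) and one ear (positions `q, ..., k - 1`).  Homes: the positions `1, ..., q`.

* `Link`, `NoLink`: paths off the cycle between two vertices;
* clean lemmas for the pieces `Aof (v z)` (type X) and `Aof (u z)` (type A);
* `ExcSetup.hot`: a free vertex with a short link has two nonadjacent neighbours off the cycle;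
* `ExcSetup.longEar`: the count, from a table checked by `decide`.
-/

set_option autoImplicit false
set_option linter.unusedSectionVars false
set_option linter.unusedVariables false

namespace Crest.Agent.CycleRamsey

open SimpleGraph
open Crest.Agent.Lib.CycleRamsey (HasCycle hasCycle_of_list nbrs mem_nbrs)

variable {V : Type} [DecidableEq V] {G : SimpleGraph V}

/-! ### Depth first search for index paths -/

/-- Depth first search for an index path from `cur` to `j` with exactly `t` positions. -/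
def dfs (pat : List Bool) (L j : ℕ) : ℕ → ℕ → ℕ → List ℕ → Option (List ℕ)
  | 0, _, _, _ => none
  | fuel + 1, cur, t, vis =>
    if t == 1 then (if cur == j then some [cur] else none)
    else if cur == j then none
    else (List.range L).findSome? (fun n =>
      if !(vis.contains n) && stepOK pat L cur n then
        (dfs pat L j fuel n (t - 1) (n :: vis)).map (cur :: ·)
      else none)

/-- Checked search. -/
def pchk (pat : List Bool) (L i j t : ℕ) : Bool :=
  match dfs pat L j (t + 1) i t [i] with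
  | some l => chk pat L i j t l
  | none => false

theorem idxPath_of_pchk {pat : List Bool} {L i j t : ℕ} (h : pchk pat L i j t = true) :
    IdxPath pat L i j t := by
  unfold pchk at h
  split at h
  · exact ⟨_, h⟩
  · exact absurd h (by simp)

/-- An index path from `i` to `j` with `t` positions avoiding the position `p`. -/
def IdxPathA (pat : List Bool) (L i j t p : ℕ) : Prop := ∃ l, chk pat L i j t l = true ∧ p ∉ l

/-- Checked search avoiding a position. -/
def pchkA (pat : List Bool) (L i j t p : ℕ) : Bool :=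
  match dfs pat L j (t + 1) i t [p, i] with
  | some l => chk pat L i j t l && !(l.contains p)
  | none => false

theorem idxPathA_of_pchkA {pat : List Bool} {L i j t p : ℕ} (h : pchkA pat L i j t p = true) :
    IdxPathA pat L i j t p := by
  unfold pchkA at h
  split at h
  · simp only [Bool.and_eq_true, Bool.not_eq_true', List.contains_eq_mem, decide_eq_false_iff_not]
      at h
    exact ⟨_, h.1, h.2⟩
  · exact absurd h (by simp)

/-! ### Links -/

/-- A path from `a` to `b` with interior `X` off the cycle. -/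
structure Link (G : SimpleGraph V) (v : ℤ → V) (a b : V) (X : List V) : Prop where
  nd : X.Nodup
  off : ∀ x ∈ X, ∀ i : ℤ, v i ≠ x
  chain : (a :: (X ++ [b])).IsChain G.Adj

/-- There is no link with exactly `s` interior vertices. -/
def NoLink (G : SimpleGraph V) (v : ℤ → V) (a b : V) (s : ℕ) : Prop :=
  ∀ X, Link G v a b X → X.length = s → False

theorem Link.reverse {v : ℤ → V} {a b : V} {X : List V} (h : Link G v a b X) :
    Link G v b a X.reverse := by
  refine ⟨List.nodup_reverse.2 h.nd, fun x hx => h.off x (List.mem_reverse.1 hx), ?_⟩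
  have h1 := h.chain
  have h2 : (a :: (X ++ [b])).reverse = b :: (X.reverse ++ [a]) := by simp
  have h3 : (a :: (X ++ [b])).reverse.IsChain G.Adj := by
    rw [List.isChain_reverse]
    have : (fun a b => G.Adj b a) = G.Adj := by
      funext x y
      simp [G.adj_comm]
    rw [this]
    exact h1
  rwa [h2] at h3

theorem NoLink.symm {v : ℤ → V} {a b : V} {s : ℕ} (h : NoLink G v a b s) : NoLink G v b a s :=
  fun X hX hs => h X.reverse hX.reverse (by simpa using hs)

theorem link_one {v : ℤ → V} {a b x : V} (hx : ∀ i : ℤ, v i ≠ x) (h1 : G.Adj a x) (h2 : G.Adj x b) :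
    Link G v a b [x] :=
  ⟨by simp, by simpa using hx, by simp [List.isChain_cons_cons, h1, h2]⟩

theorem link_two {v : ℤ → V} {a b x y : V} (hx : ∀ i : ℤ, v i ≠ x) (hy : ∀ i : ℤ, v i ≠ y)
    (h1 : G.Adj a x) (h2 : G.Adj x y) (h3 : G.Adj y b) : Link G v a b [x, y] := by
  refine ⟨by simp [h2.ne], ?_, by simp [List.isChain_cons_cons, h1, h2, h3]⟩
  intro z hz
  simp only [List.mem_cons, List.not_mem_nil, or_false] at hz
  rcases hz with rfl | rfl
  · exact hx
  · exact hy

theorem link_three {v : ℤ → V} {a b x y z : V} (hx : ∀ i : ℤ, v i ≠ x) (hy : ∀ i : ℤ, v i ≠ y)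
    (hz : ∀ i : ℤ, v i ≠ z) (hxz : x ≠ z)
    (h1 : G.Adj a x) (h2 : G.Adj x y) (h3 : G.Adj y z) (h4 : G.Adj z b) : Link G v a b [x, y, z] := by
  refine ⟨by simp [h2.ne, h3.ne, hxz], ?_, by simp [List.isChain_cons_cons, h1, h2, h3, h4]⟩
  intro w hw
  simp only [List.mem_cons, List.not_mem_nil, or_false] at hw
  rcases hw with rfl | rfl | rfl
  · exact hx
  · exact hy
  · exact hz

theorem link_four {v : ℤ → V} {a b x y z w : V} (hx : ∀ i : ℤ, v i ≠ x) (hy : ∀ i : ℤ, v i ≠ y)
    (hz : ∀ i : ℤ, v i ≠ z) (hw : ∀ i : ℤ, v i ≠ w) (hxz : x ≠ z) (hxw : x ≠ w) (hyw : y ≠ w)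
    (h1 : G.Adj a x) (h2 : G.Adj x y) (h3 : G.Adj y z) (h4 : G.Adj z w) (h5 : G.Adj w b) :
    Link G v a b [x, y, z, w] := by
  refine ⟨by simp [h2.ne, h3.ne, h4.ne, hxz, hxw, hyw], ?_,
    by simp [List.isChain_cons_cons, h1, h2, h3, h4, h5]⟩
  intro t ht
  simp only [List.mem_cons, List.not_mem_nil, or_false] at ht
  rcases ht with rfl | rfl | rfl | rfl
  · exact hx
  · exact hy
  · exact hz
  · exact hw

section Clean

variable [Fintype V] {v : ℤ → V}

/-- Type X against type X. -/
theorem clean_XX {a b : V} (h1 : NoLink G v a b 1) (h2 : NoLink G v a b 2) :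
    Clean G (Aof G v a) (Aof G v b) := by
  constructor
  · intro x hx hx'
    rw [mem_Aof] at hx hx'
    exact h1 [x] (link_one hx.2 hx.1 hx'.1.symm) rfl
  · intro x hx y hy hxy
    rw [mem_Aof] at hx hy
    exact h2 [x, y] (link_two hx.2 hy.2 hx.1 hxy hy.1.symm) rfl

/-- Type X against type A. -/
theorem clean_XA {a b u : V} (hoff : ∀ i : ℤ, v i ≠ u) (hbu : G.Adj b u)
    (h1 : NoLink G v a b 1) (h2 : NoLink G v a b 2) (h3 : NoLink G v a b 3) :
    Clean G (Aof G v a) (Aof G v u) := by
  constructor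
  · intro x hx hx'
    rw [mem_Aof] at hx hx'
    exact h2 [x, u] (link_two hx.2 hoff hx.1 hx'.1.symm hbu.symm) rfl
  · intro x hx y hy hxy
    rw [mem_Aof] at hx hy
    by_cases hxu : x = u
    · subst hxu
      exact h1 [x] (link_one hx.2 hx.1 hbu.symm) rfl
    · exact h3 [x, y, u] (link_three hx.2 hy.2 hoff hxu hx.1 hxy hy.1.symm hbu.symm) rfl

/-- Type A against type A. -/
theorem clean_AA {a b u u' : V} (hoff : ∀ i : ℤ, v i ≠ u) (hoff' : ∀ i : ℤ, v i ≠ u')
    (hau : G.Adj a u) (hbu : G.Adj b u') (hne : u ≠ u') (hna : ¬ G.Adj u u')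
    (h3 : NoLink G v a b 3) (h4 : NoLink G v a b 4) :
    Clean G (Aof G v u) (Aof G v u') := by
  constructor
  · intro x hx hx'
    rw [mem_Aof] at hx hx'
    exact h3 [u, x, u'] (link_three hoff hx.2 hoff' hne hau hx.1 hx'.1.symm hbu.symm) rfl
  · intro x hx y hy hxy
    rw [mem_Aof] at hx hy
    have hxu' : x ≠ u' := by
      rintro rfl
      exact hna hx.1
    have hyu : u ≠ y := by
      rintro rfl
      exact hna hy.1.symm
    exact h4 [u, x, y, u'] (link_four hoff hx.2 hy.2 hoff' hyu hne hxu' hau hx.1 hxy hy.1.symm hbu.symm) rfl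

/-- Pairwise clean families of pieces. -/
theorem AG_biUnion (s : Finset ℕ) (F : ℕ → Finset V) (m : ℕ) (h : ∀ z ∈ s, AG G (F z) m)
    (hc : ∀ z ∈ s, ∀ z' ∈ s, z ≠ z' → Clean G (F z) (F z')) :
    AG G (s.biUnion F) (s.card * m) := by
  induction s using Finset.induction_on with
  | empty => simpa using AG.zero (G := G) (∅ : Finset V)
  | insert a s ha ih =>
    rw [Finset.biUnion_insert, Finset.card_insert_of_notMem ha]
    have h1 := h a (Finset.mem_insert_self _ _)
    have h2 := ih (fun z hz => h z (Finset.mem_insert_of_mem hz))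
      (fun z hz z' hz' => hc z (Finset.mem_insert_of_mem hz) z' (Finset.mem_insert_of_mem hz'))
    have hcl : Clean G (F a) (s.biUnion F) := by
      constructor
      · intro x hx hx'
        obtain ⟨z, hz, hxz⟩ := Finset.mem_biUnion.1 hx'
        have hne : a ≠ z := by
          rintro rfl
          exact ha hz
        exact (hc a (Finset.mem_insert_self _ _) z (Finset.mem_insert_of_mem hz) hne).1 x hx hxz
      · intro x hx y hy
        obtain ⟨z, hz, hyz⟩ := Finset.mem_biUnion.1 hy
        have hne : a ≠ z := by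
          rintro rfl
          exact ha hz
        exact (hc a (Finset.mem_insert_self _ _) z (Finset.mem_insert_of_mem hz) hne).2 x hx y hyz
    have := AG.union h1 h2 hcl
    refine this.mono (Finset.Subset.refl _) (by rw [Nat.succ_mul]; omega)

end Clean

/-! ### Two list lemmas -/

theorem first_split {α : Type} (P : α → Prop) [DecidablePred P] :
    ∀ l : List α, (∃ x ∈ l, P x) → ∃ A w B, l = A ++ w :: B ∧ P w ∧ ∀ a ∈ A, ¬ P a := by
  intro l
  induction l with
  | nil => rintro ⟨x, hx, _⟩; simp at hx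
  | cons c l ih =>
    intro h
    by_cases hc : P c
    · exact ⟨[], c, l, rfl, hc, by simp⟩
    · have : ∃ x ∈ l, P x := by
        obtain ⟨x, hx, hPx⟩ := h
        rcases List.mem_cons.1 hx with rfl | hx
        · exact absurd hPx hc
        · exact ⟨x, hx, hPx⟩
      obtain ⟨A, w, B, hl, hw, hA⟩ := ih this
      refine ⟨c :: A, w, B, by simp [hl], hw, ?_⟩
      intro a ha
      rcases List.mem_cons.1 ha with rfl | ha
      · exact hc
      · exact hA a ha

theorem chain_glue {α : Type} {R : α → α → Prop} : ∀ (a : α) (A : List α) (w : α) (T : List α),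
    (a :: (A ++ [w])).IsChain R → (w :: T).IsChain R → (a :: (A ++ w :: T)).IsChain R := by
  intro a A
  induction A generalizing a with
  | nil =>
    intro w T h1 h2
    simp only [List.nil_append, List.isChain_cons_cons] at h1 ⊢
    exact ⟨h1.1, h2⟩
  | cons c A ih =>
    intro w T h1 h2
    simp only [List.cons_append, List.isChain_cons_cons] at h1 ⊢
    exact ⟨h1.1, ih c w T (by simpa using h1.2) h2⟩

theorem chain_prefix {α : Type} {R : α → α → Prop} : ∀ (a : α) (A : List α) (w : α) (T : List α),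
    (a :: (A ++ w :: T)).IsChain R → (a :: (A ++ [w])).IsChain R := by
  intro a A
  induction A generalizing a with
  | nil =>
    intro w T h1
    simp only [List.nil_append, List.isChain_cons_cons] at h1 ⊢
    exact ⟨h1.1, by simp⟩
  | cons c A ih =>
    intro w T h1
    simp only [List.cons_append, List.isChain_cons_cons] at h1 ⊢
    exact ⟨h1.1, ih c w T (by simpa using h1.2)⟩

theorem chain_last {α : Type} {R : α → α → Prop} : ∀ (a : α) (X : List α) (b : α),
    (a :: (X ++ [b])).IsChain R → X ≠ [] → ∃ w ∈ X, R w b := by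
  intro a X
  induction X generalizing a with
  | nil => intro _ _ h; exact absurd rfl h
  | cons c X ih =>
    intro b h1 _
    simp only [List.cons_append, List.isChain_cons_cons] at h1
    by_cases hX : X = []
    · subst hX
      simp only [List.nil_append, List.isChain_cons_cons] at h1
      exact ⟨c, by simp, h1.2.1⟩
    · obtain ⟨w, hw, hwb⟩ := ih c b (by simpa using h1.2) hX
      exact ⟨w, List.mem_cons_of_mem _ hw, hwb⟩

section Setup

variable [Fintype V] {Q : Finset V} {pat : List Bool} {k : ℕ} {v : ℤ → V} {I : Finset V}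

/-- A `NoLink` from an index path. -/
theorem ExcSetup.noLink (S : ExcSetup G Q pat k v I) {i j t s : ℕ} (hp : IdxPath pat k i j t)
    (hts : t + s = k + 1) : NoLink G v (v (j : ℕ)) (v (i : ℕ)) s := by
  intro X hX hs
  exact S.excl hp X hX.nd hX.off hX.chain (by omega)

/-- The main construction with a closing list whose vertices are only required to avoid the
index path. -/
theorem PatCyc.cycle_of_path' (S : PatCyc G Q pat k v) (l : List ℕ) (hne : l ≠ [])
    (hl : pathOK pat k l = true) (X : List V) (hXnd : X.Nodup)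
    (hXoff : ∀ x ∈ X, ∀ i ∈ l, v (i : ℕ) ≠ x)
    (hchain : (v (l.getLast hne : ℕ) :: (X ++ [v (l.head hne : ℕ)])).IsChain G.Adj)
    (hlen : 3 ≤ l.length + X.length) : HasCycle G (l.length + X.length) := by
  simp only [pathOK, Bool.and_eq_true, decide_eq_true_eq, List.all_eq_true] at hl
  obtain ⟨⟨hnd, hlt⟩, hc⟩ := hl
  have hmap := S.chain l hnd hlt hc
  set l' := l.map (fun i : ℕ => v i) with hl'
  have hne' : l' ≠ [] := by simpa [hl'] using hne
  have hlast' : l'.getLast hne' = v (l.getLast hne : ℕ) := by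
    simp [hl', List.getLast_map]
  have hhead' : l'.head hne' = v (l.head hne : ℕ) := by
    simp [hl', List.head_map]
  have hndl' : l'.Nodup := by
    rw [hl']
    apply List.Nodup.map_on _ hnd
    intro x hx y hy hxy
    exact S.inj (hlt x hx) (hlt y hy) hxy
  have hdisj : ∀ a ∈ l', a ∉ X := by
    intro a ha hax
    simp only [hl', List.mem_map] at ha
    obtain ⟨i, hi, rfl⟩ := ha
    exact hXoff _ hax _ hi rfl
  set full := l' ++ X with hfull
  have hfne : full ≠ [] := by simp [hfull, hne']
  have hfnd : full.Nodup := by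
    rw [hfull, List.nodup_append]
    refine ⟨hndl', hXnd, ?_⟩
    intro a ha b hb hab
    subst hab
    exact hdisj a ha hb
  have hlen' : full.length = l.length + X.length := by simp [hfull, hl']
  have key : full.IsChain G.Adj ∧ G.Adj (full.getLast hfne) (full.head hfne) := by
    cases X with
    | nil =>
      have h0 : G.Adj (v (l.getLast hne : ℕ)) (v (l.head hne : ℕ)) := by
        simpa using hchain
      have hf : full = l' := by simp [hfull]
      refine ⟨by rw [hf]; exact hmap, ?_⟩
      have e1 : full.getLast hfne = l'.getLast hne' := by simp [hfull]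
      have e2 : full.head hfne = l'.head hne' := by simp [hfull]
      rw [e1, e2, hlast', hhead']
      exact h0
    | cons x X' =>
      rw [List.cons_append, List.isChain_cons_cons] at hchain
      obtain ⟨h0, h1⟩ := hchain
      rw [← List.cons_append, List.isChain_append] at h1
      obtain ⟨h2, _, h3⟩ := h1
      constructor
      · rw [hfull, List.isChain_append]
        refine ⟨hmap, h2, ?_⟩
        intro a ha b hb
        rw [List.getLast?_eq_getLast_of_ne_nil hne', Option.mem_some_iff] at ha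
        simp only [List.head?_cons, Option.mem_some_iff] at hb
        rw [← ha, ← hb, hlast']
        exact h0
      · have e1 : full.getLast hfne = (x :: X').getLast (by simp) := by
          simp [hfull]
        have e2 : full.head hfne = l'.head hne' := by
          simp only [hfull]
          rw [List.head_append_of_ne_nil hne']
        rw [e1, e2, hhead']
        apply h3
        · rw [List.getLast?_eq_getLast_of_ne_nil (by simp)]
          simp
        · simp
  have := hasCycle_of_list G full hfne hfnd key.1 key.2 (by omega)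
  rwa [hlen'] at this

/-- A chord from `p` to `c` is impossible if there is an index path from `c` to `h` avoiding `p`
and a link from `h` to `p`, of total size `k + 1`. -/
theorem ExcSetup.nonchord (S : ExcSetup G Q pat k v I) {c h p t : ℕ} (hp : p < k)
    (hl : IdxPathA pat k c h t p) (X : List V) (hX : Link G v (v (h : ℕ)) (v (p : ℕ)) X)
    (hlen : t + X.length + 1 = k + 1) : ¬ G.Adj (v (p : ℕ)) (v (c : ℕ)) := by
  intro hadj
  obtain ⟨l, hchk, hpl⟩ := hl
  simp only [chk, Bool.and_eq_true, beq_iff_eq] at hchk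
  obtain ⟨⟨⟨h1, h2⟩, h3⟩, h4⟩ := hchk
  have hne : l ≠ [] := by
    intro h0
    subst h0
    simp at h2
  have hhead : l.head hne = c := by
    rw [List.head?_eq_some_head hne] at h2
    exact Option.some.inj h2
  have hlast : l.getLast hne = h := by
    rw [List.getLast?_eq_getLast_of_ne_nil hne] at h3
    exact Option.some.inj h3
  have hlt : ∀ i ∈ l, i < k := by
    simp only [pathOK, Bool.and_eq_true, decide_eq_true_eq, List.all_eq_true] at h1
    exact h1.1.2
  have hk : 3 ≤ k := S.pc.cyc.n_ge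
  have hnd : (X ++ [v (p : ℕ)]).Nodup := by
    rw [List.nodup_append]
    refine ⟨hX.nd, by simp, ?_⟩
    intro a ha b hb hab
    simp only [List.mem_singleton] at hb
    subst hb
    subst hab
    exact hX.off _ ha _ rfl
  have hoff : ∀ x ∈ X ++ [v (p : ℕ)], ∀ i ∈ l, v (i : ℕ) ≠ x := by
    intro x hx i hi
    rcases List.mem_append.1 hx with hx | hx
    · exact hX.off x hx _
    · simp only [List.mem_singleton] at hx
      subst hx
      intro he
      have := S.pc.inj (hlt i hi) hp he
      subst this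
      exact hpl hi
  have hch : (v (l.getLast hne : ℕ) :: ((X ++ [v (p : ℕ)]) ++ [v (l.head hne : ℕ)])).IsChain G.Adj := by
    rw [hlast, hhead]
    have h5 : (v (h : ℕ) :: (X ++ [v (p : ℕ)])).IsChain G.Adj := hX.chain
    have h6 : ([v (p : ℕ)] ++ [v (c : ℕ)]).IsChain G.Adj := by
      simp [List.isChain_cons_cons, hadj]
    have := chain_glue (v (h : ℕ)) X (v (p : ℕ)) [v (c : ℕ)] h5 (by simpa using h6)
    simpa using this
  have hcyc := S.pc.cycle_of_path' l hne h1 (X ++ [v (p : ℕ)]) hnd hoff hch (by simp; omega)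
  apply S.noCycle
  have hl2 : l.length + (X ++ [v (p : ℕ)]).length = k + 1 := by
    simp only [List.length_append, List.length_singleton]
    omega
  rwa [hl2] at hcyc

/-- Many non-neighbours on the cycle give many neighbours off the cycle. -/
theorem ExcSetup.card_X_ge (S : ExcSetup G Q pat k v I) {p : ℕ} (hp : p < k) (C : Finset ℕ)
    (hC : ∀ c ∈ C, c < k ∧ c ≠ p ∧ ¬ G.Adj (v (p : ℕ)) (v (c : ℕ))) :
    C.card + 1 ≤ (Aof G v (v (p : ℕ))).card := by
  classical
  have hk := S.pc.cyc.n_ge
  have hdeg := S.deg (v (p : ℕ))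
  set N := (nbrs G (v (p : ℕ))).filter (fun x => ∃ i : ℤ, v i = x) with hN
  have hsplit : (nbrs G (v (p : ℕ))).card = (Aof G v (v (p : ℕ))).card + N.card := by
    have h1 : (Aof G v (v (p : ℕ))) = (nbrs G (v (p : ℕ))).filter (fun x => ¬ ∃ i : ℤ, v i = x) := by
      ext x
      simp only [mem_Aof, Finset.mem_filter, mem_nbrs, not_exists]
    rw [h1, hN, add_comm]
    exact (Finset.card_filter_add_card_filter_not _).symm
  have hsub : N ⊆ ((Finset.range k) \ (insert p C)).image (fun i : ℕ => v (i : ℕ)) := by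
    intro x hx
    obtain ⟨hxn, i, hi⟩ := Finset.mem_filter.1 hx
    obtain ⟨j, hj1, hj3⟩ := S.pc.cyc.exists_window 0 i
    have hvj : v (j : ℕ) = x := by
      rw [← hi, hj3, zero_add]
    refine Finset.mem_image.2 ⟨j, ?_, hvj⟩
    simp only [Finset.mem_sdiff, Finset.mem_range, Finset.mem_insert, not_or]
    refine ⟨hj1, ?_, ?_⟩
    · rintro rfl
      have h9 := mem_nbrs.1 hxn
      rw [← hvj] at h9
      exact h9.ne rfl
    · intro hjC
      exact (hC j hjC).2.2 (by rw [hvj]; exact mem_nbrs.1 hxn)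
  have hcard := (Finset.card_le_card hsub).trans Finset.card_image_le
  have hins : (insert p C) ⊆ Finset.range k := by
    intro c hc
    rcases Finset.mem_insert.1 hc with rfl | hc
    · exact Finset.mem_range.2 hp
    · exact Finset.mem_range.2 (hC c hc).1
  have hpC : p ∉ C := fun h => (hC p h).2.1 rfl
  rw [Finset.card_sdiff_of_subset hins, Finset.card_insert_of_notMem hpC, Finset.card_range] at hcard
  have hle : C.card + 1 ≤ k := by
    have := Finset.card_le_card hins
    rw [Finset.card_insert_of_notMem hpC, Finset.card_range] at this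
    exact this
  omega

/-- The vertex at position `p` has two nonadjacent neighbours off the cycle. -/
def NC (G : SimpleGraph V) (v : ℤ → V) (p : ℕ) : Prop :=
  ∃ x ∈ Aof G v (v (p : ℕ)), ∃ y ∈ Aof G v (v (p : ℕ)), x ≠ y ∧ ¬ G.Adj x y

/-- An entry of the hot table: the pair `(φ, h)` and `s`. -/
def HotEntry (pat : List Bool) (k φ h s : ℕ) : Prop :=
  ∃ (e : ℕ) (C : Finset ℕ), C.card = e ∧ s + e ≤ k ∧ s ≤ k ∧
    (∀ c ∈ C, c < k ∧ c ≠ φ ∧ IdxPathA pat k c h (k - s) φ) ∧ IdxPath pat k φ h (k + 1 - s - e)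

/-- HOT LEMMA. A free vertex with a short link has two nonadjacent neighbours off the cycle. -/
theorem ExcSetup.hot (S : ExcSetup G Q pat k v I) {φ h : ℕ} (hφ : φ < k)
    (htab : ∀ s, 1 ≤ s → s ≤ 4 → HotEntry pat k φ h s)
    (X : List V) (hX : Link G v (v (h : ℕ)) (v (φ : ℕ)) X) (hne : X ≠ []) (hlen : X.length ≤ 4) :
    NC G v φ := by
  classical
  by_contra hnc
  have hcl : ∀ x ∈ Aof G v (v (φ : ℕ)), ∀ y ∈ Aof G v (v (φ : ℕ)), x ≠ y → G.Adj x y := by
    intro x hx y hy hxy
    by_contra hadj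
    exact hnc ⟨x, hx, y, hy, hxy, hadj⟩
  obtain ⟨w0, hw0, hw0adj⟩ := chain_last _ _ _ hX.chain hne
  have hw0mem : w0 ∈ Aof G v (v (φ : ℕ)) := mem_Aof.2 ⟨hw0adj.symm, hX.off w0 hw0⟩
  obtain ⟨A, w, B, hsplit, hwmem, hA⟩ := first_split (fun x => x ∈ Aof G v (v (φ : ℕ))) X ⟨w0, hw0, hw0mem⟩
  have hXlen : X.length = A.length + 1 + B.length := by
    rw [hsplit]; simp; omega
  have hwm := mem_Aof.1 hwmem
  -- the shorter link
  have hch1 : (v (h : ℕ) :: (A ++ [w])).IsChain G.Adj := by
    have := hX.chain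
    rw [hsplit] at this
    have h2 : (v (h : ℕ) :: (A ++ w :: (B ++ [v (φ : ℕ)]))).IsChain G.Adj := by simpa using this
    exact chain_prefix _ _ _ _ h2
  have hnd : (A ++ [w]).Nodup := by
    have := hX.nd
    rw [hsplit] at this
    have h3 : (A ++ [w]).Sublist (A ++ w :: B) := by
      apply List.Sublist.append_left
      simp
    exact this.sublist h3
  have hoffA : ∀ x ∈ A ++ [w], ∀ i : ℤ, v i ≠ x := by
    intro x hx
    apply hX.off
    rw [hsplit]
    rcases List.mem_append.1 hx with hx | hx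
    · exact List.mem_append_left _ hx
    · simp only [List.mem_singleton] at hx
      subst hx
      simp
  have hlink : Link G v (v (h : ℕ)) (v (φ : ℕ)) (A ++ [w]) := by
    refine ⟨hnd, hoffA, ?_⟩
    have h4 := chain_glue (v (h : ℕ)) A w [v (φ : ℕ)] hch1 (by simp [List.isChain_cons_cons, hwm.1.symm])
    simpa using h4
  set s := A.length + 1 with hs
  have hs4 : s ≤ 4 := by omega
  obtain ⟨e, C, hCc, hse, hsk, hC, hpath⟩ := htab s (by omega) hs4
  -- non-chords
  have hC' : ∀ c ∈ C, c < k ∧ c ≠ φ ∧ ¬ G.Adj (v (φ : ℕ)) (v (c : ℕ)) := by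
    intro c hc
    obtain ⟨h1, h2, h3⟩ := hC c hc
    refine ⟨h1, h2, S.nonchord hφ h3 (A ++ [w]) hlink ?_⟩
    simp only [List.length_append, List.length_singleton]
    omega
  have hcard := S.card_X_ge hφ C hC'
  rw [hCc] at hcard
  -- the extra vertices
  have hcard2 : e ≤ ((Aof G v (v (φ : ℕ))).erase w).card := by
    rw [Finset.card_erase_of_mem hwmem]
    omega
  obtain ⟨Y, hYsub, hYc⟩ := Finset.exists_subset_card_eq hcard2
  have hYl : Y.toList.length = e := by rw [Finset.length_toList]; exact hYc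
  have hYmem : ∀ y ∈ Y.toList, y ∈ Aof G v (v (φ : ℕ)) ∧ y ≠ w := by
    intro y hy
    have := hYsub (Finset.mem_toList.1 hy)
    rw [Finset.mem_erase] at this
    exact ⟨this.2, this.1⟩
  -- chain through the clique
  have hchY : ∀ (z : V) (T : List V), z ∈ Aof G v (v (φ : ℕ)) →
      (∀ y ∈ T, y ∈ Aof G v (v (φ : ℕ))) → (z :: T).Nodup → (z :: (T ++ [v (φ : ℕ)])).IsChain G.Adj := by
    intro z T
    induction T generalizing z with
    | nil =>
      intro hz _ _
      simp [List.isChain_cons_cons, (mem_Aof.1 hz).1.symm]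
    | cons y T ih =>
      intro hz hT hnd2
      have hy := hT y (by simp)
      simp only [List.cons_append, List.isChain_cons_cons]
      refine ⟨hcl z hz y hy ?_, ?_⟩
      · intro he
        subst he
        simp at hnd2
      · exact ih y hy (fun t ht => hT t (List.mem_cons_of_mem _ ht)) (List.nodup_cons.1 hnd2).2
  have hw1 : (w :: (Y.toList ++ [v (φ : ℕ)])).IsChain G.Adj := by
    apply hchY w _ hwmem (fun y hy => (hYmem y hy).1)
    rw [List.nodup_cons]
    exact ⟨fun hwY => (hYmem w hwY).2 rfl, Y.nodup_toList⟩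
  have hfinal := chain_glue (v (h : ℕ)) A w (Y.toList ++ [v (φ : ℕ)]) hch1 hw1
  refine S.excl hpath (A ++ w :: Y.toList) ?_ ?_ ?_ ?_
  · rw [List.nodup_append]
    have hAnd : A.Nodup := (List.nodup_append.1 hnd).1
    refine ⟨hAnd, ?_, ?_⟩
    · rw [List.nodup_cons]
      exact ⟨fun hwY => (hYmem w hwY).2 rfl, Y.nodup_toList⟩
    · intro a ha b hb hab
      subst hab
      rcases List.mem_cons.1 hb with rfl | hb
      · exact hA _ ha hwmem
      · exact hA _ ha (hYmem _ hb).1
  · intro x hx
    rcases List.mem_append.1 hx with hx | hx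
    · exact hoffA x (List.mem_append_left _ hx)
    · rcases List.mem_cons.1 hx with rfl | hx
      · exact hwm.2
      · exact (mem_Aof.1 (hYmem x hx).1).2
  · simpa using hfinal
  · simp only [List.length_append, List.length_cons]
    rw [hYl]
    omega

/-! ### The table -/

/-- How many extra vertices are needed for the hot lemma. -/
def hotE (lo r s : ℕ) : ℕ := if lo ≤ s ∧ s ≤ r then r + 1 - s else 0

/-- The entry of the hot table. -/
def hotB (pat : List Bool) (k q φ h s : ℕ) : Bool :=
  let e := hotE (if h = q - 1 then q - 1 else q - 2) (k - q) s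
  (List.range e).all (fun i => pchkA pat k (q + 1 + i) h (k - s) φ) &&
    pchk pat k φ h (k + 1 - s - e) && decide (s + e ≤ k) && decide (s ≤ k) &&
    decide (q + 1 + e ≤ k) && decide (φ < q)

theorem hotEntry_of_hotB {pat : List Bool} {k q φ h s : ℕ} (hb : hotB pat k q φ h s = true) :
    HotEntry pat k φ h s := by
  simp only [hotB, Bool.and_eq_true, List.all_eq_true, List.mem_range, decide_eq_true_eq] at hb
  obtain ⟨⟨⟨⟨⟨h1, h2⟩, h3⟩, h4⟩, h5⟩, h6⟩ := hb
  set e := hotE (if h = q - 1 then q - 1 else q - 2) (k - q) s with he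
  refine ⟨e, (Finset.range e).image (fun i => q + 1 + i), ?_, h3, h4, ?_, idxPath_of_pchk h2⟩
  · rw [Finset.card_image_of_injective _ (fun a b hab => by simpa using hab), Finset.card_range]
  · intro c hc
    obtain ⟨i, hi, rfl⟩ := Finset.mem_image.1 hc
    rw [Finset.mem_range] at hi
    exact ⟨by omega, by omega, idxPathA_of_pchkA (h1 i hi)⟩

/-- Labels of the positions, for the bound on neighbours on the cycle. -/
def leLab (q i : ℕ) : ℕ := if i ≤ q - 2 then 0 else if i ≤ q then 1 else if i ≤ q + 2 then 2 else i - q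

/-- The table of a long ear pattern. -/
def leTab (pat : List Bool) (k q : ℕ) : Bool :=
  (List.range (q + 1)).all (fun i => (List.range (q + 1)).all (fun j =>
    if 1 ≤ i ∧ i < j ∧ j ≤ q - 2 then pchk pat k i j k && pchk pat k i j (k - 1) else true)) &&
  (List.range (q + 1)).all (fun i =>
    if 1 ≤ i ∧ i ≤ q - 2 then
      pchk pat k i (q - 1) k && pchk pat k i (q - 1) (k - 1) && pchk pat k i (q - 1) (k - 2) &&
      pchk pat k i q k && pchk pat k i q (k - 1) && pchk pat k i q (k - 2) &&
      pchk pat k i q (k - 3)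
    else true) &&
  (pchk pat k (q - 1) q k && pchk pat k (q - 1) q (k - 2) && pchk pat k (q - 1) q (k - 3)) &&
  (List.range (q + 1)).all (fun φ => (List.range (q + 1)).all (fun h =>
    if 1 ≤ φ ∧ φ ≤ q - 2 ∧ 1 ≤ h ∧ h ≤ q - 1 ∧ h ≠ φ then
      hotB pat k q φ h 1 && hotB pat k q φ h 2 && hotB pat k q φ h 3 && hotB pat k q φ h 4
    else true)) &&
  (List.range k).all (fun i => decide (leLab q i < k - q) && (List.range k).all (fun j =>
    if i ≠ j ∧ leLab q i = leLab q j then pchk pat k i j k else true)) &&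
  decide (4 ≤ k) && decide (3 ≤ q) && decide (q + 1 ≤ k)

/-- THE LONG EAR THEOREM. -/
theorem ExcSetup.longEar (S : ExcSetup G Q pat k v I) {q : ℕ} (hqQ : Q.card = q)
    (htab : leTab pat k q = true) (h2q : k + 1 ≤ 2 * q) :
    ∃ T, Indep G T ∧ k + 1 ≤ T.card := by
  classical
  simp only [leTab, Bool.and_eq_true, List.all_eq_true, List.mem_range, decide_eq_true_eq] at htab
  obtain ⟨⟨⟨⟨⟨⟨⟨ta, tb⟩, tc⟩, td⟩, te⟩, hk4⟩, hq3⟩, hqk⟩ := htab
  obtain ⟨u, hu⟩ := S.exists_exits
  have hoffu : ∀ z, ∀ i : ℤ, v i ≠ u z := fun z i => S.Ioff _ (hu z).1 i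
  -- the exclusions
  have hne_of : ∀ {i j : ℕ}, NoLink G v (v (j : ℕ)) (v (i : ℕ)) 1 → u i ≠ u j := by
    intro i j h he
    refine h [u i] (link_one (hoffu i) ?_ (hu i).2.symm) rfl
    rw [he]
    exact (hu j).2
  have hna_of : ∀ {i j : ℕ}, u i ≠ u j → ¬ G.Adj (u i) (u j) := by
    intro i j h
    exact S.Iind _ (hu i).1 _ (hu j).1 h
  have hphiphi : ∀ i j : ℕ, 1 ≤ i → i < j → j ≤ q - 2 →
      NoLink G v (v (j : ℕ)) (v (i : ℕ)) 1 ∧ NoLink G v (v (j : ℕ)) (v (i : ℕ)) 2 := by
    intro i j h1 h2 h3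
    have := ta i (by omega) j (by omega)
    rw [if_pos ⟨h1, h2, h3⟩, Bool.and_eq_true] at this
    exact ⟨S.noLink (idxPath_of_pchk this.1) rfl,
      S.noLink (idxPath_of_pchk this.2) (by omega)⟩
  have hphi : ∀ i : ℕ, 1 ≤ i → i ≤ q - 2 →
      (NoLink G v (v ((q - 1 : ℕ) : ℤ)) (v (i : ℕ)) 1 ∧ NoLink G v (v ((q - 1 : ℕ) : ℤ)) (v (i : ℕ)) 2 ∧
        NoLink G v (v ((q - 1 : ℕ) : ℤ)) (v (i : ℕ)) 3) ∧
      (NoLink G v (v (q : ℕ)) (v (i : ℕ)) 1 ∧ NoLink G v (v (q : ℕ)) (v (i : ℕ)) 2 ∧
        NoLink G v (v (q : ℕ)) (v (i : ℕ)) 3 ∧ NoLink G v (v (q : ℕ)) (v (i : ℕ)) 4) := by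
    intro i h1 h2
    have := tb i (by omega)
    rw [if_pos ⟨h1, h2⟩] at this
    simp only [Bool.and_eq_true] at this
    obtain ⟨⟨⟨⟨⟨⟨a1, a2⟩, a3⟩, a4⟩, a5⟩, a6⟩, a7⟩ := this
    exact ⟨⟨S.noLink (idxPath_of_pchk a1) rfl, S.noLink (idxPath_of_pchk a2) (by omega),
      S.noLink (idxPath_of_pchk a3) (by omega)⟩,
      ⟨S.noLink (idxPath_of_pchk a4) rfl, S.noLink (idxPath_of_pchk a5) (by omega),
      S.noLink (idxPath_of_pchk a6) (by omega), S.noLink (idxPath_of_pchk a7) (by omega)⟩⟩
  have hex : NoLink G v (v (q : ℕ)) (v ((q - 1 : ℕ) : ℤ)) 1 ∧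
      NoLink G v (v (q : ℕ)) (v ((q - 1 : ℕ) : ℤ)) 3 ∧ NoLink G v (v (q : ℕ)) (v ((q - 1 : ℕ) : ℤ)) 4 := by
    obtain ⟨⟨a1, a2⟩, a3⟩ := tc
    exact ⟨S.noLink (idxPath_of_pchk a1) rfl, S.noLink (idxPath_of_pchk a2) (by omega),
      S.noLink (idxPath_of_pchk a3) (by omega)⟩
  have hhot : ∀ φ h : ℕ, 1 ≤ φ → φ ≤ q - 2 → 1 ≤ h → h ≤ q - 1 → h ≠ φ → ∀ X,
      Link G v (v (h : ℕ)) (v (φ : ℕ)) X → X ≠ [] → X.length ≤ 4 → NC G v φ := by
    intro φ h h1 h2 h3 h4 h5 X hX hne hlen
    have := td φ (by omega) h (by omega)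
    rw [if_pos ⟨h1, h2, h3, h4, h5⟩] at this
    simp only [Bool.and_eq_true] at this
    obtain ⟨⟨⟨b1, b2⟩, b3⟩, b4⟩ := this
    refine S.hot (by omega) ?_ X hX hne hlen
    intro s hs1 hs4
    rcases (by omega : s = 1 ∨ s = 2 ∨ s = 3 ∨ s = 4) with rfl | rfl | rfl | rfl
    · exact hotEntry_of_hotB b1
    · exact hotEntry_of_hotB b2
    · exact hotEntry_of_hotB b3
    · exact hotEntry_of_hotB b4
  -- no link when the vertex has no nonadjacent pair
  have hnolink : ∀ φ h : ℕ, 1 ≤ φ → φ ≤ q - 2 → 1 ≤ h → h ≤ q - 1 → h ≠ φ → ¬ NC G v φ →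
      ∀ s, 1 ≤ s → s ≤ 4 → NoLink G v (v (h : ℕ)) (v (φ : ℕ)) s := by
    intro φ h h1 h2 h3 h4 h5 hn s hs1 hs4 X hX hs
    refine hn (hhot φ h h1 h2 h3 h4 h5 X hX ?_ (by omega))
    intro h0
    subst h0
    simp at hs
    omega
  -- the pieces
  set F : ℕ → Finset V := fun z =>
    if 1 ≤ z ∧ z ≤ q - 2 ∧ NC G v z then Aof G v (v (z : ℕ)) else Aof G v (u z) with hF
  have hFX : ∀ z, 1 ≤ z → z ≤ q - 2 → NC G v z → F z = Aof G v (v (z : ℕ)) := by
    intro z h1 h2 h3
    simp only [hF]
    rw [if_pos ⟨h1, h2, h3⟩]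
  have hFA : ∀ z, ¬ (1 ≤ z ∧ z ≤ q - 2 ∧ NC G v z) → F z = Aof G v (u z) := by
    intro z h
    simp only [hF]
    rw [if_neg h]
  have hAG : ∀ z ∈ Finset.Icc 1 q, AG G (F z) 2 := by
    intro z _
    by_cases h : 1 ≤ z ∧ z ≤ q - 2 ∧ NC G v z
    · rw [hFX z h.1 h.2.1 h.2.2]
      obtain ⟨x, hx, y, hy, hxy, hadj⟩ := h.2.2
      exact AG.two hx hy hxy hadj
    · rw [hFA z h]
      refine S.AG_two (Finset.Subset.refl _) ?_
      have := S.card_Aof_ge (hoffu z) (leLab q) (k - q) (fun i hi => (te i hi).1) ?_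
      · omega
      · intro i hi j hj hij hl
        have := (te i hi).2 j hj
        rw [if_pos ⟨hij, hl⟩] at this
        exact idxPath_of_pchk this
  have hclean_lt : ∀ z z' : ℕ, 1 ≤ z → z < z' → z' ≤ q → Clean G (F z) (F z') := by
    intro z z' h1 h2 h3
    by_cases hz' : z' ≤ q - 2
    · -- both free
      obtain ⟨n1, n2⟩ := hphiphi z z' h1 h2 hz'
      by_cases c1 : NC G v z <;> by_cases c2 : NC G v z'
      · rw [hFX z h1 (by omega) c1, hFX z' (by omega) hz' c2]
        exact (clean_XX n1 n2).symm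
      · rw [hFX z h1 (by omega) c1, hFA z' (fun h => c2 h.2.2)]
        exact clean_XA (hoffu z') (hu z').2 n1.symm n2.symm
          (hnolink z' z (by omega) hz' h1 (by omega) (by omega) c2 3 (by omega) (by omega))
      · rw [hFA z (fun h => c1 h.2.2), hFX z' (by omega) hz' c2]
        exact (clean_XA (hoffu z) (hu z).2 n1 n2
          (hnolink z z' h1 (by omega) (by omega) (by omega) (by omega) c1 3 (by omega) (by omega))).symm
      · rw [hFA z (fun h => c1 h.2.2), hFA z' (fun h => c2 h.2.2)]
        have hne := hne_of n1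
        exact clean_AA (hoffu z) (hoffu z') (hu z).2 (hu z').2 hne (hna_of hne)
          (hnolink z' z (by omega) hz' h1 (by omega) (by omega) c2 3 (by omega) (by omega))
          (hnolink z' z (by omega) hz' h1 (by omega) (by omega) c2 4 (by omega) (by omega))
    · have hFz' : F z' = Aof G v (u z') := hFA z' (fun h => hz' h.2.1)
      rw [hFz']
      by_cases hz : z ≤ q - 2
      · obtain ⟨⟨e1, e2, e3⟩, ⟨f1, f2, f3, f4⟩⟩ := hphi z h1 hz
        rcases (by omega : z' = q - 1 ∨ z' = q) with rfl | rfl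
        · by_cases c1 : NC G v z
          · rw [hFX z h1 hz c1]
            exact clean_XA (hoffu _) (hu _).2 e1.symm e2.symm e3.symm
          · rw [hFA z (fun h => c1 h.2.2)]
            have hne := hne_of e1
            exact clean_AA (hoffu z) (hoffu _) (hu z).2 (hu _).2 hne (hna_of hne) e3.symm
              (hnolink z (q - 1) h1 hz (by omega) (by omega) (by omega) c1 4 (by omega) (by omega)).symm
        · by_cases c1 : NC G v z
          · rw [hFX z h1 hz c1]
            exact clean_XA (hoffu _) (hu _).2 f1.symm f2.symm f3.symm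
          · rw [hFA z (fun h => c1 h.2.2)]
            have hne := hne_of f1
            exact clean_AA (hoffu z) (hoffu _) (hu z).2 (hu _).2 hne (hna_of hne) f3.symm f4.symm
      · have hz1 : z = q - 1 := by omega
        have hz2 : z' = q := by omega
        subst hz2
        subst hz1
        rw [hFA (z' - 1) (fun h => hz h.2.1)]
        obtain ⟨g1, g3, g4⟩ := hex
        have hne := hne_of g1
        exact clean_AA (hoffu _) (hoffu _) (hu _).2 (hu _).2 hne (hna_of hne) g3.symm g4.symm
  have hU := AG_biUnion (G := G) (Finset.Icc 1 q) F 2 hAG (by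
    intro z hz z' hz' hne
    rw [Finset.mem_Icc] at hz hz'
    rcases Nat.lt_or_gt_of_ne hne with h | h
    · exact hclean_lt z z' hz.1 h hz'.2
    · exact (hclean_lt z' z hz'.1 h hz.2).symm)
  obtain ⟨T, hT, hc⟩ := hU.exists_indep
  refine ⟨T, hT, ?_⟩
  simp only [Nat.card_Icc] at hc
  omega

/-- `t` copies of true followed by `f` copies of false. -/
def lePat (q r : ℕ) : List Bool := List.replicate q true ++ List.replicate r false

/-- Long ear, `q = 5`, `r = 3`. -/
theorem ExcSetup.longEar_5_3 (S : ExcSetup G Q (lePat 5 3) 8 v I) (hq : Q.card = 5) :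
    ∃ T, Indep G T ∧ 9 ≤ T.card :=
  S.longEar hq (by decide +kernel) (by omega)

/-- Long ear, `q = 5`, `r = 4`. -/
theorem ExcSetup.longEar_5_4 (S : ExcSetup G Q (lePat 5 4) 9 v I) (hq : Q.card = 5) :
    ∃ T, Indep G T ∧ 10 ≤ T.card :=
  S.longEar hq (by decide +kernel) (by omega)

/-- Long ear, `q = 6`, `r = 4`. -/
theorem ExcSetup.longEar_6_4 (S : ExcSetup G Q (lePat 6 4) 10 v I) (hq : Q.card = 6) :
    ∃ T, Indep G T ∧ 11 ≤ T.card :=
  S.longEar hq (by decide +kernel) (by omega)

/-- Long ear, `q = 6`, `r = 5`. -/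
theorem ExcSetup.longEar_6_5 (S : ExcSetup G Q (lePat 6 5) 11 v I) (hq : Q.card = 6) :
    ∃ T, Indep G T ∧ 12 ≤ T.card :=
  S.longEar hq (by decide +kernel) (by omega)

end Setup

end Crest.Agent.CycleRamsey
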