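import Crest.Agent.Lib.CycleRamsey.BCExcOverlap

/-!
# Exceptional patterns E3, E5 (overlap lemma) and E6, E7, E8 (conflict lemma) (helper27, row 54)
-/

set_option autoImplicit false
set_option linter.unusedSectionVars false
set_option linter.unusedVariables false

namespace Crest.Agent.CycleRamsey

open SimpleGraph
open Crest.Agent.Lib.CycleRamsey (HasCycle nbrs mem_nbrs NL Ctx OvHyp overlap_pick CfHyp conflict_pick)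

variable {V : Type} [Fintype V] [DecidableEq V] {G : SimpleGraph V}
variable {Q : Finset V} {pat : List Bool} {k : ℕ} {v : ℤ → V} {I : Finset V}

/-- The check of all lengths for the conflict lemma, apart from the exits. -/
def cfOK (pat : List Bool) (L : ℕ) (C : List (List ℕ)) (A B : List ℕ) : Bool :=
  pairsOK pat L C A A (L + 1 - 3) && pairsOK pat L C A A (L + 1 - 6) &&
  pairsOK pat L C A A (L + 1 - 7) && pairsOK pat L C A B (L + 1 - 3) &&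
  pairsOK pat L C A B (L + 1 - 4) && pairsOK pat L C A B (L + 1 - 6) &&
  pairsOK pat L C B B (L + 1 - 3) && pairsOK pat L C B B (L + 1 - 4)

/-- The conflict lemma on an `ExcSetup` from tables, all exits in `I` and distinct by `s = 1`. -/
theorem ExcSetup.conflict_of_tbl_I (S : ExcSetup G Q pat k v I) {q b : ℕ} (hq : Q.card = q)
    (hk : 7 ≤ k) (lab : ℕ → ℕ) (hb : q + b ≤ k) (C : List (List ℕ))
    (hlab : labOK pat k C lab b = true) (A B : List ℕ) (hA : A.Nodup) (hB : B.Nodup)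
    (hdisj : ∀ x ∈ A, x ∉ B)
    (h1 : pairsOK pat k C (A ++ B) (A ++ B) k = true)
    (hcf : cfOK pat k C A B = true)
    (hcount : k + 1 ≤ 2 * A.length + 2 * B.length) (hbnd : 7 ≤ k - b) :
    ∃ T, Indep G T ∧ k + 1 ≤ T.card := by
  obtain ⟨u, hu⟩ := S.exists_exits
  have hmem : ∀ i, (i ∈ A ∨ i ∈ B) → i ∈ A ++ B := fun i hi => List.mem_append.2 hi
  have hne : ∀ i j, (i ∈ A ∨ i ∈ B) → (j ∈ A ∨ j ∈ B) → i ≠ j → u i ≠ u j := by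
    intro i j hi hj hij
    exact S.exit_ne (hu i).1 (hu j).1 (hu i).2 (hu j).2
      (of_pairsOK h1 (hmem i hi) (hmem j hj) hij)
  have hctx : Ctx G (cycSet k v) k q b := by
    simp only [labOK, List.all_eq_true, Bool.and_eq_true, decide_eq_true_eq, List.mem_range,
      Bool.or_eq_true, beq_iff_eq, bne_iff_ne] at hlab
    refine S.ctx hq lab (fun i hi => (hlab i hi).1) ?_ hb
    intro i hi j hj hij hl
    rcases (hlab i hi).2 j hj with (h' | h') | h'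
    · exact absurd h' hij
    · exact absurd hl h'
    · exact idxPath_of_tbl h'
  simp only [cfOK, Bool.and_eq_true] at hcf
  obtain ⟨⟨⟨⟨⟨⟨⟨h3, h6⟩, h7⟩, h3'⟩, h4'⟩, h6'⟩, h3''⟩, h4''⟩ := hcf
  have hm : ∀ i, i ∈ A.toFinset ∪ B.toFinset ↔ (i ∈ A ∨ i ∈ B) := by
    intro i
    simp
  have hdisj' : Disjoint A.toFinset B.toFinset := by
    rw [Finset.disjoint_left]
    intro x hx hx'
    exact hdisj x (List.mem_toFinset.1 hx) (List.mem_toFinset.1 hx')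
  have hab : ∀ x ∈ A, ∀ y ∈ B, x ≠ y := by
    rintro x hx _ hy rfl
    exact hdisj x hx hy
  have a0 : ∀ i ∈ A.toFinset, G.Adj (v (i : ℕ)) (u i) := fun i _ => (hu i).2
  have a1 : ∀ i ∈ B.toFinset, G.Adj (v (i : ℕ)) (u i) := fun i _ => (hu i).2
  have hh : CfHyp G (cycSet k v) u A.toFinset B.toFinset := by
    refine ⟨fun i => (notMem_cycSet_iff S).2 (fun m => S.Ioff _ (hu i).1 m), ?_, ?_, ?_, ?_, ?_, ?_, ?_, ?_, ?_, ?_⟩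
    · exact fun i hi j hj hij => hne i j ((hm i).1 hi) ((hm j).1 hj) hij
    · exact fun i hi j hj hij => S.exit_nonadj (hu i).1 (hu j).1 (hu i).2 (hu j).2
        (hne i j ((hm i).1 hi) ((hm j).1 hj) hij)
    · exact fun i hi j hj hij => S.nl_of_idx
        (of_pairsOK h3 (List.mem_toFinset.1 hi) (List.mem_toFinset.1 hj) hij) (by omega)
        (a0 i hi) (a0 j hj)
    · exact fun i hi j hj hij => S.nl_of_idx
        (of_pairsOK h6 (List.mem_toFinset.1 hi) (List.mem_toFinset.1 hj) hij) (by omega)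
        (a0 i hi) (a0 j hj)
    · exact fun i hi j hj hij => S.nl_of_idx
        (of_pairsOK h7 (List.mem_toFinset.1 hi) (List.mem_toFinset.1 hj) hij) (by omega)
        (a0 i hi) (a0 j hj)
    · exact fun i hi j hj => S.nl_of_idx
        (of_pairsOK h3' (List.mem_toFinset.1 hi) (List.mem_toFinset.1 hj)
          (hab i (List.mem_toFinset.1 hi) j (List.mem_toFinset.1 hj))) (by omega)
        (a0 i hi) (a1 j hj)
    · exact fun i hi j hj => S.nl_of_idx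
        (of_pairsOK h4' (List.mem_toFinset.1 hi) (List.mem_toFinset.1 hj)
          (hab i (List.mem_toFinset.1 hi) j (List.mem_toFinset.1 hj))) (by omega)
        (a0 i hi) (a1 j hj)
    · exact fun i hi j hj => S.nl_of_idx
        (of_pairsOK h6' (List.mem_toFinset.1 hi) (List.mem_toFinset.1 hj)
          (hab i (List.mem_toFinset.1 hi) j (List.mem_toFinset.1 hj))) (by omega)
        (a0 i hi) (a1 j hj)
    · exact fun i hi j hj hij => S.nl_of_idx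
        (of_pairsOK h3'' (List.mem_toFinset.1 hi) (List.mem_toFinset.1 hj) hij) (by omega)
        (a1 i hi) (a1 j hj)
    · exact fun i hi j hj hij => S.nl_of_idx
        (of_pairsOK h4'' (List.mem_toFinset.1 hi) (List.mem_toFinset.1 hj) hij) (by omega)
        (a1 i hi) (a1 j hj)
  have hcA : A.toFinset.card = A.length := List.toFinset_card_of_nodup hA
  have hcB : B.toFinset.card = B.length := List.toFinset_card_of_nodup hB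
  obtain ⟨T, hT, hTc⟩ := conflict_pick hctx hdisj' hh hbnd (by rw [hcA, hcB]; exact hcount)
  exact ⟨T, fun x hx y hy hxy => hT hx hy hxy, hTc⟩

/-- Certificates for the pattern E3. -/
def certE3 : List (List ℕ) :=
  [[0,1,2,3,4,5,6,7],
   [0,7,6,5,4,1,2,3],
   [0,7,6,5,4,1,3,2],
   [0,7,6,5,4,2,3,1],
   [1,0,2],
   [1,0,2,3],
   [1,0,2,3,4],
   [1,0,2,3,4,5],
   [1,0,2,3,4,5,6,7],
   [1,0,2,4],
   [1,0,2,4,3],
   [1,0,2,4,5],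
   [1,0,3],
   [1,0,3,2],
   [1,0,3,4,2],
   [1,0,4,5],
   [1,0,7,6,5,4],
   [1,0,7,6,5,4,2,3],
   [1,0,7,6,5,4,3,2],
   [1,2,3,0,7,6,5,4],
   [1,2,3,4,0,7,6,5],
   [2,0,1,3],
   [2,0,1,3,4],
   [2,0,1,3,4,5],
   [2,0,1,3,4,5,6,7],
   [2,0,1,4],
   [2,0,1,4,3],
   [2,0,1,4,5],
   [2,0,3],
   [2,0,4,5],
   [2,0,7,6,5,4],
   [2,0,7,6,5,4,1,3],
   [2,1,3,0,7,6,5,4],
   [2,1,3,4,0,7,6,5],
   [3,0,1,2,4],
   [3,0,1,2,4,5],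
   [3,0,1,2,4,5,6,7],
   [3,0,1,4],
   [3,0,1,4,5],
   [3,0,4,5],
   [3,0,7,6,5,4],
   [3,1,2,0,7,6,5,4],
   [3,1,2,4,0,7,6,5],
   [4,0,7,6,5],
   [4,1,0,7,6,5],
   [4,1,2,3,0,7,6,5]]

/-- Labels for the pattern E3. -/
def labE3 (i : ℕ) : ℕ := ([0,0,0,0,1,1,2,0] : List ℕ).getD i 0

theorem excE3 (S : ExcSetup G Q [true, true, true, true, true, false, false, false] 8 v I)
    (hq : Q.card = 5) : ∃ T, Indep G T ∧ 9 ≤ T.card :=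
  S.overlap_of_tbl_I hq (by omega) labE3 (b := 3) (by omega) certE3 (by decide +kernel)
    [1,2,3] [4,5] (by decide) (by decide) (by decide) (by decide +kernel) (by decide +kernel)
    (by simp) (by simp)

/-- Certificates for the pattern E5. -/
def certE5 : List (List ℕ) :=
  [[0,1,2,3,4,5,6,7,8],
   [0,8,7,6,5,1,2,4,3],
   [0,8,7,6,5,1,4,3,2],
   [0,8,7,6,5,2,3,4,1],
   [1,0,2,3],
   [1,0,2,3,4,5],
   [1,0,2,3,4,5,6],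
   [1,0,2,3,4,5,6,7,8],
   [1,0,2,4,3],
   [1,0,2,4,5],
   [1,0,2,4,5,6],
   [1,0,2,5,4,3],
   [1,0,2,5,6],
   [1,0,4,2],
   [1,0,4,3,2],
   [1,0,5,4,3,2],
   [1,0,8,7,6,5,2,4,3],
   [1,0,8,7,6,5,4,3,2],
   [1,2,0,8,7,6,5],
   [1,2,3,4,0,8,7,6,5],
   [1,2,3,4,5,0,8,7,6],
   [2,0,1,4,3],
   [2,0,1,4,5],
   [2,0,1,4,5,6],
   [2,0,1,5,4,3],
   [2,0,1,5,6],
   [2,0,4,3],
   [2,0,8,7,6,5],
   [2,0,8,7,6,5,1,4,3],
   [2,1,0,8,7,6,5],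
   [2,1,4,0,8,7,6],
   [2,3,4,0,1,5,6,7,8],
   [2,3,4,1,0,8,7,6,5],
   [2,3,4,1,5,0,8,7,6],
   [3,2,0,1,4,5],
   [3,2,0,1,4,5,6],
   [3,2,0,1,4,5,6,7,8],
   [3,2,0,1,5],
   [3,2,0,1,5,6],
   [3,2,0,5,6],
   [3,2,0,8,7,6,5],
   [3,2,1,4,0,8,7,6,5],
   [3,2,1,4,5,0,8,7,6],
   [4,3,2,1,0,8,7,6,5],
   [4,3,2,1,5,0,8,7,6],
   [5,1,0,8,7,6],
   [5,1,2,0,8,7,6],
   [5,1,2,3,4,0,8,7,6]]

/-- Labels for the pattern E5. -/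
def labE5 (i : ℕ) : ℕ := ([0,0,0,0,1,1,1,2,0] : List ℕ).getD i 0

theorem excE5 (S : ExcSetup G Q [true, true, true, false, true, true, false, false, false] 9 v I)
    (hq : Q.card = 5) : ∃ T, Indep G T ∧ 10 ≤ T.card :=
  S.overlap_of_tbl_I hq (by omega) labE5 (b := 3) (by omega) certE5 (by decide +kernel)
    [1,2,3] [5,6] (by decide) (by decide) (by decide) (by decide +kernel) (by decide +kernel)
    (by simp) (by simp)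

/-- Certificates for the pattern E6. -/
def certE6 : List (List ℕ) :=
  [[0,1,2,3,4,5,6,7,8,9],
   [0,9,8,7,6,5,1,2,3,4],
   [0,9,8,7,6,5,1,2,4,3],
   [0,9,8,7,6,5,1,3,4,2],
   [0,9,8,7,6,5,2,3,4,1],
   [1,0,2,3],
   [1,0,2,3,4],
   [1,0,2,3,4,5,6],
   [1,0,2,3,4,5,6,7,8,9],
   [1,0,2,3,5],
   [1,0,2,4],
   [1,0,2,4,3],
   [1,0,2,5,6],
   [1,0,3,2],
   [1,0,3,4,2],
   [1,0,9,8,7,6,5],
   [1,0,9,8,7,6,5,2],
   [1,0,9,8,7,6,5,2,3,4],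
   [1,0,9,8,7,6,5,2,4,3],
   [1,0,9,8,7,6,5,3],
   [1,0,9,8,7,6,5,3,4,2],
   [1,0,9,8,7,6,5,4],
   [1,2,0,9,8,7,6,5],
   [1,2,3,0,9,8,7,6],
   [1,2,3,4,0,9,8,7,6,5],
   [1,2,3,4,5,0,9,8,7,6],
   [2,0,1,3],
   [2,0,1,3,4],
   [2,0,1,3,4,5,6],
   [2,0,1,3,4,5,6,7,8,9],
   [2,0,1,3,5],
   [2,0,1,4],
   [2,0,1,4,3],
   [2,0,1,5,6],
   [2,0,9,8,7,6,5],
   [2,0,9,8,7,6,5,1,3,4],
   [2,0,9,8,7,6,5,1,4,3],
   [2,0,9,8,7,6,5,3],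
   [2,0,9,8,7,6,5,4],
   [2,1,0,9,8,7,6,5],
   [2,1,3,0,9,8,7,6],
   [2,1,3,4,0,9,8,7,6,5],
   [2,1,3,4,5,0,9,8,7,6],
   [3,0,1,2,4],
   [3,0,1,2,4,5,6],
   [3,0,1,2,4,5,6,7,8,9],
   [3,0,1,2,5],
   [3,0,1,4],
   [3,0,1,5,6],
   [3,0,9,8,7,6,5],
   [3,0,9,8,7,6,5,1,2,4],
   [3,0,9,8,7,6,5,4],
   [3,1,0,9,8,7,6,5],
   [3,1,2,0,9,8,7,6],
   [3,1,2,4,0,9,8,7,6,5],
   [3,1,2,4,5,0,9,8,7,6],
   [4,0,1,2,3,5,6],
   [4,0,1,2,3,5,6,7,8,9],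
   [4,0,1,2,5],
   [4,0,1,5,6],
   [4,0,9,8,7,6,5],
   [4,1,0,9,8,7,6,5],
   [4,1,2,0,9,8,7,6],
   [4,1,2,3,0,9,8,7,6,5],
   [4,1,2,3,5,0,9,8,7,6],
   [5,1,0,9,8,7,6],
   [5,1,2,0,9,8,7,6],
   [5,1,2,3,4,0,9,8,7,6],
   [7,6,5,1,2,3,4,0,9,8]]

/-- Labels for the pattern E6. -/
def labE6 (i : ℕ) : ℕ := ([0,0,0,0,0,1,1,2,2,0] : List ℕ).getD i 0

theorem excE6 (S : ExcSetup G Q [true, true, true, true, true, true, false, false, false, false] 10 v I)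
    (hq : Q.card = 6) : ∃ T, Indep G T ∧ 11 ≤ T.card :=
  S.conflict_of_tbl_I hq (by omega) labE6 (b := 3) (by omega) certE6 (by decide +kernel)
    [1,2,3,4] [5,6] (by decide) (by decide) (by decide) (by decide +kernel) (by decide +kernel)
    (by simp) (by simp)

/-- Certificates for the pattern E7. -/
def certE7 : List (List ℕ) :=
  [[0,1,2,3,4,5,6,7,8,9,10],
   [0,10,9,8,7,6,5,1,2,3,4],
   [0,10,9,8,7,6,5,1,2,4,3],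
   [0,10,9,8,7,6,5,1,3,4,2],
   [0,10,9,8,7,6,5,2,3,4,1],
   [1,0,2,3,4],
   [1,0,2,3,4,5],
   [1,0,2,3,4,5,6,7,8,9,10],
   [1,0,2,3,5,4],
   [1,0,2,3,5,6],
   [1,0,2,4,3],
   [1,0,2,4,5,3],
   [1,0,3,4,2],
   [1,0,3,4,5,2],
   [1,0,10,9,8,7,6,5],
   [1,0,10,9,8,7,6,5,2],
   [1,0,10,9,8,7,6,5,2,3,4],
   [1,0,10,9,8,7,6,5,2,4,3],
   [1,0,10,9,8,7,6,5,3],
   [1,0,10,9,8,7,6,5,3,4,2],
   [1,0,10,9,8,7,6,5,4],
   [1,2,0,10,9,8,7,6],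
   [1,2,0,10,9,8,7,6,5],
   [1,2,3,0,10,9,8,7,6],
   [1,2,3,4,0,10,9,8,7,6,5],
   [1,2,3,4,5,0,10,9,8,7,6],
   [2,0,1,3,4],
   [2,0,1,3,4,5],
   [2,0,1,3,4,5,6,7,8,9,10],
   [2,0,1,3,5,4],
   [2,0,1,3,5,6],
   [2,0,1,4,3],
   [2,0,1,4,5,3],
   [2,0,10,9,8,7,6,5],
   [2,0,10,9,8,7,6,5,1,3,4],
   [2,0,10,9,8,7,6,5,1,4,3],
   [2,0,10,9,8,7,6,5,3],
   [2,0,10,9,8,7,6,5,4],
   [2,1,0,10,9,8,7,6],
   [2,1,0,10,9,8,7,6,5],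
   [2,1,3,0,10,9,8,7,6],
   [2,1,3,4,0,10,9,8,7,6,5],
   [2,1,3,4,5,0,10,9,8,7,6],
   [3,0,1,2,4],
   [3,0,1,2,4,5],
   [3,0,1,2,4,5,6,7,8,9,10],
   [3,0,1,2,5,4],
   [3,0,1,2,5,6],
   [3,0,10,9,8,7,6,5],
   [3,0,10,9,8,7,6,5,1,2,4],
   [3,0,10,9,8,7,6,5,4],
   [3,1,0,10,9,8,7,6],
   [3,1,0,10,9,8,7,6,5],
   [3,1,2,0,10,9,8,7,6],
   [3,1,2,4,0,10,9,8,7,6,5],
   [3,1,2,4,5,0,10,9,8,7,6],
   [4,0,1,2,3,5],
   [4,0,1,2,3,5,6,7,8,9,10],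
   [4,0,1,2,5,6],
   [4,0,10,9,8,7,6,5],
   [4,1,0,10,9,8,7,6],
   [4,1,0,10,9,8,7,6,5],
   [4,1,2,0,10,9,8,7,6],
   [4,1,2,3,0,10,9,8,7,6,5],
   [4,1,2,3,5,0,10,9,8,7,6],
   [5,1,0,10,9,8,7,6],
   [5,1,2,0,10,9,8,7,6],
   [5,1,2,3,4,0,10,9,8,7,6],
   [7,6,5,1,2,3,4,0,10,9,8]]

/-- Labels for the pattern E7. -/
def labE7 (i : ℕ) : ℕ := ([0,0,0,0,0,1,1,2,2,3,0] : List ℕ).getD i 0

theorem excE7 (S : ExcSetup G Q [true, true, true, true, true, true, false, false, false, false, false] 11 v I)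
    (hq : Q.card = 6) : ∃ T, Indep G T ∧ 12 ≤ T.card :=
  S.conflict_of_tbl_I hq (by omega) labE7 (b := 4) (by omega) certE7 (by decide +kernel)
    [1,2,3,4] [5,6] (by decide) (by decide) (by decide) (by decide +kernel) (by decide +kernel)
    (by simp) (by simp)

/-- Certificates for the pattern E8a. -/
def certE8a : List (List ℕ) :=
  [[0,1,2,3,4,5,6,7,8,9,10],
   [0,10,9,8,7,6,1,2,3,5,4],
   [0,10,9,8,7,6,1,2,5,4,3],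
   [0,10,9,8,7,6,1,3,4,5,2],
   [0,10,9,8,7,6,2,3,4,5,1],
   [1,0,2,3,4],
   [1,0,2,3,4,5,6,7],
   [1,0,2,3,4,5,6,7,8,9,10],
   [1,0,2,3,5,4],
   [1,0,2,3,5,6],
   [1,0,2,3,6,7],
   [1,0,2,5,3],
   [1,0,2,5,4,3],
   [1,0,3,4,5,2],
   [1,0,3,5,2],
   [1,0,10,9,8,7,6,2,3],
   [1,0,10,9,8,7,6,2,3,5,4],
   [1,0,10,9,8,7,6,2,5,4,3],
   [1,0,10,9,8,7,6,3,2],
   [1,0,10,9,8,7,6,3,4],
   [1,0,10,9,8,7,6,3,4,5,2],
   [1,2,0,10,9,8,7,6],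
   [1,2,3,0,10,9,8,7,6],
   [1,2,3,4,5,0,10,9,8,7,6],
   [1,2,3,4,5,6,0,10,9,8,7],
   [1,2,3,5,0,10,9,8,7],
   [2,0,1,3,4],
   [2,0,1,3,4,5,6,7],
   [2,0,1,3,4,5,6,7,8,9,10],
   [2,0,1,3,5,4],
   [2,0,1,3,5,6],
   [2,0,1,3,6,7],
   [2,0,1,5,3],
   [2,0,1,5,4,3],
   [2,0,10,9,8,7,6,1,3],
   [2,0,10,9,8,7,6,1,3,5,4],
   [2,0,10,9,8,7,6,1,5,4,3],
   [2,0,10,9,8,7,6,3,4],
   [2,1,0,10,9,8,7,6],
   [2,1,3,0,10,9,8,7,6],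
   [2,1,3,4,5,0,10,9,8,7,6],
   [2,1,3,4,5,6,0,10,9,8,7],
   [2,1,3,5,0,10,9,8,7],
   [3,0,1,2,5,4],
   [3,0,1,2,5,6],
   [3,0,1,2,6,7],
   [3,0,1,5,4],
   [3,0,10,9,8,7,6,1,2,5,4],
   [3,0,10,9,8,7,6,5,4],
   [3,1,0,10,9,8,7,6],
   [3,1,2,0,10,9,8,7],
   [3,1,2,0,10,9,8,7,6],
   [3,1,2,5,0,10,9,8,7],
   [3,4,5,0,1,2,6,7,8,9,10],
   [3,4,5,1,2,0,10,9,8,7,6],
   [3,4,5,1,2,6,0,10,9,8,7],
   [4,3,0,1,2,5,6,7],
   [4,3,0,1,2,5,6,7,8,9,10],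
   [4,3,0,1,2,6],
   [4,3,0,1,6,7],
   [4,3,0,10,9,8,7,6],
   [4,3,1,0,10,9,8,7,6],
   [4,3,1,2,0,10,9,8,7],
   [4,3,1,2,5,0,10,9,8,7,6],
   [4,3,1,2,5,6,0,10,9,8,7],
   [5,4,3,1,2,0,10,9,8,7,6],
   [5,4,3,1,2,6,0,10,9,8,7],
   [6,1,2,0,10,9,8,7],
   [6,1,2,3,0,10,9,8,7],
   [6,1,2,3,4,5,0,10,9,8,7],
   [8,7,6,1,2,3,4,5,0,10,9]]

/-- Labels for the pattern E8a. -/
def labE8a (i : ℕ) : ℕ := ([0,0,0,0,0,1,1,1,2,2,0] : List ℕ).getD i 0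

theorem excE8a (S : ExcSetup G Q [true, true, true, true, false, true, true, false, false, false, false] 11 v I)
    (hq : Q.card = 6) : ∃ T, Indep G T ∧ 12 ≤ T.card :=
  S.conflict_of_tbl_I hq (by omega) labE8a (b := 3) (by omega) certE8a (by decide +kernel)
    [1,2,3,4] [6,7] (by decide) (by decide) (by decide) (by decide +kernel) (by decide +kernel)
    (by simp) (by simp)

/-- Certificates for the pattern E8b. -/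
def certE8b : List (List ℕ) :=
  [[0,1,2,3,4,5,6,7,8,9,10],
   [0,10,9,8,7,6,1,2,3,4,5],
   [0,10,9,8,7,6,1,2,5,4,3],
   [0,10,9,8,7,6,1,5,4,3,2],
   [0,10,9,8,7,6,2,3,4,5,1],
   [1,0,2,3,4,5],
   [1,0,2,3,4,5,6,7],
   [1,0,2,3,4,5,6,7,8,9,10],
   [1,0,2,3,4,6],
   [1,0,2,4,3],
   [1,0,2,4,5],
   [1,0,2,4,6,7],
   [1,0,2,5,4,3],
   [1,0,4,3,2],
   [1,0,4,5,6,2],
   [1,0,10,9,8,7,6,2,3],
   [1,0,10,9,8,7,6,2,3,4,5],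
   [1,0,10,9,8,7,6,2,5],
   [1,0,10,9,8,7,6,2,5,4,3],
   [1,0,10,9,8,7,6,4,2],
   [1,0,10,9,8,7,6,5,4,3,2],
   [1,2,0,10,9,8,7,6],
   [1,2,3,4,0,10,9,8,7],
   [1,2,3,4,5,0,10,9,8,7,6],
   [1,2,3,4,5,6,0,10,9,8,7],
   [1,2,4,0,10,9,8,7,6],
   [2,0,1,4,3],
   [2,0,1,4,5],
   [2,0,1,4,5,6],
   [2,0,1,4,6,5],
   [2,0,1,4,6,7],
   [2,0,1,5,4,3],
   [2,0,10,9,8,7,6,1,5],
   [2,0,10,9,8,7,6,1,5,4,3],
   [2,0,10,9,8,7,6,4,3],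
   [2,1,0,10,9,8,7,6],
   [2,1,4,0,10,9,8,7],
   [2,1,4,0,10,9,8,7,6],
   [2,1,4,5,0,10,9,8,7],
   [2,3,4,0,1,5,6,7,8,9,10],
   [2,3,4,0,10,9,8,7,6,1,5],
   [2,3,4,1,5,0,10,9,8,7,6],
   [2,3,4,1,5,6,0,10,9,8,7],
   [3,2,0,1,4,5],
   [3,2,0,1,4,5,6,7],
   [3,2,0,1,4,5,6,7,8,9,10],
   [3,2,0,1,4,6],
   [3,2,0,1,5],
   [3,2,0,1,6,7],
   [3,2,0,10,9,8,7,6],
   [3,2,0,10,9,8,7,6,1,4,5],
   [3,2,0,10,9,8,7,6,5],
   [3,2,1,0,10,9,8,7,6],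
   [3,2,1,4,0,10,9,8,7],
   [3,2,1,4,5,0,10,9,8,7,6],
   [3,2,1,4,5,6,0,10,9,8,7],
   [4,3,2,1,5,0,10,9,8,7,6],
   [4,3,2,1,5,6,0,10,9,8,7],
   [5,0,1,2,3,4,6,7],
   [5,0,1,2,3,4,6,7,8,9,10],
   [5,0,1,2,4,6],
   [5,0,1,2,6,7],
   [5,1,0,10,9,8,7,6],
   [5,1,2,0,10,9,8,7,6],
   [5,1,2,3,4,0,10,9,8,7,6],
   [5,1,2,3,4,6,0,10,9,8,7],
   [5,1,2,4,0,10,9,8,7],
   [6,1,2,0,10,9,8,7],
   [6,1,2,3,4,5,0,10,9,8,7],
   [6,1,2,4,0,10,9,8,7],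
   [8,7,6,1,2,3,4,5,0,10,9]]

/-- Labels for the pattern E8b. -/
def labE8b (i : ℕ) : ℕ := ([0,0,0,0,1,0,1,1,2,2,0] : List ℕ).getD i 0

theorem excE8b (S : ExcSetup G Q [true, true, true, false, true, true, true, false, false, false, false] 11 v I)
    (hq : Q.card = 6) : ∃ T, Indep G T ∧ 12 ≤ T.card :=
  S.conflict_of_tbl_I hq (by omega) labE8b (b := 3) (by omega) certE8b (by decide +kernel)
    [1,2,3,5] [6,7] (by decide) (by decide) (by decide) (by decide +kernel) (by decide +kernel)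
    (by simp) (by simp)

end Crest.Agent.CycleRamsey
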