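import Crest.Agent.Lib.CycleRamsey.Ears

/-!
# Big clique, main range (row 54, S0075; helper56 #1763, helper20 #1811)

`δ ≥ k`, no `C_{k+1}`, `Q` a maximum clique, `q ≥ 5`, `2q ≥ k+3`, `q ≠ k`: there is an independent set of
size `k+1`.  `Z` a longest cycle through `Q` of length `≤ k`; the units are the predecessors of `Q` on `Z`.
-/

set_option autoImplicit false
set_option linter.unusedSectionVars false
set_option linter.unusedVariables false

noncomputable section

open Finset
open Crest.Agent.Lib.CycleRamsey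

namespace Crest.Agent.CycleRamsey.ListCyc

variable {V : Type} [Fintype V] [DecidableEq V] {G : SimpleGraph V}

/-- Remove repetitions from a path with fixed ends. -/
lemma dedupe : ∀ (g : List V), g ≠ [] → ∀ a b : V, (a :: (g ++ [b])).IsChain G.Adj →
    ∃ g' : List V, g' ≠ [] ∧ g'.Nodup ∧ (∀ x ∈ g', x ∈ g) ∧ g'.length ≤ g.length ∧
      (a :: (g' ++ [b])).IsChain G.Adj := by
  intro g
  induction g with
  | nil => intro h; exact absurd rfl h
  | cons x g ih =>
    intro _ a b hc
    have hc' : (a :: x :: (g ++ [b])).IsChain G.Adj := by simpa using hc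
    rw [List.isChain_cons_cons] at hc'
    obtain ⟨hax, hc1⟩ := hc'
    by_cases hgne : g = []
    · subst hgne
      exact ⟨[x], by simp, by simp, by simp, by simp, by
        simpa [List.isChain_cons_cons] using ⟨hax, by simpa using hc1⟩⟩
    · obtain ⟨g1, h1, h2, h3, h4, h5⟩ := ih hgne x b hc1
      by_cases hx : x ∈ g1
      · obtain ⟨P, C, rfl⟩ := List.append_of_mem hx
        refine ⟨x :: C, by simp, ?_, ?_, ?_, ?_⟩
        · exact (List.nodup_append.1 h2).2.1
        · intro y hy
          exact List.mem_cons_of_mem _ (h3 y (List.mem_append_right _ hy))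
        · simp only [List.length_append, List.length_cons] at h4 ⊢
          omega
        · have h6 : (x :: (C ++ [b])).IsChain G.Adj := by
            have h7 : (x :: ((P ++ x :: C) ++ [b])) = (x :: P) ++ (x :: (C ++ [b])) := by simp
            rw [h7] at h5
            exact h5.right_of_append
          have h8 : (a :: ((x :: C) ++ [b])) = a :: x :: (C ++ [b]) := by simp
          rw [h8, List.isChain_cons_cons]
          exact ⟨hax, h6⟩
      · refine ⟨x :: g1, by simp, List.nodup_cons.2 ⟨hx, h2⟩, ?_, ?_, ?_⟩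
        · intro y hy
          rcases List.mem_cons.1 hy with rfl | hy
          · exact List.mem_cons_self
          · exact List.mem_cons_of_mem _ (h3 y hy)
        · simp only [List.length_cons]
          omega
        · have h8 : (a :: ((x :: g1) ++ [b])) = a :: x :: (g1 ++ [b]) := by simp
          rw [h8, List.isChain_cons_cons]
          exact ⟨hax, h5⟩

lemma adj_of_chain_path {a b : V} {g : List V} (hne : g ≠ []) (hc : (a :: (g ++ [b])).IsChain G.Adj) :
    g.IsChain G.Adj ∧ G.Adj a (g.head hne) ∧ G.Adj (g.getLast hne) b := by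
  cases g with
  | nil => exact absurd rfl hne
  | cons x m =>
    have h1 : (a :: x :: (m ++ [b])).IsChain G.Adj := by simpa using hc
    rw [List.isChain_cons_cons] at h1
    have h3 : ((x :: m) ++ [b]).IsChain G.Adj := by simpa using h1.2
    refine ⟨h3.left_of_append, by simpa using h1.1, ?_⟩
    exact h3.rel_getLast_head_of_append (by simp) (by simp)

section main

variable {Q : Finset V} {k r : ℕ}

/-- A clique list is a cycle. -/
lemma cycL_of_clique (hQ : ∀ x ∈ Q, ∀ y ∈ Q, x ≠ y → G.Adj x y) (h3 : 3 ≤ Q.card) : CycL G Q.toList := by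
  have hl : Q.toList.length = Q.card := Q.length_toList
  have hnd := Q.nodup_toList
  refine ⟨hnd, by omega, ?_⟩
  rw [cycChain_iff]
  constructor
  · apply List.Pairwise.isChain
    refine hnd.imp_of_mem ?_
    intro a b ha hb hab
    exact hQ a (by simpa using ha) b (by simpa using hb) hab
  · intro x hx y hy
    have hne : Q.toList ≠ [] := by
      intro h0
      rw [h0] at hl
      simp at hl
      omega
    rw [List.getLast?_eq_some_getLast hne] at hx
    rw [List.head?_eq_some_head hne] at hy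
    obtain rfl := Option.some.inj hx
    obtain rfl := Option.some.inj hy
    refine hQ _ (Finset.mem_toList.1 (List.getLast_mem hne)) _ (Finset.mem_toList.1 (List.head_mem hne)) ?_
    intro heq
    rw [List.head_eq_getElem hne, List.getLast_eq_getElem hne] at heq
    have := (List.Nodup.getElem_inj_iff hnd).1 heq
    omega

/-- A longest cycle through `Q` of length at most `k`. -/
structure LongZ (G : SimpleGraph V) (Q : Finset V) (k : ℕ) (Z : List V) : Prop where
  cyc : CycL G Z
  sub : ∀ x ∈ Q, x ∈ Z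
  le : Z.length ≤ k
  max : ∀ Z', CycL G Z' → (∀ x ∈ Q, x ∈ Z') → Z'.length ≤ k → Z'.length ≤ Z.length

lemma exists_longZ (hQ : ∀ x ∈ Q, ∀ y ∈ Q, x ≠ y → G.Adj x y) (h3 : 3 ≤ Q.card) (hqk : Q.card ≤ k) :
    ∃ Z, LongZ G Q k Z := by
  classical
  let P : ℕ → Prop := fun n => ∃ Z, CycL G Z ∧ (∀ x ∈ Q, x ∈ Z) ∧ Z.length = n
  have hP : P Q.card := ⟨Q.toList, cycL_of_clique hQ h3, by simp, Q.length_toList⟩
  have hspec := Nat.findGreatest_spec (P := P) hqk hP
  obtain ⟨Z, h1, h2, h4⟩ := hspec
  have hle : Nat.findGreatest P k ≤ k := Nat.findGreatest_le k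
  refine ⟨Z, h1, h2, by omega, ?_⟩
  intro Z' h5 h6 h7
  rw [h4]
  exact Nat.le_findGreatest h7 ⟨Z', h5, h6, rfl⟩

variable (hQ : ∀ x ∈ Q, ∀ y ∈ Q, x ≠ y → G.Adj x y) (hno : ¬ HasCycle G (k + 1))
  (hk : k = Q.card + r) (hq : r + 3 ≤ Q.card) {Z : List V} (hZ : LongZ G Q k Z)

include hQ hno hk hq hZ in
/-- CLAIM 1. No short path between distinct units outside `Z`. -/
theorem no_short_path {u v u' v' : V} (hu : u ∈ Q) (hu' : u' ∈ Q) (hs : IsSucc Z v u) (hs' : IsSucc Z v' u')
    (hne : v ≠ v') (g : List V) (hg : g ≠ []) (hout : ∀ x ∈ g, x ∉ Z) (hlen : g.length + 1 ≤ Q.card)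
    (hc : (v :: (g ++ [v'])).IsChain G.Adj) : False := by
  obtain ⟨g1, h1, h2, h3, h4, h5⟩ := dedupe g hg v v' hc
  obtain ⟨gch, gh, gl⟩ := adj_of_chain_path h1 h5
  have huu : u ≠ u' := by
    rintro rfl
    exact hne (hs.left_unique hZ.cyc.nodup hs')
  obtain ⟨Z', hZ', hmem, hl⟩ := crossing hZ.cyc hs hs' hne (hQ u hu u' hu' huu) g1 h1 h2 gch gh gl
    (fun x hx => hout x (h3 x hx))
  have hg1 : 1 ≤ g1.length := List.length_pos_iff.2 h1
  have hsub : ∀ x ∈ Q, x ∈ Z' := fun x hx => (hmem x).2 (Or.inl (hZ.sub x hx))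
  by_cases hle : Z'.length ≤ k
  · have := hZ.max Z' hZ' hsub hle
    omega
  · apply hno
    have hle' := hZ.le
    exact ear_lemma hQ hZ' hsub hk hq (by omega) (by omega)

/-- The exits of a vertex. -/
def exits (G : SimpleGraph V) (Z : List V) (v : V) : Finset V :=
  by classical exact univ.filter (fun y => G.Adj v y ∧ y ∉ Z)

lemma mem_exits {v y : V} : y ∈ exits G Z v ↔ G.Adj v y ∧ y ∉ Z := by
  classical
  simp [exits]

/-- The exits of a vertex and their neighbours outside `Z`. -/
def tBall (G : SimpleGraph V) (Z : List V) (v : V) : Finset V :=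
  by classical exact univ.filter (fun x => x ∉ Z ∧ (G.Adj v x ∨ ∃ y, G.Adj v y ∧ y ∉ Z ∧ G.Adj y x))

lemma mem_tBall {v x : V} : x ∈ tBall G Z v ↔ x ∉ Z ∧ (G.Adj v x ∨ ∃ y, G.Adj v y ∧ y ∉ Z ∧ G.Adj y x) := by
  classical
  simp [tBall]

lemma exits_subset_tBall {v : V} : exits G Z v ⊆ tBall G Z v := by
  intro y hy
  obtain ⟨h1, h3⟩ := mem_exits.1 hy
  exact mem_tBall.2 ⟨h3, Or.inl h1⟩

/-- Every vertex has an exit, when its degree exceeds the length of `Z`. -/
lemma exits_nonempty (hdeg : ∀ v, k ≤ (nbrs G v).card) (hle : Z.length ≤ k) (hnd : Z.Nodup) (v : V) (hv : v ∈ Z) :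
    (exits G Z v).Nonempty := by
  by_contra hn
  have hsub : nbrs G v ⊆ Z.toFinset.erase v := by
    intro y hy
    have hadj := mem_nbrs.1 hy
    have hyZ : y ∈ Z := by
      by_contra hyZ
      exact hn ⟨y, mem_exits.2 ⟨hadj, hyZ⟩⟩
    exact Finset.mem_erase.2 ⟨hadj.ne', List.mem_toFinset.2 hyZ⟩
  have h1 := Finset.card_le_card hsub
  rw [Finset.card_erase_of_mem (List.mem_toFinset.2 hv), List.toFinset_card_of_nodup hnd] at h1
  have h2' := hdeg v
  have : 0 < Z.length := List.length_pos_of_mem hv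
  omega

include hQ hno hk hq hZ in
/-- The balls of distinct units are disjoint and anticomplete. -/
theorem tBall_sep (h5 : 5 ≤ Q.card) {u v u' v' : V} (hu : u ∈ Q) (hu' : u' ∈ Q) (hs : IsSucc Z v u) (hs' : IsSucc Z v' u')
    (hne : v ≠ v') {x x' : V} (hx : x ∈ tBall G Z v) (hx' : x' ∈ tBall G Z v') (h : x = x' ∨ G.Adj x x') : False := by
  obtain ⟨hxZ, hx1⟩ := mem_tBall.1 hx
  obtain ⟨hxZ', hx2⟩ := mem_tBall.1 hx'
  have key := fun (g : List V) (hg : g ≠ []) (hout : ∀ a ∈ g, a ∉ Z) (hlen : g.length + 1 ≤ Q.card)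
    (hc : (v :: (g ++ [v'])).IsChain G.Adj) => no_short_path hQ hno hk hq hZ hu hu' hs hs' hne g hg hout hlen hc
  rcases h with rfl | hadj
  · rcases hx1 with h1 | ⟨y, h1, hy, h3⟩ <;> rcases hx2 with h2' | ⟨y', h2', hy', h4⟩
    · exact key [x] (by simp) (by simpa using hxZ) (by simp; omega) (by simp [List.isChain_cons_cons, h1, h2'.symm])
    · exact key [x, y'] (by simp) (by simp [hxZ, hy']) (by simp; omega)
        (by simp [List.isChain_cons_cons, h1, h4.symm, h2'.symm])
    · exact key [y, x] (by simp) (by simp [hxZ, hy]) (by simp; omega)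
        (by simp [List.isChain_cons_cons, h1, h3, h2'.symm])
    · exact key [y, x, y'] (by simp) (by simp [hxZ, hy, hy']) (by simp; omega)
        (by simp [List.isChain_cons_cons, h1, h3, h4.symm, h2'.symm])
  · rcases hx1 with h1 | ⟨y, h1, hy, h3⟩ <;> rcases hx2 with h2' | ⟨y', h2', hy', h4⟩
    · exact key [x, x'] (by simp) (by simp [hxZ, hxZ']) (by simp; omega)
        (by simp [List.isChain_cons_cons, h1, hadj, h2'.symm])
    · exact key [x, x', y'] (by simp) (by simp [hxZ, hxZ', hy']) (by simp; omega)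
        (by simp [List.isChain_cons_cons, h1, hadj, h4.symm, h2'.symm])
    · exact key [y, x, x'] (by simp) (by simp [hxZ, hxZ', hy]) (by simp; omega)
        (by simp [List.isChain_cons_cons, h1, h3, hadj, h2'.symm])
    · exact key [y, x, x', y'] (by simp) (by simp [hxZ, hxZ', hy, hy']) (by simp; omega)
        (by simp [List.isChain_cons_cons, h1, h3, hadj, h4.symm, h2'.symm])

/-- The units of `Z`. -/
def units (Q : Finset V) (Z : List V) : Finset V :=
  by classical exact Z.toFinset.filter (fun v => ∃ u ∈ Q, IsSucc Z v u)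

lemma mem_units {v : V} : v ∈ units Q Z ↔ ∃ u ∈ Q, IsSucc Z v u := by
  classical
  simp only [units, Finset.mem_filter, List.mem_toFinset]
  constructor
  · exact fun h => h.2
  · intro h
    obtain ⟨u, hu, hs⟩ := h
    exact ⟨hs.mem_left, u, hu, hs⟩

lemma card_units (hZc : CycL G Z) (hsub : ∀ x ∈ Q, x ∈ Z) : (units Q Z).card = Q.card := by
  classical
  have h2' : 2 ≤ Z.length := by have := hZc.three; omega
  have hp : ∀ u : V, ∃ v : V, u ∈ Q → IsSucc Z v u := by
    intro u
    by_cases hu : u ∈ Q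
    · obtain ⟨v, hv⟩ := exists_pred h2' (hsub u hu)
      exact ⟨v, fun _ => hv⟩
    · obtain ⟨x, hx⟩ : ∃ x, x ∈ Z := List.exists_mem_of_length_pos (by omega)
      exact ⟨x, fun h => absurd h hu⟩
  choose pre hpre using hp
  have himg : units Q Z = Q.image pre := by
    ext v
    rw [mem_units, Finset.mem_image]
    constructor
    · rintro ⟨u, hu, hs⟩
      exact ⟨u, hu, (hpre u hu).left_unique hZc.nodup hs⟩
    · rintro ⟨u, hu, rfl⟩
      exact ⟨u, hu, hpre u hu⟩
  rw [himg, Finset.card_image_of_injOn]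
  intro a ha b hb hab
  have h1 := hpre a (Finset.mem_coe.1 ha)
  have h3 := hpre b (Finset.mem_coe.1 hb)
  rw [hab] at h1
  exact h1.right_unique hZc.nodup h3

/-- The non-units of `Z`. -/
def nonUnits (Q : Finset V) (Z : List V) : Finset V := Z.toFinset \ units Q Z

lemma card_nonUnits (hZc : CycL G Z) (hsub : ∀ x ∈ Q, x ∈ Z) : (nonUnits Q Z).card + Q.card = Z.length := by
  have h1 : units Q Z ⊆ Z.toFinset := by
    intro v hv
    obtain ⟨u, _, hs⟩ := mem_units.1 hv
    exact List.mem_toFinset.2 hs.mem_left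
  have := Finset.card_sdiff_add_card_eq_card h1
  rw [card_units hZc hsub, List.toFinset_card_of_nodup hZc.nodup] at this
  exact this

variable (hmax : ∀ K : Finset V, (∀ x ∈ K, ∀ y ∈ K, x ≠ y → G.Adj x y) → K.card ≤ Q.card)
  (hdeg : ∀ v, k ≤ (nbrs G v).card)

/-- A type-C unit: its ball is a clique. -/
def TypeC (G : SimpleGraph V) (Z : List V) (v : V) : Prop :=
  ∀ x ∈ tBall G Z v, ∀ y ∈ tBall G Z v, x ≠ y → G.Adj x y

include hQ hno hk hq hZ hmax hdeg in
/-- LEMMA C (i). For `w` an exit of a type-C unit `v`: `Z` has length `k`, `w` is adjacent to all non-units. -/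
theorem typeC_exit (h5 : 5 ≤ Q.card) {v : V} (hv : v ∈ units Q Z) (hC : TypeC G Z v) {w : V}
    (hw : w ∈ exits G Z v) : Z.length = k ∧ ∀ x ∈ nonUnits Q Z, G.Adj w x := by
  classical
  obtain ⟨u, hu, hs⟩ := mem_units.1 hv
  obtain ⟨hvw, hwZ⟩ := mem_exits.1 hw
  have hcardN := card_nonUnits hZ.cyc hZ.sub
  -- neighbours of `w` in `Z`
  set A := Z.toFinset.filter (fun x => G.Adj w x) with hA
  have hA1 : A ⊆ insert v (nonUnits Q Z) := by
    intro x hx
    obtain ⟨hxZ, hadj⟩ := Finset.mem_filter.1 hx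
    by_cases hxv : x = v
    · rw [hxv]
      exact Finset.mem_insert_self _ _
    · refine Finset.mem_insert_of_mem ?_
      refine Finset.mem_sdiff.2 ⟨hxZ, ?_⟩
      intro hxu
      obtain ⟨u', hu', hs'⟩ := mem_units.1 hxu
      refine no_short_path hQ hno hk hq hZ hu hu' hs hs' (Ne.symm hxv) [w] (by simp) (by simpa using hwZ)
        (by simp; omega) ?_
      simp [List.isChain_cons_cons, hvw, hadj]
  have hvnot : v ∉ nonUnits Q Z := fun h => (Finset.mem_sdiff.1 h).2 hv
  have hA2 : A.card ≤ (nonUnits Q Z).card + 1 := by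
    have := Finset.card_le_card hA1
    rw [Finset.card_insert_of_notMem hvnot] at this
    exact this
  -- the ball has at most `q` vertices
  have hT : (tBall G Z v).card ≤ Q.card := hmax _ hC
  have hwT : w ∈ tBall G Z v := exits_subset_tBall hw
  have hN : nbrs G w ⊆ A ∪ (tBall G Z v).erase w := by
    intro x hx
    have hadj := mem_nbrs.1 hx
    by_cases hxZ : x ∈ Z
    · exact Finset.mem_union_left _ (Finset.mem_filter.2 ⟨List.mem_toFinset.2 hxZ, hadj⟩)
    · refine Finset.mem_union_right _ (Finset.mem_erase.2 ⟨hadj.ne', ?_⟩)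
      exact mem_tBall.2 ⟨hxZ, Or.inr ⟨w, hvw, hwZ, hadj⟩⟩
  have hcount : k ≤ A.card + (tBall G Z v).card - 1 := by
    have h1 := Finset.card_le_card hN
    have h3 := Finset.card_union_le A ((tBall G Z v).erase w)
    rw [Finset.card_erase_of_mem hwT] at h3
    have h4 := hdeg w
    have hpos : 0 < (tBall G Z v).card := Finset.card_pos.2 ⟨w, hwT⟩
    omega
  have hle := hZ.le
  have hlen : Z.length = k := by omega
  refine ⟨hlen, ?_⟩
  have hcardA : (insert v (nonUnits Q Z)).card ≤ A.card := by
    rw [Finset.card_insert_of_notMem hvnot]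
    omega
  have heq := Finset.eq_of_subset_of_card_le hA1 hcardA
  intro x hx
  have : x ∈ A := by
    rw [heq]
    exact Finset.mem_insert_of_mem hx
  exact (Finset.mem_filter.1 this).2

lemma units_mem_list {v : V} (hv : v ∈ units Q Z) : v ∈ Z := by
  obtain ⟨u, _, hs⟩ := mem_units.1 hv
  exact hs.mem_left

/-- The predecessor of a vertex with a successor outside `Q` is a non-unit. -/
lemma nonUnit_of_succ (hZc : Z.Nodup) {a n : V} (hs : IsSucc Z a n) (hn : n ∉ Q) : a ∈ nonUnits Q Z := by
  refine Finset.mem_sdiff.2 ⟨List.mem_toFinset.2 hs.mem_left, ?_⟩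
  intro ha
  obtain ⟨u, hu, hs'⟩ := mem_units.1 ha
  rw [hs.right_unique hZc hs'] at hn
  exact hn hu

include hQ hno hk hq hZ hmax hdeg in
/-- LEMMA C: a type-C unit is in `Q`. -/
theorem typeC_mem (h5 : 5 ≤ Q.card) {v : V} (hv : v ∈ units Q Z) (hC : TypeC G Z v) : v ∈ Q := by
  classical
  obtain ⟨w, hw⟩ := exits_nonempty hdeg hZ.le hZ.cyc.nodup v (units_mem_list hv)
  obtain ⟨hlen, hnon⟩ := typeC_exit hQ hno hk hq hZ hmax hdeg h5 hv hC hw
  obtain ⟨hvw, hwZ⟩ := mem_exits.1 hw
  by_contra hvQ
  have h2' : 2 ≤ Z.length := by have := hZ.cyc.three; omega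
  obtain ⟨p, hp⟩ := exists_pred h2' (units_mem_list hv)
  have hpn := nonUnit_of_succ hZ.cyc.nodup hp hvQ
  have := insert_vertex hZ.cyc hp hwZ (hnon p hpn).symm hvw.symm
  rw [hlen] at this
  exact hno this

include hQ hno in
/-- A vertex `w` off `Z`, adjacent to the end `v` of an arc and to all non-units: the arc lies in `Q`. -/
theorem arc_of_w {Z : List V} (hZc : CycL G Z) {w : V} (hwZ : w ∉ Z) (hlen : Z.length = k)
    (hnon : ∀ x ∈ nonUnits Q Z, G.Adj w x) {u v u' v' : V} (hu : u ∈ Q) (hu' : u' ∈ Q) (hs : IsSucc Z v u)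
    (hv' : v' ∈ Q) (hvw : G.Adj v w)
    {A B : List V} (hr : Z ~r A ++ B) (hA1 : A.head? = some u) (hA2 : A.getLast? = some v')
    (hB1 : B.head? = some u') (hB2 : B.getLast? = some v) : ∀ n ∈ A, n ∈ Q := by
  classical
  -- first vertex of `A` outside `Q`
  by_contra hall
  have hfirst : ∃ P n C, A = P ++ n :: C ∧ n ∉ Q ∧ ∀ a ∈ P, a ∈ Q := by
    clear hA1 hA2 hr
    induction A with
    | nil => simp at hall
    | cons a m ih =>
      by_cases ha : a ∈ Q
      · have hall' : ¬ ∀ n ∈ m, n ∈ Q := by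
          intro h
          apply hall
          intro n hn
          rcases List.mem_cons.1 hn with rfl | hn
          · exact ha
          · exact h n hn
        obtain ⟨P, n, C, e, hn, hP⟩ := ih hall'
        refine ⟨a :: P, n, C, by simp [e], hn, ?_⟩
        intro b hb
        rcases List.mem_cons.1 hb with rfl | hb
        · exact ha
        · exact hP b hb
      · exact ⟨[], a, m, rfl, ha, by simp⟩
  obtain ⟨P, n, C, rfl, hn, hP⟩ := hfirst
  -- `P` is not empty
  obtain ⟨P0, a, rfl⟩ : ∃ P0 a, P = P0 ++ [a] := by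
    rcases List.eq_nil_or_concat P with rfl | ⟨P0, a, rfl⟩
    · simp only [List.nil_append, List.head?_cons, Option.some.injEq] at hA1
      exact absurd (hA1 ▸ hu) hn
    · exact ⟨P0, a, by simp⟩
  have haQ : a ∈ Q := hP a (by simp)
  have hZ' : CycL G ((P0 ++ [a]) ++ n :: C ++ B) := hZc.rotated hr
  have hsa : IsSucc Z a n := by
    have : IsSucc ((P0 ++ [a]) ++ n :: C ++ B) a n :=
      isSucc_of_eq (A := P0) (B := C ++ B) (by simp)
    exact this.rotated hr.symm
  have hwa : G.Adj w a := hnon a (nonUnit_of_succ hZc.nodup hsa hn)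
  cases P0 with
  | nil =>
    -- `a` is the successor of `v`
    have hau : a = u := by simpa using hA1
    subst hau
    have := insert_vertex hZc hs hwZ hvw hwa
    rw [hlen] at this
    exact hno this
  | cons p0 P1 =>
    have hp0 : p0 = u := by simpa using hA1
    subst hp0
    -- the new cycle
    have hnd := hZ'.nodup
    have hch := (cycChain_iff.1 hZ'.adj).1
    have e1 : (p0 :: P1 ++ [a]) ++ n :: C ++ B = (p0 :: P1) ++ ((a :: n :: C) ++ B) := by simp
    rw [e1] at hch hnd
    have hch1 := hch.left_of_append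
    have hch2 := hch.right_of_append
    have hch3 := hch2.left_of_append
    have hch4 := hch2.right_of_append
    have hnd1 := List.nodup_append.1 hnd
    have hnd2 := List.nodup_append.1 hnd1.2.1
    have hlast : (a :: n :: C).getLast? = some v' := by
      have h3 : ((p0 :: P1 ++ [a]) ++ n :: C).getLast? = some v' := hA2
      have e2 : (p0 :: P1 ++ [a]) ++ n :: C = (p0 :: P1) ++ (a :: n :: C) := by simp
      rw [e2, List.getLast?_append_of_ne_nil _ (by simp)] at h3
      exact h3
    have hv'mem : v' ∈ a :: n :: C := List.mem_of_getLast? hlast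
    have hlast0 : ∃ p1, (p0 :: P1).getLast? = some p1 ∧ p1 ∈ Q := by
      refine ⟨(p0 :: P1).getLast (by simp), List.getLast?_eq_some_getLast _, ?_⟩
      exact hP _ (List.mem_append_left _ (List.getLast_mem _))
    obtain ⟨p1, hp1, hp1Q⟩ := hlast0
    have hp1mem : p1 ∈ p0 :: P1 := List.mem_of_getLast? hp1
    have hu'mem : u' ∈ B := List.mem_of_head? hB1
    have hvmem : v ∈ B := List.mem_of_getLast? hB2
    have hwnot : w ∉ (p0 :: P1) ++ ((a :: n :: C) ++ B) := by
      intro h
      apply hwZ
      apply hr.mem_iff.2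
      have e3 : (p0 :: P1 ++ [a] ++ n :: C) ++ B = (p0 :: P1) ++ ((a :: n :: C) ++ B) := by simp
      rw [e3]
      exact h
    have hnew : CycL G ((a :: n :: C) ++ (p0 :: P1) ++ B ++ [w]) := by
      refine ⟨?_, ?_, ?_⟩
      · have hperm : ((a :: n :: C) ++ (p0 :: P1) ++ B ++ [w]).Perm (w :: ((p0 :: P1) ++ ((a :: n :: C) ++ B))) := by
          rw [List.perm_iff_count]
          intro x
          simp only [List.count_append, List.count_cons, List.count_nil]
          omega
        rw [hperm.nodup_iff]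
        exact List.nodup_cons.2 ⟨hwnot, hnd⟩
      · simp only [List.length_append, List.length_cons, List.length_nil]
        omega
      · rw [cycChain_iff]
        constructor
        · have c1 : ((a :: n :: C) ++ (p0 :: P1)).IsChain G.Adj := by
            refine hch3.append hch1 ?_
            intro x hx y hy
            rw [hlast] at hx
            obtain rfl := Option.some.inj hx
            simp only [List.head?_cons, Option.mem_def, Option.some.injEq] at hy
            subst hy
            refine hQ _ hv' _ hu ?_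
            intro e
            exact hnd1.2.2 _ (by simp) _ (List.mem_append_left _ hv'mem) e.symm
          have c2 : ((a :: n :: C) ++ (p0 :: P1) ++ B).IsChain G.Adj := by
            refine c1.append hch4 ?_
            intro x hx y hy
            rw [List.getLast?_append_of_ne_nil _ (by simp), hp1] at hx
            obtain rfl := Option.some.inj hx
            rw [hB1] at hy
            obtain rfl := Option.some.inj hy
            refine hQ _ hp1Q _ hu' ?_
            intro e
            exact hnd1.2.2 _ hp1mem _ (List.mem_append_right _ hu'mem) e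
          refine c2.append (List.isChain_singleton _) ?_
          intro x hx y hy
          have hBne : B ≠ [] := List.ne_nil_of_mem hvmem
          rw [List.getLast?_append_of_ne_nil _ hBne, hB2] at hx
          obtain rfl := Option.some.inj hx
          simp only [List.head?_cons, Option.mem_def, Option.some.injEq] at hy
          subst hy
          exact hvw
        · intro x hx y hy
          have h7 : ((a :: n :: C) ++ (p0 :: P1) ++ B ++ [w]).getLast? = some w := by
            rw [List.getLast?_append_of_ne_nil _ (by simp)]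
            rfl
          have h8 : ((a :: n :: C) ++ (p0 :: P1) ++ B ++ [w]).head? = some a := by
            simp
          rw [h7] at hx
          rw [h8] at hy
          obtain rfl := Option.some.inj hx
          obtain rfl := Option.some.inj hy
          exact hwa
    have hcyc := hnew.hasCycle
    have hlen2 : ((a :: n :: C) ++ (p0 :: P1) ++ B ++ [w]).length = k + 1 := by
      have := hr.perm.length_eq
      simp only [List.length_append, List.length_cons, List.length_nil] at this ⊢
      omega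
    rw [hlen2] at hcyc
    exact hno hcyc

include hQ hno hk hq hZ hmax hdeg in
/-- An arc between two type-C units has no vertex outside `Q`. -/
theorem typeC_arc (h5 : 5 ≤ Q.card) {u v u' v' : V} (hu : u ∈ Q) (hu' : u' ∈ Q) (hs : IsSucc Z v u)
    (hv' : v' ∈ Q) (hne : v ≠ v') (hv : v ∈ units Q Z) (hC : TypeC G Z v)
    {A B : List V} (hr : Z ~r A ++ B) (hA1 : A.head? = some u) (hA2 : A.getLast? = some v')
    (hB1 : B.head? = some u') (hB2 : B.getLast? = some v) : ∀ n ∈ A, n ∈ Q := by
  obtain ⟨w, hw⟩ := exits_nonempty hdeg hZ.le hZ.cyc.nodup v (units_mem_list hv)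
  obtain ⟨hlen, hnon⟩ := typeC_exit hQ hno hk hq hZ hmax hdeg h5 hv hC hw
  obtain ⟨hvw, hwZ⟩ := mem_exits.1 hw
  exact arc_of_w hQ hno hZ.cyc hwZ hlen hnon hu hu' hs hv' hvw hr hA1 hA2 hB1 hB2

include hQ hno hk hq hZ hmax hdeg in
/-- LEMMA C (ii): at most one type-C unit if `r ≥ 1`. -/
theorem typeC_unique (h5 : 5 ≤ Q.card) (hr1 : 1 ≤ r) {v v' : V} (hv : v ∈ units Q Z) (hv' : v' ∈ units Q Z)
    (hC : TypeC G Z v) (hC' : TypeC G Z v') : v = v' := by
  classical
  by_contra hne
  obtain ⟨u, hu, hs⟩ := mem_units.1 hv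
  obtain ⟨u', hu', hs'⟩ := mem_units.1 hv'
  have hvQ := typeC_mem hQ hno hk hq hZ hmax hdeg h5 hv hC
  have hv'Q := typeC_mem hQ hno hk hq hZ hmax hdeg h5 hv' hC'
  obtain ⟨A, B, hr, hA1, hA2, hB1, hB2⟩ := split_units hZ.cyc.nodup hs hs' hne
  have hAQ := typeC_arc hQ hno hk hq hZ hmax hdeg h5 hu hu' hs hv'Q hne hv hC hr hA1 hA2 hB1 hB2
  have hr' : Z ~r B ++ A := hr.trans List.isRotated_append
  have hBQ := typeC_arc hQ hno hk hq hZ hmax hdeg h5 hu' hu hs' hvQ (Ne.symm hne) hv' hC' hr' hB1 hB2 hA1 hA2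
  -- so `Z` lies in `Q`
  have hsub : Z.toFinset ⊆ Q := by
    intro x hx
    have hxZ := hr.mem_iff.1 (List.mem_toFinset.1 hx)
    rcases List.mem_append.1 hxZ with h | h
    · exact hAQ x h
    · exact hBQ x h
  have h1 := Finset.card_le_card hsub
  rw [List.toFinset_card_of_nodup hZ.cyc.nodup] at h1
  obtain ⟨w, hw⟩ := exits_nonempty hdeg hZ.le hZ.cyc.nodup v (units_mem_list hv)
  obtain ⟨hlen, -⟩ := typeC_exit hQ hno hk hq hZ hmax hdeg h5 hv hC hw
  omega

include hQ hno hk hq hZ hmax hdeg in
/-- BC main: an independent set with at least `2q - 1` vertices. -/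
theorem indep_of_longZ (h5 : 5 ≤ Q.card) (hr1 : 1 ≤ r) :
    ∃ U : Finset V, G.IsIndepSet (U : Set V) ∧ 2 * Q.card ≤ U.card + 1 := by
  classical
  -- picks
  have hpick : ∀ v : V, ∃ I : Finset V, v ∈ units Q Z → I ⊆ tBall G Z v ∧ G.IsIndepSet (I : Set V) ∧
      (TypeC G Z v → 1 ≤ I.card) ∧ (¬ TypeC G Z v → 2 ≤ I.card) := by
    intro v
    by_cases hv : v ∈ units Q Z
    · by_cases hC : TypeC G Z v
      · obtain ⟨w, hw⟩ := exits_nonempty hdeg hZ.le hZ.cyc.nodup v (units_mem_list hv)
        refine ⟨{w}, fun _ => ⟨by simpa using exits_subset_tBall hw, by simp [SimpleGraph.IsIndepSet], fun _ => by simp,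
          fun h => absurd hC h⟩⟩
      · have hC' := hC
        unfold TypeC at hC'
        simp only [not_forall] at hC'
        obtain ⟨x, hx, y, hy, hxy, hadj⟩ := hC'
        refine ⟨{x, y}, fun _ => ⟨?_, ?_, ?_, ?_⟩⟩
        · intro a ha
          simp only [Finset.mem_insert, Finset.mem_singleton] at ha
          rcases ha with rfl | rfl
          · exact hx
          · exact hy
        · intro a ha b hb hab hadj'
          simp only [Finset.coe_insert, Finset.coe_singleton, Set.mem_insert_iff, Set.mem_singleton_iff] at ha hb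
          rcases ha with rfl | rfl <;> rcases hb with rfl | rfl
          · exact hab rfl
          · exact hadj hadj'
          · exact hadj hadj'.symm
          · exact hab rfl
        · intro h
          exact absurd h hC
        · intro _
          rw [Finset.card_pair hxy]
    · exact ⟨∅, fun h => absurd h hv⟩
  choose I hI using hpick
  set S := units Q Z with hS
  have hcardS : S.card = Q.card := card_units hZ.cyc hZ.sub
  -- disjointness
  have hsep : ∀ v ∈ S, ∀ v' ∈ S, v ≠ v' → ∀ x ∈ tBall G Z v, ∀ x' ∈ tBall G Z v', x ≠ x' ∧ ¬ G.Adj x x' := by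
    intro v hv v' hv' hne x hx x' hx'
    obtain ⟨u, hu, hs⟩ := mem_units.1 hv
    obtain ⟨u', hu', hs'⟩ := mem_units.1 hv'
    exact ⟨fun e => tBall_sep hQ hno hk hq hZ h5 hu hu' hs hs' hne hx hx' (Or.inl e),
      fun e => tBall_sep hQ hno hk hq hZ h5 hu hu' hs hs' hne hx hx' (Or.inr e)⟩
  refine ⟨S.biUnion I, ?_, ?_⟩
  · intro x hx y hy hxy hadj
    simp only [Finset.coe_biUnion, Set.mem_iUnion, Finset.mem_coe, exists_prop] at hx hy
    obtain ⟨v, hv, hxv⟩ := hx
    obtain ⟨v', hv', hyv⟩ := hy
    by_cases hvv : v = v'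
    · subst hvv
      exact (hI v hv).2.1 (by exact_mod_cast hxv) (by exact_mod_cast hyv) hxy hadj
    · exact (hsep v hv v' hv' hvv x ((hI v hv).1 hxv) y ((hI v' hv').1 hyv)).2 hadj
  · rw [Finset.card_biUnion]
    · -- count
      set D := S.filter (fun v => TypeC G Z v) with hD
      have hD1 : D.card ≤ 1 := by
        rw [Finset.card_le_one]
        intro a ha b hb
        obtain ⟨ha1, ha2⟩ := Finset.mem_filter.1 ha
        obtain ⟨hb1, hb2⟩ := Finset.mem_filter.1 hb
        exact typeC_unique hQ hno hk hq hZ hmax hdeg h5 hr1 ha1 hb1 ha2 hb2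
      have hsum : ∑ v ∈ S, 2 ≤ ∑ v ∈ S, ((I v).card + if TypeC G Z v then 1 else 0) := by
        refine Finset.sum_le_sum ?_
        intro v hv
        by_cases hC : TypeC G Z v
        · have := (hI v hv).2.2.1 hC
          simp only [hC, if_true]
          omega
        · have := (hI v hv).2.2.2 hC
          simp only [hC, if_false]
          omega
      rw [Finset.sum_add_distrib, Finset.sum_const, smul_eq_mul] at hsum
      have hsum2 : (∑ v ∈ S, if TypeC G Z v then 1 else 0) = D.card := by
        rw [Finset.card_filter]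
      rw [hsum2] at hsum
      omega
    · intro v hv v' hv' hne
      simp only [Function.onFun]
      rw [Finset.disjoint_left]
      intro x hx hx'
      exact (hsep v (Finset.mem_coe.1 hv) v' (Finset.mem_coe.1 hv') hne x ((hI v (Finset.mem_coe.1 hv)).1 hx) x ((hI v' (Finset.mem_coe.1 hv')).1 hx')).1 rfl

end main

/-- BIG CLIQUE, MAIN RANGE. `δ ≥ k`, no `C_{k+1}`, `Q` a maximum clique, `q ≥ 5`, `q ≥ r + 3` where `k = q + r`,
`r ≥ 1`: there is an independent set of size at least `2q - 1 ≥ k + 2`. -/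
theorem bigClique_main {Q : Finset V} {k r : ℕ} (hQ : ∀ x ∈ Q, ∀ y ∈ Q, x ≠ y → G.Adj x y)
    (hmax : ∀ K : Finset V, (∀ x ∈ K, ∀ y ∈ K, x ≠ y → G.Adj x y) → K.card ≤ Q.card)
    (hno : ¬ HasCycle G (k + 1)) (hdeg : ∀ v, k ≤ (nbrs G v).card)
    (hk : k = Q.card + r) (hq : r + 3 ≤ Q.card) (h5 : 5 ≤ Q.card) (hr1 : 1 ≤ r) :
    ∃ U : Finset V, G.IsIndepSet (U : Set V) ∧ 2 * Q.card ≤ U.card + 1 := by
  obtain ⟨Z, hZ⟩ := exists_longZ hQ (by omega) (by omega : Q.card ≤ k)
  exact indep_of_longZ hQ hno hk hq hZ hmax hdeg h5 hr1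

end Crest.Agent.CycleRamsey.ListCyc
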