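import Crest.Agent.Lib.CycleRamsey.Bondy
import Crest.Agent.Lib.CycleRamsey.Basic

/-!
# Cycles as periodic functions and the sub-cycle lemma (helper11, row 54, S0075)

`CycFn G n v`: `v : ℤ → V` parametrises a cycle of length `n`.

`subCycle`: if `Q` is a clique, `P` a set of vertices of the cycle, `|P| ≥ 3`, and every vertex of
`P \ Q` has both its cycle neighbours in `P`, then `P` spans a cycle of length `|P|`.
This is the only construction needed for all "drop an arc / drop a vertex of Q" arguments.
-/

set_option autoImplicit false
set_option linter.unusedSectionVars false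
set_option linter.unusedVariables false
set_option linter.unreachableTactic false
set_option linter.unusedTactic false

namespace Crest.Agent.CycleRamsey

open SimpleGraph
open Crest.Agent.Lib.CycleRamsey (HasCycle)

variable {V : Type} [DecidableEq V] {G : SimpleGraph V}

/-- A cycle of length `n` parametrised by the integers. -/
structure CycFn (G : SimpleGraph V) (n : ℕ) (v : ℤ → V) : Prop where
  eq_iff : ∀ i j, v i = v j ↔ (n : ℤ) ∣ i - j
  adj : ∀ i, G.Adj (v i) (v (i + 1))
  n_ge : 3 ≤ n

/-- `P` spans a cycle: a cycle walk of length `|P|` with support `P`. -/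
def Spans (G : SimpleGraph V) (P : Finset V) : Prop :=
  ∃ (u : V) (c : G.Walk u u), c.IsCycle ∧ c.length = P.card ∧ ∀ z, z ∈ c.support ↔ z ∈ P

lemma Spans.hasCycle {P : Finset V} (h : Spans G P) : HasCycle G P.card := by
  obtain ⟨u, c, h1, h2, _⟩ := h
  exact ⟨u, c, h1, h2⟩

namespace CycFn

variable {n : ℕ} {v : ℤ → V}

lemma add_period (h : CycFn G n v) (i : ℤ) : v (i + n) = v i :=
  (h.eq_iff _ _).2 (by simp)

lemma n_pos (h : CycFn G n v) : (0 : ℤ) < n := by
  have := h.n_ge
  omega

/-- injectivity on windows. -/
lemma inj_window (h : CycFn G n v) {i j : ℤ} (hij : v i = v j) (h1 : i - j < n) (h2 : j - i < n) :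
    i = j := by
  have hd := (h.eq_iff _ _).1 hij
  by_contra hne
  rcases lt_or_gt_of_ne hne with hlt | hlt
  · have h3 : (n : ℤ) ∣ j - i := by
      have := dvd_neg.2 hd
      simpa using this
    have := Int.le_of_dvd (by omega) h3
    omega
  · have := Int.le_of_dvd (by omega) hd
    omega

/-- every position has a representative in a window. -/
lemma exists_window (h : CycFn G n v) (b i : ℤ) :
    ∃ s : ℕ, s < n ∧ v i = v (b + s) := by
  have hn := h.n_pos
  refine ⟨((i - b) % n).toNat, ?_, ?_⟩
  · have h1 := Int.emod_lt_of_pos (i - b) hn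
    have h2 := Int.emod_nonneg (i - b) (by omega : (n : ℤ) ≠ 0)
    omega
  · have h2 := Int.emod_nonneg (i - b) (by omega : (n : ℤ) ≠ 0)
    rw [h.eq_iff]
    rw [Int.toNat_of_nonneg h2]
    have : i - (b + (i - b) % (n : ℤ)) = (i - b) - (i - b) % (n : ℤ) := by ring
    rw [this]
    exact Int.dvd_self_sub_emod

end CycFn

/-- The sub-cycle lemma. -/
theorem subCycle {n : ℕ} {v : ℤ → V} (hc : CycFn G n v) (Q : Finset V)
    (hQ : ∀ x ∈ Q, ∀ y ∈ Q, x ≠ y → G.Adj x y) (P : Finset V) (hPv : ∀ z ∈ P, ∃ i, v i = z)
    (hcl : ∀ i, v i ∈ P → v i ∉ Q → v (i + 1) ∈ P ∧ v (i - 1) ∈ P) (h3 : 3 ≤ P.card) :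
    Spans G P := by
  classical
  have hn3 := hc.n_ge
  obtain ⟨a, ha⟩ : P.Nonempty := Finset.card_pos.1 (by omega)
  obtain ⟨b, hb⟩ := hPv a ha
  subst hb
  have hb : v b ∈ P := ha
  let w : ℕ → V := fun t => v (b + t)
  have hw0 : w 0 = v b := by simp [w]
  have hwadj : ∀ t, G.Adj (w t) (w (t + 1)) := by
    intro t
    have := hc.adj (b + t)
    simp only [w]
    have e : b + ((t + 1 : ℕ) : ℤ) = b + t + 1 := by push_cast; ring
    rw [e]
    exact this
  have hwinj : ∀ s t : ℕ, s < n → t < n → w s = w t → s = t := by
    intro s t hs ht heq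
    have := hc.inj_window heq (by omega) (by omega)
    omega
  -- main invariant
  have inv : ∀ t : ℕ, t < n → ∃ m, m ≤ t ∧ ∃ W : G.Walk (w 0) (w m), W.IsPath ∧ w m ∈ P ∧
      (∀ s, m < s → s ≤ t → w s ∉ P) ∧ (∀ z, z ∈ W.support ↔ ∃ s, s ≤ t ∧ z = w s ∧ z ∈ P) := by
    intro t
    induction t with
    | zero =>
      intro _
      refine ⟨0, le_refl _, Walk.nil, Walk.IsPath.nil, by rw [hw0]; exact hb, fun s h1 h2 => by omega, ?_⟩
      intro z
      simp only [Walk.support_nil, List.mem_singleton]
      constructor
      · rintro rfl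
        exact ⟨0, le_refl _, rfl, by rw [hw0]; exact hb⟩
      · rintro ⟨s, hs, rfl, _⟩
        have : s = 0 := by omega
        rw [this]
    | succ t ih =>
      intro ht
      obtain ⟨m, hm, W, hW, hmP, hgap, hsupp⟩ := ih (by omega)
      by_cases hnext : w (t + 1) ∈ P
      · -- adjacency
        have hadj : G.Adj (w m) (w (t + 1)) := by
          by_cases hmt : m = t
          · rw [hmt]; exact hwadj t
          · have h1 : w (m + 1) ∉ P := hgap _ (by omega) (by omega)
            have h2 : w t ∉ P := hgap _ (by omega) (le_refl _)
            have hmQ : w m ∈ Q := by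
              by_contra hnQ
              have := (hcl (b + m) hmP hnQ).1
              apply h1
              simp only [w]
              have e : b + ((m + 1 : ℕ) : ℤ) = b + m + 1 := by push_cast; ring
              rw [e]
              exact this
            have htQ : w (t + 1) ∈ Q := by
              by_contra hnQ
              have := (hcl (b + (t + 1 : ℕ)) hnext hnQ).2
              apply h2
              simp only [w]
              have e : b + ((t + 1 : ℕ) : ℤ) - 1 = b + t := by push_cast; ring
              rw [e] at this
              exact this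
            refine hQ _ hmQ _ htQ ?_
            intro heq
            have := hwinj m (t + 1) (by omega) ht heq
            omega
        refine ⟨t + 1, le_refl _, W.concat hadj, hW.concat ?_ hadj, hnext, fun s h1 h2 => by omega, ?_⟩
        · intro hmem
          obtain ⟨s, hs, h1, _⟩ := (hsupp _).1 hmem
          have := hwinj (t + 1) s ht (by omega) h1
          omega
        · intro z
          rw [Walk.support_concat, List.mem_append, List.mem_singleton, hsupp]
          constructor
          · rintro (⟨s, hs, h1, h2⟩ | rfl)
            · exact ⟨s, by omega, h1, h2⟩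
            · exact ⟨t + 1, le_refl _, rfl, hnext⟩
          · rintro ⟨s, hs, h1, h2⟩
            by_cases hst : s = t + 1
            · right; rw [h1, hst]
            · left; exact ⟨s, by omega, h1, h2⟩
      · refine ⟨m, by omega, W, hW, hmP, ?_, ?_⟩
        · intro s h1 h2
          by_cases hst : s = t + 1
          · rw [hst]; exact hnext
          · exact hgap s h1 (by omega)
        · intro z
          rw [hsupp]
          constructor
          · rintro ⟨s, hs, h1, h2⟩
            exact ⟨s, by omega, h1, h2⟩
          · rintro ⟨s, hs, h1, h2⟩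
            by_cases hst : s = t + 1
            · exfalso
              rw [hst] at h1
              rw [h1] at h2
              exact hnext h2
            · exact ⟨s, by omega, h1, h2⟩
  obtain ⟨m, hm, W, hW, hmP, hgap, hsupp⟩ := inv (n - 1) (by omega)
  -- the support is P
  have hsuppP : ∀ z, z ∈ W.support ↔ z ∈ P := by
    intro z
    rw [hsupp]
    constructor
    · rintro ⟨s, _, _, h2⟩
      exact h2
    · intro hz
      obtain ⟨i, rfl⟩ := hPv z hz
      obtain ⟨s, hs, hi⟩ := hc.exists_window b i
      exact ⟨s, by omega, hi, hz⟩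
  have hcard : W.length + 1 = P.card := by
    have h1 : W.support.toFinset = P := by
      ext z
      rw [List.mem_toFinset, hsuppP]
    rw [← h1, List.toFinset_card_of_nodup hW.support_nodup, Walk.length_support]
  have hm0 : m ≠ 0 := by
    intro hm0
    subst hm0
    have hnil : W = Walk.nil := Walk.isPath_iff_eq_nil.1 hW
    rw [hnil] at hcard
    simp only [Walk.length_nil] at hcard
    omega
  -- closure
  have hclose : G.Adj (w m) (w 0) := by
    by_cases hmn : m = n - 1
    · have h1 := hwadj m
      have e : w (m + 1) = w 0 := by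
        simp only [w]
        rw [hc.eq_iff]
        have : b + ((m + 1 : ℕ) : ℤ) - (b + ((0 : ℕ) : ℤ)) = n := by
          push_cast
          omega
        rw [this]
      rw [e] at h1
      exact h1
    · have h1 : w (m + 1) ∉ P := hgap _ (by omega) (by omega)
      have h2 : w (n - 1) ∉ P := hgap _ (by omega) (le_refl _)
      have hmQ : w m ∈ Q := by
        by_contra hnQ
        have := (hcl (b + m) hmP hnQ).1
        apply h1
        simp only [w]
        have e : b + ((m + 1 : ℕ) : ℤ) = b + m + 1 := by push_cast; ring
        rw [e]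
        exact this
      have h0Q : w 0 ∈ Q := by
        by_contra hnQ
        have h3' : v b ∉ Q := by rw [← hw0]; exact hnQ
        have := (hcl b hb h3').2
        apply h2
        have e : w (n - 1) = v (b - 1) := by
          simp only [w]
          rw [hc.eq_iff]
          have : b + ((n - 1 : ℕ) : ℤ) - (b - 1) = n := by
            omega
          rw [this]
        rw [e]
        exact this
      refine hQ _ hmQ _ h0Q ?_
      intro heq
      exact hm0 (hwinj m 0 (by omega) (by omega) heq)
  refine ⟨_, Walk.cons hclose W, cycle_of_path hW hclose (by omega), ?_, ?_⟩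
  · simp only [Walk.length_cons]; omega
  · intro z
    rw [Walk.support_cons, List.mem_cons, hsuppP]
    constructor
    · rintro (rfl | h)
      · exact hmP
      · exact h
    · exact Or.inr

/-- A cycle walk as a periodic function. -/
noncomputable def cyc {u : V} (c : G.Walk u u) (i : ℤ) : V :=
  c.getVert ((i % (c.length : ℤ)).toNat)

lemma cyc_natCast {u : V} (c : G.Walk u u) {t : ℕ} (ht : t < c.length) : cyc c t = c.getVert t := by
  unfold cyc
  have : ((t : ℤ) % (c.length : ℤ)) = t := Int.emod_eq_of_lt (by omega) (by omega)
  rw [this]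
  simp

lemma cyc_mem {u : V} (c : G.Walk u u) (i : ℤ) : cyc c i ∈ c.support := c.getVert_mem_support _

lemma cyc_zero {u : V} (c : G.Walk u u) : cyc c 0 = u := by
  unfold cyc
  simp

/-- Cycle walks give `CycFn`. -/
theorem cycFn_of_isCycle {u : V} {c : G.Walk u u} (hc : c.IsCycle) : CycFn G c.length (cyc c) := by
  have h3 := hc.three_le_length
  have hn0 : (0 : ℤ) < (c.length : ℤ) := by omega
  refine ⟨?_, ?_, h3⟩
  · -- eq_iff
    intro i j
    have hia : ((i % (c.length : ℤ)).toNat : ℤ) = i % (c.length : ℤ) :=
      Int.toNat_of_nonneg (Int.emod_nonneg _ (by omega))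
    have hja : ((j % (c.length : ℤ)).toNat : ℤ) = j % (c.length : ℤ) :=
      Int.toNat_of_nonneg (Int.emod_nonneg _ (by omega))
    have hib : i % (c.length : ℤ) < c.length := Int.emod_lt_of_pos _ hn0
    have hjb : j % (c.length : ℤ) < c.length := Int.emod_lt_of_pos _ hn0
    constructor
    · intro h
      have h1 := hc.getVert_injOn' (x₁ := (i % (c.length : ℤ)).toNat)
        (x₂ := (j % (c.length : ℤ)).toNat) (by
          simp only [Set.mem_ofPred_eq]; omega) (by
          simp only [Set.mem_ofPred_eq]; omega) h
      have h2 : i % (c.length : ℤ) = j % (c.length : ℤ) := by omega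
      exact Int.ModEq.dvd (show (j ≡ i [ZMOD (c.length : ℤ)]) from h2.symm)
    · intro h
      have h2 : i % (c.length : ℤ) = j % (c.length : ℤ) := by
        exact (Int.modEq_iff_dvd.2 (by
          have : (c.length : ℤ) ∣ j - i := by
            have := dvd_neg.2 h
            simpa using this
          exact this) : i ≡ j [ZMOD (c.length : ℤ)])
      unfold cyc
      rw [h2]
  · -- adj
    intro i
    have hia : ((i % (c.length : ℤ)).toNat : ℤ) = i % (c.length : ℤ) :=
      Int.toNat_of_nonneg (Int.emod_nonneg _ (by omega))
    have hib : i % (c.length : ℤ) < c.length := Int.emod_lt_of_pos _ hn0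
    set a := (i % (c.length : ℤ)).toNat with ha
    have ha' : a < c.length := by omega
    have h1 := c.adj_getVert_succ ha'
    unfold cyc
    rw [← ha]
    have hadd : (i + 1) % (c.length : ℤ) = ((a : ℤ) + 1) % (c.length : ℤ) := by
      rw [hia, Int.emod_add_emod]
    rw [hadd]
    by_cases hlt : a + 1 < c.length
    · have : ((a : ℤ) + 1) % (c.length : ℤ) = (a : ℤ) + 1 :=
        Int.emod_eq_of_lt (by omega) (by omega)
      rw [this]
      have e : ((a : ℤ) + 1).toNat = a + 1 := by omega
      rw [e]
      exact h1
    · have heq : a + 1 = c.length := by omega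
      have : ((a : ℤ) + 1) % (c.length : ℤ) = 0 := by
        have : (a : ℤ) + 1 = c.length := by omega
        rw [this, Int.emod_self]
      rw [this]
      simp only [Int.toNat_zero, Walk.getVert_zero]
      rw [heq, Walk.getVert_length] at h1
      exact h1

/-- Every vertex of a cycle walk is a value of `cyc`. -/
lemma exists_cyc_eq {u z : V} {c : G.Walk u u} (hc : c.IsCycle) (hz : z ∈ c.support) :
    ∃ i, cyc c i = z := by
  obtain ⟨t, h1, h2⟩ := Walk.mem_support_iff_exists_getVert.1 hz
  have h3 := hc.three_le_length
  by_cases ht : t < c.length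
  · exact ⟨t, by rw [cyc_natCast c ht, h1]⟩
  · have : t = c.length := by omega
    rw [this, Walk.getVert_length] at h1
    exact ⟨0, by rw [cyc_zero, h1]⟩

end Crest.Agent.CycleRamsey
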