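import Crest.Agent.Lib.CycleRamsey.BigCliqueMain
import Crest.Agent.Lib.CycleRamsey.SubCycle

/-!
# The count CT of the big clique regime (row 54, S0075; helper27 #1800 (1)-(3), helper95 #1825 (c))

`Z` a cycle through the maximum clique `Q`, of length at most `k`; `I` independent off `Z`, every vertex of
`Z` has a neighbour in `I`; no path with `1`, `3` or `4` interior vertices off `Z` between distinct units.
Then there is an independent set with `k+1` vertices.  No maximality of `Z` is needed.
-/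

set_option autoImplicit false
set_option linter.unusedSectionVars false
set_option linter.unusedVariables false

noncomputable section

open Finset
open Crest.Agent.Lib.CycleRamsey

namespace Crest.Agent.CycleRamsey

namespace ListCyc

variable {V : Type} [Fintype V] [DecidableEq V] {G : SimpleGraph V}

section CTL

variable {Q : Finset V} {k r : ℕ} {Z : List V} {I : Finset V} {u : V → V}

/-- The neighbours off `Z` of a vertex. -/
def offN (G : SimpleGraph V) (Z : List V) (w : V) : Finset V :=
  by classical exact univ.filter (fun a => G.Adj w a ∧ a ∉ Z)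

lemma mem_offN {w a : V} : a ∈ offN G Z w ↔ G.Adj w a ∧ a ∉ Z := by
  classical
  simp [offN]

/-- The neighbours on `Z` of a vertex. -/
def onN (G : SimpleGraph V) (Z : List V) (w : V) : Finset V :=
  by classical exact Z.toFinset.filter (fun a => G.Adj w a)

lemma mem_onN {w a : V} : a ∈ onN G Z w ↔ a ∈ Z ∧ G.Adj w a := by
  classical
  simp [onN]

lemma nbrs_subset (w : V) : nbrs G w ⊆ onN G Z w ∪ offN G Z w := by
  intro a ha
  have hadj := mem_nbrs.1 ha
  by_cases haZ : a ∈ Z
  · exact Finset.mem_union_left _ (mem_onN.2 ⟨haZ, hadj⟩)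
  · exact Finset.mem_union_right _ (mem_offN.2 ⟨hadj, haZ⟩)

/-- The standing hypotheses of CT, list form. -/
structure CTH (G : SimpleGraph V) (Q : Finset V) (k r : ℕ) (Z : List V) (I : Finset V) (u : V → V) : Prop where
  hQ : ∀ x ∈ Q, ∀ y ∈ Q, x ≠ y → G.Adj x y
  hmax : ∀ K : Finset V, (∀ x ∈ K, ∀ y ∈ K, x ≠ y → G.Adj x y) → K.card ≤ Q.card
  hk : k = Q.card + r
  hZc : CycL G Z
  hsub : ∀ x ∈ Q, x ∈ Z
  hle : Z.length ≤ k
  hr1 : 1 ≤ r
  hrq : r + 1 ≤ Q.card
  hdeg : ∀ x, k ≤ (nbrs G x).card
  hno : ¬ HasCycle G (k + 1)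
  hI : G.IsIndepSet (I : Set V)
  hIoff : ∀ x ∈ I, x ∉ Z
  hu : ∀ z ∈ Z, u z ∈ I ∧ G.Adj z (u z)
  hExcl : ∀ z ∈ units Q Z, ∀ z' ∈ units Q Z, z ≠ z' → ∀ l : List V, (l.length = 1 ∨ l.length = 3 ∨ l.length = 4) →
    l.Nodup → (∀ a ∈ l, a ∉ Z) → (z :: (l ++ [z'])).IsChain G.Adj → False

namespace CTH

variable (h : CTH G Q k r Z I u)
include h

lemma exit_off {z : V} (hz : z ∈ Z) : u z ∉ Z := h.hIoff _ (h.hu z hz).1

/-- `A z` avoids `I`. -/
lemma offN_notI {z a : V} (hz : z ∈ Z) (ha : a ∈ offN G Z (u z)) : a ∉ I := by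
  intro haI
  have hadj := (mem_offN.1 ha).1
  exact h.hI (by exact_mod_cast (h.hu z hz).1) (by exact_mod_cast haI) hadj.ne hadj

/-- s = 1. -/
lemma one_unit {x z z' : V} (hz : z ∈ units Q Z) (hz' : z' ∈ units Q Z) (hne : z ≠ z') (hx : x ∉ Z)
    (h1 : G.Adj z x) (h2' : G.Adj z' x) : False := by
  refine h.hExcl z hz z' hz' hne [x] (Or.inl rfl) (by simp) (by simpa using hx) ?_
  simp [List.isChain_cons_cons, h1, h2'.symm]

/-- s = 3. -/
lemma three_unit {a z z' : V} (hz : z ∈ units Q Z) (hz' : z' ∈ units Q Z) (hne : z ≠ z')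
    (h1 : a ∈ offN G Z (u z)) (h2' : a ∈ offN G Z (u z')) : False := by
  have hzZ := units_mem_list hz
  have hzZ' := units_mem_list hz'
  obtain ⟨ha1, haZ⟩ := mem_offN.1 h1
  obtain ⟨ha2, -⟩ := mem_offN.1 h2'
  have huu : u z ≠ u z' := by
    intro e
    exact h.one_unit hz hz' hne (h.exit_off hzZ) (h.hu z hzZ).2 (e ▸ (h.hu z' hzZ').2)
  refine h.hExcl z hz z' hz' hne [u z, a, u z'] (Or.inr (Or.inl rfl)) ?_ ?_ ?_
  · simp only [List.nodup_cons, List.mem_cons, List.not_mem_nil, or_false, not_or, List.nodup_nil,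
      not_false_eq_true, and_true]
    exact ⟨⟨ha1.ne, huu⟩, ha2.ne'⟩
  · intro b hb
    simp only [List.mem_cons, List.not_mem_nil, or_false] at hb
    rcases hb with rfl | rfl | rfl
    · exact h.exit_off hzZ
    · exact haZ
    · exact h.exit_off hzZ'
  · simp [List.isChain_cons_cons, (h.hu z hzZ).2, ha1, ha2.symm, (h.hu z' hzZ').2.symm]

/-- s = 4. -/
lemma four_unit {a a' z z' : V} (hz : z ∈ units Q Z) (hz' : z' ∈ units Q Z) (hne : z ≠ z')
    (h1 : a ∈ offN G Z (u z)) (h2' : a' ∈ offN G Z (u z')) (hadj : G.Adj a a') : False := by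
  have hzZ := units_mem_list hz
  have hzZ' := units_mem_list hz'
  obtain ⟨ha1, haZ⟩ := mem_offN.1 h1
  obtain ⟨ha2, haZ'⟩ := mem_offN.1 h2'
  have huu : u z ≠ u z' := by
    intro e
    exact h.one_unit hz hz' hne (h.exit_off hzZ) (h.hu z hzZ).2 (e ▸ (h.hu z' hzZ').2)
  have hn1 := h.offN_notI hzZ h1
  have hn2 := h.offN_notI hzZ' h2'
  have hu1 := (h.hu z hzZ).1
  have hu2 := (h.hu z' hzZ').1
  refine h.hExcl z hz z' hz' hne [u z, a, a', u z'] (Or.inr (Or.inr rfl)) ?_ ?_ ?_
  · simp only [List.nodup_cons, List.mem_cons, List.not_mem_nil, or_false, not_or, List.nodup_nil,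
      not_false_eq_true, and_true]
    refine ⟨⟨ha1.ne, ?_, huu⟩, ⟨hadj.ne, ?_⟩, ha2.ne'⟩
    · rintro e
      exact hn2 (e ▸ hu1)
    · rintro e
      exact hn1 (e ▸ hu2)
  · intro b hb
    simp only [List.mem_cons, List.not_mem_nil, or_false] at hb
    rcases hb with rfl | rfl | rfl | rfl
    · exact h.exit_off hzZ
    · exact haZ
    · exact haZ'
    · exact h.exit_off hzZ'
  · simp [List.isChain_cons_cons, (h.hu z hzZ).2, ha1, hadj, ha2.symm, (h.hu z' hzZ').2.symm]

/-- The neighbours of the exit on `Z`. -/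
lemma onN_subset {z : V} (hz : z ∈ units Q Z) : onN G Z (u z) ⊆ insert z (nonUnits Q Z) := by
  intro x hx
  obtain ⟨hxZ, hadj⟩ := mem_onN.1 hx
  by_cases hxz : x = z
  · rw [hxz]
    exact Finset.mem_insert_self _ _
  · refine Finset.mem_insert_of_mem (Finset.mem_sdiff.2 ⟨List.mem_toFinset.2 hxZ, ?_⟩)
    intro hxu
    exact h.one_unit hz hxu (Ne.symm hxz) (h.exit_off (units_mem_list hz)) (h.hu z (units_mem_list hz)).2 hadj.symm

lemma card_weight : (nonUnits Q Z).card + Q.card = Z.length := card_nonUnits h.hZc h.hsub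

lemma not_mem_nonUnits {z : V} (hz : z ∈ units Q Z) : z ∉ nonUnits Q Z :=
  fun e => (Finset.mem_sdiff.1 e).2 hz

lemma card_onN_le {z : V} (hz : z ∈ units Q Z) : (onN G Z (u z)).card ≤ (nonUnits Q Z).card + 1 := by
  have := Finset.card_le_card (h.onN_subset hz)
  rwa [Finset.card_insert_of_notMem (h.not_mem_nonUnits hz)] at this

/-- `|A_z| ≥ q - 1`. -/
lemma card_offN {z : V} (hz : z ∈ units Q Z) : Q.card ≤ (offN G Z (u z)).card + 1 := by
  have h1 := Finset.card_le_card (nbrs_subset (G := G) (Z := Z) (u z))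
  have h2' := Finset.card_union_le (onN G Z (u z)) (offN G Z (u z))
  have h3 := h.hdeg (u z)
  have h4 := h.card_onN_le hz
  have h5 := h.card_weight
  have h6 := h.hle
  have h7 := h.hk
  omega

/-- Type 2: `A_z` is a clique. -/
def Type2 (G : SimpleGraph V) (Z : List V) (u : V → V) (z : V) : Prop :=
  ∀ x ∈ offN G Z (u z), ∀ y ∈ offN G Z (u z), x ≠ y → G.Adj x y

omit h in
lemma dummy : True := trivial

lemma type2_facts {z : V} (hz : z ∈ units Q Z) (hT : Type2 G Z u z) :
    Z.length = k ∧ ∀ x ∈ nonUnits Q Z, G.Adj (u z) x := by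
  classical
  set w := u z with hw
  have hzZ := units_mem_list hz
  have hwZ := h.exit_off hzZ
  have hnotin : w ∉ offN G Z w := fun e => G.loopless.irrefl _ (mem_offN.1 e).1
  -- the clique
  have hcl := h.hmax (insert w (offN G Z w)) (by
    intro x hx y hy hxy
    rcases Finset.mem_insert.1 hx with rfl | hx <;> rcases Finset.mem_insert.1 hy with rfl | hy
    · exact absurd rfl hxy
    · exact (mem_offN.1 hy).1
    · exact (mem_offN.1 hx).1.symm
    · exact hT x hx y hy hxy)
  rw [Finset.card_insert_of_notMem hnotin] at hcl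
  have h1 := Finset.card_le_card (nbrs_subset (G := G) (Z := Z) w)
  have h2' := Finset.card_union_le (onN G Z w) (offN G Z w)
  have h3 := h.hdeg w
  have h4 : (onN G Z w).card ≤ (nonUnits Q Z).card + 1 := h.card_onN_le hz
  have h5 := h.card_weight
  have h6 := h.hle
  have h7 := h.hk
  have hlen : Z.length = k := by omega
  refine ⟨hlen, ?_⟩
  have hcard : (insert z (nonUnits Q Z)).card ≤ (onN G Z w).card := by
    rw [Finset.card_insert_of_notMem (h.not_mem_nonUnits hz)]
    omega
  have heq := Finset.eq_of_subset_of_card_le (h.onN_subset hz) hcard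
  intro x hx
  have : x ∈ onN G Z w := by
    rw [heq]
    exact Finset.mem_insert_of_mem hx
  exact (mem_onN.1 this).2

/-- Non-units of a cycle with a type 2 unit are in `Q`. -/
lemma nonUnit_mem {z : V} (hz : z ∈ units Q Z) (hT : Type2 G Z u z) {x : V} (hx : x ∈ nonUnits Q Z) : x ∈ Q := by
  obtain ⟨hlen, hnon⟩ := h.type2_facts hz hT
  by_contra hxQ
  have h2' : 2 ≤ Z.length := by have := h.hZc.three; omega
  have hxZ : x ∈ Z := List.mem_toFinset.1 (Finset.mem_sdiff.1 hx).1
  obtain ⟨p, hp⟩ := exists_pred h2' hxZ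
  have hpn := nonUnit_of_succ h.hZc.nodup hp hxQ
  have hw := h.exit_off (units_mem_list hz)
  have := insert_vertex h.hZc hp hw (hnon p hpn).symm (hnon x hx)
  rw [hlen] at this
  exact h.hno this

/-- A type 2 unit is in `Q`. -/
lemma type2_mem {z : V} (hz : z ∈ units Q Z) (hT : Type2 G Z u z) : z ∈ Q := by
  obtain ⟨hlen, hnon⟩ := h.type2_facts hz hT
  by_contra hzQ
  have h2' : 2 ≤ Z.length := by have := h.hZc.three; omega
  obtain ⟨p, hp⟩ := exists_pred h2' (units_mem_list hz)
  have hpn := nonUnit_of_succ h.hZc.nodup hp hzQ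
  have hw := h.exit_off (units_mem_list hz)
  have := insert_vertex h.hZc hp hw (hnon p hpn).symm (h.hu z (units_mem_list hz)).2.symm
  rw [hlen] at this
  exact h.hno this

/-- No type 2 unit if `q = r + 1`. -/
lemma no_type2_tight (hq : Q.card = r + 1) {z : V} (hz : z ∈ units Q Z) (hT : Type2 G Z u z) : False := by
  classical
  obtain ⟨hlen, hnon⟩ := h.type2_facts hz hT
  have hzQ := h.type2_mem hz hT
  have hsub : insert z (nonUnits Q Z) ⊆ Q := by
    intro x hx
    rcases Finset.mem_insert.1 hx with rfl | hx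
    · exact hzQ
    · exact h.nonUnit_mem hz hT hx
  have hcard : Q.card ≤ (insert z (nonUnits Q Z)).card := by
    rw [Finset.card_insert_of_notMem (h.not_mem_nonUnits hz)]
    have h5 := h.card_weight
    have h7 := h.hk
    omega
  have heq := Finset.eq_of_subset_of_card_le hsub hcard
  set w := u z with hw
  have hzZ := units_mem_list hz
  have hwZ := h.exit_off hzZ
  have hwQ : w ∉ Q := fun e => hwZ (h.hsub w e)
  have hcl := h.hmax (insert w Q) (by
    intro x hx y hy hxy
    have hadjQ : ∀ a ∈ Q, G.Adj w a := by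
      intro a ha
      rw [← heq] at ha
      rcases Finset.mem_insert.1 ha with rfl | ha
      · exact (h.hu _ hzZ).2.symm
      · exact hnon a ha
    rcases Finset.mem_insert.1 hx with rfl | hx <;> rcases Finset.mem_insert.1 hy with rfl | hy
    · exact absurd rfl hxy
    · exact hadjQ y hy
    · exact (hadjQ x hx).symm
    · exact h.hQ x hx y hy hxy)
  rw [Finset.card_insert_of_notMem hwQ] at hcl
  omega

/-- At most one type 2 unit. -/
lemma type2_unique {z z' : V} (hz : z ∈ units Q Z) (hz' : z' ∈ units Q Z) (hT : Type2 G Z u z) (hT' : Type2 G Z u z') :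
    z = z' := by
  classical
  by_contra hne
  obtain ⟨a, ha, hs⟩ := mem_units.1 hz
  obtain ⟨a', ha', hs'⟩ := mem_units.1 hz'
  have hzQ := h.type2_mem hz hT
  have hz'Q := h.type2_mem hz' hT'
  obtain ⟨hlen, hnon⟩ := h.type2_facts hz hT
  obtain ⟨-, hnon'⟩ := h.type2_facts hz' hT'
  obtain ⟨A, B, hr, hA1, hA2, hB1, hB2⟩ := split_units h.hZc.nodup hs hs' hne
  have hAQ := arc_of_w h.hQ h.hno h.hZc (h.exit_off (units_mem_list hz)) hlen hnon ha ha' hs hz'Q
    (h.hu z (units_mem_list hz)).2 hr hA1 hA2 hB1 hB2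
  have hr' : Z ~r B ++ A := hr.trans List.isRotated_append
  have hBQ := arc_of_w h.hQ h.hno h.hZc (h.exit_off (units_mem_list hz')) hlen hnon' ha' ha hs' hzQ
    (h.hu z' (units_mem_list hz')).2 hr' hB1 hB2 hA1 hA2
  have hsub : Z.toFinset ⊆ Q := by
    intro x hx
    have hxZ := hr.mem_iff.1 (List.mem_toFinset.1 hx)
    rcases List.mem_append.1 hxZ with e | e
    · exact hAQ x e
    · exact hBQ x e
  have h1 := Finset.card_le_card hsub
  rw [List.toFinset_card_of_nodup h.hZc.nodup] at h1
  have h7 := h.hk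
  have h8 := h.hr1
  omega

/-- The count. -/
theorem count : ∃ T : Finset V, G.IsIndepSet (T : Set V) ∧ k + 1 ≤ T.card := by
  classical
  have hq2 : 2 ≤ Q.card := by
    have := h.hrq
    have := h.hr1
    omega
  -- picks
  have hpick : ∀ z : V, ∃ P : Finset V, z ∈ units Q Z → P ⊆ offN G Z (u z) ∧ G.IsIndepSet (P : Set V) ∧
      (Type2 G Z u z → 1 ≤ P.card) ∧ (¬ Type2 G Z u z → 2 ≤ P.card) := by
    intro z
    by_cases hz : z ∈ units Q Z
    · by_cases hT : Type2 G Z u z
      · have hc := h.card_offN hz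
        obtain ⟨a, ha⟩ : (offN G Z (u z)).Nonempty := Finset.card_pos.1 (by omega)
        refine ⟨{a}, fun _ => ⟨by simpa using ha, by simp [SimpleGraph.IsIndepSet], fun _ => by simp,
          fun e => absurd hT e⟩⟩
      · have hT' := hT
        unfold Type2 at hT'
        simp only [not_forall] at hT'
        obtain ⟨x, hx, y, hy, hxy, hadj⟩ := hT'
        refine ⟨{x, y}, fun _ => ⟨?_, ?_, fun e => absurd e hT, fun _ => ?_⟩⟩
        · intro a ha
          simp only [Finset.mem_insert, Finset.mem_singleton] at ha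
          rcases ha with rfl | rfl
          · exact hx
          · exact hy
        · intro a ha b hb hab hadj'
          simp only [Finset.coe_insert, Finset.coe_singleton, Set.mem_insert_iff, Set.mem_singleton_iff] at ha hb
          rcases ha with rfl | rfl <;> rcases hb with rfl | rfl
          · exact hab rfl
          · exact hadj hadj'
          · exact hadj hadj'.symm
          · exact hab rfl
        · rw [Finset.card_pair hxy]
    · exact ⟨∅, fun e => absurd e hz⟩
  choose P hP using hpick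
  set S := units Q Z with hS
  have hcardS : S.card = Q.card := card_units h.hZc h.hsub
  refine ⟨S.biUnion P, ?_, ?_⟩
  · intro x hx y hy hxy hadj
    simp only [Finset.coe_biUnion, Set.mem_iUnion, Finset.mem_coe, exists_prop] at hx hy
    obtain ⟨z, hz, hxz⟩ := hx
    obtain ⟨z', hz', hyz⟩ := hy
    by_cases hzz : z = z'
    · subst hzz
      exact (hP z hz).2.1 (by exact_mod_cast hxz) (by exact_mod_cast hyz) hxy hadj
    · exact h.four_unit hz hz' hzz ((hP z hz).1 hxz) ((hP z' hz').1 hyz) hadj
  · rw [Finset.card_biUnion]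
    · set D := S.filter (fun z => Type2 G Z u z) with hD
      have hD1 : D.card ≤ 1 := by
        rw [Finset.card_le_one]
        intro a ha b hb
        obtain ⟨ha1, ha2⟩ := Finset.mem_filter.1 ha
        obtain ⟨hb1, hb2⟩ := Finset.mem_filter.1 hb
        exact h.type2_unique ha1 hb1 ha2 hb2
      have hsum : ∑ z ∈ S, 2 ≤ ∑ z ∈ S, ((P z).card + if Type2 G Z u z then 1 else 0) := by
        refine Finset.sum_le_sum ?_
        intro z hz
        by_cases hT : Type2 G Z u z
        · have := (hP z hz).2.2.1 hT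
          simp only [hT, if_true]
          omega
        · have := (hP z hz).2.2.2 hT
          simp only [hT, if_false]
          omega
      rw [Finset.sum_add_distrib, Finset.sum_const, smul_eq_mul] at hsum
      have hsum2 : (∑ z ∈ S, if Type2 G Z u z then 1 else 0) = D.card := by
        rw [Finset.card_filter]
      rw [hsum2] at hsum
      have h7 := h.hk
      have h8 := h.hrq
      by_cases hq : Q.card = r + 1
      · have hD0 : D.card = 0 := by
          rw [Finset.card_eq_zero, Finset.eq_empty_iff_forall_notMem]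
          intro a ha
          obtain ⟨ha1, ha2⟩ := Finset.mem_filter.1 ha
          exact h.no_type2_tight hq ha1 ha2
        omega
      · omega
    · intro z hz z' hz' hne
      simp only [Function.onFun]
      rw [Finset.disjoint_left]
      intro x hx hx'
      exact h.three_unit (Finset.mem_coe.1 hz) (Finset.mem_coe.1 hz') hne
        ((hP z (Finset.mem_coe.1 hz)).1 hx) ((hP z' (Finset.mem_coe.1 hz')).1 hx')

end CTH

end CTL

/-- A walk along an explicit list. -/
lemma exists_walk_of_chain' : ∀ (l : List V) (z z' : V), (z :: (l ++ [z'])).IsChain G.Adj →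
    ∃ p : G.Walk z z', p.support = z :: (l ++ [z']) := by
  intro l
  induction l with
  | nil =>
    intro z z' h
    have h1 : G.Adj z z' := by simpa [List.isChain_cons_cons] using h
    exact ⟨SimpleGraph.Walk.cons h1 SimpleGraph.Walk.nil, by simp⟩
  | cons a m ih =>
    intro z z' h
    have h1 : (z :: a :: (m ++ [z'])).IsChain G.Adj := by simpa using h
    rw [List.isChain_cons_cons] at h1
    obtain ⟨p, hp⟩ := ih a z' h1.2
    exact ⟨SimpleGraph.Walk.cons h1.1 p, by simp [hp]⟩

/-- The list of a periodic cycle. -/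
def listOf (v : ℤ → V) (n : ℕ) : List V := (List.range n).map (fun i : ℕ => v i)

lemma listOf_rel {n : ℕ} {v : ℤ → V} (hc : CycFn G n v) :
    CycChain (fun a b => ∃ i : ℤ, a = v i ∧ b = v (i + 1)) (listOf v n) := by
  have hn := hc.n_ge
  obtain ⟨m, rfl⟩ : ∃ m, n = m + 1 := ⟨n - 1, by omega⟩
  rw [cycChain_iff]
  unfold listOf
  constructor
  · rw [List.isChain_map, List.isChain_range_succ]
    intro i _
    exact ⟨i, rfl, by simp⟩
  · intro x hx y hy
    simp only [List.getLast?_map, List.head?_map, Option.mem_def, Option.map_eq_some_iff] at hx hy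
    obtain ⟨i, hi, rfl⟩ := hx
    obtain ⟨j, hj, rfl⟩ := hy
    have hi' : i = m := by
      rw [List.getLast?_range] at hi
      simpa using hi.symm
    have hj' : j = 0 := by
      rw [List.head?_range] at hj
      simpa using hj.symm
    subst hi' hj'
    refine ⟨(i : ℤ), rfl, ?_⟩
    have := hc.add_period 0
    simp only [zero_add] at this
    simp only [Nat.cast_zero]
    rw [← this]
    push_cast
    rfl

lemma listOf_mem {n : ℕ} {v : ℤ → V} (hc : CycFn G n v) {x : V} : x ∈ listOf v n ↔ ∃ t, x = v t := by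
  unfold listOf
  simp only [List.mem_map, List.mem_range]
  constructor
  · rintro ⟨i, _, rfl⟩
    exact ⟨i, rfl⟩
  · rintro ⟨t, rfl⟩
    obtain ⟨s, hs, e⟩ := hc.exists_window 0 t
    refine ⟨s, hs, ?_⟩
    rw [e]
    simp

lemma listOf_cyc {n : ℕ} {v : ℤ → V} (hc : CycFn G n v) : CycL G (listOf v n) := by
  have hlen : (listOf v n).length = n := by simp [listOf]
  refine ⟨?_, by rw [hlen]; exact hc.n_ge, ?_⟩
  · unfold listOf
    rw [List.nodup_map_iff_inj_on List.nodup_range]
    intro a ha b hb e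
    have ha' := List.mem_range.1 ha
    have hb' := List.mem_range.1 hb
    have := hc.inj_window e (by omega) (by omega)
    omega
  · have h1 := listOf_rel hc
    have himp : ∀ {L : List V}, CycChain (fun a b => ∃ i : ℤ, a = v i ∧ b = v (i + 1)) L → CycChain G.Adj L := by
      intro L hL
      cases L with
      | nil => exact trivial
      | cons x l =>
        have h3 : (x :: (l ++ [x])).IsChain (fun a b => ∃ i : ℤ, a = v i ∧ b = v (i + 1)) := hL
        have h4 : (x :: (l ++ [x])).IsChain G.Adj := h3.imp (by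
          rintro a b ⟨i, rfl, rfl⟩
          exact hc.adj i)
        exact h4
    exact himp h1

end ListCyc

open ListCyc in
/-- CT: the count of the big clique regime. -/
theorem CT {V : Type} [Fintype V] [DecidableEq V] {G : SimpleGraph V} {n : ℕ} {v : ℤ → V} (hc : CycFn G n v)
    {Q : Finset V} (hQ : ∀ x ∈ Q, ∀ y ∈ Q, x ≠ y → G.Adj x y) (hQv : ∀ a ∈ Q, ∃ t, v t = a)
    (hmax : ∀ K : Finset V, (∀ x ∈ K, ∀ y ∈ K, x ≠ y → G.Adj x y) → K.card ≤ Q.card)
    {k r : ℕ} (hk : k = Q.card + r) (hn : n ≤ k) (hr1 : 1 ≤ r) (hrq : r + 1 ≤ Q.card)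
    (hdeg : ∀ x, k ≤ (nbrs G x).card) (hno : ¬ HasCycle G (k + 1))
    {I : Finset V} (hI : G.IsIndepSet (I : Set V)) (hIoff : ∀ x ∈ I, ∀ t, x ≠ v t)
    (hIex : ∀ t, ∃ x ∈ I, G.Adj (v t) x)
    (hExcl : ∀ i j : ℤ, v (i + 1) ∈ Q → v (j + 1) ∈ Q → v i ≠ v j → ∀ g : G.Walk (v i) (v j), g.IsPath →
      (∀ z ∈ g.support, z ≠ v i → z ≠ v j → ∀ t, z ≠ v t) → (g.length = 2 ∨ g.length = 4 ∨ g.length = 5) → False) :
    ∃ T : Finset V, G.IsIndepSet (T : Set V) ∧ k + 1 ≤ T.card := by
  classical
  set Z := listOf v n with hZ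
  have hZc : CycL G Z := listOf_cyc hc
  have hmem : ∀ {x : V}, x ∈ Z ↔ ∃ t, x = v t := listOf_mem hc
  have hlen : Z.length = n := by simp [hZ, listOf]
  -- exits
  have hex : ∀ z : V, ∃ x : V, z ∈ Z → x ∈ I ∧ G.Adj z x := by
    intro z
    by_cases hz : z ∈ Z
    · obtain ⟨t, rfl⟩ := hmem.1 hz
      obtain ⟨x, hx, hadj⟩ := hIex t
      exact ⟨x, fun _ => ⟨hx, hadj⟩⟩
    · exact ⟨z, fun e => absurd e hz⟩
  choose u hu using hex
  have hrel := listOf_rel hc
  have hCT : CTH G Q k r Z I u := {
    hQ := hQ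
    hmax := hmax
    hk := hk
    hZc := hZc
    hsub := by
      intro x hx
      obtain ⟨t, rfl⟩ := hQv x hx
      exact hmem.2 ⟨t, rfl⟩
    hle := by omega
    hr1 := hr1
    hrq := hrq
    hdeg := hdeg
    hno := hno
    hI := hI
    hIoff := by
      intro x hx hxZ
      obtain ⟨t, rfl⟩ := hmem.1 hxZ
      exact hIoff _ hx t rfl
    hu := hu
    hExcl := by
      intro z hz z' hz' hne l hl hnd hout hch
      obtain ⟨a, ha, hs⟩ := mem_units.1 hz
      obtain ⟨a', ha', hs'⟩ := mem_units.1 hz'
      obtain ⟨i, rfl, rfl⟩ := CycChain.rel_of_isSucc hrel hs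
      obtain ⟨j, rfl, rfl⟩ := CycChain.rel_of_isSucc hrel hs'
      obtain ⟨p, hp⟩ := exists_walk_of_chain' l _ _ hch
      have hnot : ∀ b ∈ l, ∀ t, b ≠ v t := by
        intro b hb t e
        exact hout b hb (hmem.2 ⟨t, e⟩)
      refine hExcl i j ha ha' hne p ?_ ?_ ?_
      · rw [SimpleGraph.Walk.isPath_def, hp]
        simp only [List.nodup_cons, List.mem_append, List.mem_singleton, not_or]
        refine ⟨⟨fun e => hnot _ e i rfl, hne⟩, ?_⟩
        rw [List.nodup_append]
        refine ⟨hnd, by simp, ?_⟩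
        intro b hb c hc' e
        simp only [List.mem_singleton] at hc'
        subst hc'
        exact hnot b hb j e
      · intro b hb h1 h2'
        rw [hp] at hb
        simp only [List.mem_cons, List.mem_append, List.mem_singleton, List.not_mem_nil, or_false] at hb
        rcases hb with rfl | hb | rfl
        · exact absurd rfl h1
        · exact hnot b hb
        · exact absurd rfl h2'
      · have hplen : p.length + 1 = l.length + 2 := by
          rw [← SimpleGraph.Walk.length_support, hp]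
          simp
        omega }
  exact hCT.count

end Crest.Agent.CycleRamsey
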