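import Crest.Agent.Lib.CycleRamsey.Insert

/-!
# Exclusion of short paths between units for `q ≥ 8`, `r ≤ q - 1` (helper11, row 54, S0075)

helper95's analytic replacement of the machine table (#1825 (b)), on `crossing'` and Rule C.

`exists_arc`: the arc through a position off `Q`.
`min_closed`: the minimal closed set containing a given arc with at least `r + 1` vertices.
`excl_big`: the hypothesis `hExcl` of the count `CT` for `q ≥ 8`.
-/

set_option autoImplicit false
set_option linter.unusedSectionVars false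
set_option linter.unusedVariables false
set_option linter.unreachableTactic false
set_option linter.unusedTactic false

namespace Crest.Agent.CycleRamsey

open SimpleGraph
open Crest.Agent.Lib.CycleRamsey (HasCycle)

variable {V : Type} [DecidableEq V] {G : SimpleGraph V}

section
variable {n : ℕ} {v : ℤ → V} {Q : Finset V}

/-- The arc through a position off `Q`. -/
lemma exists_arc (hc : CycFn G n v) (hQne : ∃ i0, v i0 ∈ Q) {p : ℤ} (hp : v p ∉ Q) :
    ∃ A : Finset V, ArcClosed v Q A ∧ v p ∈ A ∧ (leftEnds v Q A).card ≤ 1 ∧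
      (leftEnds (fun i => v (-i)) Q A).card ≤ 1 ∧
      ∀ t : ℕ, (∀ x : ℕ, x ≤ t → v (p + x) ∉ Q) → v (p + t) ∈ A := by
  classical
  obtain ⟨ℓ₁, h11, h12, h13, _⟩ := exists_arc_len hc hQne p
  obtain ⟨ℓ₂, h21, h22, h23, _⟩ := exists_arc_len hc.rev (by
    obtain ⟨i0, hi0⟩ := hQne
    exact ⟨-i0, by simpa using hi0⟩) (-p)
  have h22' : v (p - ℓ₂) ∈ Q := by
    have e : -(-p + (ℓ₂ : ℤ)) = p - ℓ₂ := by ring
    simpa only [e] using h22
  have h23' : ∀ t : ℕ, 1 ≤ t → t < ℓ₂ → v (p - t) ∉ Q := by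
    intro t h1 h2
    have := h23 t h1 h2
    have e : -(-p + (t : ℤ)) = p - t := by ring
    simpa only [e] using this
  set b : ℤ := p - ℓ₂ + 1 with hb
  set m : ℕ := ℓ₁ + ℓ₂ - 1 with hm
  let A : Finset V := (Finset.range m).image (fun t : ℕ => v (b + t))
  have hmem : ∀ z, z ∈ A ↔ ∃ t : ℕ, t < m ∧ v (b + t) = z := by
    intro z
    simp only [A, Finset.mem_image, Finset.mem_range]
  have hnot : ∀ t : ℕ, t < m → v (b + t) ∉ Q := by
    intro t ht
    by_cases h1 : t + 1 = ℓ₂
    · have e : b + (t : ℤ) = p := by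
        rw [hb, ← h1]; push_cast; ring
      rw [e]
      exact hp
    · by_cases h2 : t + 1 < ℓ₂
      · have := h23' (ℓ₂ - 1 - t) (by omega) (by omega)
        have e : b + (t : ℤ) = p - ((ℓ₂ - 1 - t : ℕ) : ℤ) := by
          have : ((ℓ₂ - 1 - t : ℕ) : ℤ) = (ℓ₂ : ℤ) - 1 - t := by omega
          rw [this, hb]
          ring
        rw [e]
        exact this
      · have := h13 (t + 1 - ℓ₂) (by omega) (by omega)
        have e : b + (t : ℤ) = p + ((t + 1 - ℓ₂ : ℕ) : ℤ) := by
          have : ((t + 1 - ℓ₂ : ℕ) : ℤ) = (t : ℤ) + 1 - ℓ₂ := by omega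
          rw [this, hb]
          ring
        rw [e]
        exact this
  have hright : v (b + m) ∈ Q := by
    have e : b + (m : ℤ) = p + ℓ₁ := by
      have : (m : ℤ) = (ℓ₁ : ℤ) + ℓ₂ - 1 := by omega
      rw [this, hb]
      ring
    rw [e]
    exact h12
  have hleft : v (b - 1) ∈ Q := by
    have e : b - 1 = p - ℓ₂ := by rw [hb]; ring
    rw [e]
    exact h22'
  have hshift : ∀ (x y d : ℤ), v x = v y → v (x + d) = v (y + d) := by
    intro x y d h
    have h1 := (hc.eq_iff _ _).1 h
    rw [hc.eq_iff]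
    have e : x + d - (y + d) = x - y := by ring
    rw [e]
    exact h1
  have hclosed : ArcClosed v Q A := by
    refine ⟨?_, ?_, ?_, ?_⟩
    · intro z hz
      obtain ⟨t, ht, rfl⟩ := (hmem z).1 hz
      exact hnot t ht
    · intro z hz
      obtain ⟨t, ht, rfl⟩ := (hmem z).1 hz
      exact ⟨_, rfl⟩
    · intro i hi hq
      obtain ⟨t, ht, hvt⟩ := (hmem _).1 hi
      have h1 : v (i + 1) = v (b + t + 1) := (hshift _ _ 1 hvt).symm
      by_cases h2 : t + 1 < m
      · refine (hmem _).2 ⟨t + 1, h2, ?_⟩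
        rw [h1]
        congr 1
        push_cast
        ring
      · exfalso
        have h3 : t + 1 = m := by omega
        apply hq
        rw [h1]
        have e : b + (t : ℤ) + 1 = b + m := by
          rw [← h3]; push_cast; ring
        rw [e]
        exact hright
    · intro i hi hq
      obtain ⟨t, ht, hvt⟩ := (hmem _).1 hi
      have h1 : v (i - 1) = v (b + t - 1) := by
        have := (hshift _ _ (-1) hvt).symm
        simpa [sub_eq_add_neg] using this
      rcases Nat.eq_zero_or_pos t with h0 | h0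
      · exfalso
        apply hq
        rw [h1, h0]
        simpa using hleft
      · refine (hmem _).2 ⟨t - 1, by omega, ?_⟩
        rw [h1]
        congr 1
        have : ((t - 1 : ℕ) : ℤ) = (t : ℤ) - 1 := by omega
        rw [this]
        ring
  have hm0 : 0 < m := by omega
  refine ⟨A, hclosed, ?_, ?_, ?_, ?_⟩
  · refine (hmem _).2 ⟨ℓ₂ - 1, by omega, ?_⟩
    congr 1
    have : ((ℓ₂ - 1 : ℕ) : ℤ) = (ℓ₂ : ℤ) - 1 := by omega
    rw [this, hb]
    ring
  · -- only one left end
    have key : ∀ z ∈ leftEnds v Q A, z = v (b + (0 : ℕ)) := by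
      intro z hz
      obtain ⟨hzA, i, hi, hi'⟩ := mem_leftEnds.1 hz
      obtain ⟨t, ht, hvt⟩ := (hmem _).1 hzA
      rcases Nat.eq_zero_or_pos t with h0 | h0
      · rw [← hvt, h0]
      · exfalso
        have h1 : v (b + t - 1) ∈ Q := by
          have := hshift _ _ (-1) (hvt.trans hi.symm)
          have e1 : b + (t : ℤ) + -1 = b + t - 1 := by ring
          have e2 : i + -1 = i - 1 := by ring
          rw [e1, e2] at this
          rw [this]
          exact hi'
        have e : b + (t : ℤ) - 1 = b + ((t - 1 : ℕ) : ℤ) := by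
          have : ((t - 1 : ℕ) : ℤ) = (t : ℤ) - 1 := by omega
          rw [this]
          ring
        rw [e] at h1
        exact hnot _ (by omega) h1
    rw [Finset.card_le_one]
    intro x hx y hy
    rw [key x hx, key y hy]
  · have key : ∀ z ∈ leftEnds (fun i => v (-i)) Q A, z = v (b + (m - 1 : ℕ)) := by
      intro z hz
      obtain ⟨hzA, i, hi, hi'⟩ := mem_leftEnds.1 hz
      obtain ⟨t, ht, hvt⟩ := (hmem _).1 hzA
      by_cases h2 : t + 1 < m
      · exfalso
        have hi2 : v (-i) = z := hi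
        have hi2' : v (-(i - 1)) ∈ Q := hi'
        have h1 : v (b + t + 1) ∈ Q := by
          have := hshift _ _ 1 (hvt.trans hi2.symm)
          have e2 : -(i - 1) = -i + 1 := by ring
          rw [e2] at hi2'
          rw [this]
          exact hi2'
        have e : b + (t : ℤ) + 1 = b + ((t + 1 : ℕ) : ℤ) := by push_cast; ring
        rw [e] at h1
        exact hnot _ h2 h1
      · have h3 : t = m - 1 := by omega
        rw [← hvt, h3]
    rw [Finset.card_le_one]
    intro x hx y hy
    rw [key x hx, key y hy]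
  · intro t ht
    have hlt : t < ℓ₁ := by
      by_contra hcon
      exact ht ℓ₁ (by omega) h12
    refine (hmem _).2 ⟨ℓ₂ - 1 + t, by omega, ?_⟩
    congr 1
    have : ((ℓ₂ - 1 + t : ℕ) : ℤ) = (ℓ₂ : ℤ) - 1 + t := by omega
    rw [this, hb]
    ring

lemma ArcClosed.sdiff {C B : Finset V} (hC : ArcClosed v Q C) (hB : ArcClosed v Q B) :
    ArcClosed v Q (C \ B) := by
  refine ⟨?_, ?_, ?_, ?_⟩
  · intro z hz
    exact hC.notQ z (Finset.mem_sdiff.1 hz).1
  · intro z hz
    exact hC.on z (Finset.mem_sdiff.1 hz).1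
  · intro i hi hnQ
    have h1 := Finset.mem_sdiff.1 hi
    refine Finset.mem_sdiff.2 ⟨hC.succ i h1.1 hnQ, fun h2 => h1.2 ?_⟩
    have := hB.pred (i + 1) h2 (by
      simpa using hC.notQ _ h1.1)
    simpa using this
  · intro i hi hnQ
    have h1 := Finset.mem_sdiff.1 hi
    refine Finset.mem_sdiff.2 ⟨hC.pred i h1.1 hnQ, fun h2 => h1.2 ?_⟩
    have := hB.succ (i - 1) h2 (by
      simpa using hC.notQ _ h1.1)
    simpa using this

lemma ArcClosed.of_rev {A : Finset V} (h : ArcClosed (fun i => v (-i)) Q A) : ArcClosed v Q A := by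
  have := h.rev
  simpa using this

/-- The set of non-`Q` vertices of a cycle. -/
noncomputable def offQ (v : ℤ → V) (n : ℕ) (Q : Finset V) : Finset V := cycVerts v n \ Q

lemma offQ_closed (hc : CycFn G n v) : ArcClosed v Q (offQ v n Q) := by
  refine ⟨?_, ?_, ?_, ?_⟩
  · intro z hz
    exact (Finset.mem_sdiff.1 hz).2
  · intro z hz
    exact (mem_cycVerts hc).1 (Finset.mem_sdiff.1 hz).1
  · intro i _ h
    exact Finset.mem_sdiff.2 ⟨(mem_cycVerts hc).2 ⟨_, rfl⟩, h⟩
  · intro i _ h
    exact Finset.mem_sdiff.2 ⟨(mem_cycVerts hc).2 ⟨_, rfl⟩, h⟩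

lemma ArcClosed.subset_offQ (hc : CycFn G n v) {A : Finset V} (h : ArcClosed v Q A) :
    A ⊆ offQ v n Q := by
  intro z hz
  exact Finset.mem_sdiff.2 ⟨(mem_cycVerts hc).2 (h.on z hz), h.notQ z hz⟩

lemma card_offQ (hc : CycFn G n v) (hQv : ∀ a ∈ Q, ∃ i, v i = a) : (offQ v n Q).card + Q.card = n := by
  have hsub : Q ⊆ cycVerts v n := fun a ha => (mem_cycVerts hc).2 (hQv a ha)
  have h1 := Finset.card_sdiff_of_subset hsub
  have h2 := Finset.card_le_card hsub
  rw [card_cycVerts hc] at h1 h2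
  unfold offQ
  omega

/-- The minimal closed set containing the arc `A` with at least `r + 1` vertices. -/
theorem min_closed (hc : CycFn G n v) (hQne : ∃ i0, v i0 ∈ Q) {A : Finset V} (hA : ArcClosed v Q A)
    (hAL : (leftEnds v Q A).card ≤ 1) (hAR : (leftEnds (fun i => v (-i)) Q A).card ≤ 1) {r : ℕ}
    (hr : r + 1 ≤ (offQ v n Q).card) :
    ∃ (C : Finset V) (e L R : ℕ), ArcClosed v Q C ∧ A ⊆ C ∧ C.card = r + 1 + e ∧
      L * (e + 1) ≤ (C \ A).card ∧ R * (e + 1) ≤ (C \ A).card ∧ (bdry v Q C).card ≤ L + R + 2 ∧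
      L = (leftEnds v Q (C \ A)).card ∧ R = (leftEnds (fun i => v (-i)) Q (C \ A)).card ∧
      ∀ B : Finset V, B ⊆ C \ A → B.Nonempty → ArcClosed v Q B → ArcClosed v Q ((C \ A) \ B) →
        e + 1 ≤ B.card := by
  classical
  let F : Finset (Finset V) := (offQ v n Q).powerset.filter
    (fun C => ArcClosed v Q C ∧ A ⊆ C ∧ r + 1 ≤ C.card)
  have hFne : F.Nonempty := ⟨offQ v n Q, Finset.mem_filter.2 ⟨Finset.mem_powerset.2
    (Finset.Subset.refl _), offQ_closed hc, hA.subset_offQ hc, hr⟩⟩
  obtain ⟨C, hCF, hCmin⟩ := Finset.exists_min_image F Finset.card hFne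
  obtain ⟨hCN, hCl, hAC, hCcard⟩ := Finset.mem_filter.1 hCF
  have hCN' := Finset.mem_powerset.1 hCN
  obtain ⟨e, he⟩ : ∃ e, C.card = r + 1 + e := ⟨C.card - (r + 1), by omega⟩
  have hC' : ArcClosed v Q (C \ A) := hCl.sdiff hA
  have hm : ∀ B : Finset V, B ⊆ C \ A → B.Nonempty → ArcClosed v Q B → ArcClosed v Q ((C \ A) \ B) →
      e + 1 ≤ B.card := by
    intro B hB hBne hBcl _
    by_contra hlt
    have hBC : B ⊆ C := hB.trans Finset.sdiff_subset
    have hcardB : (C \ B).card = C.card - B.card := Finset.card_sdiff_of_subset hBC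
    have hpos := Finset.card_pos.2 hBne
    have hBle := Finset.card_le_card hBC
    have hmem : C \ B ∈ F := by
      refine Finset.mem_filter.2 ⟨Finset.mem_powerset.2 (Finset.sdiff_subset.trans hCN'),
        hCl.sdiff hBcl, ?_, by omega⟩
      intro a ha
      refine Finset.mem_sdiff.2 ⟨hAC ha, fun hb => ?_⟩
      exact (Finset.mem_sdiff.1 (hB hb)).2 ha
    have := hCmin _ hmem
    omega
  have hL := card_leftEnds_mul_le hc hQne hC' e hm
  have hR := card_leftEnds_mul_le hc.rev (by
    obtain ⟨i0, hi0⟩ := hQne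
    exact ⟨-i0, by simpa using hi0⟩) hC'.rev e
      (fun B hB hne h1 h2 => hm B hB hne h1.of_rev h2.of_rev)
  refine ⟨C, e, _, _, hCl, hAC, he, hL, hR, ?_, rfl, rfl, hm⟩
  have hB := card_bdry_le (Q := Q) (C := C) hc
  have hsplit : ∀ (w : ℤ → V), leftEnds w Q C ⊆ leftEnds w Q A ∪ leftEnds w Q (C \ A) := by
    intro w z hz
    obtain ⟨hzC, hi⟩ := mem_leftEnds.1 hz
    by_cases hzA : z ∈ A
    · exact Finset.mem_union_left _ (mem_leftEnds.2 ⟨hzA, hi⟩)
    · exact Finset.mem_union_right _ (mem_leftEnds.2 ⟨Finset.mem_sdiff.2 ⟨hzC, hzA⟩, hi⟩)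
  have h1 := (Finset.card_le_card (hsplit v)).trans (Finset.card_union_le _ _)
  have h2 := (Finset.card_le_card (hsplit (fun i => v (-i)))).trans (Finset.card_union_le _ _)
  omega

end

/-- **Analytic exclusion** (#1825 (b)): for `q ≥ 8`, `r ≤ q - 1`, a longest cycle through `Q`
of length at most `q + r` has no path between distinct units with `1`, `3` or `4` inner vertices
outside. -/
theorem excl_big {n r : ℕ} {v : ℤ → V} (hc : CycFn G n v) {Q : Finset V}
    (hQ : ∀ x ∈ Q, ∀ y ∈ Q, x ≠ y → G.Adj x y) (hQv : ∀ a ∈ Q, ∃ t, v t = a)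
    (hr : r + 1 ≤ Q.card) (h8 : 8 ≤ Q.card) (hn : n ≤ Q.card + r)
    (hno : ¬ HasCycle G (Q.card + r + 1))
    (hmax : ∀ (u : V) (c : G.Walk u u), c.IsCycle → (∀ a ∈ Q, a ∈ c.support) →
      c.length ≤ Q.card + r → c.length ≤ n)
    {i j : ℤ} (hi : v (i + 1) ∈ Q) (hj : v (j + 1) ∈ Q) (hij : v i ≠ v j)
    (g : G.Walk (v i) (v j)) (hg : g.IsPath)
    (hoff : ∀ z ∈ g.support, z ≠ v i → z ≠ v j → ∀ t, z ≠ v t)
    (hlen : g.length = 2 ∨ g.length = 4 ∨ g.length = 5) : False := by
  classical
  have hlen2 : 2 ≤ g.length := by omega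
  obtain ⟨u, c, hcy, hcl, hcs, hcg⟩ := crossing' hc hQ hi hj hij g hg hoff hlen2
  have hQc : ∀ a ∈ Q, a ∈ c.support := by
    intro a ha
    obtain ⟨t, rfl⟩ := hQv a ha
    exact (hcs _).2 (Or.inl ⟨t, rfl⟩)
  obtain ⟨s, hs⟩ : ∃ s, g.length = s + 1 := ⟨g.length - 1, by omega⟩
  have hL : c.length = n + s := by omega
  have hs1 : 1 ≤ s := by omega
  by_cases hcase : c.length ≤ Q.card + r
  · have := hmax u c hcy hQc hcase
    omega
  have hc' := cycFn_of_isCycle hcy
  set v' := cyc c with hv'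
  have hQv' : ∀ a ∈ Q, ∃ t, v' t = a := fun a ha => exists_cyc_eq hcy (hQc a ha)
  have hQne : ∃ i0, v' i0 ∈ Q := by
    obtain ⟨a, ha⟩ : Q.Nonempty := Finset.card_pos.1 (by omega)
    obtain ⟨t, ht⟩ := hQv' a ha
    exact ⟨t, ht ▸ ha⟩
  have hn3 := hc.n_ge
  -- positions along g
  have hpos : ∀ t : ℕ, t < g.length → v' t = g.getVert t := by
    intro t ht
    rw [hv', cyc_natCast c (by omega)]
    exact hcg t ht
  have hginj : ∀ x y : ℕ, x ≤ g.length → y ≤ g.length → g.getVert x = g.getVert y → x = y := by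
    intro x y hx hy h
    exact hg.getVert_injOn (by simpa using hx) (by simpa using hy) h
  have hint : ∀ t : ℕ, 1 ≤ t → t ≤ s → v' t ∉ Q := by
    intro t h1 h2 hq
    rw [hpos t (by omega)] at hq
    obtain ⟨x, hx⟩ := hQv _ hq
    refine hoff (g.getVert t) (g.getVert_mem_support t) ?_ ?_ x hx.symm
    · intro h
      have h0 : g.getVert 0 = v i := by simp
      have := hginj t 0 (by omega) (by omega) (h.trans h0.symm)
      omega
    · intro h
      have h0 : g.getVert g.length = v j := by simp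
      have := hginj t g.length (by omega) (le_refl _) (h.trans h0.symm)
      omega
  obtain ⟨A, hA, _, hAL, hAR, hArun⟩ := exists_arc hc' hQne (p := (1 : ℕ))
    (by exact_mod_cast hint 1 (le_refl _) hs1)
  -- the arc is big
  have hAs : s ≤ A.card := by
    have hsub : (Finset.range s).image (fun t : ℕ => v' ((1 : ℕ) + t)) ⊆ A := by
      intro z hz
      obtain ⟨t, ht, rfl⟩ := Finset.mem_image.1 hz
      have ht' := Finset.mem_range.1 ht
      apply hArun
      intro x hx
      have e : ((1 : ℕ) : ℤ) + (x : ℤ) = ((1 + x : ℕ) : ℤ) := by push_cast; ring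
      rw [e]
      exact hint (1 + x) (by omega) (by omega)
    have hcard := Finset.card_le_card hsub
    rw [Finset.card_image_of_injOn, Finset.card_range] at hcard
    · exact hcard
    · intro x hx y hy hxy
      have hx' := Finset.mem_range.1 (Finset.mem_coe.1 hx)
      have hy' := Finset.mem_range.1 (Finset.mem_coe.1 hy)
      simp only at hxy
      have e1 : ((1 : ℕ) : ℤ) + (x : ℤ) = ((1 + x : ℕ) : ℤ) := by push_cast; ring
      have e2 : ((1 : ℕ) : ℤ) + (y : ℤ) = ((1 + y : ℕ) : ℤ) := by push_cast; ring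
      rw [e1, e2, hpos _ (by omega), hpos _ (by omega)] at hxy
      have := hginj _ _ (by omega) (by omega) hxy
      omega
  have hNcard := card_offQ hc' hQv'
  obtain ⟨C, e, L, R, hCl, hAC, hCc, hL1, hR1, hbd, hLdef, hRdef, hmin⟩ :=
    min_closed hc' hQne hA hAL hAR (r := r) (by omega)
  have hCle : C.card ≤ (offQ v' c.length Q).card := Finset.card_le_card (hCl.subset_offQ hc')
  have hC'c : (C \ A).card + A.card = C.card := by
    rw [Finset.card_sdiff_of_subset hAC]
    have := Finset.card_le_card hAC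
    omega
  have hes : e + 1 ≤ s := by
    rw [hCc] at hCle
    omega
  -- Rule C fails
  have hfail : Q.card + 1 ≤ (bdry v' Q C).card + e := by
    by_contra hcon
    apply hno
    have hrule := ruleC_card hc' hQ hCl hQv' (t := Q.card - e) (by omega) (by omega) (by omega)
    have e2 : C.card + (Q.card - e) = Q.card + r + 1 := by omega
    rwa [e2] at hrule
  have hbdQ : (bdry v' Q C).card ≤ Q.card :=
    Finset.card_le_card (fun x hx => (mem_bdry.1 hx).1)
  have he1 : 1 ≤ e := by omega
  -- dropping a 2-arc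
  have hdrop : ∀ B : Finset V, B ⊆ C \ A → ArcClosed v' Q B → B.card = 2 → s = 3 → False := by
    intro B hB hBcl hB2 hs3
    have hBN : B ⊆ offQ v' c.length Q := hBcl.subset_offQ hc'
    have hX : ArcClosed v' Q (offQ v' c.length Q \ B) := (offQ_closed hc').sdiff hBcl
    have hXcard : (offQ v' c.length Q \ B).card = (offQ v' c.length Q).card - 2 := by
      rw [Finset.card_sdiff_of_subset hBN, hB2]
    have hdisj : Disjoint (offQ v' c.length Q \ B) Q := by
      rw [Finset.disjoint_left]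
      intro a ha ha'
      exact hX.notQ a ha ha'
    have hcardU : ((offQ v' c.length Q \ B) ∪ Q).card = n + 1 := by
      rw [Finset.card_union_of_disjoint hdisj, hXcard]
      omega
    obtain ⟨u2, c2, h21, h22, h23⟩ := ruleC hc' hQ hX (Finset.Subset.refl Q) hQv'
      (fun i _ => ⟨id, id⟩) (by rw [hcardU]; omega)
    rw [hcardU] at h22
    by_cases hk : n + 1 ≤ Q.card + r
    · have := hmax u2 c2 h21 (fun a ha => (h23 a).2 (Finset.mem_union_right _ ha)) (by omega)
      omega
    · apply hno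
      refine ⟨u2, c2, h21, by omega⟩
  rcases hlen with h1 | h1 | h1
  · omega
  · -- s = 3
    have hs3 : s = 3 := by omega
    have he2 : e = 1 ∨ e = 2 := by omega
    rcases he2 with rfl | rfl
    · by_cases hex : ∃ B : Finset V, B ⊆ C \ A ∧ B.Nonempty ∧ ArcClosed v' Q B ∧
          ArcClosed v' Q ((C \ A) \ B) ∧ B.card ≤ 2
      · obtain ⟨B, hB, hBne, hBc, hBc', hB2⟩ := hex
        have := hmin B hB hBne hBc hBc'
        exact hdrop B hB hBc (by omega) hs3
      · have hm3 : ∀ B : Finset V, B ⊆ C \ A → B.Nonempty → ArcClosed v' Q B →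
            ArcClosed v' Q ((C \ A) \ B) → 2 + 1 ≤ B.card := by
          intro B hB hBne hBc hBc'
          by_contra hlt
          exact hex ⟨B, hB, hBne, hBc, hBc', by omega⟩
        have hC'cl : ArcClosed v' Q (C \ A) := hCl.sdiff hA
        have h3L := card_leftEnds_mul_le hc' hQne hC'cl 2 hm3
        have h3R := card_leftEnds_mul_le hc'.rev (by
          obtain ⟨i0, hi0⟩ := hQne
          exact ⟨-i0, by simpa using hi0⟩) hC'cl.rev 2
            (fun B hB hne h1 h2 => hm3 B hB hne h1.of_rev h2.of_rev)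
        rw [← hLdef] at h3L
        rw [← hRdef] at h3R
        omega
    · omega
  · -- s = 4
    have hs4 : s = 4 := by omega
    have he2 : e = 1 ∨ e = 2 ∨ e = 3 := by omega
    rcases he2 with rfl | rfl | rfl <;> omega

end Crest.Agent.CycleRamsey
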