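import Crest.Agent.Lib.CycleRamsey.Theta

/-!
# BFS layers and the theta closure (row 54)

`Lay G r j` is the set of vertices at distance exactly `j` from `r`.

`layer_no_chorded`: if `G` has no cycle of length `k + 1`, `1 ≤ j`, `2 * j ≤ k`, the layer
`Lay G r j` contains no chorded cycle on at least `k` vertices.
-/

set_option autoImplicit false

namespace Crest.Agent.Lib.CycleRamsey

variable {V : Type} {G : SimpleGraph V} {r : V}

/-- The BFS layer: the vertices at distance exactly `j` from `r`. -/
def Lay (G : SimpleGraph V) (r : V) (j : ℕ) : Set V := {x | G.Reachable r x ∧ G.dist r x = j}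

theorem Lay.dist_eq {j : ℕ} {x : V} (h : x ∈ Lay G r j) : G.dist r x = j := h.2

theorem Lay.disjoint {i j : ℕ} {x : V} (h : x ∈ Lay G r i) (h' : x ∈ Lay G r j) : i = j := by
  rw [← h.2, h'.2]

/-- Adjacent vertices have layers differing by at most one. -/
theorem Lay.adj_le {i j : ℕ} {x y : V} (hx : x ∈ Lay G r i) (hy : y ∈ Lay G r j)
    (hadj : G.Adj x y) : j ≤ i + 1 := by
  obtain ⟨p, hp⟩ := hx.1.exists_walk_length_eq_dist
  have := SimpleGraph.dist_le (p.concat hadj)
  rw [SimpleGraph.Walk.length_concat, hp, hy.2, hx.2] at this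
  exact this

/-- Existence of parents. -/
theorem exists_parent {x : V} (hx : G.Reachable r x) (hne : x ≠ r) :
    ∃ y, G.Adj y x ∧ G.Reachable r y ∧ G.dist r y + 1 = G.dist r x := by
  obtain ⟨p, hp⟩ := hx.exists_walk_length_eq_dist
  cases hq : p.reverse with
  | nil => 
    exact absurd rfl hne
  | @cons _ y _ hadj q =>
    have hlen : q.length + 1 = p.length := by
      have := congrArg SimpleGraph.Walk.length hq
      simp only [SimpleGraph.Walk.length_reverse, SimpleGraph.Walk.length_cons] at this
      omega
    have hry : G.Reachable r y := q.reverse.reachable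
    refine ⟨y, hadj.symm, hry, ?_⟩
    have h1 : G.dist r y ≤ q.length := by
      have := SimpleGraph.dist_le q.reverse
      simpa using this
    have h2 : G.dist r x ≤ G.dist r y + 1 := by
      obtain ⟨p', hp'⟩ := hry.exists_walk_length_eq_dist
      have := SimpleGraph.dist_le (p'.concat hadj.symm)
      rw [SimpleGraph.Walk.length_concat, hp'] at this
      exact this
    omega

/-- A parent function. -/
theorem exists_par (G : SimpleGraph V) (r : V) : ∃ par : V → V, ∀ x, G.Reachable r x → x ≠ r →
    G.Adj (par x) x ∧ G.Reachable r (par x) ∧ G.dist r (par x) + 1 = G.dist r x := by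
  classical
  refine ⟨fun x => if h : G.Reachable r x ∧ x ≠ r then (exists_parent h.1 h.2).choose else x, ?_⟩
  intro x hx hne
  simp only [dif_pos (And.intro hx hne)]
  exact (exists_parent hx hne).choose_spec

/-- The properties of a parent function. -/
def IsPar (G : SimpleGraph V) (r : V) (par : V → V) : Prop :=
  ∀ x, G.Reachable r x → x ≠ r →
    G.Adj (par x) x ∧ G.Reachable r (par x) ∧ G.dist r (par x) + 1 = G.dist r x

theorem Lay.ne_root {j : ℕ} {x : V} (hj : 1 ≤ j) (hx : x ∈ Lay G r j) : x ≠ r := by
  rintro rfl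
  have := hx.2
  simp at this
  omega

theorem IsPar.par_mem {par : V → V} (hp : IsPar G r par) {j : ℕ} {x : V}
    (hx : x ∈ Lay G r (j + 1)) : par x ∈ Lay G r j ∧ G.Adj (par x) x := by
  obtain ⟨h1, h2, h3⟩ := hp x hx.1 (Lay.ne_root (by omega) hx)
  refine ⟨⟨h2, ?_⟩, h1⟩
  have := hx.2
  omega

theorem IsPar.iter_mem {par : V → V} (hp : IsPar G r par) {j : ℕ} {x : V}
    (hx : x ∈ Lay G r j) : ∀ s ≤ j, par^[s] x ∈ Lay G r (j - s) := by
  intro s
  induction s with
  | zero => intro _; simpa using hx
  | succ s ih =>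
    intro hs
    rw [Function.iterate_succ_apply']
    have := ih (by omega)
    rw [show j - s = (j - (s + 1)) + 1 by omega] at this
    exact (hp.par_mem this).1

theorem IsPar.iter_adj {par : V → V} (hp : IsPar G r par) {j : ℕ} {x : V}
    (hx : x ∈ Lay G r j) (s : ℕ) (hs : s < j) : G.Adj (par^[s + 1] x) (par^[s] x) := by
  rw [Function.iterate_succ_apply']
  have := hp.iter_mem hx s (by omega)
  rw [show j - s = (j - (s + 1)) + 1 by omega] at this
  exact (hp.par_mem this).2

theorem Lay.eq_root {x : V} (hx : x ∈ Lay G r 0) : x = r := by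
  have h1 := hx.1
  have h2 := hx.2
  exact ((SimpleGraph.Reachable.dist_eq_zero_iff h1).1 h2).symm

/-- The closure: a path of length `ℓ` inside the layer `j`, whose ends have a common ancestor at
height `h` exactly, closes to a cycle of length `ℓ + 2 * h`. -/
theorem close_cycle {par : V → V} (hp : IsPar G r par) {j ℓ h : ℕ} {w : ℕ → V}
    (hw : IsPathFun G w ℓ) (hwj : ∀ i ≤ ℓ, w i ∈ Lay G r j) (hh1 : 1 ≤ h) (hhj : h ≤ j)
    (hl : 1 ≤ ℓ)
    (heq : par^[h] (w 0) = par^[h] (w ℓ)) (hne : par^[h - 1] (w 0) ≠ par^[h - 1] (w ℓ)) :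
    HasCycle G (ℓ + 2 * h) := by
  set x := w 0 with hx
  set y := w ℓ with hy
  have hxj : x ∈ Lay G r j := hwj 0 (by omega)
  have hyj : y ∈ Lay G r j := hwj ℓ le_rfl
  set W : ℕ → V := fun i =>
    if i ≤ ℓ then w i else if i ≤ ℓ + h then par^[i - ℓ] y else par^[ℓ + 2 * h - i] x with hW
  have hnesame : ∀ s ≤ h - 1, par^[s] x ≠ par^[s] y := by
    intro s hs hc
    apply hne
    have := congrArg (par^[h - 1 - s]) hc
    simpa [← Function.iterate_add_apply, show h - 1 - s + s = h - 1 by omega] using this
  apply hasCycle_of_fun G W _ (by omega)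
  · -- injectivity
    have key : ∀ i, i < ℓ + 2 * h → ∀ i', i' < ℓ + 2 * h → i ≤ i' → W i = W i' → i = i' := by
      intro i hi i' hi' hle heq'
      simp only [hW] at heq'
      split_ifs at heq' with h1 h2 h3 h4 h5 h6
      · exact hw.inj i h1 i' h2 heq'
      · exfalso
        have h7 := hwj i h1
        have h8 := hp.iter_mem hyj (i' - ℓ) (by omega)
        rw [heq'] at h7
        have := Lay.disjoint h7 h8
        omega
      · exfalso
        have h7 := hwj i h1
        have h8 := hp.iter_mem hxj (ℓ + 2 * h - i') (by omega)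
        rw [heq'] at h7
        have := Lay.disjoint h7 h8
        omega
      · omega
      · have h7 := hp.iter_mem hyj (i - ℓ) (by omega)
        have h8 := hp.iter_mem hyj (i' - ℓ) (by omega)
        rw [heq'] at h7
        have := Lay.disjoint h7 h8
        omega
      · have h7 := hp.iter_mem hyj (i - ℓ) (by omega)
        have h8 := hp.iter_mem hxj (ℓ + 2 * h - i') (by omega)
        rw [heq'] at h7
        have := Lay.disjoint h7 h8
        have h9 : i - ℓ = ℓ + 2 * h - i' := by omega
        rw [h9] at heq'
        exact absurd heq'.symm (hnesame _ (by omega))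
      · omega
      · omega
      · have h7 := hp.iter_mem hxj (ℓ + 2 * h - i) (by omega)
        have h8 := hp.iter_mem hxj (ℓ + 2 * h - i') (by omega)
        rw [heq'] at h7
        have := Lay.disjoint h7 h8
        omega
    intro i hi i' hi' heq'
    rcases le_total i i' with hle | hle
    · exact key i hi i' hi' hle heq'
    · exact (key i' hi' i hi hle heq'.symm).symm
  · -- adjacency
    intro i hi
    simp only [hW]
    by_cases h1 : i < ℓ
    · rw [if_pos (by omega), if_pos (by omega)]
      exact hw.adj i h1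
    · by_cases h2 : i = ℓ
      · subst h2
        rw [if_pos le_rfl, if_neg (by omega), if_pos (by omega)]
        have := hp.iter_adj hyj 0 (by omega)
        simpa [add_comm] using this.symm
      · by_cases h3 : i < ℓ + h
        · rw [if_neg (by omega), if_pos (by omega), if_neg (by omega), if_pos (by omega)]
          have := hp.iter_adj hyj (i - ℓ) (by omega)
          rw [show i + 1 - ℓ = i - ℓ + 1 by omega]
          exact this.symm
        · by_cases h4 : i = ℓ + h
          · subst h4
            rw [if_neg (by omega), if_pos (by omega), if_neg (by omega), if_neg (by omega)]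
            have h5 := hp.iter_adj hxj (h - 1) (by omega)
            rw [show h - 1 + 1 = h by omega, heq] at h5
            rw [show ℓ + h - ℓ = h by omega, show ℓ + 2 * h - (ℓ + h + 1) = h - 1 by omega]
            exact h5
          · rw [if_neg (by omega), if_neg (by omega), if_neg (by omega), if_neg (by omega)]
            have h5 := hp.iter_adj hxj (ℓ + 2 * h - (i + 1)) (by omega)
            rw [show ℓ + 2 * h - (i + 1) + 1 = ℓ + 2 * h - i by omega] at h5
            exact h5
  · -- closing
    simp only [hW]
    rw [if_pos (show 0 ≤ ℓ by omega), if_neg (by omega)]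
    by_cases h2 : h = 1
    · subst h2
      rw [if_pos (by omega)]
      rw [show ℓ + 2 * 1 - 1 - ℓ = 1 by omega]
      have := hp.iter_adj hxj 0 (by omega)
      simp only [zero_add, Function.iterate_zero, id] at this
      rw [← heq]
      exact this
    · rw [if_neg (by omega)]
      rw [show ℓ + 2 * h - (ℓ + 2 * h - 1) = 1 by omega]
      have := hp.iter_adj hxj 0 (by omega)
      simpa using this

/-- The graph formed by a cycle and a chord, as a graph. -/
def thetaGraph (v : ℤ → V) (t : ℕ) : SimpleGraph V :=
  SimpleGraph.fromRel (fun x y => (∃ i, x = v i ∧ y = v (i + 1)) ∨ (x = v 0 ∧ y = v t))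

section Theta

variable {n t : ℕ} {v : ℤ → V}

theorem ChordedCycle.theta (hc : ChordedCycle G n t v) : ChordedCycle (thetaGraph v t) n t v where
  eq_iff := hc.eq_iff
  adj i := by
    rw [thetaGraph, SimpleGraph.fromRel_adj]
    exact ⟨(hc.adj i).ne, Or.inl (Or.inl ⟨i, rfl, rfl⟩)⟩
  chord := by
    rw [thetaGraph, SimpleGraph.fromRel_adj]
    exact ⟨hc.chord.ne, Or.inl (Or.inr ⟨rfl, rfl⟩)⟩
  t_ge := hc.t_ge
  n_ge := hc.n_ge

theorem ChordedCycle.theta_le (hc : ChordedCycle G n t v) : thetaGraph v t ≤ G := by
  intro x y hxy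
  rw [thetaGraph, SimpleGraph.fromRel_adj] at hxy
  obtain ⟨_, h | h⟩ := hxy
  · rcases h with ⟨i, rfl, rfl⟩ | ⟨rfl, rfl⟩
    · exact hc.adj i
    · exact hc.chord
  · rcases h with ⟨i, rfl, rfl⟩ | ⟨rfl, rfl⟩
    · exact (hc.adj i).symm
    · exact hc.chord.symm

theorem IsPathFun.mono {H : SimpleGraph V} {w : ℕ → V} {ℓ : ℕ} (h : IsPathFun H w ℓ) (hle : H ≤ G) :
    IsPathFun G w ℓ := ⟨h.inj, fun i hi => hle (h.adj i hi)⟩

end Theta

/-- The deepest common ancestor of a set with two elements. -/
theorem exists_split {par : V → V} (hp : IsPar G r par) {j : ℕ} {X : Set V}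
    (hX : X ⊆ Lay G r j) {x y : V} (hx : x ∈ X) (hy : y ∈ X) (hxy : x ≠ y) :
    ∃ h, 1 ≤ h ∧ h ≤ j ∧ (∀ a ∈ X, ∀ b ∈ X, par^[h] a = par^[h] b) ∧
      ∃ a ∈ X, ∃ b ∈ X, par^[h - 1] a ≠ par^[h - 1] b := by
  classical
  have hP : ∃ h, ∀ a ∈ X, ∀ b ∈ X, par^[h] a = par^[h] b := by
    refine ⟨j, fun a ha b hb => ?_⟩
    have h1 := hp.iter_mem (hX ha) j le_rfl
    have h2 := hp.iter_mem (hX hb) j le_rfl
    rw [Nat.sub_self] at h1 h2
    rw [Lay.eq_root h1, Lay.eq_root h2]
  refine ⟨Nat.find hP, ?_, ?_, Nat.find_spec hP, ?_⟩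
  · by_contra h0
    have h00 : Nat.find hP = 0 := by omega
    have := Nat.find_spec hP x hx y hy
    rw [h00] at this
    exact hxy this
  · apply Nat.find_min' hP
    intro a ha b hb
    have h1 := hp.iter_mem (hX ha) j le_rfl
    have h2 := hp.iter_mem (hX hb) j le_rfl
    rw [Nat.sub_self] at h1 h2
    rw [Lay.eq_root h1, Lay.eq_root h2]
  · have h0 : Nat.find hP ≠ 0 := by
      intro h00
      have := Nat.find_spec hP x hx y hy
      rw [h00] at this
      exact hxy this
    have := Nat.find_min hP (m := Nat.find hP - 1) (by omega)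
    push Not at this
    exact this

/-- Parity along paths for a colouring that changes on each edge. -/
theorem IsPathFun.parity {H : SimpleGraph V} {w : ℕ → V} {ℓ : ℕ} (hw : IsPathFun H w ℓ)
    (c : V → Bool) (hc : ∀ x y, H.Adj x y → c x ≠ c y) :
    ∀ i ≤ ℓ, (c (w i) = c (w 0) ↔ Even i) := by
  intro i
  induction i with
  | zero => simp
  | succ i ih =>
    intro hi
    have h1 := ih (by omega)
    have h2 := hc _ _ (hw.adj i (by omega))
    rw [Nat.even_add_one, ← h1]
    cases h3 : c (w 0) <;> cases h4 : c (w i) <;> cases h5 : c (w (i + 1)) <;> simp_all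

/-- **The theta closure**: a BFS layer at height `1 ≤ j ≤ k / 2` of a graph without `C_{k+1}`
contains no chorded cycle on at least `k` vertices. -/
theorem layer_no_chorded {k : ℕ} (hcyc : ¬ HasCycle G (k + 1)) (r : V) {j : ℕ} (hj1 : 1 ≤ j)
    (hj : 2 * j ≤ k) {n t : ℕ} {v : ℤ → V} (hc : ChordedCycle G n t v) (hk : k ≤ n)
    (hv : ∀ i, v i ∈ Lay G r j) : False := by
  classical
  obtain ⟨par, hp⟩ := exists_par G r
  have hp : IsPar G r par := hp
  have ht2 := hc.t_ge
  have htn := hc.n_ge
  have hXsub : Set.range v ⊆ Lay G r j := by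
    rintro _ ⟨i, rfl⟩; exact hv i
  have hne01 : v 0 ≠ v 1 := by
    intro h
    have := (hc.eq_iff _ _).1 h
    have h1 : (n : ℤ) ≤ 1 := by
      have h2 := Int.le_of_dvd (by norm_num) (by simpa using this : (n : ℤ) ∣ 1)
      exact h2
    omega
  obtain ⟨h, hh1, hhj, hconst, _, ⟨i1, rfl⟩, _, ⟨i2, rfl⟩, hsplit⟩ :=
    exists_split hp hXsub ⟨0, rfl⟩ ⟨1, rfl⟩ hne01
  set c : V → Bool := fun x => decide (par^[h - 1] x = par^[h - 1] (v i1)) with hcdef
  have hci1 : c (v i1) = true := by simp [hcdef]
  have hci2 : c (v i2) = false := by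
    simp only [hcdef, decide_eq_false_iff_not]
    exact fun h' => hsplit h'.symm
  have hcH := hc.theta
  have hle := hc.theta_le
  rcases hcH.verstraete c (ℓ := k + 1 - 2 * h) (by omega) (by omega) with
    ⟨w, hw, hwr, hwc⟩ | ⟨hR1, hR2, harc⟩
  · -- the generic case
    have hwG := hw.mono hle
    have hLay : ∀ i ≤ k + 1 - 2 * h, w i ∈ Lay G r j := fun i hi => hXsub (hwr i hi)
    apply hcyc
    have := close_cycle hp hwG hLay hh1 hhj (by omega) ?_ ?_
    · rwa [show k + 1 - 2 * h + 2 * h = k + 1 by omega] at this
    · exact hconst _ (hwr _ (by omega)) _ (hwr _ le_rfl)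
    · intro he
      apply hwc
      simp only [hcdef, he]
  · -- the bipartite case
    set f : ℤ → Bool := fun x => c (v x) with hf
    have hper2 : Per f 2 := by
      intro x
      have h1 := hR1 ((t : ℤ) - 1 - x)
      have h2 := hR2 x
      simp only [hf]
      rw [show x + 2 = (t : ℤ) + 1 - ((t : ℤ) - 1 - x) by ring, h1, h2]
    have heven : ∀ x y : ℤ, Even (x - y) → f x = f y := by
      rintro x y ⟨m, hm⟩
      have := (hper2.mul m) y
      rw [show m * 2 = x - y by omega, show y + (x - y) = x by ring] at this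
      exact this
    have hi12 : ¬ Even (i2 - i1) := by
      intro he
      have := heven _ _ he
      simp only [hf, hci1, hci2] at this
      exact absurd this (by simp)
    have hft : ∀ x : ℤ, f x = true ↔ Even (x - i1) := by
      intro x
      constructor
      · intro hx
        by_contra hodd
        have : Even (x - i2) := by
          rw [Int.not_even_iff_odd] at hodd hi12
          have := hodd.sub_odd hi12
          rwa [show x - i1 - (i2 - i1) = x - i2 by ring] at this
        have h2 : f x = f i2 := heven _ _ this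
        have h5 : f i2 = false := hci2
        rw [hx, h5] at h2
        exact absurd h2 (by simp)
      · intro he
        have := heven _ _ he
        simp only [hf, hci1] at this
        exact this
    have hodd1 : ∀ x : ℤ, f (x + 1) ≠ f x := by
      intro x hx
      have hx1 : Even (x + 1 - i1) ↔ Even (x - i1) := by
        rw [← hft, ← hft, hx]
      rw [show x + 1 - i1 = x - i1 + 1 by ring, Int.even_add_one] at hx1
      tauto
    have hℓeven : Even (k + 1 - 2 * h) := by
      have h1 := harc i1
      have h2 : f (i1 + ((k + 1 - 2 * h : ℕ) : ℤ)) = true := by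
        simp only [hf]; rw [h1, hci1]
      rw [hft, show i1 + ((k + 1 - 2 * h : ℕ) : ℤ) - i1 = ((k + 1 - 2 * h : ℕ) : ℤ) by ring] at h2
      exact_mod_cast h2
    have htodd : Even ((t : ℤ) + 1) := by
      by_contra hodd
      have h1 := hR1 0
      rw [sub_zero] at h1
      have h2 : f ((t : ℤ) + 1) = f 0 := h1
      have h3 : Even ((t : ℤ) + 1 - 0) := by
        have := hft ((t : ℤ) + 1)
        have h4 := hft 0
        rw [h2, h4] at this
        rw [show (t : ℤ) + 1 - i1 = (t : ℤ) + 1 + (0 - i1) by ring, Int.even_add] at this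
        simp only [sub_zero]
        tauto
      simp only [sub_zero] at h3
      exact hodd h3
    have hft' : f (t : ℤ) ≠ f 0 := by
      intro he
      have h1 : Even ((t : ℤ)) := by
        have h2 := hft (t : ℤ)
        have h4 := hft 0
        rw [he, h4] at h2
        rw [show (t : ℤ) - i1 = (t : ℤ) + (0 - i1) by ring, Int.even_add] at h2
        tauto
      rw [Int.even_add_one] at htodd
      exact htodd h1
    -- the colouring `c` changes on every edge of the theta graph
    have hedge : ∀ x y, (thetaGraph v t).Adj x y → c x ≠ c y := by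
      intro x y hxy
      rw [thetaGraph, SimpleGraph.fromRel_adj] at hxy
      obtain ⟨_, h' | h'⟩ := hxy
      · rcases h' with ⟨i, rfl, rfl⟩ | ⟨rfl, rfl⟩
        · exact (hodd1 i).symm
        · exact hft'.symm
      · rcases h' with ⟨i, rfl, rfl⟩ | ⟨rfl, rfl⟩
        · exact hodd1 i
        · exact hft'
    -- second stage: split the even class
    set X2 : Set V := {x | ∃ i : ℤ, x = v i ∧ Even (i - i1)} with hX2
    have hX2sub : X2 ⊆ Lay G r j := by
      rintro _ ⟨i, rfl, _⟩; exact hv i
    have hne2 : v i1 ≠ v (i1 + 2) := by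
      intro he
      have := (hc.eq_iff _ _).1 he
      rw [show i1 - (i1 + 2) = -2 by ring, dvd_neg] at this
      have h1 : (n : ℤ) ≤ 2 := Int.le_of_dvd (by norm_num) this
      omega
    obtain ⟨h', hh1', hhj', hconst', a', ⟨i3, rfl, hi3⟩, b', ⟨i4, rfl, hi4⟩, hsplit'⟩ :=
      exists_split hp hX2sub ⟨i1, rfl, by simp⟩ ⟨i1 + 2, rfl, by
        rw [show i1 + 2 - i1 = 2 by ring]; exact even_two⟩ hne2
    set c1 : V → Bool := fun x => decide (x ∈ X2 ∧ par^[h' - 1] x = par^[h' - 1] (v i3)) with hc1def
    have hc1i3 : c1 (v i3) = true := by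
      exact decide_eq_true ⟨⟨i3, rfl, hi3⟩, rfl⟩
    have hc1i4 : c1 (v i4) = false := by
      simp only [hc1def, decide_eq_false_iff_not]
      exact fun h0 => hsplit' h0.2.symm
    have hX2f : ∀ x ∈ Set.range v, x ∈ X2 ↔ c x = true := by
      rintro _ ⟨i, rfl⟩
      constructor
      · rintro ⟨i', hi', hev⟩
        rw [hi']
        exact (hft i').2 hev
      · intro hci
        exact ⟨i, rfl, (hft i).1 hci⟩
    rcases hcH.verstraete c1 (ℓ := k + 1 - 2 * h') (by omega) (by omega) with
      ⟨w, hw, hwr, hwc⟩ | ⟨hR1', hR2', _⟩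
    · -- a path of even length from the split
      have hwG := hw.mono hle
      have hLay : ∀ i ≤ k + 1 - 2 * h', w i ∈ Lay G r j := fun i hi => hXsub (hwr i hi)
      have hevenℓ : Even (k + 1 - 2 * h') := by
        have h1 : Even (k + 1) := by
          have := hℓeven
          rw [Nat.even_sub (by omega)] at this
          have h2 : Even (2 * h) := even_two_mul h
          tauto
        rw [Nat.even_sub (by omega)]
        have h2 : Even (2 * h') := even_two_mul h'
        tauto
      have hsame : c (w (k + 1 - 2 * h')) = c (w 0) :=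
        (hw.parity c hedge _ le_rfl).2 hevenℓ
      have h0r := hwr 0 (by omega)
      have hlr := hwr (k + 1 - 2 * h') le_rfl
      -- both ends lie in `X2`
      have hboth : w 0 ∈ X2 ∧ w (k + 1 - 2 * h') ∈ X2 := by
        have h1 : c1 (w 0) = true ∨ c1 (w (k + 1 - 2 * h')) = true := by
          by_contra hcon
          rw [not_or, Bool.not_eq_true, Bool.not_eq_true] at hcon
          exact hwc (hcon.1.trans hcon.2.symm)
        have hmem : ∀ x, c1 x = true → x ∈ X2 := by
          intro x hx
          simp only [hc1def, decide_eq_true_eq] at hx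
          exact hx.1
        rcases h1 with h1 | h1
        · have h2 := hmem _ h1
          refine ⟨h2, ?_⟩
          rw [hX2f _ hlr, hsame, ← hX2f _ h0r]
          exact h2
        · have h2 := hmem _ h1
          refine ⟨?_, h2⟩
          rw [hX2f _ h0r, ← hsame, ← hX2f _ hlr]
          exact h2
      apply hcyc
      have := close_cycle hp hwG hLay hh1' hhj' (by omega) ?_ ?_
      · rwa [show k + 1 - 2 * h' + 2 * h' = k + 1 by omega] at this
      · exact hconst' _ hboth.1 _ hboth.2
      · intro he
        apply hwc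
        simp only [hc1def, he, hboth.1, hboth.2, true_and]
    · -- periodicity contradicts the split of the even class
      have hper2' : Per (fun x => c1 (v x)) 2 := by
        intro x
        have h1 := hR1' ((t : ℤ) - 1 - x)
        have h2 := hR2' x
        simp only
        rw [show x + 2 = (t : ℤ) + 1 - ((t : ℤ) - 1 - x) by ring, h1, h2]
      have h34 : Even (i3 - i4) := by
        have := hi3.sub hi4
        rwa [show i3 - i1 - (i4 - i1) = i3 - i4 by ring] at this
      obtain ⟨m, hm⟩ := h34
      have := (hper2'.mul m) i4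
      rw [show m * 2 = i3 - i4 by omega, show i4 + (i3 - i4) = i3 by ring] at this
      simp only [hc1i3, hc1i4] at this
      exact absurd this (by simp)

end Crest.Agent.Lib.CycleRamsey
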