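import Crest.Agent.Lib.CycleRamsey.LemmaAB
import Crest.Agent.Lib.CycleRamsey.Layers

/-!
# Bridge between `IsChorded` walks and `ChordedCycle` (row 54)

`chordedCycle_of_isChorded`: a cycle walk having a vertex with three neighbours on the cycle gives
a `ChordedCycle` with `n = p.length`.

`theta_lay`: a chorded cycle in a BFS layer `Lay G r j`, `1 ≤ j`, `2 j ≤ k`, of a graph without
`C_{k+1}` has at most `k - 1` vertices.
-/

set_option autoImplicit false

namespace Crest.Agent.CycleRamsey

open SimpleGraph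
open Crest.Agent.Lib.CycleRamsey (ChordedCycle Lay HasCycle layer_no_chorded)

variable {V : Type} [DecidableEq V] {G : SimpleGraph V}

/-- Bridge: `IsChorded` gives a `ChordedCycle`. -/
theorem chordedCycle_of_isChorded {u : V} (p : G.Walk u u) (hp : IsChorded p) :
    ∃ (n t : ℕ) (v : ℤ → V), ChordedCycle G n t v ∧ n = p.length ∧ ∀ i, v i ∈ p.support := by
  obtain ⟨hcyc, x, hx, y1, hy1, y2, hy2, y3, hy3, h12, h13, h23, hx1, hx2, hx3⟩ := hp
  -- rotate to `x`
  set q : G.Walk x x := p.rotate x hx with hq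
  have hqc : q.IsCycle := hcyc.rotate hx
  have hql : q.length = p.length := Walk.length_rotate p x hx
  have hL3 : 3 ≤ q.length := hqc.three_le_length
  have hmem : ∀ y, y ∈ p.support → y ∈ q.support := fun y hy =>
    (Walk.mem_support_rotate_iff p x hx).2 hy
  have hmem' : ∀ y, y ∈ q.support → y ∈ p.support := fun y hy =>
    (Walk.mem_support_rotate_iff p x hx).1 hy
  set L := q.length with hLdef
  have hL0 : (0 : ℤ) < L := by omega
  set idx : ℤ → ℕ := fun i => (i % (L : ℤ)).toNat with hidx
  have hidx_lt : ∀ i, idx i < L := by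
    intro i
    have h1 := Int.emod_nonneg i hL0.ne'
    have h2 := Int.emod_lt_of_pos i hL0
    simp only [hidx]
    omega
  have hidx_cast : ∀ i, ((idx i : ℕ) : ℤ) = i % (L : ℤ) := by
    intro i
    have h1 := Int.emod_nonneg i hL0.ne'
    simp only [hidx]
    omega
  set v : ℤ → V := fun i => q.getVert (idx i) with hv
  have hinj : ∀ a < L, ∀ b < L, q.getVert a = q.getVert b → a = b := by
    intro a ha b hb hab
    exact hqc.getVert_injOn' (by simp only [Set.mem_ofPred_eq]; omega)
      (by simp only [Set.mem_ofPred_eq]; omega) hab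
  have hexists : ∀ y ∈ q.support, ∃ a < L, q.getVert a = y := by
    intro y hy
    rw [Walk.mem_support_iff_exists_getVert] at hy
    obtain ⟨a, ha, hale⟩ := hy
    by_cases h : a = L
    · refine ⟨0, by omega, ?_⟩
      rw [Walk.getVert_zero, ← ha, h, Walk.getVert_length]
    · exact ⟨a, by omega, ha⟩
  -- the three neighbours
  have hchord : ∃ t, 2 ≤ t ∧ t + 2 ≤ L ∧ G.Adj x (q.getVert t) := by
    obtain ⟨a1, ha1, rfl⟩ := hexists y1 (hmem y1 hy1)
    obtain ⟨a2, ha2, rfl⟩ := hexists y2 (hmem y2 hy2)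
    obtain ⟨a3, ha3, rfl⟩ := hexists y3 (hmem y3 hy3)
    have hz : ∀ a, G.Adj x (q.getVert a) → a ≠ 0 := by
      rintro a ha rfl
      rw [Walk.getVert_zero] at ha
      exact G.loopless.irrefl _ ha
    have h01 := hz _ hx1
    have h02 := hz _ hx2
    have h03 := hz _ hx3
    have hne12 : a1 ≠ a2 := fun h => h12 (by rw [h])
    have hne13 : a1 ≠ a3 := fun h => h13 (by rw [h])
    have hne23 : a2 ≠ a3 := fun h => h23 (by rw [h])
    by_cases c1 : 2 ≤ a1 ∧ a1 + 2 ≤ L
    · exact ⟨a1, c1.1, c1.2, hx1⟩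
    · by_cases c2 : 2 ≤ a2 ∧ a2 + 2 ≤ L
      · exact ⟨a2, c2.1, c2.2, hx2⟩
      · have c3 : 2 ≤ a3 ∧ a3 + 2 ≤ L := by omega
        exact ⟨a3, c3.1, c3.2, hx3⟩
  obtain ⟨t, ht2, htL, htadj⟩ := hchord
  refine ⟨L, t, v, ⟨?_, ?_, ?_, ht2, htL⟩, hql, ?_⟩
  · -- `v i = v j ↔ L ∣ i - j`
    intro i j
    constructor
    · intro h
      have := hinj _ (hidx_lt i) _ (hidx_lt j) h
      have h2 : i % (L : ℤ) = j % (L : ℤ) := by
        rw [← hidx_cast, ← hidx_cast, this]
      exact Int.ModEq.dvd (Int.ModEq.symm h2) |> fun h3 => by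
        have := h3
        simpa using this
    · intro h
      have h2 : i % (L : ℤ) = j % (L : ℤ) :=
        Int.emod_eq_emod_iff_emod_sub_eq_zero.2 (Int.emod_eq_zero_of_dvd h)
      simp only [hv, hidx, h2]
  · -- adjacency
    intro i
    simp only [hv]
    have hi1 := hidx_lt i
    have hi2 := hidx_cast i
    have hi3 := hidx_cast (i + 1)
    have hi4 := hidx_lt (i + 1)
    have hq' := Int.emod_add_mul_ediv i (L : ℤ)
    have h3 : (i + 1) % (L : ℤ) = ((idx i : ℤ) + 1) % (L : ℤ) := by
      apply Int.emod_eq_emod_iff_emod_sub_eq_zero.2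
      apply Int.emod_eq_zero_of_dvd
      rw [hi2]
      exact ⟨i / (L : ℤ), by linarith⟩
    by_cases hlast : idx i + 1 = L
    · have h0 : idx (i + 1) = 0 := by
        have h4 : ((idx i : ℤ) + 1) = (L : ℤ) := by exact_mod_cast hlast
        rw [h4, Int.emod_self] at h3
        omega
      have := q.adj_getVert_succ (i := idx i) (by omega)
      rw [hlast, Walk.getVert_length] at this
      rw [h0, Walk.getVert_zero]
      exact this
    · have hsucc : idx (i + 1) = idx i + 1 := by
        have h6 : idx i + 1 < L := by omega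
        have h5 : ((idx i : ℤ) + 1) % (L : ℤ) = (idx i : ℤ) + 1 :=
          Int.emod_eq_of_lt (by positivity) (by exact_mod_cast h6)
        rw [h5] at h3
        rw [h3] at hi3
        exact_mod_cast hi3
      rw [hsucc]
      exact q.adj_getVert_succ (by omega)
  · -- chord
    simp only [hv]
    have h0 : idx 0 = 0 := by simp [hidx]
    have ht : idx (t : ℤ) = t := by
      simp only [hidx]
      rw [Int.emod_eq_of_lt (by omega) (by omega)]
      simp
    rw [h0, ht, Walk.getVert_zero]
    exact htadj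
  · intro i
    exact hmem' _ (q.getVert_mem_support _)

/-- A chorded cycle in a BFS layer. -/
theorem theta_lay {k : ℕ} (hno : ¬ HasCycle G (k + 1)) (r : V) {j : ℕ} (hj : 1 ≤ j)
    (h2j : 2 * j ≤ k) (x : V) (p : G.Walk x x) (hp : IsChorded p)
    (hs : ∀ z ∈ p.support, z ∈ Lay G r j) : p.length + 1 ≤ k := by
  by_contra hcon
  obtain ⟨n, t, v, hc, hn, hv⟩ := chordedCycle_of_isChorded p hp
  exact layer_no_chorded hno r hj h2j hc (by omega) (fun i => hs _ (hv i))

end Crest.Agent.CycleRamsey
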