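import Crest.Agent.Lib.CycleRamsey.Recurrence
import Crest.Agent.Lib.CycleRamsey.ThetaLayer

/-!
# The regime `2 ω ≤ k` of S0075 (helper7 #1690): a minimal counterexample has a big clique.

Joins `layer_no_chorded` (helper31), `lemmaAB` and `layer_recurrence` (helper11).
-/

set_option autoImplicit false
set_option linter.unusedSectionVars false
set_option linter.unusedVariables false
set_option linter.unreachableTactic false
set_option linter.unusedTactic false

namespace Crest.Agent.CycleRamsey

open SimpleGraph
open Crest.Agent.Lib.CycleRamsey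

variable {V : Type} [DecidableEq V] {G : SimpleGraph V}

/-- The BFS layers as finsets form a layer system. -/
lemma layerSys_lay [Fintype V] (G : SimpleGraph V) (r : V) :
    ∃ L : ℕ → Finset V, LayerSys G r L ∧ ∀ j x, x ∈ L j ↔ x ∈ Lay G r j := by
  classical
  refine ⟨fun j => Finset.univ.filter (fun x => x ∈ Lay G r j), ?_, ?_⟩
  · refine ⟨?_, ?_, ?_, ?_, ?_⟩
    · ext x
      simp only [Finset.mem_filter, Finset.mem_univ, true_and, Finset.mem_singleton]
      constructor
      · exact Lay.eq_root
      · rintro rfl
        exact ⟨SimpleGraph.Reachable.refl _, SimpleGraph.dist_self⟩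
    · intro x hx
      simp only [Finset.mem_filter, Finset.mem_univ, true_and] at hx
      exact SimpleGraph.dist_eq_one_iff_adj.1 hx.2
    · intro i j hij
      rw [Finset.disjoint_left]
      intro x hx hx'
      simp only [Finset.mem_filter, Finset.mem_univ, true_and] at hx hx'
      exact hij (Lay.disjoint hx hx')
    · intro i j x hx y hy hadj
      simp only [Finset.mem_filter, Finset.mem_univ, true_and] at hx hy
      exact Lay.adj_le hx hy hadj
    · intro r' x hx y hadj
      simp only [Finset.mem_filter, Finset.mem_univ, true_and] at hx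
      have hry : G.Reachable r y := hx.1.trans hadj.reachable
      refine ⟨G.dist r y, ?_, ?_⟩
      · exact Lay.adj_le hx (j := G.dist r y) ⟨hry, rfl⟩ hadj
      · simp only [Finset.mem_filter, Finset.mem_univ, true_and]
        exact ⟨hry, rfl⟩
  · intro j x
    simp only [Finset.mem_filter, Finset.mem_univ, true_and]

/-- **The regime `2 ω ≤ k`.** A minimal counterexample with `k ≥ 6` has a clique on more than
`k / 2` vertices. -/
theorem no_minCE_of_small_omega [Fintype V] {k a : ℕ} (hk : 6 ≤ k) (ha : a ≤ k) (h : MinCE k a G)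
    (hω : ∀ K : Finset V, G.IsClique (K : Set V) → 2 * K.card ≤ k) : False := by
  classical
  have hne : Nonempty V := by
    apply Fintype.card_pos_iff.1
    rw [h.card]
    omega
  obtain ⟨r⟩ := hne
  obtain ⟨L, hL, hmem⟩ := layerSys_lay G r
  let c := k / 2
  have hc : 3 ≤ c := by
    change 3 ≤ k / 2
    omega
  have hkc : k = 2 * c ∨ k = 2 * c + 1 := by
    change k = 2 * (k / 2) ∨ k = 2 * (k / 2) + 1
    omega
  have hω' : ∀ K : Finset V, (∀ x ∈ K, ∀ y ∈ K, x ≠ y → G.Adj x y) → K.card ≤ c := by
    intro K hK
    have := hω K (fun x hx y hy hxy => hK x hx y hy hxy)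
    change K.card ≤ k / 2
    omega
  have hch : ∀ j, 1 ≤ j → j ≤ c → ∀ (x : V) (p : G.Walk x x), IsChorded p →
      (∀ z ∈ p.support, z ∈ L j) → p.length + 1 ≤ k := by
    intro j hj1 hjc x p hp hs
    exact theta_lay h.noCycle r hj1 (by
      have : 2 * c ≤ k := by rcases hkc with h' | h' <;> omega
      omega) x p hp (fun z hz => (hmem j _).1 (hs _ hz))
  have hH : ∀ T U : Finset V, Indep G T → T.Nonempty → T ⊆ U →
      (∀ x ∈ T, ∀ y, G.Adj x y → y ∈ U) → k * T.card + 1 ≤ U.card := by
    intro T U hI hne hTU hcl
    have h1 := h.card_closedNbhd (S := T) (fun x hx y hy hxy => hI x hx y hy hxy) hne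
    refine h1.trans (Finset.card_le_card ?_)
    intro x hx
    rcases mem_closedNbhd.1 hx with hx | ⟨y, hy, hadj⟩
    · exact hTU hx
    · exact hcl y hy x hadj
  obtain ⟨T, hI, hT⟩ := layer_recurrence hc hkc hL hω' hch hH
  have := h.noIndep T (fun x hx y hy hxy => hI x hx y hy hxy)
  omega

end Crest.Agent.CycleRamsey
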