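import Crest.Agent.Lib.CycleRamsey.SmallAll
import Crest.Agent.Lib.CycleRamsey.SmallClique

/-!
# Final assembly of the cycle–complete Ramsey theorem (row 54, S0075)

Everything is reduced to the single statement `BigCliqueStatement`.
-/

set_option autoImplicit false

namespace Crest.Agent.CycleRamsey

open Crest.Agent.Lib.CycleRamsey

/-- The big-clique statement: a minimal counterexample with `k ≥ 6` has no clique on more than
`k/2` vertices. -/
def BigCliqueStatement : Prop :=
  ∀ (k a : ℕ) (V : Type) [Fintype V] [DecidableEq V] (G : SimpleGraph V), 6 ≤ k → a ≤ k →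
    MinCE k a G → ∀ Q : Finset V, G.IsClique (Q : Set V) → k < 2 * Q.card → False

/-- No minimal counterexample for `k ≥ 6`, given the big-clique statement. -/
theorem no_minCE_large (hBC : BigCliqueStatement) {k a : ℕ} (hk : 6 ≤ k) (ha : a ≤ k)
    {V : Type} [Fintype V] [DecidableEq V] (G : SimpleGraph V) (h : MinCE k a G) : False := by
  by_cases hω : ∀ K : Finset V, G.IsClique (K : Set V) → 2 * K.card ≤ k
  · exact no_minCE_of_small_omega hk ha h hω
  · push Not at hω
    obtain ⟨Q, hQ, hq⟩ := hω
    exact hBC k a V G hk ha h Q hQ hq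

/-- The Ramsey statement for all `3 ≤ k`, `a ≤ k`. -/
theorem CR_of_BC (hBC : BigCliqueStatement) {k a : ℕ} (hk : 3 ≤ k) (ha : a ≤ k) : CR k a := by
  rcases (by omega : k = 3 ∨ k = 4 ∨ k = 5 ∨ 6 ≤ k) with rfl | rfl | rfl | h6
  · exact CR_three ha
  · exact CR_four ha
  · exact CR_five ha
  · exact CR_of_no_minCE k a (fun b hb V _ _ G h => no_minCE_large hBC h6 (by omega) G h)

/-- The frozen statement from the big-clique statement. -/
theorem frozen_of_BC (hBC : BigCliqueStatement) (m n : ℕ) (hn : 3 ≤ n) (hnm : n ≤ m)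
    (h33 : ¬ (m = 3 ∧ n = 3)) (V : Type) [Fintype V] [DecidableEq V]
    (hV : Fintype.card V = (m - 1) * (n - 1) + 1) (G : SimpleGraph V) :
    (∃ v : V, ∃ p : G.Walk v v, p.IsCycle ∧ p.length = m) ∨ (∃ s : Finset V, Gᶜ.IsNClique n s) :=
  frozen_of_CR m n hn hnm (CR_of_BC hBC (by omega) (by omega)) V hV G

end Crest.Agent.CycleRamsey
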