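import Crest.Agent.Lib.CycleRamsey.BCMain
import Crest.Agent.Lib.CycleRamsey.BigCliqueMain
import Crest.Agent.Lib.CycleRamsey.CT
import Crest.Agent.Lib.CycleRamsey.ExclBig
import Crest.Agent.Lib.CycleRamsey.Final

/-!
# The big clique statement, top level (helper38, row 54, S0075)

`bigClique_of_small`: `BigCliqueStatement` follows from the boundary cases with `q ≤ 7`.
Main range: `bigClique_main` (helper37).  Boundary with `q ≥ 8`: `excl_big` (helper11) + `CT` (helper37).
-/

set_option autoImplicit false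
set_option linter.unusedSectionVars false
set_option linter.unusedVariables false

namespace Crest.Agent.CycleRamsey

open SimpleGraph
open Crest.Agent.Lib.CycleRamsey

variable {V : Type} [Fintype V] [DecidableEq V] {G : SimpleGraph V}

/-- An independent set of the right size off a short cycle; every vertex of the cycle has a
neighbour in it. -/
theorem exists_exit_set {k a n : ℕ} (h : MinCE k a G) (hk : 3 ≤ k) {v : ℤ → V} (hc : CycFn G n v)
    (hn : n ≤ k) :
    ∃ I : Finset V, G.IsIndepSet (I : Set V) ∧ (∀ x ∈ I, ∀ t, x ≠ v t) ∧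
      ∀ t, ∃ x ∈ I, G.Adj (v t) x := by
  classical
  set D : Finset V := (Finset.range n).image (fun t : ℕ => v t) with hD
  have hvD : ∀ t : ℤ, v t ∈ D := by
    intro t
    obtain ⟨s, hs, hs'⟩ := hc.exists_window 0 t
    refine Finset.mem_image.2 ⟨s, Finset.mem_range.2 hs, ?_⟩
    rw [hs']
    simp
  have hDc : D.card ≤ n := by
    have := Finset.card_image_le (s := Finset.range n) (f := fun t : ℕ => v t)
    simpa using this
  set F : Finset V := Finset.univ \ D with hF
  have hFc : F.card + D.card = k * a + 1 := by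
    have h1 := Finset.card_sdiff_add_card_eq_card (Finset.subset_univ D)
    rw [Finset.card_univ, h.card] at h1
    exact h1
  have hFne : F ≠ Finset.univ := by
    intro he
    have hx : v 0 ∈ F := by rw [he]; exact Finset.mem_univ _
    rw [hF, Finset.mem_sdiff] at hx
    exact hx.2 (hvD 0)
  obtain ⟨s, hsF, hsi, hsc⟩ := h.proper F hFne
  have hsa := h.noIndep s hsi
  have hsa' : a ≤ s.card := by
    by_contra hlt
    have h1 : s.card + 1 ≤ a := by omega
    have h2 : k * (s.card + 1) ≤ k * a := Nat.mul_le_mul_left _ h1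
    rw [Nat.mul_add] at h2
    omega
  refine ⟨s, hsi, ?_, ?_⟩
  · intro x hx t he
    have := hsF hx
    rw [hF, Finset.mem_sdiff] at this
    exact this.2 (he ▸ hvD t)
  · intro t
    by_contra hcon
    push Not at hcon
    set x := v t with hx
    have hxs : x ∉ s := by
      intro hxs
      have := hsF hxs
      rw [hF, Finset.mem_sdiff] at this
      exact this.2 (hvD t)
    have hind : G.IsIndepSet ((insert x s : Finset V) : Set V) := by
      intro y hy z hz hyz
      simp only [Finset.coe_insert, Set.mem_insert_iff, Finset.mem_coe] at hy hz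
      rcases hy with rfl | hy <;> rcases hz with rfl | hz
      · exact absurd rfl hyz
      · exact hcon z hz
      · exact fun hadj' => hcon y hy hadj'.symm
      · exact hsi hy hz hyz
    have := h.noIndep _ hind
    rw [Finset.card_insert_of_notMem hxs] at this
    omega

/-- A boundary step with `q ≤ 7`. -/
def BoundaryStep (q r : ℕ) : Prop :=
  ∀ (V : Type) [Fintype V] [DecidableEq V] (G : SimpleGraph V) (a : ℕ), MinCE (q + r) a G → a ≤ q + r →
    ∀ Q : Finset V, (∀ x ∈ Q, ∀ y ∈ Q, x ≠ y → G.Adj x y) → Q.card = q →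
      (∀ K : Finset V, (∀ x ∈ K, ∀ y ∈ K, x ≠ y → G.Adj x y) → K.card ≤ q) → False

/-- The big clique statement from the boundary cases `q ≤ 7`. -/
theorem bigClique_of_small
    (hsmall : ∀ q r : ℕ, 4 ≤ q → q ≤ 7 → r + 1 ≤ q → q ≤ r + 2 → 6 ≤ q + r → BoundaryStep q r) :
    BigCliqueStatement := by
  intro k a V _ _ G hk ha h Q0 hQ0 hk2
  classical
  have hQ0' : ∀ x ∈ Q0, ∀ y ∈ Q0, x ≠ y → G.Adj x y := fun x hx y hy hxy => hQ0 hx hy hxy
  obtain ⟨Q, hQ, hQ0c, hmax⟩ := exists_max_clique G Q0 hQ0'
  -- the clique has at most `k - 1` vertices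
  have hqk : Q.card < k := by
    by_contra hcon
    obtain ⟨Q1, hQ1, hQ1c⟩ := Finset.exists_subset_card_eq (s := Q) (n := k) (by omega)
    refine h.no_clique (by omega) ha (Q := Q1) ?_ hQ1c
    first
      | exact fun x hx y hy hxy => hQ (hQ1 hx) (hQ1 hy) hxy
      | exact fun x hx y hy hxy => hQ x (hQ1 hx) y (hQ1 hy) hxy
  obtain ⟨r, hr⟩ : ∃ r, k = Q.card + r := ⟨k - Q.card, by omega⟩
  have hr1 : 1 ≤ r := by omega
  have hrq : r + 1 ≤ Q.card := by omega
  by_cases hmain : 5 ≤ Q.card ∧ r + 3 ≤ Q.card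
  · obtain ⟨U, hU, hUc⟩ := ListCyc.bigClique_main hQ hmax h.noCycle h.degree_ge hr hmain.2 hmain.1 hr1
    have := h.noIndep U hU
    omega
  by_cases h8 : 8 ≤ Q.card
  · -- boundary, `q ≥ 8`
    have h3 : 3 ≤ Q.card := by omega
    obtain ⟨u, c, hcy, hcQ, hcle, hcmax⟩ := exists_longest_cycle hQ h3 (by omega : Q.card ≤ k)
    have hv := cycFn_of_isCycle hcy
    have hQv : ∀ a ∈ Q, ∃ t, cyc c t = a := fun a ha => exists_cyc_eq hcy (hcQ a ha)
    obtain ⟨I, hI1, hI2, hI3⟩ := exists_exit_set h (by omega) hv hcle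
    obtain ⟨T, hT, hTc⟩ := CT hv hQ hQv hmax hr hcle hr1 hrq h.degree_ge h.noCycle hI1 hI2 hI3
      (by
        intro i j hi hj hij g hg hoff hlen
        subst hr
        exact excl_big hv hQ hQv hrq h8 hcle h.noCycle
          (fun u' c' h1 h2 h4 => hcmax u' c' h1 h2 h4) hi hj hij g hg hoff hlen)
    have := h.noIndep T hT
    omega
  · -- boundary, `q ≤ 7`
    have hq4 : 4 ≤ Q.card := by omega
    subst hr
    exact hsmall Q.card r hq4 (by omega) hrq (by omega) hk V G a h ha Q hQ rfl hmax

end Crest.Agent.CycleRamsey
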