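import Crest.Agent.Lib.CycleRamsey.Dispatch
import Crest.Agent.Lib.CycleRamsey.BCTop
import Crest.Agent.Lib.CycleRamsey.BCExcLong
import Crest.Agent.Lib.CycleRamsey.BCExcBridge
import Crest.Agent.Lib.CycleRamsey.BCExcRest

/-!
# The boundary steps with `5 ≤ q ≤ 7` (helper11, row 54, S0075)

`excSetup_of_list`: an explicit list as a cycle with a pattern gives `ExcSetup`.
`ear_false`: an ear of weight exactly `r` is impossible, `(q,r) = (5,3),(5,4),(6,4),(6,5)`.
`twoEars_false`: two disjoint ears of weight `3` are impossible for `(q,r) = (7,6)`.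
`boundaryStep_5_3` … `boundaryStep_7_6`.
-/

set_option autoImplicit false
set_option linter.unusedSectionVars false
set_option linter.unusedVariables false
set_option linter.unreachableTactic false
set_option linter.unusedTactic false

namespace Crest.Agent.CycleRamsey

open SimpleGraph
open Crest.Agent.Lib.CycleRamsey

variable {V : Type} [Fintype V] [DecidableEq V] {G : SimpleGraph V}

/-- An explicit list as a cycle with a pattern. -/
theorem excSetup_of_list {k a q : ℕ} (h : MinCE k a G) (hk : 3 ≤ k) {pat : List Bool}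
    (hpat : pat.length = k) (l : List V) (hl : l.length = k) (hnd : l.Nodup)
    (hchain : l.IsChain G.Adj) (hne : l ≠ []) (hclose : G.Adj (l.getLast hne) (l.head hne))
    {Q : Finset V} (hQ : ∀ x ∈ Q, ∀ y ∈ Q, x ≠ y → G.Adj x y)
    (hpQ : ∀ i (hi : i < l.length), patAt pat i = true → l[i] ∈ Q)
    (hqc : (Finset.univ.filter (fun i : Fin k => patAt pat i = true)).card = q)
    (hω : ∀ K : Finset V, (∀ x ∈ K, ∀ y ∈ K, x ≠ y → G.Adj x y) → K.card ≤ q) :
    ∃ (Q' I : Finset V) (v : ℤ → V), ExcSetup G Q' pat k v I ∧ Q'.card = q := by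
  classical
  subst hl
  let c : Fin l.length → V := fun i => l[i]
  have hcinj : Function.Injective c := by
    intro i j hij
    exact Fin.ext ((List.Nodup.getElem_inj_iff hnd).1 hij)
  have hL0 : 0 < l.length := by omega
  have hstep : ∀ (i j : ℕ) (hi : i < l.length) (hj : j < l.length), (i + 1) % l.length = j →
      G.Adj l[i] l[j] := by
    intro i j hi hj hij
    by_cases h1 : i + 1 < l.length
    · rw [Nat.mod_eq_of_lt h1] at hij
      subst hij
      exact (List.isChain_iff_getElem.1 hchain) i h1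
    · have h2 : i + 1 = l.length := by omega
      rw [h2, Nat.mod_self] at hij
      subst hij
      have e1 : l[i] = l.getLast hne := by
        rw [List.getLast_eq_getElem]
        congr 1
        omega
      have e2 : l[0] = l.head hne := by
        rw [List.head_eq_getElem]
      rw [e1, e2]
      exact hclose
  obtain ⟨Q', I, hS, hQ'⟩ := exists_excSetup h hk hpat c hcinj (by
    intro i j hij hst
    simp only [stepOK, Bool.or_eq_true, beq_iff_eq, Bool.and_eq_true] at hst
    rcases hst with (h1 | h1) | ⟨h1, h2⟩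
    · exact hstep i j i.2 j.2 h1
    · exact (hstep j i j.2 i.2 h1).symm
    · refine hQ _ (hpQ i i.2 h1) _ (hpQ j j.2 h2) ?_
      intro he
      exact hij (hcinj he)) hqc hω
  exact ⟨Q', I, _, hS, hQ'⟩

/-- The list of an ear: `Q` first, then the interior of the ear. -/
lemma exists_ear_list {Q : Finset V} (hQ : ∀ x ∈ Q, ∀ y ∈ Q, x ≠ y → G.Adj x y) {m : ℕ}
    (hm : 1 ≤ m) (h : HasEar G Q m) :
    ∃ (L x : List V), L.length = Q.card ∧ x.length = m ∧ (∀ z ∈ L, z ∈ Q) ∧ (L ++ x).Nodup ∧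
      (L ++ x).IsChain G.Adj ∧ ∃ hne : L ++ x ≠ [], G.Adj ((L ++ x).getLast hne) ((L ++ x).head hne) := by
  classical
  obtain ⟨e, f, x, he, hf, hef, hxl, hxQ, hxnd, hch⟩ := h
  have hfe : f ∈ Q.erase e := Finset.mem_erase.2 ⟨hef.symm, hf⟩
  let rest : List V := ((Q.erase e).erase f).toList
  have hrestnd : rest.Nodup := Finset.nodup_toList _
  have hrestmem : ∀ z, z ∈ rest ↔ z ≠ f ∧ z ≠ e ∧ z ∈ Q := by
    intro z
    simp only [rest, Finset.mem_toList, Finset.mem_erase]
  have hrestlen : rest.length + 2 = Q.card := by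
    simp only [rest, Finset.length_toList]
    rw [Finset.card_erase_of_mem hfe, Finset.card_erase_of_mem he]
    have : 2 ≤ Q.card := by
      have := Finset.card_le_card (show ({e, f} : Finset V) ⊆ Q by
        intro z hz
        simp only [Finset.mem_insert, Finset.mem_singleton] at hz
        rcases hz with rfl | rfl <;> assumption)
      rwa [Finset.card_pair hef] at this
    omega
  let L : List V := f :: (rest ++ [e])
  have hLmem : ∀ z ∈ L, z ∈ Q := by
    intro z hz
    simp only [L, List.mem_cons, List.mem_append, List.mem_singleton, List.not_mem_nil, or_false] at hz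
    rcases hz with rfl | hz | rfl
    · exact hf
    · exact ((hrestmem z).1 hz).2.2
    · exact he
  have hLnd : L.Nodup := by
    simp only [L, List.nodup_cons, List.mem_append, List.mem_singleton, not_or]
    refine ⟨⟨?_, hef.symm⟩, ?_⟩
    · intro hz
      exact ((hrestmem f).1 hz).1 rfl
    · rw [List.nodup_append]
      refine ⟨hrestnd, by simp, ?_⟩
      intro a ha b hb hab
      rw [List.mem_singleton] at hb
      subst hb
      subst hab
      exact ((hrestmem a).1 ha).2.1 rfl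
  have hLchain : L.IsChain G.Adj := by
    apply List.Pairwise.isChain
    exact hLnd.imp_of_mem (fun {a b} ha hb hab => hQ a (hLmem a ha) b (hLmem b hb) hab)
  -- the ear chain
  have h1 : (e :: (x ++ [f])) = ([e] ++ x) ++ [f] := by simp
  rw [h1, List.isChain_append] at hch
  obtain ⟨hc1, _, hc2⟩ := hch
  rw [List.isChain_append] at hc1
  obtain ⟨_, hxch, hc3⟩ := hc1
  have hxne : x ≠ [] := by
    intro h0
    rw [h0] at hxl
    simp at hxl
    omega
  have hLlast : L.getLast? = some e := by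
    simp [L, List.getLast?_cons]
  refine ⟨L, x, by simp [L]; omega, hxl, hLmem, ?_, ?_, ?_⟩
  · rw [List.nodup_append]
    refine ⟨hLnd, hxnd, ?_⟩
    intro a ha b hb hab
    subst hab
    exact hxQ a hb (hLmem a ha)
  · rw [List.isChain_append]
    refine ⟨hLchain, hxch, ?_⟩
    intro a ha b hb
    rw [hLlast] at ha
    simp only [Option.mem_def, Option.some.injEq] at ha
    subst ha
    exact hc3 e (by simp) b hb
  · have hne : L ++ x ≠ [] := by simp [L]
    refine ⟨hne, ?_⟩
    have e1 : (L ++ x).head hne = f := by simp [L]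
    have e2 : (L ++ x).getLast hne = x.getLast hxne := List.getLast_append_of_ne_nil _ hxne
    rw [e1, e2]
    exact hc2 _ (by
      rw [List.getLast?_append_of_ne_nil _ hxne, List.getLast?_eq_some_getLast hxne]
      rfl) f (by simp)

lemma patAt_lePat (q r i : ℕ) (h : patAt (lePat q r) i = true) : i < q := by
  by_contra hcon
  unfold patAt lePat at h
  rw [List.getD_eq_getElem?_getD, List.getElem?_append_right (by simpa using hcon)] at h
  simp only [List.getElem?_replicate, List.length_replicate] at h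
  split_ifs at h <;> simp at h

/-- An ear of weight exactly `r` together with the long-ear theorem gives a contradiction. -/
theorem ear_false {q r a : ℕ} (hr : 1 ≤ r) (hk3 : 3 ≤ q + r) (h : MinCE (q + r) a G) (ha : a ≤ q + r)
    {Q : Finset V} (hQ : ∀ x ∈ Q, ∀ y ∈ Q, x ≠ y → G.Adj x y) (hqc : Q.card = q)
    (hω : ∀ K : Finset V, (∀ x ∈ K, ∀ y ∈ K, x ≠ y → G.Adj x y) → K.card ≤ q)
    (hear : HasEar G Q r)
    (hThm : ∀ (Q' I : Finset V) (v : ℤ → V), ExcSetup G Q' (lePat q r) (q + r) v I → Q'.card = q →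
      ∃ T, Indep G T ∧ q + r + 1 ≤ T.card)
    (hcount : (Finset.univ.filter (fun i : Fin (q + r) => patAt (lePat q r) i = true)).card = q) :
    False := by
  classical
  obtain ⟨L, x, hL, hx, hLQ, hnd, hch, hne, hcl⟩ := exists_ear_list hQ hr hear
  obtain ⟨Q', I, v, hS, hQ'⟩ := excSetup_of_list h hk3 (pat := lePat q r)
    (by simp [lePat]) (L ++ x) (by simp; omega) hnd hch hne hcl hQ (by
      intro i hi hp
      have hi' := patAt_lePat q r i hp
      have hiL : i < L.length := by omega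
      rw [List.getElem_append_left hiL]
      exact hLQ _ (List.getElem_mem _)) hcount hω
  obtain ⟨T, hT, hTc⟩ := hThm Q' I v hS hQ'
  exact MinCE.false_of_indep h ha hT hTc

/-- Common frame of the boundary steps with `5 ≤ q ≤ 7`. -/
theorem boundaryStep_frame {q r : ℕ} (hq5 : 5 ≤ q) (hq7 : q ≤ 7) (hrl : q ≤ r + 2) (hr : r + 1 ≤ q)
    (hE : ∀ (V : Type) [Fintype V] [DecidableEq V] (G : SimpleGraph V) (a : ℕ), MinCE (q + r) a G →
      a ≤ q + r → ∀ Q : Finset V, (∀ x ∈ Q, ∀ y ∈ Q, x ≠ y → G.Adj x y) → Q.card = q →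
      (∀ K : Finset V, (∀ x ∈ K, ∀ y ∈ K, x ≠ y → G.Adj x y) → K.card ≤ q) →
      ((q ≤ 6 ∧ HasEar G Q r) ∨ (q = 7 ∧ r = 6 ∧ TwoEars3 G Q)) → False) :
    BoundaryStep q r := by
  intro V _ _ G a h ha Q hQ hqc hmax
  classical
  subst hqc
  have h3 : 3 ≤ Q.card := by omega
  obtain ⟨u, c, hcy, hcQ, hcle, hcmax⟩ := exists_longest_cycle hQ h3 (by omega : Q.card ≤ Q.card + r)
  have hv := cycFn_of_isCycle hcy
  have hQv : ∀ a ∈ Q, ∃ t, cyc c t = a := fun a ha => exists_cyc_eq hcy (hcQ a ha)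
  obtain ⟨I, hI1, hI2, hI3⟩ := exists_exit_set h (by omega) hv hcle
  obtain ⟨T, hT, hTc⟩ := CT hv hQ hQv hmax rfl hcle (by omega) hr h.degree_ge h.noCycle hI1 hI2 hI3
    (by
      intro i j hi hj hij g hg hoff hlen
      exact hE V G a h ha Q hQ rfl hmax (excl_small hv hQ hQv hq5 hq7 hrl hr hcle h.noCycle
        (fun u' c' h1 h2 h4 => hcmax u' c' h1 h2 h4) hi hj hij g hg hoff hlen))
  have := h.noIndep T hT
  omega

theorem boundaryStep_5_3 : BoundaryStep 5 3 := by
  refine boundaryStep_frame (by norm_num) (by norm_num) (by norm_num) (by norm_num) ?_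
  intro V _ _ G a h ha Q hQ hqc hω hcase
  rcases hcase with ⟨_, hear⟩ | ⟨h1, _⟩
  · exact ear_false (by norm_num) (by norm_num) h ha hQ hqc hω hear
      (fun Q' I v S hq => S.longEar_5_3 hq) (by decide)
  · omega

theorem boundaryStep_5_4 : BoundaryStep 5 4 := by
  refine boundaryStep_frame (by norm_num) (by norm_num) (by norm_num) (by norm_num) ?_
  intro V _ _ G a h ha Q hQ hqc hω hcase
  rcases hcase with ⟨_, hear⟩ | ⟨h1, _⟩
  · exact ear_false (by norm_num) (by norm_num) h ha hQ hqc hω hear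
      (fun Q' I v S hq => S.longEar_5_4 hq) (by decide)
  · omega

theorem boundaryStep_6_4 : BoundaryStep 6 4 := by
  refine boundaryStep_frame (by norm_num) (by norm_num) (by norm_num) (by norm_num) ?_
  intro V _ _ G a h ha Q hQ hqc hω hcase
  rcases hcase with ⟨_, hear⟩ | ⟨h1, _⟩
  · exact ear_false (by norm_num) (by norm_num) h ha hQ hqc hω hear
      (fun Q' I v S hq => S.longEar_6_4 hq) (by decide)
  · omega

theorem boundaryStep_6_5 : BoundaryStep 6 5 := by
  refine boundaryStep_frame (by norm_num) (by norm_num) (by norm_num) (by norm_num) ?_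
  intro V _ _ G a h ha Q hQ hqc hω hcase
  rcases hcase with ⟨_, hear⟩ | ⟨h1, _⟩
  · exact ear_false (by norm_num) (by norm_num) h ha hQ hqc hω hear
      (fun Q' I v S hq => S.longEar_6_5 hq) (by decide)
  · omega

theorem boundaryStep_7_5 : BoundaryStep 7 5 := by
  refine boundaryStep_frame (by norm_num) (by norm_num) (by norm_num) (by norm_num) ?_
  intro V _ _ G a h ha Q hQ hqc hω hcase
  rcases hcase with ⟨h1, _⟩ | ⟨_, h1, _⟩ <;> omega

/-- Two disjoint ears of weight `3`, `(q, r) = (7, 6)`. -/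
theorem twoEars_false {a : ℕ} (h : MinCE 13 a G) (ha : a ≤ 13)
    {Q : Finset V} (hQ : ∀ x ∈ Q, ∀ y ∈ Q, x ≠ y → G.Adj x y) (hqc : Q.card = 7)
    (hω : ∀ K : Finset V, (∀ x ∈ K, ∀ y ∈ K, x ≠ y → G.Adj x y) → K.card ≤ 7)
    (hear : TwoEars3 G Q) : False := by
  classical
  obtain ⟨e₁, f₁, e₂, f₂, x, y, he₁, hf₁, he₂, hf₂, h12, h13, h14, h23, h24, h34, hxl, hyl,
    hxQ, hyQ, hxy, hchx, hchy⟩ := hear
  let rest : Finset V := (((Q.erase e₁).erase f₁).erase e₂).erase f₂
  have hrestmem : ∀ z, z ∈ rest ↔ z ≠ f₂ ∧ z ≠ e₂ ∧ z ≠ f₁ ∧ z ≠ e₁ ∧ z ∈ Q := by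
    intro z
    simp only [rest, Finset.mem_erase]
  have hrestcard : rest.card = 3 := by
    simp only [rest]
    rw [Finset.card_erase_of_mem, Finset.card_erase_of_mem, Finset.card_erase_of_mem,
      Finset.card_erase_of_mem he₁, hqc]
    · exact Finset.mem_erase.2 ⟨h12.symm, hf₁⟩
    · exact Finset.mem_erase.2 ⟨h23.symm, Finset.mem_erase.2 ⟨h13.symm, he₂⟩⟩
    · exact Finset.mem_erase.2 ⟨h34.symm, Finset.mem_erase.2 ⟨h24.symm, Finset.mem_erase.2 ⟨h14.symm, hf₂⟩⟩⟩
  obtain ⟨φ₁, φ₂, φ₃, hφ12, hφ13, hφ23, hrest⟩ := Finset.card_eq_three.1 hrestcard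
  have hφ1 := (hrestmem φ₁).1 (by rw [hrest]; simp)
  have hφ2 := (hrestmem φ₂).1 (by rw [hrest]; simp)
  have hφ3 := (hrestmem φ₃).1 (by rw [hrest]; simp)
  obtain ⟨x₁, x₂, x₃, rfl⟩ := List.length_eq_three.1 hxl
  obtain ⟨y₁, y₂, y₃, rfl⟩ := List.length_eq_three.1 hyl
  simp only [List.cons_append, List.nil_append, List.isChain_cons_cons, List.isChain_singleton,
    and_true] at hchx hchy
  obtain ⟨a1, a2, a3, a4⟩ := hchx
  obtain ⟨b1, b2, b3, b4⟩ := hchy
  have hadjQ : ∀ {p q' : V}, p ∈ Q → q' ∈ Q → p ≠ q' → G.Adj p q' := fun hp hq hne => hQ _ hp _ hq hne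
  let l : List V := [f₂, φ₁, φ₂, φ₃, e₁, x₁, x₂, x₃, f₁, e₂, y₁, y₂, y₃]
  have hxoff : ∀ z ∈ [x₁, x₂, x₃, y₁, y₂, y₃], z ∉ Q := by
    intro z hz
    simp only [List.mem_cons, List.not_mem_nil, or_false] at hz
    rcases hz with rfl | rfl | rfl | rfl | rfl | rfl
    · exact hxQ _ (by simp)
    · exact hxQ _ (by simp)
    · exact hxQ _ (by simp)
    · exact hyQ _ (by simp)
    · exact hyQ _ (by simp)
    · exact hyQ _ (by simp)
  have hlnd : l.Nodup := by
    have hperm : l.Perm ([f₂, φ₁, φ₂, φ₃, e₁, f₁, e₂] ++ [x₁, x₂, x₃, y₁, y₂, y₃]) := by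
      have e1 : l = [f₂, φ₁, φ₂, φ₃, e₁] ++ (([x₁, x₂, x₃] ++ [f₁, e₂]) ++ [y₁, y₂, y₃]) := rfl
      have e2 : ([f₂, φ₁, φ₂, φ₃, e₁, f₁, e₂] ++ [x₁, x₂, x₃, y₁, y₂, y₃]) =
          [f₂, φ₁, φ₂, φ₃, e₁] ++ (([f₁, e₂] ++ [x₁, x₂, x₃]) ++ [y₁, y₂, y₃]) := rfl
      rw [e1, e2]
      exact List.Perm.append_left _ (List.Perm.append_right _ List.perm_append_comm)
    rw [hperm.nodup_iff, List.nodup_append]
    refine ⟨?_, by simpa using hxy, ?_⟩
    · simp only [List.nodup_cons, List.mem_cons, List.not_mem_nil, or_false, not_or, not_false_eq_true,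
        List.nodup_nil, and_true]
      exact ⟨⟨Ne.symm hφ1.1, Ne.symm hφ2.1, Ne.symm hφ3.1, h14.symm, h24.symm, h34.symm⟩,
        ⟨hφ12, hφ13, hφ1.2.2.2.1, hφ1.2.2.1, hφ1.2.1⟩, ⟨hφ23, hφ2.2.2.2.1, hφ2.2.2.1, hφ2.2.1⟩,
        ⟨hφ3.2.2.2.1, hφ3.2.2.1, hφ3.2.1⟩, ⟨h12, h13⟩, h23⟩
    · intro p hp z hz hpz
      subst hpz
      refine hxoff p hz ?_
      simp only [List.mem_cons, List.not_mem_nil, or_false] at hp
      rcases hp with rfl | rfl | rfl | rfl | rfl | rfl | rfl
      · exact hf₂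
      · exact hφ1.2.2.2.2
      · exact hφ2.2.2.2.2
      · exact hφ3.2.2.2.2
      · exact he₁
      · exact hf₁
      · exact he₂
  have hlch : l.IsChain G.Adj := by
    simp only [l, List.isChain_cons_cons, List.isChain_singleton, and_true]
    exact ⟨hQ _ hf₂ _ hφ1.2.2.2.2 (Ne.symm hφ1.1), hQ _ hφ1.2.2.2.2 _ hφ2.2.2.2.2 hφ12,
      hQ _ hφ2.2.2.2.2 _ hφ3.2.2.2.2 hφ23, hQ _ hφ3.2.2.2.2 _ he₁ hφ3.2.2.2.1, a1, a2, a3, a4,
      hQ _ hf₁ _ he₂ h23, b1, b2, b3⟩
  have hne : l ≠ [] := by simp [l]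
  have hcl : G.Adj (l.getLast hne) (l.head hne) := by
    simpa [l] using b4
  have hpQ : ∀ i (hi : i < l.length),
      patAt [true, true, true, true, true, false, false, false, true, true, false, false, false] i = true →
        l[i] ∈ Q := by
    intro i hi hp
    have hi13 : i < 13 := hi
    interval_cases i
    · exact hf₂
    · exact hφ1.2.2.2.2
    · exact hφ2.2.2.2.2
    · exact hφ3.2.2.2.2
    · exact he₁
    · exact absurd hp (by decide)
    · exact absurd hp (by decide)
    · exact absurd hp (by decide)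
    · exact hf₁
    · exact he₂
    · exact absurd hp (by decide)
    · exact absurd hp (by decide)
    · exact absurd hp (by decide)
  obtain ⟨Q', I, v, hS, hQ'⟩ := excSetup_of_list h (by norm_num)
    (pat := [true, true, true, true, true, false, false, false, true, true, false, false, false]) rfl
    l rfl hlnd hlch hne hcl hQ hpQ (by decide) hω
  obtain ⟨T, hT, hTc⟩ := excE9a hS hQ'
  exact MinCE.false_of_indep h ha hT hTc

theorem boundaryStep_7_6 : BoundaryStep 7 6 := by
  refine boundaryStep_frame (by norm_num) (by norm_num) (by norm_num) (by norm_num) ?_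
  intro V _ _ G a h ha Q hQ hqc hω hcase
  rcases hcase with ⟨h1, _⟩ | ⟨_, _, htwo⟩
  · omega
  · exact twoEars_false h ha hQ hqc hω htwo

end Crest.Agent.CycleRamsey
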