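import Crest.Agent.Lib.CycleRamsey.Bondy

/-!
# Lemma A and Lemma B of the `ω ≤ k/2` regime of S0075 (helper11, unified form of helper38)

`c ≥ 3`, `e ≤ 1`, `w + e ≤ c`.  If `S` is a nonempty vertex set with no clique on more than `w`
vertices and with no chorded cycle on at least `2c + 1 - e` vertices, then `S` has an independent
subset `T` with `|S| + e ≤ c |T|`.
-/

set_option autoImplicit false
set_option linter.unusedSectionVars false
set_option linter.unusedVariables false

namespace Crest.Agent.CycleRamsey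

open SimpleGraph

variable {V : Type} [DecidableEq V] {G : SimpleGraph V}

/-- Independent finset. -/
def Indep (G : SimpleGraph V) (T : Finset V) : Prop := ∀ x ∈ T, ∀ y ∈ T, x ≠ y → ¬ G.Adj x y

/-- A cycle with a chord: some vertex has three neighbours on the cycle. -/
def IsChorded {v : V} (c : G.Walk v v) : Prop :=
  c.IsCycle ∧ ∃ x ∈ c.support, ∃ y1 ∈ c.support, ∃ y2 ∈ c.support, ∃ y3 ∈ c.support,
    y1 ≠ y2 ∧ y1 ≠ y3 ∧ y2 ≠ y3 ∧ G.Adj x y1 ∧ G.Adj x y2 ∧ G.Adj x y3

/-- Hypotheses of Lemma A/B on a vertex set. -/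
structure ABHyp (G : SimpleGraph V) (c e w : ℕ) (S : Finset V) : Prop where
  clique : ∀ K : Finset V, K ⊆ S → (∀ x ∈ K, ∀ y ∈ K, x ≠ y → G.Adj x y) → K.card ≤ w
  chord : ∀ (v : V) (p : G.Walk v v), IsChorded p → (∀ z ∈ p.support, z ∈ S) → p.length + e ≤ 2 * c

lemma ABHyp.mono {c e w : ℕ} {S R : Finset V} (h : ABHyp G c e w S) (hR : R ⊆ S) :
    ABHyp G c e w R where
  clique K hK := h.clique K (hK.trans hR)
  chord v p hp hs := h.chord v p hp (fun z hz => hR (hs z hz))

lemma Indep.mono {T R : Finset V} (h : Indep G T) (hR : R ⊆ T) : Indep G R :=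
  fun x hx y hy => h x (hR hx) y (hR hy)

lemma exists_max_indep (G : SimpleGraph V) (S : Finset V) :
    ∃ T, T ⊆ S ∧ Indep G T ∧ ∀ T', T' ⊆ S → Indep G T' → T'.card ≤ T.card := by
  classical
  have hne : (S.powerset.filter (Indep G)).Nonempty :=
    ⟨∅, by simp [Indep]⟩
  obtain ⟨T, hT, hmax⟩ := Finset.exists_max_image _ Finset.card hne
  simp only [Finset.mem_filter, Finset.mem_powerset] at hT hmax
  exact ⟨T, hT.1, hT.2, fun T' h1 h2 => hmax T' ⟨h1, h2⟩⟩

lemma exists_seg_len (x : ℕ → V) (m : ℕ) (hadj : ∀ i < m, G.Adj (x i) (x (i + 1)))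
    (hinj : ∀ i ≤ m, ∀ j ≤ m, x i = x j → i = j) (i j : ℕ) (hij : i ≤ j) (hj : j ≤ m) :
    ∃ w : G.Walk (x i) (x j), w.IsPath ∧ w.length = j - i ∧
      ∀ z, z ∈ w.support ↔ ∃ t, i ≤ t ∧ t ≤ j ∧ z = x t := by
  induction j, hij using Nat.le_induction with
  | base =>
    refine ⟨Walk.nil, Walk.IsPath.nil, by simp, fun z => ?_⟩
    simp only [Walk.support_nil, List.mem_singleton]
    constructor
    · rintro rfl; exact ⟨i, le_refl _, le_refl _, rfl⟩
    · rintro ⟨t, h1, h2, rfl⟩
      have : t = i := by omega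
      rw [this]
  | succ j hij ih =>
    obtain ⟨w, hw, hlen, hmem⟩ := ih (by omega)
    have hA : G.Adj (x j) (x (j + 1)) := hadj j (by omega)
    refine ⟨w.concat hA, ?_, ?_, fun z => ?_⟩
    · apply hw.concat
      intro hmem'
      obtain ⟨t, h1, h2, h3⟩ := (hmem _).1 hmem'
      have := hinj _ hj t (by omega) h3
      omega
    · rw [Walk.length_concat, hlen]; omega
    · rw [Walk.support_concat, List.mem_append, List.mem_singleton, hmem]
      constructor
      · rintro (⟨t, h1, h2, rfl⟩ | rfl)
        · exact ⟨t, h1, by omega, rfl⟩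
        · exact ⟨j + 1, by omega, le_refl _, rfl⟩
      · rintro ⟨t, h1, h2, rfl⟩
        by_cases ht : t = j + 1
        · right; rw [ht]
        · left; exact ⟨t, h1, by omega, rfl⟩

lemma path_length_lt {u v : V} {p : G.Walk u v} (hp : p.IsPath) {S : Finset V}
    (hs : ∀ z ∈ p.support, z ∈ S) : p.length + 1 ≤ S.card := by
  classical
  have h1 : p.support.toFinset ⊆ S := fun z hz => hs z (List.mem_toFinset.1 hz)
  have h2 := Finset.card_le_card h1
  rw [List.toFinset_card_of_nodup hp.support_nodup, Walk.length_support] at h2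
  exact h2

lemma exists_longest_path (G : SimpleGraph V) (S : Finset V) (hS : S.Nonempty) :
    ∃ (u v : V) (p : G.Walk u v), p.IsPath ∧ (∀ z ∈ p.support, z ∈ S) ∧
      ∀ (u' v' : V) (q : G.Walk u' v'), q.IsPath → (∀ z ∈ q.support, z ∈ S) → q.length ≤ p.length := by
  classical
  let Good : ℕ → Prop := fun n => ∃ (u v : V) (p : G.Walk u v), p.IsPath ∧ (∀ z ∈ p.support, z ∈ S) ∧
    p.length = n
  have h0 : Good 0 := by
    obtain ⟨a, ha⟩ := hS
    exact ⟨a, a, Walk.nil, Walk.IsPath.nil, by simpa using ha, rfl⟩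
  have hspec := Nat.findGreatest_spec (P := Good) (m := 0) (n := S.card) (Nat.zero_le _) h0
  obtain ⟨u, v, p, hp, hs, hlen⟩ := hspec
  refine ⟨u, v, p, hp, hs, ?_⟩
  intro u' v' q hq hqs
  have hb := path_length_lt hq hqs
  rw [hlen]
  exact Nat.le_findGreatest (by omega) ⟨u', v', q, hq, hqs, rfl⟩

lemma card_support_toFinset_le {v : V} {c : G.Walk v v} (h : c.IsCycle) :
    c.support.toFinset.card ≤ c.length := by
  classical
  have hnn : ¬ c.Nil := h.not_nil
  have h1 : c.support = v :: c.support.tail := (Walk.cons_tail_support c).symm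
  have h2 : v ∈ c.support.tail := c.end_mem_tail_support hnn
  have h3 : c.support.toFinset = c.support.tail.toFinset := by
    ext a
    simp only [List.mem_toFinset]
    constructor
    · intro ha
      rw [h1, List.mem_cons] at ha
      rcases ha with rfl | ha
      · exact h2
      · exact ha
    · exact List.mem_of_mem_tail
  rw [h3]
  refine (List.toFinset_card_le _).trans ?_
  rw [List.length_tail, Walk.length_support]
  omega

/-- Small sets. -/
lemma small_case {c e w : ℕ} (hc : 3 ≤ c) (he : e ≤ 1) (hw : w + e ≤ c) {S : Finset V}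
    (hS : S.Nonempty) (hyp : ABHyp G c e w S) (hcard : S.card + e ≤ 2 * c) :
    ∃ T, T ⊆ S ∧ Indep G T ∧ S.card + e ≤ c * T.card := by
  classical
  by_cases hcl : ∀ x ∈ S, ∀ y ∈ S, x ≠ y → G.Adj x y
  · have := hyp.clique S (Finset.Subset.refl _) hcl
    obtain ⟨a, ha⟩ := hS
    refine ⟨{a}, by simpa using ha, ?_, ?_⟩
    · intro x hx y hy hxy
      simp only [Finset.mem_singleton] at hx hy
      exact absurd (hx.trans hy.symm) hxy
    · simp only [Finset.card_singleton, mul_one]; omega
  · push Not at hcl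
    obtain ⟨x, hx, y, hy, hxy, hadj⟩ := hcl
    refine ⟨{x, y}, ?_, ?_, ?_⟩
    · intro z hz
      simp only [Finset.mem_insert, Finset.mem_singleton] at hz
      rcases hz with rfl | rfl <;> assumption
    · intro a ha b hb hab
      simp only [Finset.mem_insert, Finset.mem_singleton] at ha hb
      rcases ha with rfl | rfl <;> rcases hb with rfl | rfl
      · exact absurd rfl hab
      · exact hadj
      · exact fun h => hadj h.symm
      · exact absurd rfl hab
    · rw [Finset.card_pair hxy]; omega

/-- Removing `U ⊇ N[T0]`. -/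
lemma reduce {c e : ℕ} {S U T0 T' : Finset V} (hU : U ⊆ S) (hT0 : T0 ⊆ U) (hI0 : Indep G T0)
    (hcl : ∀ t ∈ T0, ∀ z ∈ S, G.Adj t z → z ∈ U) (hT' : T' ⊆ S \ U) (hI' : Indep G T')
    (hUc : U.card ≤ c * T0.card) (hR : (S \ U).card + e ≤ c * T'.card) :
    ∃ T, T ⊆ S ∧ Indep G T ∧ S.card + e ≤ c * T.card := by
  classical
  have hdisj : Disjoint T0 T' := by
    rw [Finset.disjoint_left]
    intro a ha ha'
    exact (Finset.mem_sdiff.1 (hT' ha')).2 (hT0 ha)
  refine ⟨T0 ∪ T', Finset.union_subset (hT0.trans hU) (hT'.trans Finset.sdiff_subset), ?_, ?_⟩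
  · intro a ha b hb hab
    rcases Finset.mem_union.1 ha with ha | ha <;> rcases Finset.mem_union.1 hb with hb | hb
    · exact hI0 a ha b hb hab
    · intro hadj
      exact (Finset.mem_sdiff.1 (hT' hb)).2 (hcl a ha b (Finset.mem_sdiff.1 (hT' hb)).1 hadj)
    · intro hadj
      exact (Finset.mem_sdiff.1 (hT' ha)).2 (hcl b hb a (Finset.mem_sdiff.1 (hT' ha)).1 hadj.symm)
    · exact hI' a ha b hb hab
  · rw [Finset.card_union_of_disjoint hdisj, Nat.mul_add]
    have := Finset.card_sdiff_add_card_eq_card hU
    omega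

/-- A cut vertex is free in a minimal counterexample (helper38). -/
lemma cut_case {c e : ℕ} {S : Finset V}
    (IH : ∀ R, R ⊂ S → R.Nonempty → ∃ T, T ⊆ R ∧ Indep G T ∧ R.card + e ≤ c * T.card)
    {z u v : V} (hz : z ∈ S) (hu : u ∈ S) (hv : v ∈ S) (huz : u ≠ z) (hvz : v ≠ z)
    (hno : ¬ ∃ w : G.Walk u v, ∀ y ∈ w.support, y ∈ S ∧ y ≠ z) :
    ∃ T, T ⊆ S ∧ Indep G T ∧ S.card + e ≤ c * T.card := by
  classical
  let D1 : Finset V := S.filter (fun t => ∃ w : G.Walk u t, ∀ y ∈ w.support, y ∈ S ∧ y ≠ z)
  let D2 : Finset V := (S.erase z) \ D1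
  have hmem1 : ∀ t, t ∈ D1 ↔ t ∈ S ∧ ∃ w : G.Walk u t, ∀ y ∈ w.support, y ∈ S ∧ y ≠ z := by
    intro t; simp only [D1, Finset.mem_filter]
  have hmem2 : ∀ t, t ∈ D2 ↔ t ∈ S ∧ t ≠ z ∧ t ∉ D1 := by
    intro t
    simp only [D2, Finset.mem_sdiff, Finset.mem_erase]
    tauto
  have huD1 : u ∈ D1 := (hmem1 u).2 ⟨hu, Walk.nil, by
    intro y hy
    simp only [Walk.support_nil, List.mem_singleton] at hy
    subst hy
    exact ⟨hu, huz⟩⟩
  have hvD1 : v ∉ D1 := fun h => hno ((hmem1 v).1 h).2
  have hzD1 : z ∉ D1 := by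
    intro h
    obtain ⟨_, w, hw⟩ := (hmem1 z).1 h
    exact (hw z w.end_mem_support).2 rfl
  have hvD2 : v ∈ D2 := (hmem2 v).2 ⟨hv, hvz, hvD1⟩
  have hanti : ∀ a ∈ D1, ∀ b ∈ D2, ¬ G.Adj a b := by
    intro a ha b hb hab
    obtain ⟨_, w, hw⟩ := (hmem1 a).1 ha
    obtain ⟨hb1, hb2, hb3⟩ := (hmem2 b).1 hb
    apply hb3
    refine (hmem1 b).2 ⟨hb1, w.concat hab, ?_⟩
    intro y hy
    rw [Walk.support_concat, List.mem_append, List.mem_singleton] at hy
    rcases hy with hy | rfl
    · exact hw y hy
    · exact ⟨hb1, hb2⟩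
  have hD1S : D1 ⊆ S := fun t ht => ((hmem1 t).1 ht).1
  have hD2S : D2 ⊆ S := fun t ht => ((hmem2 t).1 ht).1
  have hdisj : Disjoint D1 D2 := by
    rw [Finset.disjoint_left]
    intro a h1 h2
    exact ((hmem2 a).1 h2).2.2 h1
  have hzD2 : z ∉ D2 := fun h => ((hmem2 z).1 h).2.1 rfl
  have hcard : S.card = D1.card + D2.card + 1 := by
    have h1 : S = insert z (D1 ∪ D2) := by
      ext t
      simp only [Finset.mem_insert, Finset.mem_union]
      constructor
      · intro ht
        by_cases h1 : t = z
        · exact Or.inl h1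
        · by_cases h2 : t ∈ D1
          · exact Or.inr (Or.inl h2)
          · exact Or.inr (Or.inr ((hmem2 t).2 ⟨ht, h1, h2⟩))
      · rintro (rfl | h | h)
        · exact hz
        · exact hD1S h
        · exact hD2S h
    have h2 : z ∉ D1 ∪ D2 := by
      simp only [Finset.mem_union, not_or]
      exact ⟨hzD1, hzD2⟩
    calc S.card = (insert z (D1 ∪ D2)).card := by rw [← h1]
      _ = (D1 ∪ D2).card + 1 := Finset.card_insert_of_notMem h2
      _ = _ := by rw [Finset.card_union_of_disjoint hdisj]
  -- proper subsets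
  have hss1 : D1 ⊂ S := Finset.ssubset_iff_subset_ne.2 ⟨hD1S, fun h => hzD1 (h ▸ hz)⟩
  have hss2 : D2 ⊂ S := Finset.ssubset_iff_subset_ne.2 ⟨hD2S, fun h => hzD2 (h ▸ hz)⟩
  have hF1S : insert z D1 ⊆ S := Finset.insert_subset hz hD1S
  have hF2S : insert z D2 ⊆ S := Finset.insert_subset hz hD2S
  have hss3 : insert z D1 ⊂ S := by
    refine Finset.ssubset_iff_subset_ne.2 ⟨hF1S, fun h => ?_⟩
    have : v ∈ insert z D1 := h ▸ hv
    rcases Finset.mem_insert.1 this with h' | h'
    · exact hvz h'
    · exact hvD1 h'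
  have hss4 : insert z D2 ⊂ S := by
    refine Finset.ssubset_iff_subset_ne.2 ⟨hF2S, fun h => ?_⟩
    have : u ∈ insert z D2 := h ▸ hu
    rcases Finset.mem_insert.1 this with h' | h'
    · exact huz h'
    · exact ((hmem2 u).1 h').2.2 huD1
  obtain ⟨A1, hA1s, hA1i, hA1m⟩ := exists_max_indep G D1
  obtain ⟨A2, hA2s, hA2i, hA2m⟩ := exists_max_indep G D2
  obtain ⟨B1, hB1s, hB1i, hB1m⟩ := exists_max_indep G (insert z D1)
  obtain ⟨B2, hB2s, hB2i, hB2m⟩ := exists_max_indep G (insert z D2)
  have bound : ∀ (R A : Finset V), R ⊂ S → R.Nonempty →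
      (∀ T', T' ⊆ R → Indep G T' → T'.card ≤ A.card) → R.card + e ≤ c * A.card := by
    intro R A hR hne hm
    obtain ⟨T, hT1, hT2, hT3⟩ := IH R hR hne
    exact hT3.trans (Nat.mul_le_mul_left _ (hm T hT1 hT2))
  have e1 := bound _ B1 hss3 ⟨z, Finset.mem_insert_self _ _⟩ hB1m
  have e2 := bound _ A2 hss2 ⟨v, hvD2⟩ hA2m
  have e3 := bound _ A1 hss1 ⟨u, huD1⟩ hA1m
  have e4 := bound _ B2 hss4 ⟨z, Finset.mem_insert_self _ _⟩ hB2m
  rw [Finset.card_insert_of_notMem hzD1] at e1
  rw [Finset.card_insert_of_notMem hzD2] at e4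
  have H1 : S.card + e ≤ c * B1.card + c * A2.card := by omega
  have H2 : S.card + e ≤ c * A1.card + c * B2.card := by omega
  -- the union of the A's
  have hAA : Indep G (A1 ∪ A2) := by
    intro a ha b hb hab
    rcases Finset.mem_union.1 ha with ha | ha <;> rcases Finset.mem_union.1 hb with hb | hb
    · exact hA1i a ha b hb hab
    · exact hanti a (hA1s ha) b (hA2s hb)
    · exact fun h => hanti b (hA1s hb) a (hA2s ha) h.symm
    · exact hA2i a ha b hb hab
  have hAAc : (A1 ∪ A2).card = A1.card + A2.card :=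
    Finset.card_union_of_disjoint (Finset.disjoint_of_subset_left hA1s
      (Finset.disjoint_of_subset_right hA2s hdisj))
  have hAAs : A1 ∪ A2 ⊆ S := Finset.union_subset (hA1s.trans hD1S) (hA2s.trans hD2S)
  by_cases hc1 : B1.card ≤ A1.card
  · refine ⟨A1 ∪ A2, hAAs, hAA, ?_⟩
    rw [hAAc, Nat.mul_add]
    have := Nat.mul_le_mul_left c hc1
    omega
  by_cases hc2 : B2.card ≤ A2.card
  · refine ⟨A1 ∪ A2, hAAs, hAA, ?_⟩
    rw [hAAc, Nat.mul_add]
    have := Nat.mul_le_mul_left c hc2
    omega
  -- `z` in both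
  have hzB : ∀ (D B A : Finset V), z ∉ D → B ⊆ insert z D → Indep G B →
      (∀ T', T' ⊆ D → Indep G T' → T'.card ≤ A.card) → ¬ B.card ≤ A.card →
      z ∈ B ∧ B.card ≤ A.card + 1 := by
    intro D B A hzD hB hI hm hn
    have hsub : B.erase z ⊆ D := by
      intro t ht
      rw [Finset.mem_erase] at ht
      rcases Finset.mem_insert.1 (hB ht.2) with h | h
      · exact absurd h ht.1
      · exact h
    have h1 := hm _ hsub (hI.mono (Finset.erase_subset _ _))
    by_cases hz' : z ∈ B
    · refine ⟨hz', ?_⟩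
      rw [Finset.card_erase_of_mem hz'] at h1
      omega
    · exfalso
      rw [Finset.erase_eq_of_notMem hz'] at h1
      exact hn h1
  obtain ⟨hz1, hb1⟩ := hzB D1 B1 A1 hzD1 hB1s hB1i hA1m hc1
  obtain ⟨hz2, hb2⟩ := hzB D2 B2 A2 hzD2 hB2s hB2i hA2m hc2
  have hinter : (B1 ∩ B2).card ≤ 1 := by
    have : B1 ∩ B2 ⊆ {z} := by
      intro t ht
      rw [Finset.mem_inter] at ht
      simp only [Finset.mem_singleton]
      by_contra hne
      have h1 : t ∈ D1 := by
        rcases Finset.mem_insert.1 (hB1s ht.1) with h | h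
        · exact absurd h hne
        · exact h
      have h2 : t ∈ D2 := by
        rcases Finset.mem_insert.1 (hB2s ht.2) with h | h
        · exact absurd h hne
        · exact h
      exact Finset.disjoint_left.1 hdisj h1 h2
    simpa using Finset.card_le_card this
  have hBc := Finset.card_union_add_card_inter B1 B2
  refine ⟨B1 ∪ B2, Finset.union_subset (hB1s.trans hF1S) (hB2s.trans hF2S), ?_, ?_⟩
  · intro a ha b hb hab
    rcases Finset.mem_union.1 ha with ha | ha <;> rcases Finset.mem_union.1 hb with hb | hb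
    · exact hB1i a ha b hb hab
    · by_cases hbz : b = z
      · subst hbz
        exact hB1i a ha b hz1 hab
      · by_cases haz : a = z
        · subst haz
          exact hB2i a hz2 b hb hab
        · have h1 : a ∈ D1 := by
            rcases Finset.mem_insert.1 (hB1s ha) with h | h
            · exact absurd h haz
            · exact h
          have h2 : b ∈ D2 := by
            rcases Finset.mem_insert.1 (hB2s hb) with h | h
            · exact absurd h hbz
            · exact h
          exact hanti a h1 b h2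
    · by_cases hbz : b = z
      · subst hbz
        exact hB2i a ha b hz2 hab
      · by_cases haz : a = z
        · subst haz
          exact hB1i a hz1 b hb hab
        · have h1 : b ∈ D1 := by
            rcases Finset.mem_insert.1 (hB1s hb) with h | h
            · exact absurd h hbz
            · exact h
          have h2 : a ∈ D2 := by
            rcases Finset.mem_insert.1 (hB2s ha) with h | h
            · exact absurd h haz
            · exact h
          exact fun hh => hanti b h1 a h2 hh.symm
    · exact hB2i a ha b hb hab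
  · have hT : B1.card + A2.card ≤ (B1 ∪ B2).card := by omega
    calc S.card + e ≤ c * B1.card + c * A2.card := H1
      _ = c * (B1.card + A2.card) := by rw [Nat.mul_add]
      _ ≤ _ := Nat.mul_le_mul_left _ hT

/-- Lemma A and Lemma B, unified. -/
theorem lemmaAB {c e w : ℕ} (hc : 3 ≤ c) (he : e ≤ 1) (hw : w + e ≤ c) (S : Finset V) :
    S.Nonempty → ABHyp G c e w S → ∃ T, T ⊆ S ∧ Indep G T ∧ S.card + e ≤ c * T.card := by
  classical
  induction S using Finset.strongInduction with
  | H S ih =>
  intro hS hyp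
  have IH : ∀ R, R ⊂ S → R.Nonempty → ∃ T, T ⊆ R ∧ Indep G T ∧ R.card + e ≤ c * T.card :=
    fun R hR hne => ih R hR hne (hyp.mono hR.subset)
  -- (a) low degree
  by_cases hdeg : ∃ y ∈ S, (S.filter (G.Adj y)).card + 1 ≤ c
  · obtain ⟨y, hy, hdy⟩ := hdeg
    let U := insert y (S.filter (G.Adj y))
    have hU : U ⊆ S := Finset.insert_subset hy (Finset.filter_subset _ _)
    have hUc : U.card ≤ c := by
      have h := Finset.card_insert_le y (S.filter (G.Adj y))
      change (insert y (S.filter (G.Adj y))).card ≤ c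
      omega
    by_cases hR : (S \ U).Nonempty
    · have hss : S \ U ⊂ S := by
        refine Finset.ssubset_iff_subset_ne.2 ⟨Finset.sdiff_subset, fun h => ?_⟩
        have : y ∈ S \ U := h.symm ▸ hy
        exact (Finset.mem_sdiff.1 this).2 (Finset.mem_insert_self _ _)
      obtain ⟨T', hT1, hT2, hT3⟩ := IH _ hss hR
      refine reduce (T0 := {y}) hU (by simp [U]) ?_ ?_ hT1 hT2 (by simpa using hUc) hT3
      · intro a ha b hb hab
        simp only [Finset.mem_singleton] at ha hb
        exact absurd (ha.trans hb.symm) hab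
      · intro t ht z hz hadj
        simp only [Finset.mem_singleton] at ht
        subst ht
        exact Finset.mem_insert_of_mem (Finset.mem_filter.2 ⟨hz, hadj⟩)
    · rw [Finset.not_nonempty_iff_eq_empty, Finset.sdiff_eq_empty_iff_subset] at hR
      have : S.card ≤ c := (Finset.card_le_card hR).trans hUc
      exact small_case hc he hw hS hyp (by omega)
  push Not at hdeg
  -- (b) no cut vertex
  by_cases hcut : Conn2 G (S : Set V)
  swap
  · unfold Conn2 at hcut
    push Not at hcut
    obtain ⟨z, hz, u, hu, v, hv, huz, hvz, hno⟩ := hcut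
    refine cut_case IH hz hu hv huz hvz ?_
    rintro ⟨w', hw'⟩
    obtain ⟨y, hy, hy'⟩ := hno w'
    have := hw' y hy
    exact this.2 (hy' (by simpa using this.1))
  -- (c) longest path
  obtain ⟨u, v, p, hp, hs, hmax⟩ := exists_longest_path G S hS
  have huS : u ∈ S := hs u p.start_mem_support
  have hvS : v ∈ S := hs v p.end_mem_support
  have hnu : ∀ t, G.Adj u t → t ∈ S → t ∈ p.support := by
    intro t hadj htS
    by_contra hnot
    have hq : (Walk.cons hadj.symm p).IsPath := hp.cons hnot
    have := hmax _ _ (Walk.cons hadj.symm p) hq (by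
      intro z hz
      rw [Walk.support_cons, List.mem_cons] at hz
      rcases hz with rfl | hz
      · exact htS
      · exact hs z hz)
    simp only [Walk.length_cons] at this
    omega
  have hnv : ∀ t, G.Adj v t → t ∈ S → t ∈ p.support := by
    intro t hadj htS
    by_contra hnot
    have hq : (p.concat hadj).IsPath := hp.concat hnot hadj
    have := hmax _ _ (p.concat hadj) hq (by
      intro z hz
      rw [Walk.support_concat, List.mem_append, List.mem_singleton] at hz
      rcases hz with hz | rfl
      · exact hs z hz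
      · exact htS)
    rw [Walk.length_concat] at this
    omega
  -- three neighbours
  have hdu := hdeg u huS
  have h3 : 2 < (S.filter (G.Adj u)).card := by omega
  obtain ⟨y1, hy1, y2, hy2, y3, hy3, h12, h13, h23⟩ := Finset.two_lt_card.1 h3
  rw [Finset.mem_filter] at hy1 hy2 hy3
  -- path length
  let m := p.length
  let x : ℕ → V := p.getVert
  have hx0 : x 0 = u := p.getVert_zero
  have hxm : x m = v := p.getVert_length
  have hP : PathFn G x m := ⟨fun i hi => p.adj_getVert_succ hi,
    fun i hi j hj h => hp.getVert_injOn hi hj h⟩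
  have hsupp : ∀ z, z ∈ p.support ↔ ∃ i, i ≤ m ∧ z = x i := by
    intro z
    rw [Walk.mem_support_iff_exists_getVert]
    constructor
    · rintro ⟨n, h1, h2⟩
      exact ⟨n, h2, h1.symm⟩
    · rintro ⟨n, h1, h2⟩
      exact ⟨n, h2.symm, h1⟩
  have hm3 : 3 ≤ m := by
    have hsub : S.filter (G.Adj u) ⊆ p.support.toFinset.erase u := by
      intro t ht
      rw [Finset.mem_filter] at ht
      rw [Finset.mem_erase, List.mem_toFinset]
      exact ⟨fun h => G.loopless.irrefl u (h ▸ ht.2), hnu t ht.2 ht.1⟩
    have h1 := Finset.card_le_card hsub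
    rw [Finset.card_erase_of_mem (List.mem_toFinset.2 p.start_mem_support),
      List.toFinset_card_of_nodup hp.support_nodup, Walk.length_support] at h1
    omega
  have hne : u ≠ v := by
    intro h
    have : x 0 = x m := by rw [hx0, hxm, h]
    have := hP.inj 0 (by omega) m (le_refl _) this
    omega
  by_cases huv : G.Adj u v
  · -- spanning cycle
    have hcy : (Walk.cons huv.symm p).IsCycle := cycle_of_path hp huv.symm (by omega)
    have hmemc : ∀ z ∈ p.support, z ∈ (Walk.cons huv.symm p).support := by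
      intro z hz
      rw [Walk.support_cons, List.mem_cons]
      exact Or.inr hz
    have hch : IsChorded (Walk.cons huv.symm p) := by
      refine ⟨hcy, u, hmemc u p.start_mem_support, y1, hmemc _ (hnu _ hy1.2 hy1.1), y2,
        hmemc _ (hnu _ hy2.2 hy2.1), y3, hmemc _ (hnu _ hy3.2 hy3.1), h12, h13, h23, hy1.2, hy2.2,
        hy3.2⟩
    have hlen := hyp.chord _ _ hch (by
      intro z hz
      rw [Walk.support_cons, List.mem_cons] at hz
      rcases hz with rfl | hz
      · exact hvS
      · exact hs z hz)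
    simp only [Walk.length_cons] at hlen
    -- spanning
    have hspan : ∀ t ∈ S, t ∈ p.support := by
      intro t ht
      by_contra hnot
      have hvt : t ≠ v := fun h => hnot (h ▸ p.end_mem_support)
      have hut : t ≠ u := fun h => hnot (h ▸ p.start_mem_support)
      obtain ⟨w', hw'⟩ := hcut v hvS u huS t ht hne hvt.symm.symm
      -- an edge leaving the path
      have hleave : ∀ {a b : V} (q : G.Walk a b), a ∈ p.support → b ∉ p.support →
          (∀ y ∈ q.support, y ∈ S ∧ y ≠ v) →
          ∃ a' b', a' ∈ p.support ∧ b' ∉ p.support ∧ b' ∈ S ∧ G.Adj a' b' := by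
        intro a b q
        induction q with
        | nil => intro h1 h2 _; exact absurd h1 h2
        | @cons a₀ b₀ c₀ hh q' ih =>
          intro h1 h2 h3
          by_cases hb : b₀ ∈ p.support
          · exact ih hb h2 (fun y hy => h3 y (by simp [hy]))
          · exact ⟨a₀, b₀, h1, hb, (h3 b₀ (by simp)).1, hh⟩
      obtain ⟨a', b', ha', hb', hb'S, hab⟩ := hleave w' p.start_mem_support hnot hw'
      obtain ⟨i, him, rfl⟩ := (hsupp a').1 ha'
      have hbx : ∀ j ≤ m, b' ≠ x j := by
        intro j hj h
        exact hb' ((hsupp b').2 ⟨j, hj, h⟩)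
      have hxS : ∀ j ≤ m, x j ∈ S := fun j hj => hs _ ((hsupp _).2 ⟨j, hj, rfl⟩)
      rcases Nat.eq_zero_or_pos i with rfl | hipos
      · -- i = 0 : extend
        have hab' : G.Adj u b' := hx0 ▸ hab
        exact hb' (hnu b' hab' hb'S)
      · obtain ⟨s1, hs1, hs1l, hs1m⟩ := exists_seg_len (G := G) x m hP.adj hP.inj i m (by omega) (le_refl _)
        obtain ⟨s2, hs2, hs2l, hs2m⟩ := exists_seg_len (G := G) x m hP.adj hP.inj 0 (i - 1) (by omega) (by omega)
        have hclose : G.Adj (x m) (x 0) := by rw [hxm, hx0]; exact huv.symm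
        let tail : G.Walk (x m) (x (i - 1)) := Walk.cons hclose s2
        have htail : tail.IsPath := by
          apply hs2.cons
          intro hc'
          obtain ⟨t', h1, h2, h3⟩ := (hs2m _).1 hc'
          have := hP.inj m (le_refl _) t' (by omega) h3
          omega
        have htails : ∀ z, z ∈ tail.support ↔ z = x m ∨ ∃ t', 0 ≤ t' ∧ t' ≤ i - 1 ∧ z = x t' := by
          intro z
          simp only [tail, Walk.support_cons, List.mem_cons, hs2m]
        have hpp : (s1.append tail).IsPath := by
          apply isPath_append' hs1 htail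
          intro z hz hz'
          obtain ⟨t1, h1, h2, rfl⟩ := (hs1m _).1 hz
          rcases (htails _).1 hz' with h | ⟨t', h3, h4, h5⟩
          · exact h
          · have := hP.inj t1 (by omega) t' (by omega) h5
            omega
        have hmems : ∀ z, z ∈ (s1.append tail).support ↔ (∃ t1, i ≤ t1 ∧ t1 ≤ m ∧ z = x t1) ∨
            z = x m ∨ ∃ t', 0 ≤ t' ∧ t' ≤ i - 1 ∧ z = x t' := by
          intro z
          rw [Walk.mem_support_append_iff, hs1m, htails]
        have hq : (Walk.cons hab.symm (s1.append tail)).IsPath := by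
          apply hpp.cons
          intro hc'
          rcases (hmems _).1 hc' with ⟨t1, h1, h2, h3⟩ | h | ⟨t', h3, h4, h5⟩
          · exact hbx t1 h2 h3
          · exact hbx m (le_refl _) h
          · exact hbx t' (by omega) h5
        have := hmax _ _ (Walk.cons hab.symm (s1.append tail)) hq (by
          intro z hz
          rw [Walk.support_cons, List.mem_cons] at hz
          rcases hz with rfl | hz
          · exact hb'S
          · rcases (hmems _).1 hz with ⟨t1, h1, h2, rfl⟩ | rfl | ⟨t', h3, h4, rfl⟩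
            · exact hxS _ h2
            · exact hxS _ (le_refl _)
            · exact hxS _ (by omega))
        simp only [Walk.length_cons, Walk.length_append, hs1l, tail, hs2l] at this
        have hmm : p.length = m := rfl
        omega
    have hcardS : S.card ≤ m + 1 := by
      have hsub : S ⊆ p.support.toFinset := fun t ht => List.mem_toFinset.2 (hspan t ht)
      have h1 := Finset.card_le_card hsub
      rw [List.toFinset_card_of_nodup hp.support_nodup, Walk.length_support] at h1
      exact h1
    have hmm : p.length = m := rfl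
    exact small_case hc he hw hS hyp (by omega)
  · -- bondy
    have hxS : ∀ j ≤ m, x j ∈ (S : Set V) := fun j hj =>
      Finset.mem_coe.2 (hs _ ((hsupp _).2 ⟨j, hj, rfl⟩))
    obtain ⟨a, C, hC, hCS, hC0, hCm, hCn0, hCnm⟩ := bondy (by omega) hP hxS hcut
    have hnu' : ∀ t, G.Adj u t → t ∈ S → t ∈ C.support := by
      intro t hadj ht
      obtain ⟨i, hi, rfl⟩ := (hsupp t).1 (hnu t hadj ht)
      exact hCn0 i hi (hx0 ▸ hadj)
    have hnv' : ∀ t, G.Adj v t → t ∈ S → t ∈ C.support := by
      intro t hadj ht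
      obtain ⟨i, hi, rfl⟩ := (hsupp t).1 (hnv t hadj ht)
      exact hCnm i hi (hxm ▸ hadj)
    have huC : u ∈ C.support := hx0 ▸ hC0
    have hvC : v ∈ C.support := hxm ▸ hCm
    have hch : IsChorded C := by
      refine ⟨hC, u, huC, y1, hnu' _ hy1.2 hy1.1, y2, hnu' _ hy2.2 hy2.1, y3, hnu' _ hy3.2 hy3.1,
        h12, h13, h23, hy1.2, hy2.2, hy3.2⟩
    have hlen := hyp.chord _ _ hch (fun z hz => Finset.mem_coe.1 (hCS z hz))
    let U := insert u (insert v (S.filter (fun t => G.Adj u t ∨ G.Adj v t)))
    have hUS : U ⊆ S := by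
      apply Finset.insert_subset huS
      apply Finset.insert_subset hvS
      exact Finset.filter_subset _ _
    have hUC : U ⊆ C.support.toFinset := by
      intro t ht
      rw [List.mem_toFinset]
      simp only [U, Finset.mem_insert, Finset.mem_filter] at ht
      rcases ht with rfl | rfl | ⟨h1, h2 | h2⟩
      · exact huC
      · exact hvC
      · exact hnu' t h2 h1
      · exact hnv' t h2 h1
    have hUc : U.card + e ≤ 2 * c :=
      (Nat.add_le_add_right ((Finset.card_le_card hUC).trans (card_support_toFinset_le hC)) e).trans hlen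
    by_cases hR : (S \ U).Nonempty
    · have hss : S \ U ⊂ S := by
        refine Finset.ssubset_iff_subset_ne.2 ⟨Finset.sdiff_subset, fun h => ?_⟩
        have : u ∈ S \ U := h.symm ▸ huS
        exact (Finset.mem_sdiff.1 this).2 (Finset.mem_insert_self _ _)
      obtain ⟨T', hT1, hT2, hT3⟩ := IH _ hss hR
      refine reduce (T0 := {u, v}) hUS ?_ ?_ ?_ hT1 hT2 ?_ hT3
      · intro t ht
        simp only [Finset.mem_insert, Finset.mem_singleton] at ht
        simp only [U, Finset.mem_insert]
        rcases ht with rfl | rfl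
        · exact Or.inl rfl
        · exact Or.inr (Or.inl rfl)
      · intro a' ha b hb hab
        simp only [Finset.mem_insert, Finset.mem_singleton] at ha hb
        rcases ha with rfl | rfl <;> rcases hb with rfl | rfl
        · exact absurd rfl hab
        · exact huv
        · exact fun h => huv h.symm
        · exact absurd rfl hab
      · intro t ht z hz hadj
        simp only [Finset.mem_insert, Finset.mem_singleton] at ht
        simp only [U, Finset.mem_insert, Finset.mem_filter]
        rcases ht with rfl | rfl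
        · exact Or.inr (Or.inr ⟨hz, Or.inl hadj⟩)
        · exact Or.inr (Or.inr ⟨hz, Or.inr hadj⟩)
      · rw [Finset.card_pair hne]
        omega
    · rw [Finset.not_nonempty_iff_eq_empty, Finset.sdiff_eq_empty_iff_subset] at hR
      have := Finset.card_le_card hR
      exact small_case hc he hw hS hyp (by omega)

end Crest.Agent.CycleRamsey
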