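import Crest.Agent.Lib.CycleRamsey.ThetaCore

/-!
# Verstraete's theta lemma (row 54)

A *chorded cycle* is presented as a function `v : ℤ → V`, periodic exactly with period `n`,
with `v i ~ v (i+1)` and `v 0 ~ v t`, `2 ≤ t ≤ n - 2`.

`verstraete`: for a colouring `c : V → Bool` and `1 ≤ ℓ < n`, there is a path of length `ℓ`
in `v`'s range, with endpoints of different colours, or `c ∘ v` has period two (with the
additional information on `t` and `ℓ`).
-/

set_option autoImplicit false

namespace Crest.Agent.Lib.CycleRamsey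

variable {V : Type}

/-- `w 0, …, w ℓ` is a path of length `ℓ` in `G`. -/
structure IsPathFun (G : SimpleGraph V) (w : ℕ → V) (ℓ : ℕ) : Prop where
  inj : ∀ i ≤ ℓ, ∀ j ≤ ℓ, w i = w j → i = j
  adj : ∀ i < ℓ, G.Adj (w i) (w (i + 1))

/-- A cycle from a function. -/
theorem hasCycle_of_fun (G : SimpleGraph V) (w : ℕ → V) (L : ℕ) (hL : 3 ≤ L)
    (hinj : ∀ i < L, ∀ j < L, w i = w j → i = j)
    (hadj : ∀ i, i + 1 < L → G.Adj (w i) (w (i + 1)))
    (hclose : G.Adj (w (L - 1)) (w 0)) : HasCycle G L := by
  classical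
  set l := (List.range L).map w with hl
  have hlen : l.length = L := by simp [hl]
  have hne : l ≠ [] := by
    intro h; rw [h] at hlen; simp at hlen; omega
  have hnd : l.Nodup := by
    apply List.Nodup.map_on _ List.nodup_range
    intro x hx y hy hxy
    exact hinj x (List.mem_range.1 hx) y (List.mem_range.1 hy) hxy
  have hchain : l.IsChain G.Adj := by
    rw [List.isChain_iff_getElem]
    intro i hi
    simp only [hl, List.getElem_map, List.getElem_range]
    exact hadj i (by simpa [hl] using hi)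
  have hlast : l.getLast hne = w (L - 1) := by
    rw [List.getLast_eq_getElem]
    simp only [hl, List.getElem_map, List.getElem_range, List.length_map, List.length_range]
  have hhead : l.head hne = w 0 := by
    rw [List.head_eq_getElem]
    simp only [hl, List.getElem_map, List.getElem_range]
  have := hasCycle_of_list G l hne hnd hchain (by rw [hlast, hhead]; exact hclose) (by omega)
  rwa [hlen] at this

/-- A chorded cycle on `n` vertices, with chord `v 0 ~ v t`. -/
structure ChordedCycle (G : SimpleGraph V) (n t : ℕ) (v : ℤ → V) : Prop where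
  eq_iff : ∀ i j, v i = v j ↔ (n : ℤ) ∣ i - j
  adj : ∀ i, G.Adj (v i) (v (i + 1))
  chord : G.Adj (v 0) (v t)
  t_ge : 2 ≤ t
  n_ge : t + 2 ≤ n

section Paths

variable {G : SimpleGraph V} {n t : ℕ} {v : ℤ → V}

/-- The path through the chord, with directions `d₁`, `d₂`. -/
theorem ChordedCycle.path (hc : ChordedCycle G n t v) (d1 d2 : ℤ) (hd1 : d1 = 1 ∨ d1 = -1)
    (hd2 : d2 = 1 ∨ d2 = -1) (a b : ℕ) (ha : a < n) (hb : b < n)
    (hdisj : ∀ i j : ℤ, 0 ≤ i → i ≤ a → 0 ≤ j → j ≤ b → ¬ (n : ℤ) ∣ d1 * i - (t + d2 * j)) :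
    ∃ w : ℕ → V, IsPathFun G w (a + b + 1) ∧ w 0 = v (d1 * a) ∧ w (a + b + 1) = v (t + d2 * b) ∧
      ∀ i ≤ a + b + 1, w i ∈ Set.range v := by
  set w : ℕ → V := fun i => if i ≤ a then v (d1 * ((a : ℤ) - i)) else v (t + d2 * ((i : ℤ) - a - 1))
    with hw
  have hn0 : (0 : ℤ) < n := by omega
  have small : ∀ x : ℤ, (n : ℤ) ∣ x → -n < x → x < n → x = 0 := by
    intro x hx h1 h2
    exact Int.eq_zero_of_abs_lt_dvd hx (abs_lt.2 ⟨h1, h2⟩)
  refine ⟨w, ⟨?_, ?_⟩, ?_, ?_, ?_⟩
  · intro i hi j hj hij
    simp only [hw] at hij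
    split_ifs at hij with h1 h2 h2
    · have := (hc.eq_iff _ _).1 hij
      have h3 : d1 * ((a : ℤ) - i) - d1 * ((a : ℤ) - j) = 0 := by
        apply small _ this
        · rcases hd1 with rfl | rfl <;> omega
        · rcases hd1 with rfl | rfl <;> omega
      rcases hd1 with rfl | rfl <;> omega
    · exfalso
      apply hdisj ((a : ℤ) - i) ((j : ℤ) - a - 1) (by omega) (by omega) (by omega) (by omega)
      exact (hc.eq_iff _ _).1 hij
    · exfalso
      apply hdisj ((a : ℤ) - j) ((i : ℤ) - a - 1) (by omega) (by omega) (by omega) (by omega)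
      exact (hc.eq_iff _ _).1 hij.symm
    · have := (hc.eq_iff _ _).1 hij
      have h3 : t + d2 * ((i : ℤ) - a - 1) - (t + d2 * ((j : ℤ) - a - 1)) = 0 := by
        apply small _ this
        · rcases hd2 with rfl | rfl <;> omega
        · rcases hd2 with rfl | rfl <;> omega
      rcases hd2 with rfl | rfl <;> omega
  · intro i hi
    simp only [hw]
    by_cases h1 : i + 1 ≤ a
    · rw [if_pos h1, if_pos (by omega)]
      rcases hd1 with rfl | rfl
      · have := (hc.adj ((a : ℤ) - (i + 1 : ℕ))).symm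
        convert this using 2
        · push_cast; ring
        · ring
      · have := hc.adj (-((a : ℤ) - i))
        convert this using 2
        · ring
        · push_cast; ring
    · by_cases h2 : i = a
      · subst h2
        rw [if_pos le_rfl, if_neg (by omega)]
        simpa using hc.chord
      · rw [if_neg (by omega), if_neg (by omega)]
        rcases hd2 with rfl | rfl
        · have := hc.adj ((t : ℤ) + 1 * ((i : ℤ) - a - 1))
          convert this using 2
          push_cast; ring
        · have := (hc.adj ((t : ℤ) + -1 * (((i + 1 : ℕ) : ℤ) - a - 1))).symm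
          convert this using 2
          push_cast; ring
  · simp [hw]
  · simp only [hw]
    rw [if_neg (by omega)]
    congr 2
    push_cast; ring
  · intro i _
    simp only [hw]
    split_ifs <;> exact ⟨_, rfl⟩

/-- **Verstraete's lemma.** -/
theorem ChordedCycle.verstraete (hc : ChordedCycle G n t v) (c : V → Bool) {ℓ : ℕ} (hℓ : 1 ≤ ℓ)
    (hℓn : ℓ < n) :
    (∃ w : ℕ → V, IsPathFun G w ℓ ∧ (∀ i ≤ ℓ, w i ∈ Set.range v) ∧ c (w 0) ≠ c (w ℓ)) ∨
    ((∀ x, c (v (t + 1 - x)) = c (v x)) ∧ (∀ x, c (v (t - 1 - x)) = c (v x)) ∧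
      (∀ x, c (v (x + ℓ)) = c (v x))) := by
  by_contra hcon
  push Not at hcon
  obtain ⟨hno, hexc⟩ := hcon
  have ht2 := hc.t_ge
  have htn := hc.n_ge
  have hn0 : (0 : ℤ) < n := by omega
  -- the arcs
  have harc : ∀ x : ℤ, c (v (x + ℓ)) = c (v x) := by
    intro x
    set w : ℕ → V := fun i => v (x + i) with hw
    have := hno w ⟨?_, ?_⟩ (fun i _ => ⟨_, rfl⟩)
    · simp only [hw] at this
      simpa using this.symm
    · intro i hi j hj hij
      have := (hc.eq_iff _ _).1 hij
      have h3 : x + (i : ℤ) - (x + j) = 0 := by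
        apply Int.eq_zero_of_abs_lt_dvd this
        rw [abs_lt]; constructor <;> omega
      omega
    · intro i _
      simp only [hw]
      have := hc.adj (x + i)
      convert this using 2
      push_cast; ring
  -- the paths through the chord
  have hpath : ∀ (d1 d2 : ℤ), (d1 = 1 ∨ d1 = -1) → (d2 = 1 ∨ d2 = -1) → ∀ a b : ℕ,
      a + b + 1 = ℓ →
      (∀ i j : ℤ, 0 ≤ i → i ≤ a → 0 ≤ j → j ≤ b → ¬ (n : ℤ) ∣ d1 * i - (t + d2 * j)) →
      c (v (d1 * a)) = c (v (t + d2 * b)) := by
    intro d1 d2 hd1 hd2 a b hab hdisj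
    obtain ⟨w, hw, h0, hl, hr⟩ := hc.path d1 d2 hd1 hd2 a b (by omega) (by omega) hdisj
    rw [hab] at hw hl hr
    have := hno w hw hr
    rwa [h0, hl] at this
  have nodvd : ∀ x : ℤ, -n < x → x < n → x ≠ 0 → ¬ (n : ℤ) ∣ x := by
    intro x h1 h2 h3 hdvd
    exact h3 (Int.eq_zero_of_abs_lt_dvd hdvd (abs_lt.2 ⟨h1, h2⟩))
  have key : (∀ x : ℤ, c (v ((t : ℤ) + 1 - x)) = c (v x)) ∧
      (∀ x : ℤ, c (v ((t : ℤ) - 1 - x)) = c (v x)) := by
    refine theta_core (fun x => c (v x)) n t ℓ (by omega) (by omega) (by omega)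
      (by omega) ?_ ?_ ?_ ?_ ?_ ?_
    · -- period n
      intro i
      have : v (i + n) = v i := (hc.eq_iff _ _).2 (by simp)
      simp only [this]
    · exact harc
    · -- T2
      intro a b ha hb h1 h2 h3
      lift a to ℕ using ha
      lift b to ℕ using hb
      have := hpath (-1) (-1) (Or.inr rfl) (Or.inr rfl) a b (by omega) (by
        intro i j hi0 hi1 hj0 hj1
        exact nodvd _ (by omega) (by omega) (by omega))
      simpa [sub_eq_add_neg] using this
    · -- T2'
      intro a b ha hb h1 h2 h3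
      lift a to ℕ using ha
      lift b to ℕ using hb
      have := hpath 1 1 (Or.inl rfl) (Or.inl rfl) a b (by omega) (by
        intro i j hi0 hi1 hj0 hj1
        exact nodvd _ (by omega) (by omega) (by omega))
      simpa using this
    · -- T1
      intro a b ha hb h3 h4
      lift a to ℕ using ha
      lift b to ℕ using hb
      have := hpath (-1) 1 (Or.inr rfl) (Or.inl rfl) a b (by omega) (by
        intro i j hi0 hi1 hj0 hj1
        exact nodvd _ (by omega) (by omega) (by omega))
      simpa using this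
    · -- T1'
      intro a b ha hb h3 h4
      lift a to ℕ using ha
      lift b to ℕ using hb
      have := hpath 1 (-1) (Or.inl rfl) (Or.inr rfl) a b (by omega) (by
        intro i j hi0 hi1 hj0 hj1
        exact nodvd _ (by omega) (by omega) (by omega))
      simpa [sub_eq_add_neg] using this
  obtain ⟨hR1, hR2⟩ := key
  obtain ⟨x, hx⟩ := hexc hR1 hR2
  exact hx (harc x)

end Paths

end Crest.Agent.Lib.CycleRamsey
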