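import Crest.Agent.Lib.CycleRamsey.SubCycle
import Crest.Agent.Lib.CycleRamsey.LemmaAB
import Crest.Agent.Lib.CycleRamsey.Theta

/-!
# Framework for the exceptional patterns of the big clique lemma (row 54, S0075; helper31)

A cycle `v` of length `L` with the clique `Q` at explicit positions, a pattern `pat`.

* `pathOK pat L l`: the list of positions `l` is a path in the graph "cycle + clique on Q".
  Checkable by `decide`.
* `cycle_of_index_path`: an index path with a list `X` of vertices off the cycle closing it gives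
  a cycle of length `l.length + X.length`.
* `AG G F n`: `F` contains an independent subset of size at least `n`; combination lemmas.
* `Aof`: neighbours of `u` off the cycle, lower bounds.
-/

set_option autoImplicit false
set_option linter.unusedSectionVars false
set_option linter.unusedVariables false

namespace Crest.Agent.CycleRamsey

open SimpleGraph
open Crest.Agent.Lib.CycleRamsey (HasCycle hasCycle_of_list nbrs mem_nbrs)

variable {V : Type} [DecidableEq V] {G : SimpleGraph V}

/-- The pattern at a position. -/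
def patAt (pat : List Bool) (i : ℕ) : Bool := pat.getD i false

/-- One step of an index path. -/
def stepOK (pat : List Bool) (L a b : ℕ) : Bool :=
  ((a + 1) % L == b) || ((b + 1) % L == a) || (patAt pat a && patAt pat b)

/-- Chain check. -/
def chainOK (pat : List Bool) (L : ℕ) : List ℕ → Bool
  | [] => true
  | [_] => true
  | a :: b :: l => stepOK pat L a b && chainOK pat L (b :: l)

/-- The path check: duplicate free, positions `< L`, consecutive positions adjacent. -/
def pathOK (pat : List Bool) (L : ℕ) (l : List ℕ) : Bool :=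
  decide l.Nodup && l.all (fun i => decide (i < L)) && chainOK pat L l

/-- `v` is a cycle of length `L` and the positions marked by `pat` carry vertices of the clique
`Q`. -/
structure PatCyc (G : SimpleGraph V) (Q : Finset V) (pat : List Bool) (L : ℕ) (v : ℤ → V) : Prop where
  cyc : CycFn G L v
  clique : ∀ x ∈ Q, ∀ y ∈ Q, x ≠ y → G.Adj x y
  mem : ∀ i : ℕ, patAt pat i = true → v i ∈ Q

section

variable {Q : Finset V} {pat : List Bool} {L : ℕ} {v : ℤ → V}

theorem PatCyc.inj (S : PatCyc G Q pat L v) {a b : ℕ} (ha : a < L) (hb : b < L)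
    (h : v a = v b) : a = b := by
  have := S.cyc.inj_window h (by omega) (by omega)
  omega

theorem PatCyc.step (S : PatCyc G Q pat L v) {a b : ℕ} (ha : a < L) (hb : b < L)
    (hne : a ≠ b) (h : stepOK pat L a b = true) : G.Adj (v a) (v b) := by
  have hL : 0 < L := by omega
  have hwrap : ∀ x y : ℕ, x < L → y < L → (x + 1) % L = y → G.Adj (v x) (v y) := by
    intro x y hx hy hxy
    by_cases h1 : x + 1 < L
    · rw [Nat.mod_eq_of_lt h1] at hxy
      subst hxy
      have := S.cyc.adj (x : ℤ)
      simpa using this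
    · have h2 : x + 1 = L := by omega
      rw [h2, Nat.mod_self] at hxy
      subst hxy
      have := S.cyc.adj (x : ℤ)
      have h3 : v ((x : ℤ) + 1) = v ((0 : ℕ) : ℤ) := by
        rw [S.cyc.eq_iff]
        exact ⟨1, by push_cast; rw [← h2]; push_cast; ring⟩
      rw [h3] at this
      exact this
  simp only [stepOK, Bool.or_eq_true, beq_iff_eq, Bool.and_eq_true] at h
  rcases h with (h | h) | ⟨h1, h2⟩
  · exact hwrap a b ha hb h
  · exact (hwrap b a hb ha h).symm
  · refine S.clique _ (S.mem a h1) _ (S.mem b h2) ?_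
    intro heq
    exact hne (S.inj ha hb heq)

theorem PatCyc.chain (S : PatCyc G Q pat L v) :
    ∀ l : List ℕ, l.Nodup → (∀ i ∈ l, i < L) → chainOK pat L l = true →
      (l.map (fun i : ℕ => v i)).IsChain G.Adj
  | [], _, _, _ => by simp
  | [a], _, _, _ => by simp
  | a :: b :: l, hnd, hlt, hc => by
      simp only [chainOK, Bool.and_eq_true] at hc
      simp only [List.map_cons]
      rw [List.isChain_cons_cons]
      refine ⟨S.step (hlt a (by simp)) (hlt b (by simp)) ?_ hc.1, ?_⟩
      · intro h; subst h; simp at hnd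
      · have := S.chain (b :: l) (List.nodup_cons.1 hnd).2 (fun i hi => hlt i (List.mem_cons_of_mem _ hi)) hc.2
        simpa using this

/-- Main construction: an index path `l` with a list `X` of vertices off the cycle closing it gives
a cycle of length `l.length + X.length`. -/
theorem PatCyc.cycle_of_path (S : PatCyc G Q pat L v) (l : List ℕ) (hne : l ≠ [])
    (hl : pathOK pat L l = true) (X : List V) (hXnd : X.Nodup) (hXoff : ∀ x ∈ X, ∀ i : ℤ, v i ≠ x)
    (hchain : (v (l.getLast hne : ℕ) :: (X ++ [v (l.head hne : ℕ)])).IsChain G.Adj)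
    (hlen : 3 ≤ l.length + X.length) : HasCycle G (l.length + X.length) := by
  simp only [pathOK, Bool.and_eq_true, decide_eq_true_eq, List.all_eq_true] at hl
  obtain ⟨⟨hnd, hlt⟩, hc⟩ := hl
  have hmap := S.chain l hnd hlt hc
  set l' := l.map (fun i : ℕ => v i) with hl'
  have hne' : l' ≠ [] := by simpa [hl'] using hne
  have hlast' : l'.getLast hne' = v (l.getLast hne : ℕ) := by
    simp [hl', List.getLast_map]
  have hhead' : l'.head hne' = v (l.head hne : ℕ) := by
    simp [hl', List.head_map]
  have hndl' : l'.Nodup := by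
    rw [hl']
    apply List.Nodup.map_on _ hnd
    intro x hx y hy hxy
    exact S.inj (hlt x hx) (hlt y hy) hxy
  have hdisj : ∀ a ∈ l', a ∉ X := by
    intro a ha hax
    simp only [hl', List.mem_map] at ha
    obtain ⟨i, _, rfl⟩ := ha
    exact hXoff _ hax _ rfl
  set full := l' ++ X with hfull
  have hfne : full ≠ [] := by simp [hfull, hne']
  have hfnd : full.Nodup := by
    rw [hfull, List.nodup_append]
    refine ⟨hndl', hXnd, ?_⟩
    intro a ha b hb hab
    subst hab
    exact hdisj a ha hb
  have hlen' : full.length = l.length + X.length := by simp [hfull, hl']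
  have key : full.IsChain G.Adj ∧ G.Adj (full.getLast hfne) (full.head hfne) := by
    cases X with
    | nil =>
      have h0 : G.Adj (v (l.getLast hne : ℕ)) (v (l.head hne : ℕ)) := by
        simpa using hchain
      have hf : full = l' := by simp [hfull]
      refine ⟨by rw [hf]; exact hmap, ?_⟩
      have e1 : full.getLast hfne = l'.getLast hne' := by simp [hfull]
      have e2 : full.head hfne = l'.head hne' := by simp [hfull]
      rw [e1, e2, hlast', hhead']
      exact h0
    | cons x X' =>
      rw [List.cons_append, List.isChain_cons_cons] at hchain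
      obtain ⟨h0, h1⟩ := hchain
      rw [← List.cons_append, List.isChain_append] at h1
      obtain ⟨h2, _, h3⟩ := h1
      constructor
      · rw [hfull, List.isChain_append]
        refine ⟨hmap, h2, ?_⟩
        intro a ha b hb
        rw [List.getLast?_eq_getLast_of_ne_nil hne', Option.mem_some_iff] at ha
        simp only [List.head?_cons, Option.mem_some_iff] at hb
        rw [← ha, ← hb, hlast']
        exact h0
      · have e1 : full.getLast hfne = (x :: X').getLast (by simp) := by
          simp [hfull]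
        have e2 : full.head hfne = l'.head hne' := by
          simp only [hfull]
          rw [List.head_append_of_ne_nil hne']
        rw [e1, e2, hhead']
        apply h3
        · rw [List.getLast?_eq_getLast_of_ne_nil (by simp)]
          simp
        · simp
  have := hasCycle_of_list G full hfne hfnd key.1 key.2 (by omega)
  rwa [hlen'] at this

end

/-- The check of a certificate: a path from `i` to `j` with exactly `t` positions. -/
def chk (pat : List Bool) (L i j t : ℕ) (l : List ℕ) : Bool :=
  pathOK pat L l && (l.head? == some i) && (l.getLast? == some j) && (l.length == t)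

/-- An index path from `i` to `j` with exactly `t` positions exists. -/
def IdxPath (pat : List Bool) (L i j t : ℕ) : Prop := ∃ l, chk pat L i j t l = true

/-- Forward arc of positions. -/
def arcF (L a n : ℕ) : List ℕ := (List.range n).map (fun t => (a + t) % L)
/-- Backward arc of positions. -/
def arcB (L a n : ℕ) : List ℕ := (List.range n).map (fun t => (a + L - t) % L)

/-- Candidates for Hamiltonian index paths from `i` to `j`. -/
def hamCands (L i j : ℕ) : List (List ℕ) :=
  let d := (i + L - j) % L
  let d' := (j + L - i) % L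
  [arcB L i d ++ arcF L (i + 1) (L - d), arcF L i d' ++ arcB L (i + L - 1) (L - d'),
    arcF L i L, arcB L i L]

/-- There is a Hamiltonian index path from `i` to `j` among the candidates. -/
def hamCheck (pat : List Bool) (L i j : ℕ) : Bool :=
  (hamCands L i j).any (chk pat L i j L)

theorem idxPath_of_hamCheck {pat : List Bool} {L i j : ℕ} (h : hamCheck pat L i j = true) :
    IdxPath pat L i j L := by
  simp only [hamCheck, List.any_eq_true] at h
  obtain ⟨l, _, hl⟩ := h
  exact ⟨l, hl⟩

section Setup

variable [Fintype V]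

/-- The setup for an exceptional pattern. -/
structure ExcSetup (G : SimpleGraph V) (Q : Finset V) (pat : List Bool) (k : ℕ) (v : ℤ → V)
    (I : Finset V) : Prop where
  pc : PatCyc G Q pat k v
  noCycle : ¬ HasCycle G (k + 1)
  deg : ∀ x, k ≤ (nbrs G x).card
  qmax : ∀ K : Finset V, (∀ x ∈ K, ∀ y ∈ K, x ≠ y → G.Adj x y) → K.card ≤ Q.card
  Iind : Indep G I
  Ioff : ∀ x ∈ I, ∀ i : ℤ, v i ≠ x
  Iexit : ∀ i : ℤ, ∃ x ∈ I, G.Adj (v i) x

/-- The neighbours of `u` off the cycle. -/
noncomputable def Aof (G : SimpleGraph V) (v : ℤ → V) (u : V) : Finset V := by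
  classical exact (nbrs G u).filter (fun x => ∀ i : ℤ, v i ≠ x)

omit [DecidableEq V] in
@[simp] theorem mem_Aof {v : ℤ → V} {u x : V} : x ∈ Aof G v u ↔ G.Adj u x ∧ ∀ i : ℤ, v i ≠ x := by
  classical
  unfold Aof
  simp

/-- `F` contains an independent subset with at least `n` elements. -/
def AG (G : SimpleGraph V) (F : Finset V) (n : ℕ) : Prop := ∃ T ⊆ F, Indep G T ∧ n ≤ T.card

theorem AG.mono {F F' : Finset V} {n m : ℕ} (h : AG G F n) (hF : F ⊆ F') (hm : m ≤ n) :
    AG G F' m := by
  obtain ⟨T, hT, hi, hc⟩ := h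
  exact ⟨T, hT.trans hF, hi, by omega⟩

theorem AG.zero (F : Finset V) : AG G F 0 := ⟨∅, by simp, by simp [Indep], by simp⟩

theorem AG.one {F : Finset V} {x : V} (hx : x ∈ F) : AG G F 1 :=
  ⟨{x}, by simpa using hx, by simp [Indep], by simp⟩

theorem AG.of_nonempty {F : Finset V} (h : F.Nonempty) : AG G F 1 := by
  obtain ⟨x, hx⟩ := h
  exact AG.one hx

theorem AG.two {F : Finset V} {x y : V} (hx : x ∈ F) (hy : y ∈ F) (hxy : x ≠ y)
    (hadj : ¬ G.Adj x y) : AG G F 2 := by
  refine ⟨{x, y}, ?_, ?_, by rw [Finset.card_pair hxy]⟩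
  · intro z hz
    simp only [Finset.mem_insert, Finset.mem_singleton] at hz
    rcases hz with rfl | rfl <;> assumption
  · intro a ha b hb hab
    simp only [Finset.mem_insert, Finset.mem_singleton] at ha hb
    rcases ha with rfl | rfl <;> rcases hb with rfl | rfl
    · exact absurd rfl hab
    · exact hadj
    · exact fun h => hadj h.symm
    · exact absurd rfl hab

/-- `A` and `B` are disjoint and without edges between them. -/
def Clean (G : SimpleGraph V) (A B : Finset V) : Prop :=
  (∀ x ∈ A, x ∉ B) ∧ ∀ x ∈ A, ∀ y ∈ B, ¬ G.Adj x y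

theorem Clean.symm {A B : Finset V} (h : Clean G A B) : Clean G B A :=
  ⟨fun x hx hxA => h.1 x hxA hx, fun x hx y hy hadj => h.2 y hy x hx hadj.symm⟩

theorem Clean.union_left {A B C : Finset V} (h1 : Clean G A C) (h2 : Clean G B C) :
    Clean G (A ∪ B) C := by
  constructor
  · intro x hx
    rcases Finset.mem_union.1 hx with h | h
    · exact h1.1 x h
    · exact h2.1 x h
  · intro x hx y hy
    rcases Finset.mem_union.1 hx with h | h
    · exact h1.2 x h y hy
    · exact h2.2 x h y hy

theorem Clean.union_right {A B C : Finset V} (h1 : Clean G A B) (h2 : Clean G A C) :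
    Clean G A (B ∪ C) :=
  (Clean.union_left h1.symm h2.symm).symm

theorem Clean.mono {A B A' B' : Finset V} (h : Clean G A B) (hA : A' ⊆ A) (hB : B' ⊆ B) :
    Clean G A' B' :=
  ⟨fun x hx hxB => h.1 x (hA hx) (hB hxB), fun x hx y hy => h.2 x (hA hx) y (hB hy)⟩

theorem AG.union {A B : Finset V} {n m : ℕ} (hA : AG G A n) (hB : AG G B m) (h : Clean G A B) :
    AG G (A ∪ B) (n + m) := by
  obtain ⟨T, hT, hi, hc⟩ := hA
  obtain ⟨T', hT', hi', hc'⟩ := hB
  refine ⟨T ∪ T', Finset.union_subset_union hT hT', ?_, ?_⟩
  · intro x hx y hy hxy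
    rcases Finset.mem_union.1 hx with h1 | h1 <;> rcases Finset.mem_union.1 hy with h2 | h2
    · exact hi x h1 y h2 hxy
    · exact h.2 x (hT h1) y (hT' h2)
    · exact fun hadj => h.2 y (hT h2) x (hT' h1) hadj.symm
    · exact hi' x h1 y h2 hxy
  · rw [Finset.card_union_of_disjoint]
    · omega
    · rw [Finset.disjoint_left]
      exact fun x hx hx' => h.1 x (hT hx) (hT' hx')

theorem AG.exists_indep {F : Finset V} {n : ℕ} (h : AG G F n) : ∃ T, Indep G T ∧ n ≤ T.card := by
  obtain ⟨T, _, hi, hc⟩ := h
  exact ⟨T, hi, hc⟩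

variable {Q : Finset V} {pat : List Bool} {k : ℕ} {v : ℤ → V} {I : Finset V}

/-- The fundamental exclusion: an index path and a closing list of vertices off the cycle with
total size `k + 1`. -/
theorem ExcSetup.excl (S : ExcSetup G Q pat k v I) {i j t : ℕ} (hp : IdxPath pat k i j t)
    (X : List V) (hXnd : X.Nodup) (hXoff : ∀ x ∈ X, ∀ i : ℤ, v i ≠ x)
    (hchain : (v (j : ℕ) :: (X ++ [v (i : ℕ)])).IsChain G.Adj) (hlen : t + X.length = k + 1) :
    False := by
  obtain ⟨l, hl⟩ := hp
  simp only [chk, Bool.and_eq_true, beq_iff_eq] at hl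
  obtain ⟨⟨⟨h1, h2⟩, h3⟩, h4⟩ := hl
  have hne : l ≠ [] := by
    intro h0
    subst h0
    simp at h2
  have hhead : l.head hne = i := by
    rw [List.head?_eq_some_head hne] at h2
    exact Option.some.inj h2
  have hlast : l.getLast hne = j := by
    rw [List.getLast?_eq_getLast_of_ne_nil hne] at h3
    exact Option.some.inj h3
  have hk : 3 ≤ k := S.pc.cyc.n_ge
  apply S.noCycle
  have := S.pc.cycle_of_path l hne h1 X hXnd hXoff (by rw [hlast, hhead]; exact hchain)
    (by omega)
  rwa [h4, hlen] at this

/-- Exits in `I`. -/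
theorem ExcSetup.exists_exits (S : ExcSetup G Q pat k v I) :
    ∃ u : ℕ → V, ∀ i : ℕ, u i ∈ I ∧ G.Adj (v (i : ℕ)) (u i) := by
  choose u hu using fun i : ℕ => S.Iexit (i : ℕ)
  exact ⟨u, hu⟩

section Pairs

variable (S : ExcSetup G Q pat k v I) {i j : ℕ} {u u' : V}
  (hu : u ∈ I) (hu' : u' ∈ I) (hiu : G.Adj (v (i : ℕ)) u) (hju : G.Adj (v (j : ℕ)) u')

include S hu hu' hiu hju

/-- Different homes have different exits (`s = 1`). -/
theorem ExcSetup.exit_ne (h1 : IdxPath pat k i j k) : u ≠ u' := by
  rintro rfl
  refine S.excl h1 [u] (by simp) ?_ ?_ (by simp)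
  · intro x hx
    simp only [List.mem_singleton] at hx
    subst hx
    exact S.Ioff _ hu
  · simp only [List.singleton_append, List.isChain_cons_cons, List.isChain_singleton, and_true]
    exact ⟨hju, hiu.symm⟩

/-- Two exits are not adjacent. -/
theorem ExcSetup.exit_nonadj (hne : u ≠ u') : ¬ G.Adj u u' := S.Iind u hu u' hu' hne

/-- `s = 3` excluded: no common vertex of the `A`'s. -/
theorem ExcSetup.A_disj (h1 : IdxPath pat k i j k) (h3 : IdxPath pat k i j (k - 2)) :
    ∀ x ∈ Aof G v u, x ∉ Aof G v u' := by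
  intro x hx hx'
  rw [mem_Aof] at hx hx'
  have hne := S.exit_ne hu hu' hiu hju h1
  have hk := S.pc.cyc.n_ge
  refine S.excl h3 [u', x, u] ?_ ?_ ?_ (by simp; omega)
  · simp only [List.nodup_cons, List.mem_cons, List.not_mem_nil, or_false, List.nodup_nil,
      not_false_eq_true, and_true, not_or]
    exact ⟨⟨hx'.1.ne, hne.symm⟩, hx.1.ne'⟩
  · intro y hy
    simp only [List.mem_cons, List.not_mem_nil, or_false] at hy
    rcases hy with rfl | rfl | rfl
    · exact S.Ioff _ hu'
    · exact hx.2
    · exact S.Ioff _ hu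
  · simp only [List.cons_append, List.nil_append, List.isChain_cons_cons, List.isChain_singleton,
      and_true]
    exact ⟨hju, hx'.1, hx.1.symm, hiu.symm⟩

/-- `s = 4` excluded: no edge between the `A`'s. -/
theorem ExcSetup.A_noEdge (h1 : IdxPath pat k i j k) (h4 : IdxPath pat k i j (k - 3)) :
    ∀ x ∈ Aof G v u, ∀ y ∈ Aof G v u', x ≠ y → ¬ G.Adj x y := by
  intro x hx y hy hxy hadj
  rw [mem_Aof] at hx hy
  have hne := S.exit_ne hu hu' hiu hju h1
  have hnadj := S.exit_nonadj hu hu' hiu hju hne
  have hk := S.pc.cyc.n_ge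
  have hxu' : x ≠ u' := by
    rintro rfl
    exact hnadj hx.1
  have hyu : y ≠ u := by
    rintro rfl
    exact hnadj hy.1.symm
  refine S.excl h4 [u', y, x, u] ?_ ?_ ?_ (by simp; omega)
  · simp only [List.nodup_cons, List.mem_cons, List.not_mem_nil, or_false, List.nodup_nil,
      not_false_eq_true, and_true, not_or]
    exact ⟨⟨hy.1.ne, hxu'.symm, hne.symm⟩, ⟨hxy.symm, hyu⟩, hx.1.ne'⟩
  · intro z hz
    simp only [List.mem_cons, List.not_mem_nil, or_false] at hz
    rcases hz with rfl | rfl | rfl | rfl
    · exact S.Ioff _ hu'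
    · exact hy.2
    · exact hx.2
    · exact S.Ioff _ hu
  · simp only [List.cons_append, List.nil_append, List.isChain_cons_cons, List.isChain_singleton,
      and_true]
    exact ⟨hju, hy.1, hadj.symm, hx.1.symm, hiu.symm⟩

/-- `s ∈ {1, 3, 4}` excluded: the `A`'s are clean. -/
theorem ExcSetup.A_clean (h1 : IdxPath pat k i j k) (h3 : IdxPath pat k i j (k - 2))
    (h4 : IdxPath pat k i j (k - 3)) : Clean G (Aof G v u) (Aof G v u') := by
  have hd := S.A_disj hu hu' hiu hju h1 h3
  refine ⟨hd, fun x hx y hy => ?_⟩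
  have hne : x ≠ y := by
    rintro rfl
    exact hd x hx hy
  exact S.A_noEdge hu hu' hiu hju h1 h4 x hx y hy hne

/-- The exit `u'` against `A(u)`: `s ∈ {1, 3}` excluded. -/
theorem ExcSetup.exit_clean (h1 : IdxPath pat k i j k) (h3 : IdxPath pat k i j (k - 2)) :
    Clean G ({u'} : Finset V) (Aof G v u) := by
  have hne := S.exit_ne hu hu' hiu hju h1
  have hnadj := S.exit_nonadj hu hu' hiu hju hne
  have hd := S.A_disj hu hu' hiu hju h1 h3
  constructor
  · intro x hx hxA
    rw [Finset.mem_singleton] at hx
    subst hx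
    exact hnadj (mem_Aof.1 hxA).1
  · intro x hx y hy hadj
    rw [Finset.mem_singleton] at hx
    subst hx
    have hyA := mem_Aof.1 hy
    exact hd y hy (mem_Aof.2 ⟨hadj, hyA.2⟩)

end Pairs

section Pairs2

variable (S : ExcSetup G Q pat k v I) {i j : ℕ}

include S

/-- `s = 2` excluded: exits are not adjacent (for exits off the cycle not necessarily in `I`). -/
theorem ExcSetup.exits_nonadj_of_s2 {u u' : V} (hu : ∀ t : ℤ, v t ≠ u) (hu' : ∀ t : ℤ, v t ≠ u')
    (hiu : G.Adj (v (i : ℕ)) u) (hju : G.Adj (v (j : ℕ)) u') (hne : u ≠ u')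
    (h2 : IdxPath pat k i j (k - 1)) : ¬ G.Adj u u' := by
  intro hadj
  have hk := S.pc.cyc.n_ge
  refine S.excl h2 [u', u] ?_ ?_ ?_ (by simp; omega)
  · simp only [List.nodup_cons, List.mem_cons, List.not_mem_nil, or_false, List.nodup_nil,
      not_false_eq_true, and_true]
    exact hne.symm
  · intro z hz
    simp only [List.mem_cons, List.not_mem_nil, or_false] at hz
    rcases hz with rfl | rfl
    · exact hu'
    · exact hu
  · simp only [List.cons_append, List.nil_append, List.isChain_cons_cons, List.isChain_singleton,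
      and_true]
    exact ⟨hju, hadj.symm, hiu.symm⟩

/-- General cleanliness for exits off the cycle (not necessarily in `I`). -/
theorem ExcSetup.clean_gen {u u' : V} (hu : ∀ t : ℤ, v t ≠ u) (hu' : ∀ t : ℤ, v t ≠ u')
    (hiu : G.Adj (v (i : ℕ)) u) (hju : G.Adj (v (j : ℕ)) u') (hne : u ≠ u')
    (h3 : IdxPath pat k i j (k - 2)) (h4 : IdxPath pat k i j (k - 3))
    {B B' : Finset V} (hB : B ⊆ Aof G v u) (hB' : B' ⊆ Aof G v u') (hu'B : u' ∉ B) (huB' : u ∉ B') :
    Clean G B B' := by
  have hk := S.pc.cyc.n_ge
  have hdisj : ∀ x ∈ B, x ∉ B' := by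
    intro x hx hx'
    have h1 := mem_Aof.1 (hB hx)
    have h2 := mem_Aof.1 (hB' hx')
    refine S.excl h3 [u', x, u] ?_ ?_ ?_ (by simp; omega)
    · simp only [List.nodup_cons, List.mem_cons, List.not_mem_nil, or_false, List.nodup_nil,
        not_false_eq_true, and_true, not_or]
      exact ⟨⟨h2.1.ne, hne.symm⟩, h1.1.ne'⟩
    · intro z hz
      simp only [List.mem_cons, List.not_mem_nil, or_false] at hz
      rcases hz with rfl | rfl | rfl
      · exact hu'
      · exact h1.2
      · exact hu
    · simp only [List.cons_append, List.nil_append, List.isChain_cons_cons, List.isChain_singleton,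
        and_true]
      exact ⟨hju, h2.1, h1.1.symm, hiu.symm⟩
  refine ⟨hdisj, ?_⟩
  intro x hx y hy hadj
  have h1 := mem_Aof.1 (hB hx)
  have h2 := mem_Aof.1 (hB' hy)
  have hxy : x ≠ y := by
    rintro rfl
    exact hdisj x hx hy
  have hxu' : x ≠ u' := by
    rintro rfl
    exact hu'B hx
  have hyu : y ≠ u := by
    rintro rfl
    exact huB' hy
  refine S.excl h4 [u', y, x, u] ?_ ?_ ?_ (by simp; omega)
  · simp only [List.nodup_cons, List.mem_cons, List.not_mem_nil, or_false, List.nodup_nil,
      not_false_eq_true, and_true, not_or]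
    exact ⟨⟨h2.1.ne, hxu'.symm, hne.symm⟩, ⟨hxy.symm, hyu⟩, h1.1.ne'⟩
  · intro z hz
    simp only [List.mem_cons, List.not_mem_nil, or_false] at hz
    rcases hz with rfl | rfl | rfl | rfl
    · exact hu'
    · exact h2.2
    · exact h1.2
    · exact hu
  · simp only [List.cons_append, List.nil_append, List.isChain_cons_cons, List.isChain_singleton,
      and_true]
    exact ⟨hju, h2.1, hadj.symm, h1.1.symm, hiu.symm⟩

/-- `s ∈ {2, 3, 4}` excluded: the `A`'s of two different exits off the cycle are clean. -/
theorem ExcSetup.clean_of_s234 {u u' : V} (hu : ∀ t : ℤ, v t ≠ u) (hu' : ∀ t : ℤ, v t ≠ u')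
    (hiu : G.Adj (v (i : ℕ)) u) (hju : G.Adj (v (j : ℕ)) u') (hne : u ≠ u')
    (h2 : IdxPath pat k i j (k - 1)) (h3 : IdxPath pat k i j (k - 2))
    (h4 : IdxPath pat k i j (k - 3)) : Clean G (Aof G v u) (Aof G v u') := by
  have hna := S.exits_nonadj_of_s2 hu hu' hiu hju hne h2
  refine S.clean_gen hu hu' hiu hju hne h3 h4 (subset_refl _) (subset_refl _) ?_ ?_
  · intro h
    exact hna (mem_Aof.1 h).1
  · intro h
    exact hna (mem_Aof.1 h).1.symm

/-- `s = 1` excluded: the off-cycle neighbourhoods of two positions are disjoint. -/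
theorem ExcSetup.U_disj (h1 : IdxPath pat k i j k) :
    ∀ x ∈ Aof G v (v (i : ℕ)), x ∉ Aof G v (v (j : ℕ)) := by
  intro x hx hx'
  have h2 := mem_Aof.1 hx
  have h3 := mem_Aof.1 hx'
  refine S.excl h1 [x] (by simp) ?_ ?_ (by simp)
  · intro z hz
    simp only [List.mem_singleton] at hz
    subst hz
    exact h2.2
  · simp only [List.singleton_append, List.isChain_cons_cons, List.isChain_singleton, and_true]
    exact ⟨h3.1, h2.1.symm⟩

end Pairs2

/-- A subset with `|Q|` elements of `Aof u` is not a clique. -/
theorem ExcSetup.not_clique (S : ExcSetup G Q pat k v I) {u : V} {B : Finset V}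
    (hB : B ⊆ Aof G v u) (hc : Q.card ≤ B.card) : ∃ x ∈ B, ∃ y ∈ B, x ≠ y ∧ ¬ G.Adj x y := by
  by_contra hcon
  push Not at hcon
  have hcl : ∀ x ∈ insert u B, ∀ y ∈ insert u B, x ≠ y → G.Adj x y := by
    intro x hx y hy hxy
    simp only [Finset.mem_insert] at hx hy
    rcases hx with rfl | hx <;> rcases hy with rfl | hy
    · exact absurd rfl hxy
    · exact (mem_Aof.1 (hB hy)).1
    · exact (mem_Aof.1 (hB hx)).1.symm
    · exact hcon x hx y hy hxy
  have := S.qmax _ hcl
  rw [Finset.card_insert_of_notMem] at this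
  · omega
  · intro h
    exact G.loopless.irrefl _ (mem_Aof.1 (hB h)).1

/-- `AG` for a subset with `|Q|` elements of `Aof u`. -/
theorem ExcSetup.AG_two (S : ExcSetup G Q pat k v I) {u : V} {B : Finset V}
    (hB : B ⊆ Aof G v u) (hc : Q.card ≤ B.card) : AG G B 2 := by
  obtain ⟨x, hx, y, hy, hxy, hadj⟩ := S.not_clique hB hc
  exact AG.two hx hy hxy hadj

/-- Lower bound for `Aof u` by a labelling of the positions: positions with the same label are
joined by a Hamiltonian index path. -/
theorem ExcSetup.card_Aof_ge (S : ExcSetup G Q pat k v I) {u : V} (hu : ∀ i : ℤ, v i ≠ u)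
    (lab : ℕ → ℕ) (m : ℕ) (hm : ∀ i < k, lab i < m)
    (hlab : ∀ i < k, ∀ j < k, i ≠ j → lab i = lab j → IdxPath pat k i j k) :
    k ≤ (Aof G v u).card + m := by
  classical
  have hk := S.pc.cyc.n_ge
  have hdeg := S.deg u
  set N := (nbrs G u).filter (fun x => ∃ i : ℤ, v i = x) with hN
  have hsplit : (nbrs G u).card = (Aof G v u).card + N.card := by
    have h1 : (Aof G v u) = (nbrs G u).filter (fun x => ¬ ∃ i : ℤ, v i = x) := by
      ext x
      simp only [mem_Aof, Finset.mem_filter, mem_nbrs, not_exists]
    rw [h1, hN, add_comm]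
    exact (Finset.card_filter_add_card_filter_not _).symm
  -- positions
  have hpos : ∀ x ∈ N, ∃ p : ℕ, p < k ∧ v (p : ℕ) = x := by
    intro x hx
    obtain ⟨i, hi⟩ := (Finset.mem_filter.1 hx).2
    obtain ⟨j, hj1, hj3⟩ := S.pc.cyc.exists_window 0 i
    refine ⟨j, hj1, ?_⟩
    rw [← hi, hj3, zero_add]
  choose! pos hpos1 hpos2 using hpos
  have hinj : Set.InjOn (fun x => lab (pos x)) (N : Set V) := by
    intro x hx y hy hxy
    simp only at hxy
    by_contra hne
    have hpne : pos x ≠ pos y := by
      intro he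
      apply hne
      rw [← hpos2 x hx, ← hpos2 y hy, he]
    have hp := hlab _ (hpos1 x hx) _ (hpos1 y hy) hpne hxy
    have hxN := (Finset.mem_filter.1 (Finset.mem_coe.1 hx)).1
    have hyN := (Finset.mem_filter.1 (Finset.mem_coe.1 hy)).1
    refine S.excl hp [u] (by simp) ?_ ?_ (by simp)
    · intro z hz
      simp only [List.mem_singleton] at hz
      subst hz
      exact hu
    · simp only [List.singleton_append, List.isChain_cons_cons, List.isChain_singleton, and_true]
      rw [hpos2 x hx, hpos2 y hy]
      exact ⟨(mem_nbrs.1 hyN).symm, mem_nbrs.1 hxN⟩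
  have hcard : N.card ≤ m := by
    have := Finset.card_le_card_of_injOn (s := N) (t := Finset.range m) (fun x => lab (pos x)) ?_ hinj
    · simpa using this
    · intro x hx
      simp only [Finset.coe_range, Set.mem_Iio]
      exact hm _ (hpos1 x hx)
  omega


section General

variable (S : ExcSetup G Q pat k v I)

include S

/-- The vertex set of the cycle. -/
theorem ExcSetup.card_D : ((Finset.range k).image (fun i : ℕ => v i)).card = k := by
  rw [Finset.card_image_of_injOn, Finset.card_range]
  intro a ha b hb hab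
  exact S.pc.inj (Finset.mem_range.1 ha) (Finset.mem_range.1 hb) hab

theorem ExcSetup.mem_D (j : ℤ) : v j ∈ (Finset.range k).image (fun i : ℕ => v i) := by
  obtain ⟨t, ht, hv⟩ := S.pc.cyc.exists_window 0 j
  rw [hv, zero_add]
  exact Finset.mem_image_of_mem _ (Finset.mem_range.2 ht)

/-- Positions not marked by the pattern do not carry vertices of `Q`, if the pattern has `|Q|`
marked positions. -/
theorem ExcSetup.notQ (hcount : ((Finset.range k).filter (fun i => patAt pat i = true)).card = Q.card)
    {i : ℕ} (hi : i < k) (hp : patAt pat i = false) : v i ∉ Q := by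
  classical
  intro hvi
  have hsub : ((Finset.range k).filter (fun i => patAt pat i = true)).image (fun i : ℕ => v i) ⊆ Q := by
    intro x hx
    simp only [Finset.mem_image, Finset.mem_filter, Finset.mem_range] at hx
    obtain ⟨a, ⟨_, ha⟩, rfl⟩ := hx
    exact S.pc.mem a ha
  have hcard : (((Finset.range k).filter (fun i => patAt pat i = true)).image (fun i : ℕ => v i)).card
      = Q.card := by
    rw [Finset.card_image_of_injOn, hcount]
    intro a ha b hb hab
    simp only [Finset.coe_filter, Finset.mem_range, Set.mem_ofPred_eq] at ha hb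
    exact S.pc.inj ha.1 hb.1 hab
  have heq := Finset.eq_of_subset_of_card_le hsub hcard.ge
  rw [← heq] at hvi
  simp only [Finset.mem_image, Finset.mem_filter, Finset.mem_range] at hvi
  obtain ⟨a, ⟨ha1, ha2⟩, hav⟩ := hvi
  have := S.pc.inj ha1 hi hav
  subst this
  rw [hp] at ha2
  exact absurd ha2 (by simp)

/-- Every vertex of the cycle has a neighbour off the cycle. -/
theorem ExcSetup.exits_ge_one (i : ℤ) : 1 ≤ (Aof G v (v i)).card := by
  obtain ⟨x, hx, hadj⟩ := S.Iexit i
  exact Finset.card_pos.2 ⟨x, mem_Aof.2 ⟨hadj, S.Ioff x hx⟩⟩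

/-- All of `Q` lies on the cycle, if the pattern has `|Q|` marked positions. -/
theorem ExcSetup.Q_on (hcount : ((Finset.range k).filter (fun i => patAt pat i = true)).card = Q.card)
    {w : V} (hw : w ∈ Q) : ∃ i : ℤ, v i = w := by
  classical
  have hsub : ((Finset.range k).filter (fun i => patAt pat i = true)).image (fun i : ℕ => v i) ⊆ Q := by
    intro x hx
    simp only [Finset.mem_image, Finset.mem_filter, Finset.mem_range] at hx
    obtain ⟨a, ⟨_, ha⟩, rfl⟩ := hx
    exact S.pc.mem a ha
  have hcard : (((Finset.range k).filter (fun i => patAt pat i = true)).image (fun i : ℕ => v i)).card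
      = Q.card := by
    rw [Finset.card_image_of_injOn, hcount]
    intro a ha b hb hab
    simp only [Finset.coe_filter, Finset.mem_range, Set.mem_ofPred_eq] at ha hb
    exact S.pc.inj ha.1 hb.1 hab
  have heq := Finset.eq_of_subset_of_card_le hsub hcard.ge
  rw [← heq] at hw
  simp only [Finset.mem_image, Finset.mem_filter, Finset.mem_range] at hw
  obtain ⟨a, _, hav⟩ := hw
  exact ⟨a, hav⟩

/-- A vertex of the cycle which is not in `Q` has two neighbours off the cycle. -/
theorem ExcSetup.exits_ge_two (hcount : ((Finset.range k).filter (fun i => patAt pat i = true)).card = Q.card)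
    {x : V} (hx : ∃ i : ℤ, v i = x) (hxQ : x ∉ Q) :
    2 ≤ (Aof G v x).card := by
  classical
  obtain ⟨i, rfl⟩ := hx
  -- it misses a vertex of `Q`
  have hmiss : ∃ w ∈ Q, ¬ G.Adj (v i) w := by
    by_contra hcon
    push Not at hcon
    have hcl : ∀ a ∈ insert (v i) Q, ∀ b ∈ insert (v i) Q, a ≠ b → G.Adj a b := by
      intro a ha b hb hab
      simp only [Finset.mem_insert] at ha hb
      rcases ha with rfl | ha <;> rcases hb with rfl | hb
      · exact absurd rfl hab
      · exact hcon b hb
      · exact (hcon a ha).symm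
      · exact S.pc.clique a ha b hb hab
    have := S.qmax _ hcl
    rw [Finset.card_insert_of_notMem hxQ] at this
    omega
  obtain ⟨w, hwQ, hnw⟩ := hmiss
  set D := (Finset.range k).image (fun i : ℕ => v i) with hD
  have hdeg := S.deg (v i)
  have hwne : w ≠ v i := fun h => hxQ (h ▸ hwQ)
  have hwD : w ∈ D := by
    obtain ⟨t, rfl⟩ := S.Q_on hcount hwQ
    exact S.mem_D t
  have hsub : nbrs G (v i) ⊆ Aof G v (v i) ∪ (D.erase (v i)).erase w := by
    intro y hy
    rw [mem_nbrs] at hy
    by_cases hyD : ∃ t : ℤ, v t = y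
    · obtain ⟨t, rfl⟩ := hyD
      apply Finset.mem_union_right
      simp only [Finset.mem_erase]
      refine ⟨?_, hy.ne', S.mem_D t⟩
      rintro rfl
      exact hnw hy
    · apply Finset.mem_union_left
      push Not at hyD
      exact mem_Aof.2 ⟨hy, hyD⟩
  have h1 := Finset.card_le_card hsub
  have h2 := Finset.card_union_le (Aof G v (v i)) ((D.erase (v i)).erase w)
  have h3 : ((D.erase (v i)).erase w).card + 2 = k := by
    have h4 : w ∈ D.erase (v i) := Finset.mem_erase.2 ⟨hwne, hwD⟩
    rw [Finset.card_erase_of_mem h4, Finset.card_erase_of_mem (S.mem_D i), S.card_D]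
    have := S.pc.cyc.n_ge
    omega
  omega

end General

end Setup

end Crest.Agent.CycleRamsey
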