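import Crest.Agent.Lib.CycleRamsey.Small

/-!
# Big clique, exceptional patterns: abstract picks (helper27, row 54, S0075)

Everything here is about a finset `D` (the cycle), vertices `u i` outside `D` (the exits), and the
sets `Ar G D (u i) = N(u i) \ D`.  Excluded lengths are hypotheses `NL G D x y s`: no path with
exactly `s` vertices, all outside `D`, from `x` to `y`.
-/

set_option autoImplicit false
set_option linter.unusedSectionVars false
set_option linter.unusedVariables false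

open Finset

namespace Crest.Agent.Lib.CycleRamsey

variable {V : Type} [Fintype V] [DecidableEq V] {G : SimpleGraph V}

/-- No path with exactly `s` vertices, all outside `D`, from `x` to `y`. -/
def NL (G : SimpleGraph V) (D : Finset V) (x y : V) (s : ℕ) : Prop :=
  ∀ l : List V, l.length = s → l.Nodup → (∀ z ∈ l, z ∉ D) → l.IsChain G.Adj →
    l.head? = some x → l.getLast? = some y → False

theorem NL.symm {D : Finset V} {x y : V} {s : ℕ} (h : NL G D x y s) : NL G D y x s := by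
  intro l hl hnd hD hch hh hla
  refine h l.reverse (by simpa using hl) (List.nodup_reverse.2 hnd)
    (fun z hz => hD z (by simpa using hz)) ?_ ?_ ?_
  · have := List.isChain_reverse (R := G.Adj) (l := l)
    rw [this]
    refine hch.imp ?_
    intro a b hab
    exact hab.symm
  · simpa using hla
  · simpa using hh

theorem NL.three {D : Finset V} {x y m : V} (h : NL G D x y 3) (h1 : G.Adj x m) (h2 : G.Adj m y)
    (hxy : x ≠ y) (hx : x ∉ D) (hm : m ∉ D) (hy : y ∉ D) : False := by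
  refine h [x, m, y] rfl ?_ ?_ ?_ rfl rfl
  · simp [h1.ne, h2.ne, hxy]
  · simp [hx, hm, hy]
  · simp [h1, h2]

theorem NL.four {D : Finset V} {x y p r : V} (h : NL G D x y 4) (h1 : G.Adj x p) (h2 : G.Adj p r)
    (h3 : G.Adj r y) (hxr : x ≠ r) (hpy : p ≠ y) (hxy : x ≠ y)
    (hx : x ∉ D) (hp : p ∉ D) (hr : r ∉ D) (hy : y ∉ D) : False := by
  refine h [x, p, r, y] rfl ?_ ?_ ?_ rfl rfl
  · simp [h1.ne, h2.ne, h3.ne, hxr, hpy, hxy]
  · simp [hx, hp, hr, hy]
  · simp [h1, h2, h3]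

theorem NL.five {D : Finset V} {x y p r t : V} (h : NL G D x y 5) (h1 : G.Adj x p) (h2 : G.Adj p r)
    (h3 : G.Adj r t) (h4 : G.Adj t y) (hxr : x ≠ r) (hxt : x ≠ t) (hxy : x ≠ y)
    (hpt : p ≠ t) (hpy : p ≠ y) (hry : r ≠ y)
    (hx : x ∉ D) (hp : p ∉ D) (hr : r ∉ D) (ht : t ∉ D) (hy : y ∉ D) : False := by
  refine h [x, p, r, t, y] rfl ?_ ?_ ?_ rfl rfl
  · simp [h1.ne, h2.ne, h3.ne, h4.ne, hxr, hxt, hxy, hpt, hpy, hry]
  · simp [hx, hp, hr, ht, hy]
  · simp [h1, h2, h3, h4]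

theorem NL.six {D : Finset V} {x y p r t w : V} (h : NL G D x y 6) (h1 : G.Adj x p) (h2 : G.Adj p r)
    (h3 : G.Adj r t) (h4 : G.Adj t w) (h5 : G.Adj w y)
    (hxr : x ≠ r) (hxt : x ≠ t) (hxw : x ≠ w) (hxy : x ≠ y)
    (hpt : p ≠ t) (hpw : p ≠ w) (hpy : p ≠ y) (hrw : r ≠ w) (hry : r ≠ y) (hty : t ≠ y)
    (hx : x ∉ D) (hp : p ∉ D) (hr : r ∉ D) (ht : t ∉ D) (hw : w ∉ D) (hy : y ∉ D) : False := by
  refine h [x, p, r, t, w, y] rfl ?_ ?_ ?_ rfl rfl
  · simp [h1.ne, h2.ne, h3.ne, h4.ne, h5.ne, hxr, hxt, hxw, hxy, hpt, hpw, hpy, hrw, hry, hty]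
  · simp [hx, hp, hr, ht, hw, hy]
  · simp [h1, h2, h3, h4, h5]

theorem NL.seven {D : Finset V} {x y p r t w z : V} (h : NL G D x y 7) (h1 : G.Adj x p)
    (h2 : G.Adj p r) (h3 : G.Adj r t) (h4 : G.Adj t w) (h5 : G.Adj w z) (h6 : G.Adj z y)
    (hxr : x ≠ r) (hxt : x ≠ t) (hxw : x ≠ w) (hxz : x ≠ z) (hxy : x ≠ y)
    (hpt : p ≠ t) (hpw : p ≠ w) (hpz : p ≠ z) (hpy : p ≠ y)
    (hrw : r ≠ w) (hrz : r ≠ z) (hry : r ≠ y) (htz : t ≠ z) (hty : t ≠ y) (hwy : w ≠ y)
    (hx : x ∉ D) (hp : p ∉ D) (hr : r ∉ D) (ht : t ∉ D) (hw : w ∉ D) (hz : z ∉ D) (hy : y ∉ D) :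
    False := by
  refine h [x, p, r, t, w, z, y] rfl ?_ ?_ ?_ rfl rfl
  · simp [h1.ne, h2.ne, h3.ne, h4.ne, h5.ne, h6.ne, hxr, hxt, hxw, hxz, hxy, hpt, hpw, hpz, hpy,
      hrw, hrz, hry, htz, hty, hwy]
  · simp [hx, hp, hr, ht, hw, hz, hy]
  · simp [h1, h2, h3, h4, h5, h6]

/-- The context: degree, clique bound and bound on the neighbours in `D`. -/
structure Ctx (G : SimpleGraph V) (D : Finset V) (k q b : ℕ) : Prop where
  hdeg : ∀ v, k ≤ (nbrs G v).card
  homega : ∀ K : Finset V, G.IsClique (K : Set V) → K.card ≤ q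
  hND : ∀ x, x ∉ D → ((nbrs G x) ∩ D).card ≤ b
  hkb : q + b ≤ k

/-- Neighbours outside `D`. -/
noncomputable def Ar (G : SimpleGraph V) (D : Finset V) (x : V) : Finset V := nbrs G x \ D

theorem mem_Ar {D : Finset V} {x y : V} : y ∈ Ar G D x ↔ G.Adj x y ∧ y ∉ D := by
  simp [Ar]

theorem Ctx.card_Ar {D : Finset V} {k q b : ℕ} (c : Ctx G D k q b) {x : V} (hx : x ∉ D) :
    k - b ≤ (Ar G D x).card := by
  have h1 := c.hdeg x
  have h2 := c.hND x hx
  have h3 : (nbrs G x \ D).card + (nbrs G x ∩ D).card = (nbrs G x).card :=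
    Finset.card_sdiff_add_card_inter _ _
  simp only [Ar]
  omega

theorem Ctx.q_le_card_Ar {D : Finset V} {k q b : ℕ} (c : Ctx G D k q b) {x : V} (hx : x ∉ D) :
    q ≤ (Ar G D x).card := by
  have := c.card_Ar hx
  have := c.hkb
  omega

/-- A set of at least `q` neighbours of `x` is not a clique. -/
theorem Ctx.exists_nonadj {D : Finset V} {k q b : ℕ} (c : Ctx G D k q b) {x : V}
    {X : Finset V} (hX : ∀ y ∈ X, G.Adj x y) (hcard : q ≤ X.card) :
    ∃ p ∈ X, ∃ p' ∈ X, p ≠ p' ∧ ¬ G.Adj p p' := by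
  by_contra hno
  push Not at hno
  have hxX : x ∉ X := fun hx => (hX x hx).ne rfl
  have hcl : G.IsClique ((insert x X : Finset V) : Set V) := by
    intro a ha b hb hab
    simp only [coe_insert, Set.mem_insert_iff, Finset.mem_coe] at ha hb
    rcases ha with rfl | ha <;> rcases hb with rfl | hb
    · exact absurd rfl hab
    · exact hX b hb
    · exact (hX a ha).symm
    · exact hno a ha b hb hab
  have := c.homega _ hcl
  rw [Finset.card_insert_of_notMem hxX] at this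
  omega

/-- A clique of neighbours of `x` has at most `q - 1` vertices. -/
theorem Ctx.card_clique_nbrs {D : Finset V} {k q b : ℕ} (c : Ctx G D k q b) {x : V}
    {X : Finset V} (hX : ∀ y ∈ X, G.Adj x y) (hcl : ∀ p ∈ X, ∀ p' ∈ X, p ≠ p' → G.Adj p p') :
    X.card + 1 ≤ q := by
  have hxX : x ∉ X := fun hx => (hX x hx).ne rfl
  have hcl' : G.IsClique ((insert x X : Finset V) : Set V) := by
    intro a ha b hb hab
    simp only [coe_insert, Set.mem_insert_iff, Finset.mem_coe] at ha hb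
    rcases ha with rfl | ha <;> rcases hb with rfl | hb
    · exact absurd rfl hab
    · exact hX b hb
    · exact (hX a ha).symm
    · exact hcl a ha b hb hab
  have := c.homega _ hcl'
  rwa [Finset.card_insert_of_notMem hxX] at this

/-- Assembling picks. -/
theorem assemble {ι : Type} [DecidableEq ι] (H : Finset ι) (T : ι → Finset V)
    (hind : ∀ i ∈ H, G.IsIndepSet (T i : Set V))
    (hcross : ∀ i ∈ H, ∀ j ∈ H, i ≠ j → ∀ x ∈ T i, ∀ y ∈ T j, x ≠ y ∧ ¬ G.Adj x y) :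
    G.IsIndepSet ((H.biUnion T : Finset V) : Set V) ∧ (H.biUnion T).card = ∑ i ∈ H, (T i).card := by
  constructor
  · intro x hx y hy hxy hadj
    simp only [coe_biUnion, Set.mem_iUnion, Finset.mem_coe, exists_prop] at hx hy
    obtain ⟨i, hi, hxi⟩ := hx
    obtain ⟨j, hj, hyj⟩ := hy
    by_cases hij : i = j
    · subst hij
      exact hind i hi hxi hyj hxy hadj
    · exact (hcross i hi j hj hij x hxi y hyj).2 hadj
  · apply Finset.card_biUnion
    intro i hi j hj hij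
    show Disjoint (T i) (T j)
    rw [Finset.disjoint_left]
    intro x hxi hxj
    exact (hcross i hi j hj hij x hxi x hxj).1 rfl

/-- Two-element independent sets. -/
theorem indep_pair {x y : V} (h : ¬ G.Adj x y) : G.IsIndepSet (({x, y} : Finset V) : Set V) := by
  intro a ha b hb hab hadj
  simp only [coe_insert, coe_singleton, Set.mem_insert_iff, Set.mem_singleton_iff] at ha hb
  rcases ha with rfl | rfl <;> rcases hb with rfl | rfl
  · exact hab rfl
  · exact h hadj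
  · exact h hadj.symm
  · exact hab rfl

/-! ### The overlap lemma -/

section Overlap

variable {ι : Type} [DecidableEq ι] {D : Finset V} {k q b : ℕ}

/-- Hypotheses of the overlap lemma. -/
structure OvHyp (G : SimpleGraph V) (D : Finset V) (u : ι → V) (H0 H1 : Finset ι) : Prop where
  hu : ∀ i, u i ∉ D
  hne : ∀ i ∈ H0 ∪ H1, ∀ j ∈ H0 ∪ H1, i ≠ j → u i ≠ u j
  hna : ∀ i ∈ H0 ∪ H1, ∀ j ∈ H0 ∪ H1, i ≠ j → ¬ G.Adj (u i) (u j)
  h4 : ∀ i ∈ H0, ∀ j ∈ H0, i ≠ j → NL G D (u i) (u j) 4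
  h5 : ∀ i ∈ H0, ∀ j ∈ H0, i ≠ j → NL G D (u i) (u j) 5
  h6 : ∀ i ∈ H0, ∀ j ∈ H0, i ≠ j → NL G D (u i) (u j) 6
  h3' : ∀ i ∈ H0, ∀ j ∈ H1, NL G D (u i) (u j) 3
  h4' : ∀ i ∈ H0, ∀ j ∈ H1, NL G D (u i) (u j) 4
  h5' : ∀ i ∈ H0, ∀ j ∈ H1, NL G D (u i) (u j) 5
  h3'' : ∀ i ∈ H1, ∀ j ∈ H1, i ≠ j → NL G D (u i) (u j) 3
  h4'' : ∀ i ∈ H1, ∀ j ∈ H1, i ≠ j → NL G D (u i) (u j) 4

/-- Radius-one picks are anticomplete and disjoint if lengths 3, 4 are excluded. -/
theorem cross_rad1 {u : ι → V} (hu : ∀ i, u i ∉ D) {i j : ι} (hne : u i ≠ u j)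
    (hna : ¬ G.Adj (u i) (u j)) (h3 : NL G D (u i) (u j) 3) (h4 : NL G D (u i) (u j) 4)
    {x y : V} (hx : x ∈ Ar G D (u i)) (hy : y ∈ Ar G D (u j)) : x ≠ y ∧ ¬ G.Adj x y := by
  rw [mem_Ar] at hx hy
  constructor
  · rintro rfl
    exact h3.three hx.1 hy.1.symm hne (hu i) hx.2 (hu j)
  · intro hadj
    refine h4.four hx.1 hadj hy.1.symm ?_ ?_ hne (hu i) hx.2 hy.2 (hu j)
    · rintro rfl
      exact hna hy.1.symm
    · rintro rfl
      exact hna hx.1

/-- One home in the overlap lemma. -/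
def OvGood (G : SimpleGraph V) (D : Finset V) (u : ι → V) (P : ι → Finset V) (i : ι)
    (T : Finset V) : Prop :=
  T.card = 2 ∧ G.IsIndepSet (T : Set V) ∧
    ((T ⊆ P i) ∨ ∃ c ∈ P i, ∃ v, T = {u i, v} ∧ G.Adj c v ∧ v ∉ D ∧ v ∉ Ar G D (u i) ∧ v ≠ u i)

/-- Facts on the extra vertex `v` of a pick `{u i, v}`. -/
theorem ov_vfacts {u : ι → V} {H0 H1 : Finset ι} (h : OvHyp G D u H0 H1)
    {P : ι → Finset V} (hP : ∀ i, ∀ x ∈ P i, x ∈ Ar G D (u i) ∧ ∀ j ∈ H0, j ≠ i → x ∉ Ar G D (u j))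
    {i j : ι} (hi : i ∈ H0) (hj : j ∈ H0) (hij : i ≠ j) {c v : V} (hc : c ∈ P i) (hcv : G.Adj c v)
    (hv : v ∉ D) : v ≠ u j ∧ v ∉ Ar G D (u j) := by
  have hcA := (hP i c hc).1
  have hcA' := mem_Ar.1 hcA
  have hij' : u i ≠ u j := h.hne i (mem_union_left _ hi) j (mem_union_left _ hj) hij
  have hna := h.hna i (mem_union_left _ hi) j (mem_union_left _ hj) hij
  constructor
  · rintro rfl
    exact (hP i c hc).2 j hj hij.symm (mem_Ar.2 ⟨hcv.symm, hcA'.2⟩)
  · intro hvA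
    have hvA' := mem_Ar.1 hvA
    refine (h.h4 i hi j hj hij).four hcA'.1 hcv hvA'.1.symm ?_ ?_ hij' (h.hu i) hcA'.2 hv (h.hu j)
    · rintro rfl
      exact hna hvA'.1.symm
    · rintro rfl
      exact hna hcA'.1

theorem ov_cross_ab {u : ι → V} {H0 H1 : Finset ι} (h : OvHyp G D u H0 H1)
    {P : ι → Finset V} (hP : ∀ i, ∀ x ∈ P i, x ∈ Ar G D (u i) ∧ ∀ j ∈ H0, j ≠ i → x ∉ Ar G D (u j))
    {i j : ι} (hi : i ∈ H0) (hj : j ∈ H0) (hij : i ≠ j) {x c v : V} (hx : x ∈ P i) (hc : c ∈ P j)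
    (hcv : G.Adj c v) (hv : v ∉ D) (hvu : v ≠ u j) :
    ∀ y ∈ ({u j, v} : Finset V), x ≠ y ∧ ¬ G.Adj x y := by
  have hxA := mem_Ar.1 (hP i x hx).1
  have hcA := mem_Ar.1 (hP j c hc).1
  have hui : u i ≠ u j := h.hne i (mem_union_left _ hi) j (mem_union_left _ hj) hij
  have hna := h.hna i (mem_union_left _ hi) j (mem_union_left _ hj) hij
  have hxuj : x ≠ u j := by
    rintro rfl
    exact hna hxA.1
  have hf := ov_vfacts h hP hj hi hij.symm hc hcv hv
  intro y hy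
  simp only [mem_insert, mem_singleton] at hy
  rcases hy with rfl | rfl
  · refine ⟨hxuj, fun hadj => (hP i x hx).2 j hj hij.symm (mem_Ar.2 ⟨hadj.symm, hxA.2⟩)⟩
  · constructor
    · rintro rfl
      exact hf.2 (hP i x hx).1
    · intro hadj
      have hxc : x ≠ c := by
        rintro rfl
        exact (hP i x hx).2 j hj hij.symm (hP j x hc).1
      have huc : u i ≠ c := by
        rintro rfl
        exact hna hcA.1.symm
      exact (h.h5 i hi j hj hij).five hxA.1 hadj hcv.symm hcA.1.symm hf.1.symm huc hui hxc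
        hxuj hvu (h.hu i) hxA.2 hv hcA.2 (h.hu j)

/-- Cross condition for two good picks. -/
theorem ov_cross00 {u : ι → V} {H0 H1 : Finset ι} (h : OvHyp G D u H0 H1)
    {P : ι → Finset V} (hP : ∀ i, ∀ x ∈ P i, x ∈ Ar G D (u i) ∧ ∀ j ∈ H0, j ≠ i → x ∉ Ar G D (u j))
    {i j : ι} (hi : i ∈ H0) (hj : j ∈ H0) (hij : i ≠ j) {Ti Tj : Finset V}
    (gi : OvGood G D u P i Ti) (gj : OvGood G D u P j Tj) :
    ∀ x ∈ Ti, ∀ y ∈ Tj, x ≠ y ∧ ¬ G.Adj x y := by
  have hui : u i ≠ u j := h.hne i (mem_union_left _ hi) j (mem_union_left _ hj) hij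
  have hna := h.hna i (mem_union_left _ hi) j (mem_union_left _ hj) hij
  intro x hx y hy
  rcases gi.2.2 with hsi | ⟨c, hc, v, rfl, hcv, hvD, hvA, hvu⟩ <;>
    rcases gj.2.2 with hsj | ⟨c', hc', v', rfl, hcv', hvD', hvA', hvu'⟩
  · -- a, a
    have hxP := hsi hx
    have hyP := hsj hy
    have hxA := mem_Ar.1 (hP i x hxP).1
    have hyA := mem_Ar.1 (hP j y hyP).1
    constructor
    · rintro rfl
      exact (hP i x hxP).2 j hj hij.symm (hP j x hyP).1
    · intro hadj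
      refine (h.h4 i hi j hj hij).four hxA.1 hadj hyA.1.symm ?_ ?_ hui (h.hu i) hxA.2 hyA.2 (h.hu j)
      · rintro rfl
        exact hna hyA.1.symm
      · rintro rfl
        exact hna hxA.1
  · -- a, b
    exact ov_cross_ab h hP hi hj hij (hsi hx) hc' hcv' hvD' hvu' y hy
  · -- b, a
    have := ov_cross_ab h hP hj hi hij.symm (hsj hy) hc hcv hvD hvu x hx
    exact ⟨this.1.symm, fun hadj => this.2 hadj.symm⟩
  · -- b, b
    have hf := ov_vfacts h hP hi hj hij hc hcv hvD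
    have hf' := ov_vfacts h hP hj hi hij.symm hc' hcv' hvD'
    have hcA := mem_Ar.1 (hP i c hc).1
    have hcA' := mem_Ar.1 (hP j c' hc').1
    have hcc' : c ≠ c' := by
      rintro rfl
      exact (hP i c hc).2 j hj hij.symm (hP j c hc').1
    have hcuj : c ≠ u j := by
      rintro rfl
      exact hna hcA.1
    have hucp : u i ≠ c' := by
      rintro rfl
      exact hna hcA'.1.symm
    simp only [mem_insert, mem_singleton] at hx hy
    have hvv' : ∀ {c v c' v' : V}, True := fun {_ _ _ _} => trivial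
    rcases hx with hx | hx <;> rcases hy with hy | hy <;> rw [hx, hy]
    · exact ⟨hui, hna⟩
    · exact ⟨hf'.1.symm, fun hadj => hf'.2 (mem_Ar.2 ⟨hadj, hvD'⟩)⟩
    · exact ⟨hf.1, fun hadj => hf.2 (mem_Ar.2 ⟨hadj.symm, hvD⟩)⟩
    · have hcvp : c ≠ v' := fun he => hf'.2 (he ▸ (hP i c hc).1)
      have hvcp : v ≠ c' := fun he => hf.2 (he ▸ (hP j c' hc').1)
      constructor
      · intro he
        have hv'c : G.Adj v c' := by rw [he]; exact hcv'.symm
        exact (h.h5 i hi j hj hij).five hcA.1 hcv hv'c hcA'.1.symm hvu.symm hucp hui hcc'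
          hcuj hf.1 (h.hu i) hcA.2 hvD hcA'.2 (h.hu j)
      · intro hadj
        exact (h.h6 i hi j hj hij).six hcA.1 hcv hadj hcv'.symm hcA'.1.symm hvu.symm hf'.1.symm hucp hui
          hcvp hcc' hcuj hvcp hf.1 hvu' (h.hu i) hcA.2 hvD hvD' hcA'.2 (h.hu j)

/-- Cross condition between a good pick and a radius-one vertex of a home of `H1`. -/
theorem ov_cross01 {u : ι → V} {H0 H1 : Finset ι} (h : OvHyp G D u H0 H1)
    {P : ι → Finset V} (hP : ∀ i, ∀ x ∈ P i, x ∈ Ar G D (u i) ∧ ∀ j ∈ H0, j ≠ i → x ∉ Ar G D (u j))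
    {i j : ι} (hi : i ∈ H0) (hj : j ∈ H1) (hij : i ≠ j) {Ti : Finset V}
    (gi : OvGood G D u P i Ti) : ∀ x ∈ Ti, ∀ y ∈ Ar G D (u j), x ≠ y ∧ ¬ G.Adj x y := by
  have hui : u i ≠ u j := h.hne i (mem_union_left _ hi) j (mem_union_right _ hj) hij
  have hna := h.hna i (mem_union_left _ hi) j (mem_union_right _ hj) hij
  intro x hx y hy
  have hyA := mem_Ar.1 hy
  rcases gi.2.2 with hsi | ⟨c, hc, v, rfl, hcv, hvD, hvA, hvu⟩
  · exact cross_rad1 h.hu hui hna (h.h3' i hi j hj) (h.h4' i hi j hj) (hP i x (hsi hx)).1 hy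
  · have hcA := mem_Ar.1 (hP i c hc).1
    have hcuj : c ≠ u j := fun he => hna (he ▸ hcA.1)
    have hvuj : v ≠ u j := by
      intro he
      exact (h.h3' i hi j hj).three hcA.1 (he ▸ hcv) hui (h.hu i) hcA.2 (h.hu j)
    have hvy : v ∉ Ar G D (u j) := by
      intro hm
      have hm' := mem_Ar.1 hm
      exact (h.h4' i hi j hj).four hcA.1 hcv hm'.1.symm hvu.symm hcuj hui (h.hu i) hcA.2 hvD (h.hu j)
    have huy : u i ≠ y := fun he => hna (he ▸ hyA.1.symm)
    simp only [mem_insert, mem_singleton] at hx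
    rcases hx with hx | hx <;> rw [hx]
    · refine ⟨huy, fun hadj => ?_⟩
      exact (h.h3' i hi j hj).three hadj hyA.1.symm hui (h.hu i) hyA.2 (h.hu j)
    · have hcr := cross_rad1 h.hu hui hna (h.h3' i hi j hj) (h.h4' i hi j hj) (hP i c hc).1 hy
      refine ⟨fun he => hvy (he ▸ hy), fun hadj => ?_⟩
      exact (h.h5' i hi j hj).five hcA.1 hcv hadj hyA.1.symm hvu.symm huy hui hcr.1 hcuj hvuj
        (h.hu i) hcA.2 hvD hyA.2 (h.hu j)

/-- Existence of a good pick. -/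
theorem ov_exists_good (c : Ctx G D k q b) {u : ι → V} {H0 H1 : Finset ι} (h : OvHyp G D u H0 H1)
    {P : ι → Finset V} (hP : ∀ i, ∀ x ∈ P i, x ∈ Ar G D (u i) ∧ ∀ j ∈ H0, j ≠ i → x ∉ Ar G D (u j))
    (hP2 : ∀ i ∈ H0, ∀ x ∈ Ar G D (u i), (∀ j ∈ H0, j ≠ i → x ∉ Ar G D (u j)) → x ∈ P i)
    {i : ι} (hi : i ∈ H0) (hne : (P i).Nonempty) : ∃ T, OvGood G D u P i T := by
  by_cases hcl : ∃ p ∈ P i, ∃ p' ∈ P i, p ≠ p' ∧ ¬ G.Adj p p'
  · obtain ⟨p, hp, p', hp', hpp, hna⟩ := hcl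
    refine ⟨{p, p'}, Finset.card_pair hpp, indep_pair hna, Or.inl ?_⟩
    intro x hx
    simp only [mem_insert, mem_singleton] at hx
    rcases hx with rfl | rfl <;> assumption
  · push Not at hcl
    obtain ⟨y, hy⟩ := hne
    have hyA := mem_Ar.1 (hP i y hy).1
    -- the vertex v
    have hcard := c.card_clique_nbrs (x := u i) (X := P i) (fun z hz => (mem_Ar.1 (hP i z hz).1).1) hcl
    have hex : ∃ v, G.Adj y v ∧ v ∉ D ∧ v ∉ Ar G D (u i) ∧ v ≠ u i := by
      by_contra hno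
      push Not at hno
      have hsub : Ar G D y ⊆ insert (u i) ((P i).erase y) := by
        intro z hz
        have hz' := mem_Ar.1 hz
        by_cases hzu : z = u i
        · simp [hzu]
        · have hzA : z ∈ Ar G D (u i) := by
            by_contra hzn
            exact hzu (hno z hz'.1 hz'.2 hzn)
          refine mem_insert_of_mem (mem_erase.2 ⟨hz'.1.ne', hP2 i hi z hzA ?_⟩)
          intro j hj hji hzj
          have hzj' := mem_Ar.1 hzj
          have huij := h.hne i (mem_union_left _ hi) j (mem_union_left _ hj) hji.symm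
          have hna := h.hna i (mem_union_left _ hi) j (mem_union_left _ hj) hji.symm
          refine (h.h4 i hi j hj hji.symm).four hyA.1 hz'.1 hzj'.1.symm ?_ ?_ huij (h.hu i) hyA.2
            hz'.2 (h.hu j)
          · intro he
            exact hna (he ▸ hzj'.1.symm)
          · intro he
            exact hna (he ▸ hyA.1)
      have h1 := Finset.card_le_card hsub
      have h2 := Finset.card_insert_le (u i) ((P i).erase y)
      have h3 := Finset.card_erase_of_mem hy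
      have h4 : 0 < (P i).card := Finset.card_pos.2 ⟨y, hy⟩
      have h5 := c.q_le_card_Ar hyA.2
      omega
    obtain ⟨v, hv1, hv2, hv3, hv4⟩ := hex
    refine ⟨{u i, v}, Finset.card_pair hv4.symm, indep_pair ?_, Or.inr ⟨y, hy, v, rfl, hv1, hv2, hv3, hv4⟩⟩
    exact fun hadj => hv3 (mem_Ar.2 ⟨hadj, hv2⟩)

/-- **Overlap lemma.** -/
theorem overlap_pick (c : Ctx G D k q b) {u : ι → V} {H0 H1 : Finset ι} (hdisj : Disjoint H0 H1)
    (h : OvHyp G D u H0 H1) (hcount : k + 1 ≤ 2 * H0.card + 2 * H1.card)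
    (hA : k + 1 ≤ (k - b) + 2 * H1.card) :
    ∃ S : Finset V, G.IsIndepSet (S : Set V) ∧ k + 1 ≤ S.card := by
  classical
  -- picks for H1
  have hT1 : ∀ i, ∃ T : Finset V, T.card = 2 ∧ G.IsIndepSet (T : Set V) ∧ T ⊆ Ar G D (u i) := by
    intro i
    have hiD := h.hu i
    obtain ⟨p, hp, p', hp', hpp, hna⟩ :=
      c.exists_nonadj (x := u i) (X := Ar G D (u i)) (fun y hy => (mem_Ar.1 hy).1)
        (c.q_le_card_Ar hiD)
    refine ⟨{p, p'}, Finset.card_pair hpp, indep_pair hna, ?_⟩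
    intro x hx
    simp only [mem_insert, mem_singleton] at hx
    rcases hx with rfl | rfl <;> assumption
  choose T1 hT1c hT1i hT1s using hT1
  set P : ι → Finset V := fun i => (Ar G D (u i)).filter (fun x => ∀ j ∈ H0, j ≠ i → x ∉ Ar G D (u j))
    with hPdef
  have hP : ∀ i, ∀ x ∈ P i, x ∈ Ar G D (u i) ∧ ∀ j ∈ H0, j ≠ i → x ∉ Ar G D (u j) := by
    intro i x hx
    simpa [hPdef] using hx
  have hP2 : ∀ i ∈ H0, ∀ x ∈ Ar G D (u i), (∀ j ∈ H0, j ≠ i → x ∉ Ar G D (u j)) → x ∈ P i := by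
    intro i _ x hx hx2
    simp only [hPdef, mem_filter]
    exact ⟨hx, hx2⟩
  have hcross11 : ∀ i ∈ H1, ∀ j ∈ H1, i ≠ j → ∀ x ∈ T1 i, ∀ y ∈ T1 j, x ≠ y ∧ ¬ G.Adj x y := by
    intro i hi j hj hij x hx y hy
    exact cross_rad1 h.hu (h.hne i (mem_union_right _ hi) j (mem_union_right _ hj) hij)
      (h.hna i (mem_union_right _ hi) j (mem_union_right _ hj) hij) (h.h3'' i hi j hj hij)
      (h.h4'' i hi j hj hij) (hT1s i hx) (hT1s j hy)
  have hdij : ∀ {i j}, i ∈ H0 → j ∈ H1 → i ≠ j := by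
    intro i j hi hj he
    subst he
    exact (Finset.disjoint_left.1 hdisj hi) hj
  by_cases hempty : ∃ i ∈ H0, P i = ∅
  · -- Case A: `Ar (u i)` is independent
    obtain ⟨i, hi, hPi⟩ := hempty
    have hindA : G.IsIndepSet ((Ar G D (u i) : Finset V) : Set V) := by
      intro x hx y hy hxy hadj
      have hxA := mem_Ar.1 (Finset.mem_coe.1 hx)
      have hyA := mem_Ar.1 (Finset.mem_coe.1 hy)
      have : ∃ j ∈ H0, j ≠ i ∧ x ∈ Ar G D (u j) := by
        by_contra hno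
        push Not at hno
        have := hP2 i hi x hx hno
        rw [hPi] at this
        simp at this
      obtain ⟨j, hj, hji, hxj⟩ := this
      have hxj' := mem_Ar.1 hxj
      have huij := h.hne j (mem_union_left _ hj) i (mem_union_left _ hi) hji
      have hna := h.hna j (mem_union_left _ hj) i (mem_union_left _ hi) hji
      refine (h.h4 j hj i hi hji).four hxj'.1 hadj hyA.1.symm ?_ ?_ huij (h.hu j) hxj'.2 hyA.2 (h.hu i)
      · intro he
        exact hna (he ▸ hyA.1.symm)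
      · intro he
        exact hna (he ▸ hxj'.1)
    set T : ι → Finset V := fun j => if j = i then Ar G D (u i) else T1 j with hT
    have hiH1 : i ∉ H1 := fun hh => hdij hi hh rfl
    have hass := assemble (G := G) (insert i H1) T ?_ ?_
    · refine ⟨_, hass.1, ?_⟩
      rw [hass.2, Finset.sum_insert hiH1]
      have h1 : (T i).card = (Ar G D (u i)).card := by simp [hT]
      have h2 : ∑ j ∈ H1, (T j).card = 2 * H1.card := by
        rw [Finset.sum_congr rfl (g := fun _ => 2)]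
        · simp [mul_comm]
        · intro j hj
          have : j ≠ i := fun he => hiH1 (he ▸ hj)
          simp [hT, this, hT1c]
      have h3 := c.card_Ar (h.hu i)
      omega
    · intro j hj
      rcases mem_insert.1 hj with rfl | hj
      · simpa [hT] using hindA
      · have : j ≠ i := fun he => hiH1 (he ▸ hj)
        simpa [hT, this] using hT1i j
    · intro j hj l hl hjl x hx y hy
      by_cases hji : j = i
      · have hli : l ≠ i := fun he => hjl (hji.trans he.symm)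
        have hl1 : l ∈ H1 := (mem_insert.1 hl).resolve_left hli
        subst hji
        simp only [hT, if_true, if_neg hli] at hx hy
        exact cross_rad1 h.hu (h.hne j (mem_union_left _ hi) l (mem_union_right _ hl1) hjl)
          (h.hna j (mem_union_left _ hi) l (mem_union_right _ hl1) hjl) (h.h3' j hi l hl1)
          (h.h4' j hi l hl1) hx (hT1s l hy)
      · have hj1 : j ∈ H1 := (mem_insert.1 hj).resolve_left hji
        by_cases hli : l = i
        · subst hli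
          simp only [hT, if_true, if_neg hji] at hx hy
          have := cross_rad1 h.hu (h.hne l (mem_union_left _ hi) j (mem_union_right _ hj1) hjl.symm)
            (h.hna l (mem_union_left _ hi) j (mem_union_right _ hj1) hjl.symm) (h.h3' l hi j hj1)
            (h.h4' l hi j hj1) hy (hT1s j hx)
          exact ⟨this.1.symm, fun hadj => this.2 hadj.symm⟩
        · have hl1 : l ∈ H1 := (mem_insert.1 hl).resolve_left hli
          simp only [hT, if_neg hji, if_neg hli] at hx hy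
          exact hcross11 j hj1 l hl1 hjl x hx y hy
  · -- Case B
    push Not at hempty
    have hgood : ∀ i ∈ H0, ∃ T, OvGood G D u P i T := fun i hi =>
      ov_exists_good c h hP hP2 hi (hempty i hi)
    choose! T0 hT0 using hgood
    set T : ι → Finset V := fun j => if j ∈ H0 then T0 j else T1 j with hT
    have hT0' : ∀ {j}, j ∈ H0 → T j = T0 j := fun {j} hj => by simp [hT, hj]
    have hT1' : ∀ {j}, j ∈ H1 → T j = T1 j := fun {j} hj => by
      have : j ∉ H0 := fun h0 => hdij h0 hj rfl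
      simp [hT, this]
    have hass := assemble (G := G) (H0 ∪ H1) T ?_ ?_
    · refine ⟨_, hass.1, ?_⟩
      rw [hass.2, Finset.sum_union hdisj]
      have h1 : ∑ j ∈ H0, (T j).card = 2 * H0.card := by
        rw [Finset.sum_congr rfl (g := fun _ => 2)]
        · simp [mul_comm]
        · intro j hj
          rw [hT0' hj]
          exact (hT0 j hj).1
      have h2 : ∑ j ∈ H1, (T j).card = 2 * H1.card := by
        rw [Finset.sum_congr rfl (g := fun _ => 2)]
        · simp [mul_comm]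
        · intro j hj
          rw [hT1' hj]
          exact hT1c j
      omega
    · intro j hj
      rcases mem_union.1 hj with hj | hj
      · rw [hT0' hj]
        exact (hT0 j hj).2.1
      · rw [hT1' hj]
        exact hT1i j
    · intro j hj l hl hjl x hx y hy
      rcases mem_union.1 hj with hj | hj <;> rcases mem_union.1 hl with hl | hl
      · rw [hT0' hj] at hx
        rw [hT0' hl] at hy
        exact ov_cross00 h hP hj hl hjl (hT0 j hj) (hT0 l hl) x hx y hy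
      · rw [hT0' hj] at hx
        rw [hT1' hl] at hy
        exact ov_cross01 h hP hj hl hjl (hT0 j hj) x hx y (hT1s l hy)
      · rw [hT1' hj] at hx
        rw [hT0' hl] at hy
        have := ov_cross01 h hP hl hj hjl.symm (hT0 l hl) y hy x (hT1s j hx)
        exact ⟨this.1.symm, fun hadj => this.2 hadj.symm⟩
      · rw [hT1' hj] at hx
        rw [hT1' hl] at hy
        exact hcross11 j hj l hl hjl x hx y hy

end Overlap

/-! ### The conflict lemma -/

section Conflict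

variable {ι : Type} [DecidableEq ι] {D : Finset V} {k q b : ℕ}

/-- Hypotheses of the conflict lemma: on `H0` the lengths `3, 6, 7` are excluded. -/
structure CfHyp (G : SimpleGraph V) (D : Finset V) (u : ι → V) (H0 H1 : Finset ι) : Prop where
  hu : ∀ i, u i ∉ D
  hne : ∀ i ∈ H0 ∪ H1, ∀ j ∈ H0 ∪ H1, i ≠ j → u i ≠ u j
  hna : ∀ i ∈ H0 ∪ H1, ∀ j ∈ H0 ∪ H1, i ≠ j → ¬ G.Adj (u i) (u j)
  h3 : ∀ i ∈ H0, ∀ j ∈ H0, i ≠ j → NL G D (u i) (u j) 3
  h6 : ∀ i ∈ H0, ∀ j ∈ H0, i ≠ j → NL G D (u i) (u j) 6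
  h7 : ∀ i ∈ H0, ∀ j ∈ H0, i ≠ j → NL G D (u i) (u j) 7
  h3' : ∀ i ∈ H0, ∀ j ∈ H1, NL G D (u i) (u j) 3
  h4' : ∀ i ∈ H0, ∀ j ∈ H1, NL G D (u i) (u j) 4
  h6' : ∀ i ∈ H0, ∀ j ∈ H1, NL G D (u i) (u j) 6
  h3'' : ∀ i ∈ H1, ∀ j ∈ H1, i ≠ j → NL G D (u i) (u j) 3
  h4'' : ∀ i ∈ H1, ∀ j ∈ H1, i ≠ j → NL G D (u i) (u j) 4

variable {u : ι → V} {H0 H1 : Finset ι}

theorem CfHyp.una (h : CfHyp G D u H0 H1) {i j : ι} (hi : i ∈ H0 ∪ H1) (hj : j ∈ H0 ∪ H1)
    (hij : i ≠ j) {y : V} (hy : y ∈ Ar G D (u j)) : u i ≠ y := by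
  intro he
  exact h.hna j hj i hi hij.symm (he ▸ (mem_Ar.1 hy).1)

theorem CfHyp.disj (h : CfHyp G D u H0 H1) {i j : ι} (hi : i ∈ H0) (hj : j ∈ H0)
    (hij : i ≠ j) {x : V} (hx : x ∈ Ar G D (u i)) : x ∉ Ar G D (u j) := by
  intro hx'
  exact (h.h3 i hi j hj hij).three (mem_Ar.1 hx).1 (mem_Ar.1 hx').1.symm
    (h.hne i (mem_union_left _ hi) j (mem_union_left _ hj) hij) (h.hu i) (mem_Ar.1 hx).2 (h.hu j)

/-- `x` (in `Ar (u i)`) has a neighbour in another `Ar (u j)`. -/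
def Cfl (G : SimpleGraph V) (D : Finset V) (u : ι → V) (H0 : Finset ι) (i : ι) (x : V) : Prop :=
  ∃ j ∈ H0, j ≠ i ∧ ∃ w ∈ Ar G D (u j), G.Adj x w

/-- Fact (a): no three-vertex path from a conflict vertex inside `Ar (u i)`. -/
theorem cf_no_path3 (h : CfHyp G D u H0 H1) {i : ι} (hi : i ∈ H0) {m m1 m2 : V}
    (hm : m ∈ Ar G D (u i)) (hm1 : m1 ∈ Ar G D (u i)) (hm2 : m2 ∈ Ar G D (u i))
    (h1 : G.Adj m m1) (h2 : G.Adj m1 m2) (hne : m2 ≠ m) (hc : Cfl G D u H0 i m) : False := by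
  obtain ⟨j, hj, hji, w, hw, hmw⟩ := hc
  have hi' := mem_union_left H1 hi
  have hj' := mem_union_left H1 hj
  have hij := hji.symm
  have hmA := mem_Ar.1 hm
  have hm1A := mem_Ar.1 hm1
  have hm2A := mem_Ar.1 hm2
  have hwA := mem_Ar.1 hw
  have hdj : ∀ {x}, x ∈ Ar G D (u i) → x ∉ Ar G D (u j) := fun hx => h.disj hi hj hij hx
  have huj : ∀ {x}, x ∈ Ar G D (u i) → x ≠ u j := fun hx => (h.una hj' hi' hji hx).symm
  have hnw : ∀ {x}, x ∈ Ar G D (u i) → x ≠ w := fun hx he => hdj hx (he ▸ hw)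
  exact (h.h6 i hi j hj hij).six hm2A.1 h2.symm h1.symm hmw hwA.1.symm
    hm1A.1.ne hmA.1.ne (h.una hi' hj' hij hw) (h.hne i hi' j hj' hij) hne (hnw hm2) (huj hm2)
    (hnw hm1) (huj hm1) (huj hm)
    (h.hu i) hm2A.2 hm1A.2 hmA.2 hwA.2 (h.hu j)

/-- Fact (b): the two neighbours in `Ar (u i)` of a vertex of `Ar (u i)` are clean. -/
theorem cf_clean_of_two (h : CfHyp G D u H0 H1) {i : ι} (hi : i ∈ H0) {x y z : V}
    (hx : x ∈ Ar G D (u i)) (hy : y ∈ Ar G D (u i)) (hz : z ∈ Ar G D (u i))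
    (h1 : G.Adj x y) (h2 : G.Adj x z) (hne : y ≠ z) : ¬ Cfl G D u H0 i y := fun hc =>
  cf_no_path3 h hi hy hx hz h1.symm h2 hne.symm hc

/-- Fact (d): two different conflict vertices of a home cannot go to two different homes. -/
theorem cf_partner (h : CfHyp G D u H0 H1) {i j j' : ι} (hi : i ∈ H0) (hj : j ∈ H0) (hj' : j' ∈ H0)
    (hji : j ≠ i) (hj'i : j' ≠ i) (hjj' : j ≠ j') {m m' w w' : V} (hm : m ∈ Ar G D (u i))
    (hm' : m' ∈ Ar G D (u i)) (hmm' : m ≠ m') (hw : w ∈ Ar G D (u j)) (hw' : w' ∈ Ar G D (u j'))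
    (h1 : G.Adj m w) (h2 : G.Adj m' w') : False := by
  have hi0 := mem_union_left H1 hi
  have hj0 := mem_union_left H1 hj
  have hj'0 := mem_union_left H1 hj'
  have hmA := mem_Ar.1 hm
  have hm'A := mem_Ar.1 hm'
  have hwA := mem_Ar.1 hw
  have hw'A := mem_Ar.1 hw'
  have hww' : w ≠ w' := fun he => h.disj hj hj' hjj' hw (he ▸ hw')
  have hwm' : w ≠ m' := fun he => h.disj hj hi hji hw (he ▸ hm')
  have hmw' : m ≠ w' := fun he => h.disj hi hj' hj'i.symm hm (he ▸ hw')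
  exact (h.h7 j hj j' hj' hjj').seven hwA.1 h1.symm hmA.1.symm hm'A.1 h2 hw'A.1.symm
    (h.una hj0 hi0 hji hm) (h.hne j hj0 i hi0 hji) (h.una hj0 hi0 hji hm')
    (h.una hj0 hj'0 hjj' hw') (h.hne j hj0 j' hj'0 hjj')
    (h.una hi0 hj0 hji.symm hw).symm hwm' hww' (h.una hj'0 hj0 hjj'.symm hw).symm
    hmm' hmw' (h.una hj'0 hi0 hj'i hm).symm (h.una hi0 hj'0 hj'i.symm hw') (h.hne i hi0 j' hj'0 hj'i.symm)
    (h.una hj'0 hi0 hj'i hm').symm
    (h.hu j) hwA.2 hmA.2 (h.hu i) hm'A.2 hw'A.2 (h.hu j')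

/-- A good pick in the conflict lemma. -/
def CfGood (G : SimpleGraph V) (D : Finset V) (u : ι → V) (H0 : Finset ι) (i : ι)
    (T : Finset V) : Prop :=
  T.card = 2 ∧ G.IsIndepSet (T : Set V) ∧
    ((∀ x ∈ T, x ∈ Ar G D (u i) ∧ ¬ Cfl G D u H0 i x) ∨
      ∃ c c' v, c ∈ Ar G D (u i) ∧ ¬ Cfl G D u H0 i c ∧ c' ∈ Ar G D (u i) ∧ c' ≠ c ∧ G.Adj c' c ∧
        T = {u i, v} ∧ G.Adj c v ∧ v ∉ D ∧ v ∉ Ar G D (u i) ∧ v ≠ u i)

theorem cf_vfacts (h : CfHyp G D u H0 H1) {i j : ι} (hi : i ∈ H0) (hj : j ∈ H0) (hij : i ≠ j)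
    {c v : V} (hc : c ∈ Ar G D (u i)) (hcl : ¬ Cfl G D u H0 i c) (hcv : G.Adj c v) (hv : v ∉ D) :
    v ≠ u j ∧ v ∉ Ar G D (u j) := by
  constructor
  · intro he
    exact h.disj hi hj hij hc (mem_Ar.2 ⟨(he ▸ hcv).symm, (mem_Ar.1 hc).2⟩)
  · intro hm
    exact hcl ⟨j, hj, hij.symm, v, hm, hcv⟩

/-- Cross condition between a vertex of `Ar (u i)` and a pick `{u j, v}`. -/
theorem cf_cross_ab (h : CfHyp G D u H0 H1) {i j : ι} (hi : i ∈ H0) (hj : j ∈ H0) (hij : i ≠ j)
    {x c c' v : V} (hx : x ∈ Ar G D (u i)) (hc : c ∈ Ar G D (u j)) (hcl : ¬ Cfl G D u H0 j c)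
    (hc' : c' ∈ Ar G D (u j)) (hcc' : c' ≠ c) (hadj : G.Adj c' c) (hcv : G.Adj c v) (hv : v ∉ D)
    (hvA : v ∉ Ar G D (u j)) (hvu : v ≠ u j) :
    ∀ y ∈ ({u j, v} : Finset V), x ≠ y ∧ ¬ G.Adj x y := by
  have hi0 := mem_union_left H1 hi
  have hj0 := mem_union_left H1 hj
  have hxA := mem_Ar.1 hx
  have hcA := mem_Ar.1 hc
  have hc'A := mem_Ar.1 hc'
  have hf := cf_vfacts h hj hi hij.symm hc hcl hcv hv
  intro y hy
  simp only [mem_insert, mem_singleton] at hy
  rcases hy with hy | hy <;> rw [hy]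
  · exact ⟨(h.una hj0 hi0 hij.symm hx).symm,
      fun ha => h.disj hi hj hij hx (mem_Ar.2 ⟨ha.symm, hxA.2⟩)⟩
  · refine ⟨fun he => hf.2 (he ▸ hx), fun ha => ?_⟩
    have hxv : v ≠ x := fun he => hf.2 (he ▸ hx)
    have hcx : c ≠ x := fun he => h.disj hj hi hij.symm hc (he ▸ hx)
    have hc'x : c' ≠ x := fun he => h.disj hj hi hij.symm hc' (he ▸ hx)
    have hc'v : c' ≠ v := fun he => hvA (he ▸ hc')
    exact (h.h6 j hj i hi hij.symm).six hc'A.1 hadj hcv ha.symm hxA.1.symm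
      hcA.1.ne hvu.symm (h.una hj0 hi0 hij.symm hx) (h.hne j hj0 i hi0 hij.symm) hc'v hc'x
      (h.una hi0 hj0 hij hc').symm hcx (h.una hi0 hj0 hij hc).symm hf.1
      (h.hu j) hc'A.2 hcA.2 hv hxA.2 (h.hu i)

/-- Cross condition for two good picks. -/
theorem cf_cross00 (h : CfHyp G D u H0 H1) {i j : ι} (hi : i ∈ H0) (hj : j ∈ H0) (hij : i ≠ j)
    {Ti Tj : Finset V} (gi : CfGood G D u H0 i Ti) (gj : CfGood G D u H0 j Tj) :
    ∀ x ∈ Ti, ∀ y ∈ Tj, x ≠ y ∧ ¬ G.Adj x y := by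
  have hi0 := mem_union_left H1 hi
  have hj0 := mem_union_left H1 hj
  intro x hx y hy
  rcases gi.2.2 with hsi | ⟨c, d, v, hc, hcl, hd, hdc, hadj, rfl, hcv, hvD, hvA, hvu⟩ <;>
    rcases gj.2.2 with hsj | ⟨c', d', v', hc', hcl', hd', hdc', hadj', rfl, hcv', hvD', hvA', hvu'⟩
  · obtain ⟨hxA, hxc⟩ := hsi x hx
    obtain ⟨hyA, -⟩ := hsj y hy
    exact ⟨fun he => h.disj hi hj hij hxA (he ▸ hyA), fun ha => hxc ⟨j, hj, hij.symm, y, hyA, ha⟩⟩
  · exact cf_cross_ab h hi hj hij (hsi x hx).1 hc' hcl' hd' hdc' hadj' hcv' hvD' hvA' hvu' y hy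
  · have := cf_cross_ab h hj hi hij.symm (hsj y hy).1 hc hcl hd hdc hadj hcv hvD hvA hvu x hx
    exact ⟨this.1.symm, fun ha => this.2 ha.symm⟩
  · have hf := cf_vfacts h hi hj hij hc hcl hcv hvD
    have hf' := cf_vfacts h hj hi hij.symm hc' hcl' hcv' hvD'
    have hcA := mem_Ar.1 hc
    have hcA' := mem_Ar.1 hc'
    have hdA := mem_Ar.1 hd
    have hcc' : c ≠ c' := fun he => h.disj hi hj hij hc (he ▸ hc')
    have hdc'' : d ≠ c' := fun he => h.disj hi hj hij hd (he ▸ hc')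
    have hvd : d ≠ v := fun he => hvA (he ▸ hd)
    have hui := h.hne i hi0 j hj0 hij
    simp only [mem_insert, mem_singleton] at hx hy
    rcases hx with hx | hx <;> rcases hy with hy | hy <;> rw [hx, hy]
    · exact ⟨hui, h.hna i hi0 j hj0 hij⟩
    · exact ⟨hf'.1.symm, fun ha => hf'.2 (mem_Ar.2 ⟨ha, hvD'⟩)⟩
    · exact ⟨hf.1, fun ha => hf.2 (mem_Ar.2 ⟨ha.symm, hvD⟩)⟩
    · have hcvp : c ≠ v' := fun he => hf'.2 (he ▸ hc)
      have hvcp : v ≠ c' := fun he => hf.2 (he ▸ hc')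
      constructor
      · intro he
        have hvc' : G.Adj v c' := by rw [he]; exact hcv'.symm
        exact (h.h6 i hi j hj hij).six hdA.1 hadj hcv hvc' hcA'.1.symm
          hcA.1.ne hvu.symm (h.una hi0 hj0 hij hc') hui hvd hdc''
          (h.una hj0 hi0 hij.symm hd).symm hcc' (h.una hj0 hi0 hij.symm hc).symm hf.1
          (h.hu i) hdA.2 hcA.2 hvD hcA'.2 (h.hu j)
      · intro ha
        exact (h.h6 i hi j hj hij).six hcA.1 hcv ha hcv'.symm hcA'.1.symm hvu.symm hf'.1.symm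
          (h.una hi0 hj0 hij hc') hui hcvp hcc' (h.una hj0 hi0 hij.symm hc).symm hvcp hf.1 hvu'
          (h.hu i) hcA.2 hvD hvD' hcA'.2 (h.hu j)

/-- Cross condition between a good pick and a radius-one vertex of a home of `H1`. -/
theorem cf_cross01 (h : CfHyp G D u H0 H1) {i j : ι} (hi : i ∈ H0) (hj : j ∈ H1) (hij : i ≠ j)
    {Ti : Finset V} (gi : CfGood G D u H0 i Ti) :
    ∀ x ∈ Ti, ∀ y ∈ Ar G D (u j), x ≠ y ∧ ¬ G.Adj x y := by
  have hi0 := mem_union_left H1 hi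
  have hj0 := mem_union_right H0 hj
  have hui := h.hne i hi0 j hj0 hij
  have hna := h.hna i hi0 j hj0 hij
  intro x hx y hy
  have hyA := mem_Ar.1 hy
  rcases gi.2.2 with hsi | ⟨c, d, v, hc, hcl, hd, hdc, hadj, rfl, hcv, hvD, hvA, hvu⟩
  · exact cross_rad1 h.hu hui hna (h.h3' i hi j hj) (h.h4' i hi j hj) (hsi x hx).1 hy
  · have hcA := mem_Ar.1 hc
    have hdA := mem_Ar.1 hd
    have hcuj : c ≠ u j := (h.una hj0 hi0 hij.symm hc).symm
    have hduj : d ≠ u j := (h.una hj0 hi0 hij.symm hd).symm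
    have hvuj : v ≠ u j := by
      intro he
      exact (h.h3' i hi j hj).three hcA.1 (he ▸ hcv) hui (h.hu i) hcA.2 (h.hu j)
    have hvy : v ∉ Ar G D (u j) := by
      intro hm
      have hm' := mem_Ar.1 hm
      exact (h.h4' i hi j hj).four hcA.1 hcv hm'.1.symm hvu.symm hcuj hui (h.hu i) hcA.2 hvD (h.hu j)
    have huy : u i ≠ y := h.una hi0 hj0 hij hy
    simp only [mem_insert, mem_singleton] at hx
    rcases hx with hx | hx <;> rw [hx]
    · refine ⟨huy, fun hadj' => ?_⟩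
      exact (h.h3' i hi j hj).three hadj' hyA.1.symm hui (h.hu i) hyA.2 (h.hu j)
    · have hcr := cross_rad1 h.hu hui hna (h.h3' i hi j hj) (h.h4' i hi j hj) hc hy
      have hdr := cross_rad1 h.hu hui hna (h.h3' i hi j hj) (h.h4' i hi j hj) hd hy
      have hdv : d ≠ v := fun he => hvA (he ▸ hd)
      refine ⟨fun he => hvy (he ▸ hy), fun ha => ?_⟩
      exact (h.h6' i hi j hj).six hdA.1 hadj hcv ha hyA.1.symm hcA.1.ne hvu.symm huy hui hdv hdr.1
        hduj hcr.1 hcuj hvuj (h.hu i) hdA.2 hcA.2 hvD hyA.2 (h.hu j)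

/-- Existence of a good pick when there are two clean vertices. -/
theorem cf_exists_good (c : Ctx G D k q b) (h : CfHyp G D u H0 H1) {i : ι} (hi : i ∈ H0)
    {p p' : V} (hp : p ∈ Ar G D (u i)) (hp' : p' ∈ Ar G D (u i)) (hcl : ¬ Cfl G D u H0 i p)
    (hcl' : ¬ Cfl G D u H0 i p') (hpp : p ≠ p') : ∃ T, CfGood G D u H0 i T := by
  classical
  set Cl : Finset V := (Ar G D (u i)).filter (fun x => ¬ Cfl G D u H0 i x) with hCl
  have hmemCl : ∀ {x}, x ∈ Cl ↔ x ∈ Ar G D (u i) ∧ ¬ Cfl G D u H0 i x := by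
    intro x; simp [hCl]
  by_cases hna : ∃ a ∈ Cl, ∃ a' ∈ Cl, a ≠ a' ∧ ¬ G.Adj a a'
  · obtain ⟨a, ha, a', ha', haa, hnadj⟩ := hna
    refine ⟨{a, a'}, Finset.card_pair haa, indep_pair hnadj, Or.inl ?_⟩
    intro x hx
    simp only [mem_insert, mem_singleton] at hx
    rcases hx with rfl | rfl
    · exact hmemCl.1 ha
    · exact hmemCl.1 ha'
  · push Not at hna
    have hadj : G.Adj p' p := hna p' (hmemCl.2 ⟨hp', hcl'⟩) p (hmemCl.2 ⟨hp, hcl⟩) hpp.symm
    have hcard := c.card_clique_nbrs (x := u i) (X := Cl) (fun z hz => (mem_Ar.1 (hmemCl.1 hz).1).1) hna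
    have hpA := mem_Ar.1 hp
    have hex : ∃ v, G.Adj p v ∧ v ∉ D ∧ v ∉ Ar G D (u i) ∧ v ≠ u i := by
      by_contra hno
      push Not at hno
      have hsub : Ar G D p ⊆ insert (u i) (Cl.erase p) := by
        intro z hz
        have hz' := mem_Ar.1 hz
        by_cases hzu : z = u i
        · simp [hzu]
        · have hzA : z ∈ Ar G D (u i) := by
            by_contra hzn
            exact hzu (hno z hz'.1 hz'.2 hzn)
          refine mem_insert_of_mem (mem_erase.2 ⟨hz'.1.ne', hmemCl.2 ⟨hzA, ?_⟩⟩)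
          by_cases hzp : z = p'
          · rw [hzp]; exact hcl'
          · exact cf_clean_of_two h hi hp hzA hp' hz'.1 hadj.symm hzp
      have h1 := Finset.card_le_card hsub
      have h2 := Finset.card_insert_le (u i) (Cl.erase p)
      have h3 := Finset.card_erase_of_mem (hmemCl.2 ⟨hp, hcl⟩)
      have h4 : 0 < Cl.card := Finset.card_pos.2 ⟨p, hmemCl.2 ⟨hp, hcl⟩⟩
      have h5 := c.q_le_card_Ar hpA.2
      omega
    obtain ⟨v, hv1, hv2, hv3, hv4⟩ := hex
    refine ⟨{u i, v}, Finset.card_pair hv4.symm, indep_pair ?_,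
      Or.inr ⟨p, p', v, hp, hcl, hp', hpp.symm, hadj, rfl, hv1, hv2, hv3, hv4⟩⟩
    exact fun ha => hv3 (mem_Ar.2 ⟨ha, hv2⟩)

/-- A vertex set in which every vertex has at most one neighbour has an independent half. -/
theorem exists_indep_half (A : Finset V)
    (hdeg : ∀ x ∈ A, ∀ y ∈ A, ∀ z ∈ A, G.Adj x y → G.Adj x z → y = z) :
    ∃ S ⊆ A, G.IsIndepSet (S : Set V) ∧ A.card ≤ 2 * S.card := by
  classical
  obtain ⟨S, hSA, hSi, hmax⟩ := exists_max_indep G A
  refine ⟨S, hSA, hSi, ?_⟩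
  have hnb : ∀ x ∈ A \ S, ∃ y ∈ S, G.Adj x y := by
    intro x hx
    rw [mem_sdiff] at hx
    by_contra hno
    push Not at hno
    have hind : G.IsIndepSet ((insert x S : Finset V) : Set V) := by
      intro a ha b hb hab hadj
      simp only [coe_insert, Set.mem_insert_iff, Finset.mem_coe] at ha hb
      rcases ha with rfl | ha <;> rcases hb with rfl | hb
      · exact hab rfl
      · exact hno b hb hadj
      · exact hno a ha hadj.symm
      · exact hSi ha hb hab hadj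
    have := hmax (insert x S) (insert_subset hx.1 hSA) hind
    rw [Finset.card_insert_of_notMem hx.2] at this
    omega
  choose! f hfS hfadj using hnb
  have hinj : Set.InjOn f (A \ S : Finset V) := by
    intro x hx y hy hxy
    have hx' := Finset.mem_coe.1 hx
    have hy' := Finset.mem_coe.1 hy
    have hfx := hfS x hx'
    have h1 := hfadj x hx'
    have h2 := hfadj y hy'
    rw [← hxy] at h2
    exact hdeg (f x) (hSA hfx) x (mem_sdiff.1 hx').1 y (mem_sdiff.1 hy').1 h1.symm h2.symm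
  have hle : (A \ S).card ≤ S.card :=
    Finset.card_le_card_of_injOn f (fun x hx => hfS x hx) hinj
  have h3 := Finset.card_sdiff_add_card_eq_card hSA
  omega

/-- All conflicts of a home without two clean vertices go to one partner. -/
theorem cf_exists_partner (h : CfHyp G D u H0 H1) {i : ι} (hi : i ∈ H0)
    (h3 : 3 ≤ (Ar G D (u i)).card)
    (hB : ∀ p ∈ Ar G D (u i), ∀ p' ∈ Ar G D (u i), ¬ Cfl G D u H0 i p → ¬ Cfl G D u H0 i p' → p = p') :
    ∃ π : ι, ∀ m ∈ Ar G D (u i), ∀ j ∈ H0, j ≠ i → ∀ w ∈ Ar G D (u j), G.Adj m w → j = π := by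
  classical
  by_cases hex : ∃ m ∈ Ar G D (u i), Cfl G D u H0 i m
  · obtain ⟨m0, hm0, j0, hj0, hj0i, w0, hw0, hadj0⟩ := hex
    -- a second conflict vertex
    have hm1 : ∃ m1 ∈ Ar G D (u i), m1 ≠ m0 ∧ Cfl G D u H0 i m1 := by
      by_contra hno
      push Not at hno
      have h2 : 1 < ((Ar G D (u i)).erase m0).card := by
        rw [Finset.card_erase_of_mem hm0]; omega
      obtain ⟨a, ha, a', ha', haa⟩ := Finset.one_lt_card.1 h2
      have ha1 := mem_erase.1 ha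
      have ha1' := mem_erase.1 ha'
      exact haa (hB a ha1.2 a' ha1'.2 (fun hc => hno a ha1.2 ha1.1 hc) (fun hc => hno a' ha1'.2 ha1'.1 hc))
    obtain ⟨m1, hm1A, hm10, j1, hj1, hj1i, w1, hw1, hadj1⟩ := hm1
    have hj10 : j1 = j0 := by
      by_contra hne
      exact cf_partner h hi hj1 hj0 hj1i hj0i hne hm1A hm0 hm10 hw1 hw0 hadj1 hadj0
    refine ⟨j0, ?_⟩
    intro m hm j hj hji w hw hadj
    by_contra hne
    by_cases hmm : m = m0
    · subst hmm
      exact cf_partner h hi hj hj1 hji hj1i (fun he => hne (he.trans hj10)) hm hm1A hm10.symm hw hw1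
        hadj hadj1
    · exact cf_partner h hi hj hj0 hji hj0i hne hm hm0 hmm hw hw0 hadj hadj0
  · push Not at hex
    refine ⟨i, ?_⟩
    intro m hm j hj hji w hw hadj
    exact absurd ⟨j, hj, hji, w, hw, hadj⟩ (hex m hm)

/-- The homes without two clean vertices pay together. -/
theorem cf_pick_B (c : Ctx G D k q b) (h : CfHyp G D u H0 H1) (h7 : 7 ≤ k - b) (B : Finset ι) :
    (∀ i ∈ B, i ∈ H0 ∧ ∀ p ∈ Ar G D (u i), ∀ p' ∈ Ar G D (u i),
      ¬ Cfl G D u H0 i p → ¬ Cfl G D u H0 i p' → p = p') →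
    ∃ S : Finset V, (∀ x ∈ S, ∃ i ∈ B, x ∈ Ar G D (u i)) ∧ G.IsIndepSet (S : Set V) ∧
      2 * B.card ≤ S.card := by
  classical
  induction B using Finset.strongInduction with
  | H B ih =>
    intro hB
    by_cases hne : B.Nonempty
    · obtain ⟨i, hiB⟩ := hne
      obtain ⟨hi, hcl⟩ := hB i hiB
      have hcardA : 7 ≤ (Ar G D (u i)).card := le_trans h7 (c.card_Ar (h.hu i))
      obtain ⟨π, hπ⟩ := cf_exists_partner h hi (by omega) hcl
      set B2 : Finset ι := (B.erase i).erase π with hB2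
      have hB2sub : B2 ⊂ B := by
        refine Finset.ssubset_iff_subset_ne.2 ⟨?_, ?_⟩
        · exact (Finset.erase_subset _ _).trans (Finset.erase_subset _ _)
        · intro he
          have : i ∈ B2 := he ▸ hiB
          simp [hB2] at this
      have hB2mem : ∀ {j}, j ∈ B2 → j ∈ B ∧ j ≠ i ∧ j ≠ π := by
        intro j hj
        simp only [hB2, mem_erase] at hj
        exact ⟨hj.2.2, hj.2.1, hj.1⟩
      obtain ⟨S2, hS2, hS2i, hS2c⟩ := ih B2 hB2sub (fun j hj => hB j (hB2mem hj).1)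
      have hdeg : ∀ x ∈ Ar G D (u i), ∀ y ∈ Ar G D (u i), ∀ z ∈ Ar G D (u i),
          G.Adj x y → G.Adj x z → y = z := by
        intro x hx y hy z hz hxy hxz
        by_contra hyz
        exact hyz (hcl y hy z hz (cf_clean_of_two h hi hx hy hz hxy hxz hyz)
          (cf_clean_of_two h hi hx hz hy hxz hxy (Ne.symm hyz)))
      obtain ⟨S1, hS1, hS1i, hS1c⟩ := exists_indep_half (G := G) _ hdeg
      have hS1c' : 4 ≤ S1.card := by omega
      have hcross : ∀ x ∈ S1, ∀ y ∈ S2, x ≠ y ∧ ¬ G.Adj x y := by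
        intro x hx y hy
        obtain ⟨j, hjB, hyj⟩ := hS2 y hy
        obtain ⟨hjB', hji, hjπ⟩ := hB2mem hjB
        have hj0 : j ∈ H0 := (hB j hjB').1
        refine ⟨fun he => h.disj hi hj0 hji.symm (hS1 hx) (he ▸ hyj), fun ha => ?_⟩
        exact hjπ (hπ x (hS1 hx) j hj0 hji y hyj ha)
      refine ⟨S1 ∪ S2, ?_, ?_, ?_⟩
      · intro x hx
        rcases mem_union.1 hx with hx | hx
        · exact ⟨i, hiB, hS1 hx⟩
        · obtain ⟨j, hj, hxj⟩ := hS2 x hx
          exact ⟨j, (hB2mem hj).1, hxj⟩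
      · intro x hx y hy hxy ha
        simp only [coe_union, Set.mem_union, Finset.mem_coe] at hx hy
        rcases hx with hx | hx <;> rcases hy with hy | hy
        · exact hS1i hx hy hxy ha
        · exact (hcross x hx y hy).2 ha
        · exact (hcross y hy x hx).2 ha.symm
        · exact hS2i hx hy hxy ha
      · rw [Finset.card_union_of_disjoint (Finset.disjoint_left.2 fun x hx hy => (hcross x hx x hy).1 rfl)]
        have h1 : B.card - 2 ≤ B2.card := by
          have h2 := Finset.pred_card_le_card_erase (s := B.erase i) (a := π)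
          have h3 := Finset.card_erase_of_mem hiB
          simp only [hB2]
          omega
        omega
    · rw [Finset.not_nonempty_iff_eq_empty] at hne
      subst hne
      exact ⟨∅, by simp, by simp [SimpleGraph.IsIndepSet], by simp⟩

/-- **Conflict lemma.** -/
theorem conflict_pick (c : Ctx G D k q b) (hdisj : Disjoint H0 H1)
    (h : CfHyp G D u H0 H1) (h7 : 7 ≤ k - b) (hcount : k + 1 ≤ 2 * H0.card + 2 * H1.card) :
    ∃ S : Finset V, G.IsIndepSet (S : Set V) ∧ k + 1 ≤ S.card := by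
  classical
  have hT1 : ∀ i, ∃ T : Finset V, T.card = 2 ∧ G.IsIndepSet (T : Set V) ∧ T ⊆ Ar G D (u i) := by
    intro i
    obtain ⟨p, hp, p', hp', hpp, hna⟩ :=
      c.exists_nonadj (x := u i) (X := Ar G D (u i)) (fun y hy => (mem_Ar.1 hy).1)
        (c.q_le_card_Ar (h.hu i))
    refine ⟨{p, p'}, Finset.card_pair hpp, indep_pair hna, ?_⟩
    intro x hx
    simp only [mem_insert, mem_singleton] at hx
    rcases hx with rfl | rfl <;> assumption
  choose T1 hT1c hT1i hT1s using hT1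
  have hdij : ∀ {i j}, i ∈ H0 → j ∈ H1 → i ≠ j := by
    intro i j hi hj he
    subst he
    exact (Finset.disjoint_left.1 hdisj hi) hj
  set B : Finset ι := H0.filter (fun i => ∀ p ∈ Ar G D (u i), ∀ p' ∈ Ar G D (u i),
      ¬ Cfl G D u H0 i p → ¬ Cfl G D u H0 i p' → p = p') with hB
  have hBmem : ∀ {i}, i ∈ B ↔ i ∈ H0 ∧ ∀ p ∈ Ar G D (u i), ∀ p' ∈ Ar G D (u i),
      ¬ Cfl G D u H0 i p → ¬ Cfl G D u H0 i p' → p = p' := by
    intro i; simp [hB]
  obtain ⟨SB, hSB, hSBi, hSBc⟩ := cf_pick_B c h h7 B (fun i hi => hBmem.1 hi)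
  have hgood : ∀ i ∈ H0 \ B, ∃ T, CfGood G D u H0 i T := by
    intro i hi
    rw [mem_sdiff] at hi
    have hno : ¬ ∀ p ∈ Ar G D (u i), ∀ p' ∈ Ar G D (u i),
      ¬ Cfl G D u H0 i p → ¬ Cfl G D u H0 i p' → p = p' := fun hh => hi.2 (hBmem.2 ⟨hi.1, hh⟩)
    push Not at hno
    obtain ⟨p, hp, p', hp', hc, hc', hpp⟩ := hno
    exact cf_exists_good c h hi.1 hp hp' hc hc' hpp
  choose! T0 hT0 using hgood
  set R : Finset ι := (H0 \ B) ∪ H1 with hR
  have hdisjR : Disjoint (H0 \ B) H1 := Finset.disjoint_of_subset_left Finset.sdiff_subset hdisj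
  set T : ι → Finset V := fun j => if j ∈ H0 \ B then T0 j else T1 j with hT
  have hT0' : ∀ {j}, j ∈ H0 \ B → T j = T0 j := fun {j} hj => by simp only [hT, if_pos hj]
  have hT1' : ∀ {j}, j ∈ H1 → T j = T1 j := fun {j} hj => by
    have : j ∉ H0 \ B := fun h0 => hdij (mem_sdiff.1 h0).1 hj rfl
    simp only [hT, if_neg this]
  have hass := assemble (G := G) R T ?_ ?_
  · -- the union with `SB`
    have hcrossB : ∀ y ∈ SB, ∀ x ∈ R.biUnion T, y ≠ x ∧ ¬ G.Adj y x := by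
      intro y hy x hx
      obtain ⟨i, hiB, hyi⟩ := hSB y hy
      have hi0 := (hBmem.1 hiB).1
      obtain ⟨j, hjR, hxj⟩ := mem_biUnion.1 hx
      rcases mem_union.1 hjR with hj | hj
      · have hj' := mem_sdiff.1 hj
        have hij : i ≠ j := fun he => hj'.2 (he ▸ hiB)
        rw [hT0' hj] at hxj
        rcases (hT0 j hj).2.2 with hs | ⟨c1, d1, v1, hc1, hcl1, hd1, hdc1, hadj1, he, hcv1, hvD1, hvA1, hvu1⟩
        · obtain ⟨hxA, hxc⟩ := hs x hxj
          refine ⟨fun he => h.disj hi0 hj'.1 hij hyi (he ▸ hxA), fun ha => hxc ?_⟩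
          exact ⟨i, hi0, hij, y, hyi, ha.symm⟩
        · rw [he] at hxj
          exact cf_cross_ab h hi0 hj'.1 hij hyi hc1 hcl1 hd1 hdc1 hadj1 hcv1 hvD1 hvA1 hvu1 x hxj
      · rw [hT1' hj] at hxj
        have hij : i ≠ j := hdij hi0 hj
        exact cross_rad1 h.hu (h.hne i (mem_union_left _ hi0) j (mem_union_right _ hj) hij)
          (h.hna i (mem_union_left _ hi0) j (mem_union_right _ hj) hij) (h.h3' i hi0 j hj)
          (h.h4' i hi0 j hj) hyi (hT1s j hxj)
    refine ⟨SB ∪ R.biUnion T, ?_, ?_⟩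
    · intro x hx y hy hxy ha
      simp only [coe_union, Set.mem_union, Finset.mem_coe] at hx hy
      rcases hx with hx | hx <;> rcases hy with hy | hy
      · exact hSBi hx hy hxy ha
      · exact (hcrossB x hx y hy).2 ha
      · exact (hcrossB y hy x hx).2 ha.symm
      · exact hass.1 hx hy hxy ha
    · rw [Finset.card_union_of_disjoint (Finset.disjoint_left.2 fun x hx hy => (hcrossB x hx x hy).1 rfl),
        hass.2, hR, Finset.sum_union hdisjR]
      have h1 : ∑ j ∈ H0 \ B, (T j).card = 2 * (H0 \ B).card := by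
        rw [Finset.sum_congr rfl (g := fun _ => 2)]
        · simp [mul_comm]
        · intro j hj
          rw [hT0' hj]
          exact (hT0 j hj).1
      have h2 : ∑ j ∈ H1, (T j).card = 2 * H1.card := by
        rw [Finset.sum_congr rfl (g := fun _ => 2)]
        · simp [mul_comm]
        · intro j hj
          rw [hT1' hj]
          exact hT1c j
      have hBsub : B ⊆ H0 := Finset.filter_subset _ _
      have h3 := Finset.card_sdiff_add_card_eq_card hBsub
      omega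
  · intro j hj
    rcases mem_union.1 hj with hj | hj
    · rw [hT0' hj]
      exact (hT0 j hj).2.1
    · rw [hT1' hj]
      exact hT1i j
  · intro j hj l hl hjl x hx y hy
    rcases mem_union.1 hj with hj | hj <;> rcases mem_union.1 hl with hl | hl
    · rw [hT0' hj] at hx
      rw [hT0' hl] at hy
      exact cf_cross00 h (mem_sdiff.1 hj).1 (mem_sdiff.1 hl).1 hjl (hT0 j hj) (hT0 l hl) x hx y hy
    · rw [hT0' hj] at hx
      rw [hT1' hl] at hy
      exact cf_cross01 h (mem_sdiff.1 hj).1 hl hjl (hT0 j hj) x hx y (hT1s l hy)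
    · rw [hT1' hj] at hx
      rw [hT0' hl] at hy
      have := cf_cross01 h (mem_sdiff.1 hl).1 hj hjl.symm (hT0 l hl) y hy x (hT1s j hx)
      exact ⟨this.1.symm, fun ha => this.2 ha.symm⟩
    · rw [hT1' hj] at hx
      rw [hT1' hl] at hy
      exact cross_rad1 h.hu (h.hne j (mem_union_right _ hj) l (mem_union_right _ hl) hjl)
        (h.hna j (mem_union_right _ hj) l (mem_union_right _ hl) hjl) (h.h3'' j hj l hl hjl)
        (h.h4'' j hj l hl hjl) (hT1s j hx) (hT1s l hy)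

end Conflict

end Crest.Agent.Lib.CycleRamsey
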