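import Crest.Agent.Lib.CycleRamsey.BCExc
import Crest.Agent.Lib.CycleRamsey.BCExcPick

/-!
# Exceptional patterns (4,3) long ear and (7,6) by the overlap lemma (helper27, row 54, S0075)

Bridge from `ExcSetup` to the abstract picks of `BCExcPick`: `cycSet`, `ExcSetup.nl_of_idx`,
`ExcSetup.ctx`, and the two cases.
-/

set_option autoImplicit false
set_option linter.unusedSectionVars false
set_option linter.unusedVariables false

namespace Crest.Agent.CycleRamsey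

open SimpleGraph
open Crest.Agent.Lib.CycleRamsey (HasCycle nbrs mem_nbrs NL Ctx OvHyp overlap_pick)

variable {V : Type} [Fintype V] [DecidableEq V] {G : SimpleGraph V}
variable {Q : Finset V} {pat : List Bool} {k : ℕ} {v : ℤ → V} {I : Finset V}

/-- The vertex set of the cycle. -/
def cycSet (k : ℕ) (v : ℤ → V) : Finset V := (Finset.range k).image (fun i : ℕ => v (i : ℤ))

theorem ExcSetup.mem_cycSet (S : ExcSetup G Q pat k v I) (i : ℤ) : v i ∈ cycSet k v := by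
  obtain ⟨j, hj1, hj3⟩ := S.pc.cyc.exists_window 0 i
  unfold cycSet
  rw [Finset.mem_image]
  refine ⟨j, Finset.mem_range.2 hj1, ?_⟩
  rw [hj3, zero_add]

theorem notMem_cycSet_iff (S : ExcSetup G Q pat k v I) {z : V} :
    z ∉ cycSet k v ↔ ∀ i : ℤ, v i ≠ z := by
  constructor
  · intro h i he
    exact h (he ▸ S.mem_cycSet i)
  · intro h hz
    unfold cycSet at hz
    rw [Finset.mem_image] at hz
    obtain ⟨i, _, hi⟩ := hz
    exact h _ hi

/-- An index path gives an excluded length. -/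
theorem ExcSetup.nl_of_idx (S : ExcSetup G Q pat k v I) {i j t s : ℕ} (hp : IdxPath pat k i j t)
    (hlen : t + s = k + 1) {x y : V} (hx : G.Adj (v (i : ℕ)) x) (hy : G.Adj (v (j : ℕ)) y) :
    NL G (cycSet k v) x y s := by
  intro l hl hnd hD hch hh hla
  refine S.excl hp l.reverse (List.nodup_reverse.2 hnd) ?_ ?_ (by simp; omega)
  · intro z hz m he
    exact (notMem_cycSet_iff S).1 (hD z (by simpa using hz)) m he
  · have hrev : l.reverse.IsChain G.Adj := by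
      rw [List.isChain_reverse]
      exact hch.imp (fun a b hab => hab.symm)
    have hh' : l.reverse.getLast? = some x := by simpa using hh
    have hla' : l.reverse.head? = some y := by simpa using hla
    rw [List.isChain_cons]
    refine ⟨?_, ?_⟩
    · intro w hw
      rw [List.head?_append, hla'] at hw
      simp only [Option.some_or, Option.mem_def, Option.some.injEq] at hw
      subst hw
      exact hy
    · rw [List.isChain_append]
      refine ⟨hrev, by simp, ?_⟩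
      intro a ha b hb
      rw [hh'] at ha
      simp only [List.head?_cons, Option.mem_def, Option.some.injEq] at ha hb
      subst ha
      subst hb
      exact hx.symm

/-- The context of the abstract picks from a labelling of the positions. -/
theorem ExcSetup.ctx (S : ExcSetup G Q pat k v I) {q b : ℕ} (hq : Q.card = q) (lab : ℕ → ℕ)
    (hm : ∀ i < k, lab i < b)
    (hlab : ∀ i < k, ∀ j < k, i ≠ j → lab i = lab j → IdxPath pat k i j k) (hkb : q + b ≤ k) :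
    Ctx G (cycSet k v) k q b := by
  classical
  refine ⟨S.deg, ?_, ?_, hkb⟩
  · intro K hK
    rw [← hq]
    exact S.qmax K (fun x hx y hy hxy => hK hx hy hxy)
  · intro u hu
    have hu' := (notMem_cycSet_iff S).1 hu
    set N := (nbrs G u) ∩ cycSet k v with hN
    have hpos : ∀ x ∈ N, ∃ p : ℕ, p < k ∧ v (p : ℕ) = x := by
      intro x hx
      have := (Finset.mem_inter.1 hx).2
      unfold cycSet at this
      rw [Finset.mem_image] at this
      obtain ⟨p, hp, hpv⟩ := this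
      exact ⟨p, Finset.mem_range.1 hp, hpv⟩
    choose! pos hpos1 hpos2 using hpos
    have hinj : Set.InjOn (fun x => lab (pos x)) (N : Set V) := by
      intro x hx y hy hxy
      simp only at hxy
      by_contra hne
      have hpne : pos x ≠ pos y := by
        intro he
        apply hne
        rw [← hpos2 x hx, ← hpos2 y hy, he]
      have hp := hlab _ (hpos1 x hx) _ (hpos1 y hy) hpne hxy
      have hxN := (Finset.mem_inter.1 (Finset.mem_coe.1 hx)).1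
      have hyN := (Finset.mem_inter.1 (Finset.mem_coe.1 hy)).1
      refine S.excl hp [u] (by simp) ?_ ?_ (by simp)
      · intro z hz
        simp only [List.mem_singleton] at hz
        subst hz
        exact hu'
      · simp only [List.singleton_append, List.isChain_cons_cons, List.isChain_singleton, and_true]
        rw [hpos2 x hx, hpos2 y hy]
        exact ⟨(mem_nbrs.1 hyN).symm, mem_nbrs.1 hxN⟩
    have := Finset.card_le_card_of_injOn (s := N) (t := Finset.range b) (fun x => lab (pos x)) ?_ hinj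
    · simpa using this
    · intro x hx
      simp only [Finset.coe_range, Set.mem_Iio]
      exact hm _ (hpos1 x hx)

/-- The hypotheses of the overlap lemma from index paths. -/
theorem ExcSetup.ovHyp (S : ExcSetup G Q pat k v I) (u : ℕ → V) (H0 H1 : Finset ℕ)
    (hu : ∀ i, u i ∉ cycSet k v)
    (hadj : ∀ i ∈ H0 ∪ H1, G.Adj (v (i : ℕ)) (u i))
    (hne : ∀ i ∈ H0 ∪ H1, ∀ j ∈ H0 ∪ H1, i ≠ j → u i ≠ u j)
    (hna : ∀ i ∈ H0 ∪ H1, ∀ j ∈ H0 ∪ H1, i ≠ j → ¬ G.Adj (u i) (u j))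
    (h4 : ∀ i ∈ H0, ∀ j ∈ H0, i ≠ j → IdxPath pat k i j (k + 1 - 4))
    (h5 : ∀ i ∈ H0, ∀ j ∈ H0, i ≠ j → IdxPath pat k i j (k + 1 - 5))
    (h6 : ∀ i ∈ H0, ∀ j ∈ H0, i ≠ j → IdxPath pat k i j (k + 1 - 6))
    (h3' : ∀ i ∈ H0, ∀ j ∈ H1, IdxPath pat k i j (k + 1 - 3))
    (h4' : ∀ i ∈ H0, ∀ j ∈ H1, IdxPath pat k i j (k + 1 - 4))
    (h5' : ∀ i ∈ H0, ∀ j ∈ H1, IdxPath pat k i j (k + 1 - 5))
    (h3'' : ∀ i ∈ H1, ∀ j ∈ H1, i ≠ j → IdxPath pat k i j (k + 1 - 3))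
    (h4'' : ∀ i ∈ H1, ∀ j ∈ H1, i ≠ j → IdxPath pat k i j (k + 1 - 4))
    (hk : 6 ≤ k) :
    OvHyp G (cycSet k v) u H0 H1 := by
  have a0 : ∀ i ∈ H0, G.Adj (v (i : ℕ)) (u i) := fun i hi => hadj i (Finset.mem_union_left _ hi)
  have a1 : ∀ i ∈ H1, G.Adj (v (i : ℕ)) (u i) := fun i hi => hadj i (Finset.mem_union_right _ hi)
  refine ⟨hu, hne, hna, ?_, ?_, ?_, ?_, ?_, ?_, ?_, ?_⟩
  · exact fun i hi j hj hij => S.nl_of_idx (h4 i hi j hj hij) (by omega) (a0 i hi) (a0 j hj)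
  · exact fun i hi j hj hij => S.nl_of_idx (h5 i hi j hj hij) (by omega) (a0 i hi) (a0 j hj)
  · exact fun i hi j hj hij => S.nl_of_idx (h6 i hi j hj hij) (by omega) (a0 i hi) (a0 j hj)
  · exact fun i hi j hj => S.nl_of_idx (h3' i hi j hj) (by omega) (a0 i hi) (a1 j hj)
  · exact fun i hi j hj => S.nl_of_idx (h4' i hi j hj) (by omega) (a0 i hi) (a1 j hj)
  · exact fun i hi j hj => S.nl_of_idx (h5' i hi j hj) (by omega) (a0 i hi) (a1 j hj)
  · exact fun i hi j hj hij => S.nl_of_idx (h3'' i hi j hj hij) (by omega) (a1 i hi) (a1 j hj)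
  · exact fun i hi j hj hij => S.nl_of_idx (h4'' i hi j hj hij) (by omega) (a1 i hi) (a1 j hj)

/-- Fast prefilter of a certificate. -/
def quick (i j t : ℕ) (l : List ℕ) : Bool :=
  (l.head? == some i) && (l.getLast? == some j) && (l.length == t)

/-- A table of certificates: some entry, or its reverse, proves the index path. -/
def tbl (pat : List Bool) (L : ℕ) (C : List (List ℕ)) (i j t : ℕ) : Bool :=
  C.any (fun l => quick i j t l && chk pat L i j t l) ||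
    C.any (fun l => quick j i t l && chk pat L i j t l.reverse)

theorem idxPath_of_tbl {C : List (List ℕ)} {i j t : ℕ} (h : tbl pat k C i j t = true) :
    IdxPath pat k i j t := by
  simp only [tbl, Bool.or_eq_true, List.any_eq_true, Bool.and_eq_true] at h
  rcases h with ⟨l, _, _, hl⟩ | ⟨l, _, _, hl⟩
  · exact ⟨l, hl⟩
  · exact ⟨l.reverse, hl⟩

/-- All ordered pairs in `A × B` (distinct) have a certificate with `t` positions. -/
def pairsOK (pat : List Bool) (L : ℕ) (C : List (List ℕ)) (A B : List ℕ) (t : ℕ) : Bool :=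
  A.all fun i => B.all fun j => (i == j) || tbl pat L C i j t

theorem of_pairsOK {C : List (List ℕ)} {A B : List ℕ} {t : ℕ} (h : pairsOK pat k C A B t = true)
    {i j : ℕ} (hi : i ∈ A) (hj : j ∈ B) (hij : i ≠ j) : IdxPath pat k i j t := by
  simp only [pairsOK, List.all_eq_true, Bool.or_eq_true, beq_iff_eq] at h
  rcases h i hi j hj with h' | h'
  · exact absurd h' hij
  · exact idxPath_of_tbl h'

/-- The labelling check. -/
def labOK (pat : List Bool) (L : ℕ) (C : List (List ℕ)) (lab : ℕ → ℕ) (b : ℕ) : Bool :=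
  (List.range L).all fun i => decide (lab i < b) &&
    (List.range L).all fun j => (i == j) || (lab i != lab j) || tbl pat L C i j L

/-- The check of all lengths for the overlap lemma, apart from the exits. -/
def ovOK (pat : List Bool) (L : ℕ) (C : List (List ℕ)) (A B : List ℕ) : Bool :=
  pairsOK pat L C A A (L + 1 - 4) && pairsOK pat L C A A (L + 1 - 5) &&
  pairsOK pat L C A A (L + 1 - 6) && pairsOK pat L C A B (L + 1 - 3) &&
  pairsOK pat L C A B (L + 1 - 4) && pairsOK pat L C A B (L + 1 - 5) &&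
  pairsOK pat L C B B (L + 1 - 3) && pairsOK pat L C B B (L + 1 - 4)

/-- The overlap lemma on an `ExcSetup` from tables, for exits given by the caller. -/
theorem ExcSetup.overlap_of_tbl (S : ExcSetup G Q pat k v I) {q b : ℕ} (hq : Q.card = q)
    (hk : 6 ≤ k) (lab : ℕ → ℕ) (hb : q + b ≤ k) (C : List (List ℕ))
    (hlab : labOK pat k C lab b = true) (A B : List ℕ) (hA : A.Nodup) (hB : B.Nodup)
    (hdisj : ∀ x ∈ A, x ∉ B) (hov : ovOK pat k C A B = true)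
    (hcount : k + 1 ≤ 2 * A.length + 2 * B.length) (hbnd : k + 1 ≤ (k - b) + 2 * B.length)
    (u : ℕ → V) (hu : ∀ i, ∀ m : ℤ, v m ≠ u i)
    (hadj : ∀ i, i ∈ A ∨ i ∈ B → G.Adj (v (i : ℕ)) (u i))
    (hne : ∀ i j, (i ∈ A ∨ i ∈ B) → (j ∈ A ∨ j ∈ B) → i ≠ j → u i ≠ u j)
    (hna : ∀ i j, (i ∈ A ∨ i ∈ B) → (j ∈ A ∨ j ∈ B) → i ≠ j → ¬ G.Adj (u i) (u j)) :
    ∃ T, Indep G T ∧ k + 1 ≤ T.card := by
  have hctx : Ctx G (cycSet k v) k q b := by
    simp only [labOK, List.all_eq_true, Bool.and_eq_true, decide_eq_true_eq, List.mem_range,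
      Bool.or_eq_true, beq_iff_eq, bne_iff_ne] at hlab
    refine S.ctx hq lab (fun i hi => (hlab i hi).1) ?_ hb
    intro i hi j hj hij hl
    rcases (hlab i hi).2 j hj with (h' | h') | h'
    · exact absurd h' hij
    · exact absurd hl h'
    · exact idxPath_of_tbl h'
  simp only [ovOK, Bool.and_eq_true] at hov
  obtain ⟨⟨⟨⟨⟨⟨⟨h4, h5⟩, h6⟩, h3'⟩, h4'⟩, h5'⟩, h3''⟩, h4''⟩ := hov
  have hm : ∀ i, i ∈ A.toFinset ∪ B.toFinset ↔ (i ∈ A ∨ i ∈ B) := by
    intro i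
    simp
  have hdisj' : Disjoint A.toFinset B.toFinset := by
    rw [Finset.disjoint_left]
    intro x hx hx'
    exact hdisj x (List.mem_toFinset.1 hx) (List.mem_toFinset.1 hx')
  have hab : ∀ x ∈ A, ∀ y ∈ B, x ≠ y := by
    rintro x hx _ hy rfl
    exact hdisj x hx hy
  have hh : OvHyp G (cycSet k v) u A.toFinset B.toFinset := by
    refine S.ovHyp u _ _ (fun i => (notMem_cycSet_iff S).2 (hu i)) ?_ ?_ ?_ ?_ ?_ ?_ ?_ ?_ ?_ ?_ ?_ hk
    · exact fun i hi => hadj i ((hm i).1 hi)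
    · exact fun i hi j hj hij => hne i j ((hm i).1 hi) ((hm j).1 hj) hij
    · exact fun i hi j hj hij => hna i j ((hm i).1 hi) ((hm j).1 hj) hij
    · exact fun i hi j hj hij =>
        of_pairsOK h4 (List.mem_toFinset.1 hi) (List.mem_toFinset.1 hj) hij
    · exact fun i hi j hj hij =>
        of_pairsOK h5 (List.mem_toFinset.1 hi) (List.mem_toFinset.1 hj) hij
    · exact fun i hi j hj hij =>
        of_pairsOK h6 (List.mem_toFinset.1 hi) (List.mem_toFinset.1 hj) hij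
    · exact fun i hi j hj =>
        of_pairsOK h3' (List.mem_toFinset.1 hi) (List.mem_toFinset.1 hj)
          (hab i (List.mem_toFinset.1 hi) j (List.mem_toFinset.1 hj))
    · exact fun i hi j hj =>
        of_pairsOK h4' (List.mem_toFinset.1 hi) (List.mem_toFinset.1 hj)
          (hab i (List.mem_toFinset.1 hi) j (List.mem_toFinset.1 hj))
    · exact fun i hi j hj =>
        of_pairsOK h5' (List.mem_toFinset.1 hi) (List.mem_toFinset.1 hj)
          (hab i (List.mem_toFinset.1 hi) j (List.mem_toFinset.1 hj))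
    · exact fun i hi j hj hij =>
        of_pairsOK h3'' (List.mem_toFinset.1 hi) (List.mem_toFinset.1 hj) hij
    · exact fun i hi j hj hij =>
        of_pairsOK h4'' (List.mem_toFinset.1 hi) (List.mem_toFinset.1 hj) hij
  have hcA : A.toFinset.card = A.length := List.toFinset_card_of_nodup hA
  have hcB : B.toFinset.card = B.length := List.toFinset_card_of_nodup hB
  obtain ⟨T, hT, hTc⟩ := overlap_pick hctx hdisj' hh (by rw [hcA, hcB]; exact hcount)
    (by rw [hcB]; exact hbnd)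
  exact ⟨T, fun x hx y hy hxy => hT hx hy hxy, hTc⟩

/-- The overlap lemma on an `ExcSetup` from tables, all exits in `I` and distinct by `s = 1`. -/
theorem ExcSetup.overlap_of_tbl_I (S : ExcSetup G Q pat k v I) {q b : ℕ} (hq : Q.card = q)
    (hk : 6 ≤ k) (lab : ℕ → ℕ) (hb : q + b ≤ k) (C : List (List ℕ))
    (hlab : labOK pat k C lab b = true) (A B : List ℕ) (hA : A.Nodup) (hB : B.Nodup)
    (hdisj : ∀ x ∈ A, x ∉ B)
    (h1 : pairsOK pat k C (A ++ B) (A ++ B) k = true)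
    (hov : ovOK pat k C A B = true)
    (hcount : k + 1 ≤ 2 * A.length + 2 * B.length) (hbnd : k + 1 ≤ (k - b) + 2 * B.length) :
    ∃ T, Indep G T ∧ k + 1 ≤ T.card := by
  obtain ⟨u, hu⟩ := S.exists_exits
  have hmem : ∀ i, (i ∈ A ∨ i ∈ B) → i ∈ A ++ B := fun i hi => List.mem_append.2 hi
  have hne : ∀ i j, (i ∈ A ∨ i ∈ B) → (j ∈ A ∨ j ∈ B) → i ≠ j → u i ≠ u j := by
    intro i j hi hj hij
    exact S.exit_ne (hu i).1 (hu j).1 (hu i).2 (hu j).2
      (of_pairsOK h1 (hmem i hi) (hmem j hj) hij)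
  refine S.overlap_of_tbl hq hk lab hb C hlab A B hA hB hdisj hov hcount hbnd u
    (fun i m => S.Ioff _ (hu i).1 m) (fun i _ => (hu i).2) hne ?_
  intro i j hi hj hij
  exact S.exit_nonadj (hu i).1 (hu j).1 (hu i).2 (hu j).2 (hne i j hi hj hij)

/-- Certificates for the pattern E9a. -/
def certE9a : List (List ℕ) :=
  [[0,1,2,3,4,5,6,7,8,9,10,11,12],
   [0,1,2,3,4,8,9,10,11,12],
   [0,1,2,3,4,9,8,7,6,5],
   [0,1,2,3,9,8,7,6,5,4],
   [0,1,4,5,6,7,8,9,10,11,12],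
   [0,8,7,6,5,4,2,1,3],
   [0,8,7,6,5,4,3,1,2],
   [0,8,7,6,5,4,3,2,1],
   [0,9,8,7,6,5,4,2,1,3],
   [0,9,8,7,6,5,4,3,1,2],
   [0,9,8,7,6,5,4,3,2,1],
   [0,12,11,10,9,1,2,3,4,8,7,6,5],
   [0,12,11,10,9,1,2,3,8,4,5],
   [0,12,11,10,9,1,2,3,8,7,6,5,4],
   [0,12,11,10,9,1,8,7,6,5,4],
   [0,12,11,10,9,8,7,6,5,4,1],
   [0,12,11,10,9,8,7,6,5,4,2],
   [0,12,11,10,9,8,7,6,5,4,2,1,3],
   [0,12,11,10,9,8,7,6,5,4,3],
   [0,12,11,10,9,8,7,6,5,4,3,1,2],
   [0,12,11,10,9,8,7,6,5,4,3,2,1],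
   [1,0,2,3,4,5,6,7,8,9,10,11,12],
   [1,0,2,3,4,8,7,6,5],
   [1,0,2,3,4,8,9,10,11,12],
   [1,0,2,3,4,9,8,7,6,5],
   [1,0,2,3,4,9,10,11,12],
   [1,0,2,3,8,7,6,5,4],
   [1,0,2,3,9,8,7,6,5,4],
   [1,0,2,4,5,6,7,8,3],
   [1,0,2,4,5,6,7,8,9,3],
   [1,0,3,4,5,6,7,8,2],
   [1,0,3,4,5,6,7,8,9,2],
   [1,0,4,5,6,7,8,2],
   [1,0,4,5,6,7,8,3],
   [1,0,4,5,6,7,8,9,10,11,12],
   [1,0,12,11,10,9,2,3,4,8,7,6,5],
   [1,0,12,11,10,9,2,3,8,4,5],
   [1,0,12,11,10,9,2,3,8,7,6,5,4],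
   [1,0,12,11,10,9,2,4,5,6,7,8,3],
   [1,0,12,11,10,9,3,4,5,6,7,8,2],
   [1,0,12,11,10,9,8,7,6,5,4],
   [2,0,1,3,4,5,6,7,8,9,10,11,12],
   [2,0,1,3,4,8,7,6,5],
   [2,0,1,3,4,8,9,10,11,12],
   [2,0,1,3,4,9,8,7,6,5],
   [2,0,1,3,4,9,10,11,12],
   [2,0,1,3,8,7,6,5,4],
   [2,0,1,3,9,8,7,6,5,4],
   [2,0,1,4,5,6,7,8,3],
   [2,0,1,4,5,6,7,8,9,3],
   [2,0,4,5,6,7,8,3],
   [2,0,4,5,6,7,8,9,10,11,12],
   [2,0,12,11,10,9,1,3,4,8,7,6,5],
   [2,0,12,11,10,9,1,3,8,4,5],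
   [2,0,12,11,10,9,1,3,8,7,6,5,4],
   [2,0,12,11,10,9,1,4,5,6,7,8,3],
   [2,0,12,11,10,9,8,7,6,5,4],
   [3,0,1,2,4,5,6,7,8,9,10,11,12],
   [3,0,1,2,4,8,7,6,5],
   [3,0,1,2,4,8,9,10,11,12],
   [3,0,1,2,4,9,8,7,6,5],
   [3,0,1,2,4,9,10,11,12],
   [3,0,1,2,8,7,6,5,4],
   [3,0,1,2,9,8,7,6,5,4],
   [3,0,4,5,6,7,8,9,10,11,12],
   [3,0,12,11,10,9,1,2,4,8,7,6,5],
   [3,0,12,11,10,9,1,2,8,4,5],
   [3,0,12,11,10,9,1,2,8,7,6,5,4],
   [3,0,12,11,10,9,8,7,6,5,4],
   [4,0,1,2,3,8,9,10,11,12],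
   [4,0,1,2,3,9,8,7,6,5],
   [4,0,12,11,10,9,1,2,3,8,7,6,5],
   [4,0,12,11,10,9,1,8,7,6,5],
   [4,5,6,7,8,0,1,2,3,9,10,11,12],
   [4,5,6,7,8,0,1,9,10,11,12],
   [5,4,0,1,2,3,8,9,10,11,12],
   [5,4,0,1,2,3,9,10,11,12],
   [5,6,7,8,0,1,2,3,4,9,10,11,12],
   [6,5,4,0,12,11,10,9,1,2,3,8,7],
   [8,7,6,5,4,1,2,3,0,12,11,10,9],
   [8,7,6,5,4,1,2,3,9,0,12,11,10],
   [9,1,2,3,4,5,6,7,8,0,12,11,10]]

/-- Labels for the pattern E9a. -/
def labE9a (i : ℕ) : ℕ := ([0,0,0,0,0,0,1,1,2,2,2,3,0] : List ℕ).getD i 0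

theorem excE9a (S : ExcSetup G Q [true, true, true, true, true, false, false, false, true, true, false, false, false] 13 v I)
    (hq : Q.card = 7) : ∃ T, Indep G T ∧ 14 ≤ T.card :=
  S.overlap_of_tbl_I hq (by omega) labE9a (b := 4) (by omega) certE9a (by decide +kernel)
    [1,2,3] [0,4,5,12] (by decide) (by decide) (by decide) (by decide +kernel) (by decide +kernel)
    (by simp) (by simp)

/-- Certificates for the pattern E9b. -/
def certE9b : List (List ℕ) :=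
  [[0,1,2,3,4,5,6,7,8,9,10,11,12],
   [0,1,2,3,7,8,9,10,11,12],
   [0,1,2,3,8,9,7,6,5,4],
   [0,1,2,8,9,7,6,5,4,3],
   [0,1,3,4,5,6,7,9,10,11,12],
   [0,7,6,5,4,3,2,1,8],
   [0,8,7,6,5,4,3,1,2],
   [0,8,7,6,5,4,3,2,1],
   [0,9,7,6,5,4,3,2,1,8],
   [0,9,8,7,6,5,4,3,1,2],
   [0,9,8,7,6,5,4,3,2,1],
   [0,12,11,10,9,1,2,3,8,7,6,5,4],
   [0,12,11,10,9,1,2,7,6,5,4],
   [0,12,11,10,9,1,2,8,7,6,5,4,3],
   [0,12,11,10,9,1,7,6,5,4,3],
   [0,12,11,10,9,7,6,5,4,3,1],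
   [0,12,11,10,9,7,6,5,4,3,2],
   [0,12,11,10,9,7,6,5,4,3,2,1,8],
   [0,12,11,10,9,7,6,5,4,3,8],
   [0,12,11,10,9,8,7,6,5,4,3,1,2],
   [0,12,11,10,9,8,7,6,5,4,3,2,1],
   [1,0,2,3,4,5,6,7,8],
   [1,0,2,3,4,5,6,7,8,9,10,11,12],
   [1,0,2,3,4,5,6,7,9,8],
   [1,0,2,3,7,8,9,10,11,12],
   [1,0,2,3,7,9,10,11,12],
   [1,0,2,3,8,7,6,5,4],
   [1,0,2,3,8,9,7,6,5,4],
   [1,0,2,8,7,6,5,4,3],
   [1,0,2,8,9,7,6,5,4,3],
   [1,0,3,4,5,6,7,2],
   [1,0,3,4,5,6,7,8],
   [1,0,3,4,5,6,7,8,2],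
   [1,0,3,4,5,6,7,8,9,2],
   [1,0,3,4,5,6,7,9,10,11,12],
   [1,0,12,11,10,9,2,3,4,5,6,7,8],
   [1,0,12,11,10,9,2,3,8,7,6,5,4],
   [1,0,12,11,10,9,2,7,6,5,4],
   [1,0,12,11,10,9,2,8,7,6,5,4,3],
   [1,0,12,11,10,9,3,4,5,6,7,8,2],
   [1,0,12,11,10,9,7,6,5,4,3],
   [2,0,1,3,4,5,6,7,8],
   [2,0,1,3,4,5,6,7,8,9,10,11,12],
   [2,0,1,3,4,5,6,7,9,8],
   [2,0,1,3,7,8,9,10,11,12],
   [2,0,1,3,7,9,10,11,12],
   [2,0,1,3,8,7,6,5,4],
   [2,0,1,3,8,9,7,6,5,4],
   [2,0,1,8,7,6,5,4,3],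
   [2,0,1,8,9,7,6,5,4,3],
   [2,0,3,4,5,6,7,8],
   [2,0,3,4,5,6,7,9,10,11,12],
   [2,0,12,11,10,9,1,3,4,5,6,7,8],
   [2,0,12,11,10,9,1,3,8,7,6,5,4],
   [2,0,12,11,10,9,1,7,6,5,4],
   [2,0,12,11,10,9,1,8,7,6,5,4,3],
   [2,0,12,11,10,9,7,6,5,4,3],
   [3,0,1,2,7,8,9,10,11,12],
   [3,0,1,2,8,9,7,6,5,4],
   [3,0,12,11,10,9,1,2,8,7,6,5,4],
   [3,0,12,11,10,9,1,7,6,5,4],
   [3,4,5,6,7,0,1,2,8,9,10,11,12],
   [3,4,5,6,7,0,1,9,10,11,12],
   [3,4,5,6,7,2,1,0,8],
   [3,4,5,6,7,2,1,9,10,11,12,0,8],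
   [3,4,5,6,7,9,2,1,0,8],
   [3,4,5,6,7,9,10,11,12,0,8],
   [4,3,0,1,2,7,8,9,10,11,12],
   [4,3,0,1,2,7,9,10,11,12],
   [4,3,7,2,1,9,10,11,12,0,8],
   [4,5,6,7,0,1,2,3,8,9,10,11,12],
   [4,5,6,7,3,2,1,0,8],
   [4,5,6,7,3,2,1,9,10,11,12,0,8],
   [4,5,6,7,9,3,2,1,0,8],
   [5,4,3,0,12,11,10,9,1,2,8,7,6],
   [7,6,5,4,3,1,2,8,0,12,11,10,9],
   [7,6,5,4,3,1,2,8,9,0,12,11,10],
   [8,0,1,2,3,4,5,6,7,9,10,11,12],
   [8,0,1,2,3,7,9,10,11,12],
   [8,0,1,2,3,9,10,11,12],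
   [8,0,3,4,5,6,7,9,10,11,12],
   [9,1,2,3,4,5,6,7,8,0,12,11,10]]

/-- Labels for the pattern E9b. -/
def labE9b (i : ℕ) : ℕ := ([0,0,0,0,0,1,1,2,0,2,2,3,0] : List ℕ).getD i 0

theorem excE9b (S : ExcSetup G Q [true, true, true, true, false, false, false, true, true, true, false, false, false] 13 v I)
    (hq : Q.card = 7) : ∃ T, Indep G T ∧ 14 ≤ T.card :=
  S.overlap_of_tbl_I hq (by omega) labE9b (b := 4) (by omega) certE9b (by decide +kernel)
    [1,2,8] [0,3,4,12] (by decide) (by decide) (by decide) (by decide +kernel) (by decide +kernel)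
    (by simp) (by simp)

/-- Certificates for the pattern E2. -/
def certE2 : List (List ℕ) :=
  [[0,1,2,3,4,5,6],
   [0,6,5,4,3,2,1],
   [1,0,2],
   [1,0,2,3,4],
   [1,0,2,3,4,5,6],
   [1,0,3,2],
   [1,0,3,4],
   [1,0,3,4,5,6],
   [1,0,6],
   [1,0,6,5,4,3,2],
   [1,2],
   [1,2,0,6],
   [1,2,0,6,5,4],
   [1,2,3,0,6],
   [1,2,3,0,6,5,4],
   [1,3,4],
   [2,0,1,3,4],
   [2,0,1,3,4,5,6],
   [2,0,3,4],
   [2,0,3,4,5,6],
   [2,0,6],
   [2,1,0,6],
   [2,1,0,6,5,4],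
   [2,1,0,6,5,4,3],
   [2,1,3,0,6],
   [2,1,3,0,6,5,4],
   [2,3,4],
   [3,1,2,0,6,5,4],
   [4,3,0,6],
   [4,3,1,0,6],
   [4,3,1,2,0,6]]

/-- Labels for the pattern E2. -/
def labE2 (i : ℕ) : ℕ := ([0,0,1,1,1,2,0] : List ℕ).getD i 0

/-- `s = 1` for arbitrary outside neighbours. -/
theorem ExcSetup.off_ne (S : ExcSetup G Q pat k v I) {i j : ℕ} (hp : IdxPath pat k i j k) {x y : V}
    (hx : G.Adj (v (i : ℕ)) x) (hy : G.Adj (v (j : ℕ)) y) (hxoff : ∀ m : ℤ, v m ≠ x) : x ≠ y := by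
  rintro rfl
  refine S.excl hp [x] (by simp) ?_ ?_ (by simp)
  · intro z hz
    simp only [List.mem_singleton] at hz
    subst hz
    exact hxoff
  · simp only [List.singleton_append, List.isChain_cons_cons, List.isChain_singleton, and_true]
    exact ⟨hy, hx.symm⟩

/-- `s = 2` for arbitrary outside neighbours. -/
theorem ExcSetup.off_nonadj (S : ExcSetup G Q pat k v I) {i j : ℕ} (hp : IdxPath pat k i j (k - 1))
    {x y : V} (hx : G.Adj (v (i : ℕ)) x) (hy : G.Adj (v (j : ℕ)) y) (hxoff : ∀ m : ℤ, v m ≠ x)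
    (hyoff : ∀ m : ℤ, v m ≠ y) : ¬ G.Adj x y := by
  intro hadj
  have hk := S.pc.cyc.n_ge
  refine S.excl hp [y, x] ?_ ?_ ?_ (by simp; omega)
  · simp only [List.nodup_cons, List.mem_singleton, List.not_mem_nil, not_false_eq_true,
      List.nodup_nil, and_true]
    exact hadj.ne'
  · intro z hz
    simp only [List.mem_cons, List.not_mem_nil, or_false] at hz
    rcases hz with rfl | rfl
    · exact hyoff
    · exact hxoff
  · simp only [List.cons_append, List.nil_append, List.isChain_cons_cons, List.isChain_singleton,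
      and_true]
    exact ⟨hy, hadj.symm, hx.symm⟩

/-- In the pattern E2, a vertex outside the clique has two neighbours off the cycle. -/
theorem e2_two (S : ExcSetup G Q [true, true, true, true, false, false, false] 7 v I)
    (hq : Q.card = 4) (p : ℕ) (hp : p = 4 ∨ p = 5 ∨ p = 6) : 2 ≤ (Aof G v (v (p : ℕ))).card := by
  classical
  have hpc := S.pc
  have hQ : ∀ i : ℕ, i < 4 → v (i : ℕ) ∈ Q := by
    intro i hi
    apply hpc.mem
    interval_cases i <;> rfl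
  have hinj : ∀ a b : ℕ, a < 7 → b < 7 → v (a : ℕ) = v (b : ℕ) → a = b :=
    fun a b ha hb h => hpc.inj ha hb h
  have hp7 : p < 7 := by omega
  -- a position of the clique which is not adjacent
  have hex : ∃ a : ℕ, a < 4 ∧ ¬ G.Adj (v (p : ℕ)) (v (a : ℕ)) := by
    by_contra hcon
    push Not at hcon
    set K : Finset V := (Finset.range 4).image (fun a : ℕ => v (a : ℕ)) with hK
    have hKc : K.card = 4 := by
      rw [hK, Finset.card_image_of_injOn, Finset.card_range]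
      intro a ha b hb hab
      exact hinj a b (by simpa using (by simpa using ha : a < 4) |>.trans (by omega : 4 < 7))
        (by simpa using (by simpa using hb : b < 4) |>.trans (by omega : 4 < 7)) hab
    have hpK : v (p : ℕ) ∉ K := by
      intro h
      rw [hK, Finset.mem_image] at h
      obtain ⟨a, ha, hav⟩ := h
      have ha4 : a < 4 := by simpa using ha
      have := hinj a p (by omega) hp7 hav
      omega
    have hcl : ∀ x ∈ insert (v (p : ℕ)) K, ∀ y ∈ insert (v (p : ℕ)) K, x ≠ y → G.Adj x y := by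
      have hKm : ∀ x ∈ K, ∃ a : ℕ, a < 4 ∧ v (a : ℕ) = x := by
        intro x hx
        rw [hK, Finset.mem_image] at hx
        obtain ⟨a, ha, hav⟩ := hx
        exact ⟨a, by simpa using ha, hav⟩
      intro x hx y hy hxy
      rcases Finset.mem_insert.1 hx with rfl | hx <;> rcases Finset.mem_insert.1 hy with rfl | hy
      · exact absurd rfl hxy
      · obtain ⟨a, ha, rfl⟩ := hKm y hy
        exact hcon a ha
      · obtain ⟨a, ha, rfl⟩ := hKm x hx
        exact (hcon a ha).symm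
      · obtain ⟨a, ha, rfl⟩ := hKm x hx
        obtain ⟨b, hb, rfl⟩ := hKm y hy
        exact hpc.clique _ (hQ a ha) _ (hQ b hb) hxy
    have := S.qmax _ hcl
    rw [Finset.card_insert_of_notMem hpK, hKc, hq] at this
    omega
  obtain ⟨a, ha, hna⟩ := hex
  have hdeg := S.deg (v (p : ℕ))
  have hvD := S.mem_cycSet (p : ℕ)
  have hvaD := S.mem_cycSet (a : ℕ)
  have hne : v (a : ℕ) ≠ v (p : ℕ) := by
    intro h
    have := hinj a p (by omega) hp7 h
    omega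
  set D := cycSet 7 v with hD
  have hDc : D.card ≤ 7 := by
    rw [hD]
    unfold cycSet
    exact Finset.card_image_le.trans (by simp)
  have hsub : nbrs G (v (p : ℕ)) ⊆ Aof G v (v (p : ℕ)) ∪ ((D.erase (v (p : ℕ))).erase (v (a : ℕ))) := by
    intro x hx
    rw [mem_nbrs] at hx
    by_cases hxD : x ∈ D
    · apply Finset.mem_union_right
      rw [Finset.mem_erase, Finset.mem_erase]
      refine ⟨?_, hx.ne', hxD⟩
      rintro rfl
      exact hna hx
    · apply Finset.mem_union_left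
      rw [mem_Aof]
      exact ⟨hx, (notMem_cycSet_iff S).1 hxD⟩
  have h1 := Finset.card_le_card hsub
  have h2 := Finset.card_union_le (Aof G v (v (p : ℕ))) ((D.erase (v (p : ℕ))).erase (v (a : ℕ)))
  have h3 : ((D.erase (v (p : ℕ))).erase (v (a : ℕ))).card = D.card - 1 - 1 := by
    rw [Finset.card_erase_of_mem (Finset.mem_erase.2 ⟨hne, hvaD⟩), Finset.card_erase_of_mem hvD]
  omega

/-- The pattern (4,3) with a long ear. -/
theorem excE2 (S : ExcSetup G Q [true, true, true, true, false, false, false] 7 v I)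
    (hq : Q.card = 4) : ∃ T, Indep G T ∧ 8 ≤ T.card := by
  classical
  have hx2 := e2_two S hq 4 (by omega)
  have hw2 := e2_two S hq 6 (by omega)
  obtain ⟨ux, hux⟩ : (Aof G v (v ((4 : ℕ) : ℤ))).Nonempty := Finset.card_pos.1 (by omega)
  obtain ⟨uw, huw, huwx⟩ := Finset.exists_mem_ne (by omega : 1 < (Aof G v (v ((6 : ℕ) : ℤ))).card) ux
  obtain ⟨u0, hu0⟩ := S.exists_exits
  rw [mem_Aof] at hux huw
  set u : ℕ → V := fun i => if i = 4 then ux else if i = 6 then uw else u0 i with hu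
  have hu4 : u 4 = ux := by simp [hu]
  have hu6 : u 6 = uw := by simp [hu]
  have hu1 : u 1 = u0 1 := by simp [hu]
  have hu2 : u 2 = u0 2 := by simp [hu]
  have hoff : ∀ i, ∀ m : ℤ, v m ≠ u i := by
    intro i m
    by_cases h4 : i = 4
    · subst h4
      rw [hu4]
      exact hux.2 m
    · by_cases h6 : i = 6
      · subst h6
        rw [hu6]
        exact huw.2 m
      · have : u i = u0 i := by simp [hu, h4, h6]
        rw [this]
        exact S.Ioff _ (hu0 i).1 m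
  have hadj : ∀ i, i ∈ [1, 2] ∨ i ∈ [4, 6] → G.Adj (v (i : ℕ)) (u i) := by
    intro i hi
    simp only [List.mem_cons, List.not_mem_nil, or_false] at hi
    rcases hi with (rfl | rfl) | (rfl | rfl)
    · rw [hu1]; exact (hu0 1).2
    · rw [hu2]; exact (hu0 2).2
    · rw [hu4]; exact hux.1
    · rw [hu6]; exact huw.1
  have hcert : ∀ i j, (i = 1 ∨ i = 2 ∨ i = 4 ∨ i = 6) → (j = 1 ∨ j = 2 ∨ j = 4 ∨ j = 6) → i ≠ j →
      ¬ (i = 4 ∧ j = 6) → ¬ (i = 6 ∧ j = 4) →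
      IdxPath [true, true, true, true, false, false, false] 7 i j 7 := by
    have h : pairsOK [true, true, true, true, false, false, false] 7 certE2 [1, 2, 4] [1, 2, 4] 7 = true
        ∧ pairsOK [true, true, true, true, false, false, false] 7 certE2 [1, 2, 6] [1, 2, 6] 7 = true := by
      decide +kernel
    intro i j hi hj hij h46 h64
    have hcase : (i ∈ [1, 2, 4] ∧ j ∈ [1, 2, 4]) ∨ (i ∈ [1, 2, 6] ∧ j ∈ [1, 2, 6]) := by
      simp only [List.mem_cons, List.not_mem_nil, or_false]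
      omega
    rcases hcase with ⟨h1, h2⟩ | ⟨h1, h2⟩
    · exact of_pairsOK h.1 h1 h2 hij
    · exact of_pairsOK h.2 h1 h2 hij
  have hcert2 : ∀ i j, (i = 1 ∨ i = 2 ∨ i = 4 ∨ i = 6) → (j = 1 ∨ j = 2 ∨ j = 4 ∨ j = 6) → i ≠ j →
      ¬ (i = 1 ∧ j = 2) → ¬ (i = 2 ∧ j = 1) →
      IdxPath [true, true, true, true, false, false, false] 7 i j 6 := by
    have h : pairsOK [true, true, true, true, false, false, false] 7 certE2 [1, 4, 6] [1, 4, 6] 6 = true
        ∧ pairsOK [true, true, true, true, false, false, false] 7 certE2 [2, 4, 6] [2, 4, 6] 6 = true := by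
      decide +kernel
    intro i j hi hj hij h46 h64
    have hcase : (i ∈ [1, 4, 6] ∧ j ∈ [1, 4, 6]) ∨ (i ∈ [2, 4, 6] ∧ j ∈ [2, 4, 6]) := by
      simp only [List.mem_cons, List.not_mem_nil, or_false]
      omega
    rcases hcase with ⟨h1, h2⟩ | ⟨h1, h2⟩
    · exact of_pairsOK h.1 h1 h2 hij
    · exact of_pairsOK h.2 h1 h2 hij
  have hne : ∀ i j, (i ∈ [1, 2] ∨ i ∈ [4, 6]) → (j ∈ [1, 2] ∨ j ∈ [4, 6]) → i ≠ j → u i ≠ u j := by
    intro i j hi hj hij
    by_cases h46 : i = 4 ∧ j = 6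
    · rw [h46.1, h46.2, hu4, hu6]
      exact huwx.symm
    by_cases h64 : i = 6 ∧ j = 4
    · rw [h64.1, h64.2, hu4, hu6]
      exact huwx
    have hi' : i = 1 ∨ i = 2 ∨ i = 4 ∨ i = 6 := by
      simp only [List.mem_cons, List.not_mem_nil, or_false] at hi
      omega
    have hj' : j = 1 ∨ j = 2 ∨ j = 4 ∨ j = 6 := by
      simp only [List.mem_cons, List.not_mem_nil, or_false] at hj
      omega
    exact S.off_ne (hcert i j hi' hj' hij h46 h64) (hadj i hi) (hadj j hj) (hoff i)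
  have hna : ∀ i j, (i ∈ [1, 2] ∨ i ∈ [4, 6]) → (j ∈ [1, 2] ∨ j ∈ [4, 6]) → i ≠ j →
      ¬ G.Adj (u i) (u j) := by
    intro i j hi hj hij
    by_cases h12 : i = 1 ∧ j = 2
    · rw [h12.1, h12.2, hu1, hu2]
      exact S.Iind _ (hu0 1).1 _ (hu0 2).1 (by rw [← hu1, ← hu2]; exact hne 1 2 (by simp) (by simp) (by omega))
    by_cases h21 : i = 2 ∧ j = 1
    · rw [h21.1, h21.2, hu1, hu2]
      exact S.Iind _ (hu0 2).1 _ (hu0 1).1 (by rw [← hu1, ← hu2]; exact hne 2 1 (by simp) (by simp) (by omega))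
    have hi' : i = 1 ∨ i = 2 ∨ i = 4 ∨ i = 6 := by
      simp only [List.mem_cons, List.not_mem_nil, or_false] at hi
      omega
    have hj' : j = 1 ∨ j = 2 ∨ j = 4 ∨ j = 6 := by
      simp only [List.mem_cons, List.not_mem_nil, or_false] at hj
      omega
    exact S.off_nonadj (hcert2 i j hi' hj' hij h12 h21) (hadj i hi) (hadj j hj) (hoff i) (hoff j)
  exact S.overlap_of_tbl hq (by omega) labE2 (b := 3) (by omega) certE2 (by decide +kernel)
    [1, 2] [4, 6] (by decide) (by decide) (by decide) (by decide +kernel) (by decide) (by decide)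
    u hoff hadj hne hna

end Crest.Agent.CycleRamsey
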