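import Crest.Agent.Lib.CycleRamsey.Basic

/-!
# Cycle–complete Ramsey numbers: tools for the small cases (helper19, row 54, S0075)

* `hasCycle_ear`: the ear rule for a clique `Q`;
* `cycle4`, `cycle5`, `cycle6`: explicit short cycles;
* `MinCE.le_of_clique`: (KK) a clique of size `k` forces `k ≤ a`;
* `MinCE.no_clique`: for `k ≥ 4`, `a ≤ k`, a minimal counterexample has no clique of size `k`;
* `Bip`, `Bip.half`: two-colourings of a vertex set and the independent half;
* `bip_of_no_P5`: a triangle-free set without a five-vertex path is two-colourable.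
-/

set_option autoImplicit false
set_option linter.unusedSectionVars false
set_option linter.unusedVariables false

open Finset

namespace Crest.Agent.Lib.CycleRamsey

variable {V : Type} [Fintype V] [DecidableEq V] {G : SimpleGraph V}

theorem cycle4 {a b c d : V} (h1 : G.Adj a b) (h2 : G.Adj b c) (h3 : G.Adj c d) (h4 : G.Adj d a)
    (hac : a ≠ c) (hbd : b ≠ d) : HasCycle G 4 := by
  have := hasCycle_of_list G [a, b, c, d] (by simp)
    (by simp [h1.ne, h2.ne, h3.ne, h4.ne.symm, hac, hbd])
    (by simp [h1, h2, h3]) (by simpa using h4) (by simp)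
  simpa using this

theorem cycle5 {a b c d e : V} (h1 : G.Adj a b) (h2 : G.Adj b c) (h3 : G.Adj c d) (h4 : G.Adj d e)
    (h5 : G.Adj e a) (hac : a ≠ c) (had : a ≠ d) (hbd : b ≠ d) (hbe : b ≠ e) (hce : c ≠ e) :
    HasCycle G 5 := by
  have := hasCycle_of_list G [a, b, c, d, e] (by simp)
    (by simp [h1.ne, h2.ne, h3.ne, h4.ne, h5.ne.symm, hac, had, hbd, hbe, hce])
    (by simp [h1, h2, h3, h4]) (by simpa using h5) (by simp)
  simpa using this

theorem cycle6 {a b c d e f : V} (h1 : G.Adj a b) (h2 : G.Adj b c) (h3 : G.Adj c d)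
    (h4 : G.Adj d e) (h5 : G.Adj e f) (h6 : G.Adj f a)
    (hac : a ≠ c) (had : a ≠ d) (hae : a ≠ e) (hbd : b ≠ d) (hbe : b ≠ e) (hbf : b ≠ f)
    (hce : c ≠ e) (hcf : c ≠ f) (hdf : d ≠ f) :
    HasCycle G 6 := by
  have := hasCycle_of_list G [a, b, c, d, e, f] (by simp)
    (by simp [h1.ne, h2.ne, h3.ne, h4.ne, h5.ne, h6.ne.symm, hac, had, hae, hbd, hbe, hbf, hce,
      hcf, hdf])
    (by simp [h1, h2, h3, h4, h5]) (by simpa using h6) (by simp)
  simpa using this

/-- A list of vertices in a clique, without duplicates, is a chain. -/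
theorem isChain_of_clique {Q : Finset V} (hQ : G.IsClique (Q : Set V)) (l : List V)
    (hnd : l.Nodup) (hl : ∀ e ∈ l, e ∈ Q) : l.IsChain G.Adj := by
  apply List.Pairwise.isChain
  exact List.Pairwise.imp_of_mem
    (fun {a b} ha hb hab => hQ (by simpa using hl a ha) (by simpa using hl b hb) hab) hnd

/-- **Ear rule.**  A path between two distinct vertices `x, y` of a clique `Q`, with interior
`l` outside `Q`, closes up through `Q` using exactly `t` vertices of `Q`, `2 ≤ t ≤ |Q|`. -/
theorem hasCycle_ear {Q : Finset V} (hQ : G.IsClique (Q : Set V)) {x y : V} (hx : x ∈ Q)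
    (hy : y ∈ Q) (hxy : x ≠ y) (l : List V) (hnd : l.Nodup) (hl : ∀ e ∈ l, e ∉ Q)
    (hchain : (x :: l ++ [y]).IsChain G.Adj) {t : ℕ} (ht2 : 2 ≤ t) (htq : t ≤ Q.card)
    (hlen : 3 ≤ l.length + t) : HasCycle G (l.length + t) := by
  classical
  have hcard : t - 2 ≤ ((Q.erase x).erase y).card := by
    rw [Finset.card_erase_of_mem (by simp [hy, hxy.symm]), Finset.card_erase_of_mem hx]
    omega
  obtain ⟨R, hRsub, hRcard⟩ := Finset.exists_subset_card_eq hcard
  have hRmem : ∀ r ∈ R, r ∈ Q ∧ r ≠ x ∧ r ≠ y := by
    intro r hr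
    have := hRsub hr
    simp only [Finset.mem_erase] at this
    exact ⟨this.2.2, this.2.1, this.1⟩
  set L : List V := x :: l ++ [y] ++ R.toList with hL
  have hLlen : L.length = l.length + t := by
    simp [hL, Finset.length_toList, hRcard]
    omega
  have hne : L ≠ [] := by simp [hL]
  have hxl : x ∉ l := fun h => hl x h hx
  have hyl : y ∉ l := fun h => hl y h hy
  have hnd' : L.Nodup := by
    rw [hL, List.nodup_append]
    refine ⟨?_, R.nodup_toList, ?_⟩
    · simp only [List.cons_append, List.nodup_cons, List.mem_append, List.mem_singleton, not_or]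
      refine ⟨⟨hxl, hxy⟩, ?_⟩
      rw [List.nodup_append]
      refine ⟨hnd, by simp, ?_⟩
      intro a ha b hb
      simp only [List.mem_singleton] at hb
      subst hb
      rintro rfl
      exact hyl ha
    · intro a ha b hb hab
      subst hab
      have hb' := hRmem a (by simpa using hb)
      simp only [List.cons_append, List.mem_cons, List.mem_append,
        List.not_mem_nil, or_false] at ha
      rcases ha with rfl | ha | rfl
      · exact hb'.2.1 rfl
      · exact hl a ha hb'.1
      · exact hb'.2.2 rfl
  have hchain' : L.IsChain G.Adj := by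
    rw [hL, List.isChain_append]
    refine ⟨hchain, isChain_of_clique hQ _ R.nodup_toList (fun e he => (hRmem e (by simpa using he)).1), ?_⟩
    intro a ha b hb
    have h0 : (x :: l ++ [y]).getLast? = some y := by
      rw [List.getLast?_append]; simp
    have ha' : a = y := by
      rw [h0] at ha
      simpa using ha.symm
    subst ha'
    have hbm : b ∈ R := by
      have := List.mem_of_mem_head? hb
      simpa using this
    have := hRmem b hbm
    exact hQ (by simpa using hy) (by simpa using this.1) (Ne.symm this.2.2)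
  have hclose : G.Adj (L.getLast hne) (L.head hne) := by
    have hhead : L.head hne = x := by simp [hL]
    rw [hhead]
    by_cases hR : R.toList = []
    · have : L.getLast hne = y := by
        simp [hL, hR]
      rw [this]
      exact hQ (by simpa using hy) (by simpa using hx) hxy.symm
    · have : L.getLast hne = R.toList.getLast hR := by
        simp only [hL]
        rw [List.getLast_append_of_ne_nil _ hR]
      rw [this]
      have hmem : R.toList.getLast hR ∈ R := Finset.mem_toList.1 (List.getLast_mem hR)
      have := hRmem _ hmem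
      exact hQ (by simpa using this.1) (by simpa using hx) this.2.1
  have := hasCycle_of_list G L hne hnd' hchain' hclose (by omega)
  rwa [hLlen] at this

/-- (KK) A clique with `k` vertices in a minimal counterexample forces `k ≤ a`. -/
theorem MinCE.le_of_clique {k a : ℕ} (h : MinCE k a G) (hk : 2 ≤ k) {Q : Finset V}
    (hQ : G.IsClique (Q : Set V)) (hc : Q.card = k) : k ≤ a := by
  classical
  by_contra hlt
  push Not at hlt
  have ha1 : 1 ≤ a := Nat.pos_of_ne_zero h.a_ne_zero
  -- an independent `a`-set avoiding `Q`
  have hne : univ \ Q ≠ (univ : Finset V) := by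
    have hQne : Q.Nonempty := by
      rw [← Finset.card_pos]; omega
    obtain ⟨x, hx⟩ := hQne
    intro he
    have : x ∈ univ \ Q := by rw [he]; exact mem_univ _
    simp [hx] at this
  obtain ⟨s, hsF, hsi, hsc⟩ := h.proper _ hne
  have hcardF : (univ \ Q).card = k * a + 1 - k := by
    rw [Finset.card_sdiff_of_subset (subset_univ _), Finset.card_univ, h.card, hc]
  have hsa : a ≤ s.card := by
    by_contra hlt2
    push Not at hlt2
    have : k * s.card ≤ k * (a - 1) := Nat.mul_le_mul_left _ (by omega)
    have h2 : k * (a - 1) + k = k * a := by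
      rw [← Nat.mul_succ]; congr 1; omega
    have h3 : k ≤ k * a := Nat.le_mul_of_pos_right _ ha1
    omega
  have hsle := h.noIndep s hsi
  have hdisj : ∀ i ∈ s, i ∉ Q := by
    intro i hi
    have := hsF hi
    simpa using this
  -- each vertex of `Q` has a neighbour in `s`
  have hnb : ∀ x ∈ Q, ∃ i ∈ s, G.Adj x i := by
    intro x hx
    by_contra hno
    push Not at hno
    have hind : G.IsIndepSet ((insert x s : Finset V) : Set V) := by
      intro u hu w hw huw hadj
      simp only [coe_insert, Set.mem_insert_iff, Finset.mem_coe] at hu hw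
      rcases hu with rfl | hu <;> rcases hw with rfl | hw
      · exact huw rfl
      · exact hno w hw hadj
      · exact hno u hu hadj.symm
      · exact hsi hu hw huw hadj
    have := h.noIndep _ hind
    rw [Finset.card_insert_of_notMem (fun hxs => hdisj x hxs hx)] at this
    omega
  choose! f hfs hfadj using hnb
  -- pigeonhole
  have hpig : ∃ x ∈ Q, ∃ y ∈ Q, x ≠ y ∧ f x = f y := by
    apply Finset.exists_ne_map_eq_of_card_lt_of_maps_to (t := s)
    · omega
    · intro x hx
      exact hfs x hx
  obtain ⟨x, hx, y, hy, hxy, hfxy⟩ := hpig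
  apply h.noCycle
  have hi : f x ∈ s := hfs x hx
  have := hasCycle_ear hQ hx hy hxy [f x] (by simp) (by simpa using hdisj _ hi)
    (by
      have h1 := hfadj x hx
      have h2 := hfadj y hy
      rw [← hfxy] at h2
      simp [h1, h2.symm])
    (t := k) (by omega) (by omega) (by simp; omega)
  simpa [add_comm] using this

/-- For `k ≥ 4` and `a ≤ k`, a minimal counterexample has no clique with `k` vertices. -/
theorem MinCE.no_clique {k a : ℕ} (h : MinCE k a G) (hk : 4 ≤ k) (hak : a ≤ k) {Q : Finset V}
    (hQ : G.IsClique (Q : Set V)) (hc : Q.card = k) : False := by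
  classical
  have haeq : a = k := le_antisymm hak (h.le_of_clique (by omega) hQ hc)
  -- for every `x ∈ Q`: a neighbour outside `Q`
  have hex : ∀ x ∈ Q, ∃ e, e ∉ Q ∧ G.Adj x e := by
    intro x hx
    by_contra hno
    push Not at hno
    have hsub : nbrs G x ⊆ Q.erase x := by
      intro y hy
      have hy' := mem_nbrs.1 hy
      rw [mem_erase]
      refine ⟨hy'.ne.symm, ?_⟩
      by_contra hyQ
      exact hno y hyQ hy'
    have h1 := Finset.card_le_card hsub
    rw [Finset.card_erase_of_mem hx] at h1
    have h2 := h.degree_ge x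
    omega
  choose! e heQ headj using hex
  -- ear rule consequences
  have ear1 : ∀ x ∈ Q, ∀ y ∈ Q, x ≠ y → ∀ w, w ∉ Q → G.Adj x w → G.Adj y w → False := by
    intro x hx y hy hxy w hw h1 h2
    apply h.noCycle
    have := hasCycle_ear hQ hx hy hxy [w] (by simp) (by simpa using hw)
      (by simp [h1, h2.symm]) (t := k) (by omega) (by omega) (by simp; omega)
    simpa [add_comm] using this
  have ear2 : ∀ x ∈ Q, ∀ y ∈ Q, x ≠ y → ∀ u w, u ∉ Q → w ∉ Q → G.Adj x u → G.Adj u w →
      G.Adj w y → False := by
    intro x hx y hy hxy u w hu hw h1 h2 h3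
    apply h.noCycle
    have := hasCycle_ear hQ hx hy hxy [u, w] (by simp [h2.ne]) (by simp [hu, hw])
      (by simp [h1, h2, h3]) (t := k - 1) (by omega) (by omega) (by simp; omega)
    have hk' : [u, w].length + (k - 1) = k + 1 := by simp; omega
    rwa [hk'] at this
  have ear3 : ∀ x ∈ Q, ∀ y ∈ Q, x ≠ y → ∀ u v w, u ∉ Q → v ∉ Q → w ∉ Q → u ≠ w → G.Adj x u →
      G.Adj u v → G.Adj v w → G.Adj w y → False := by
    intro x hx y hy hxy u v w hu hv hw huw h1 h2 h3 h4
    apply h.noCycle
    have := hasCycle_ear hQ hx hy hxy [u, v, w] (by simp [h2.ne, h3.ne, huw])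
      (by simp [hu, hv, hw])
      (by simp [h1, h2, h3, h4]) (t := k - 2) (by omega) (by omega) (by simp)
    have hk' : [u, v, w].length + (k - 2) = k + 1 := by simp; omega
    rwa [hk'] at this
  -- the sets `A x`
  let A : V → Finset V := fun x => insert (e x) (nbrs G (e x) \ Q)
  have hAQ : ∀ x ∈ Q, Disjoint (A x) Q := by
    intro x hx
    rw [Finset.disjoint_left]
    intro w hw hwQ
    simp only [A, mem_insert, mem_sdiff] at hw
    rcases hw with rfl | hw
    · exact heQ x hx hwQ
    · exact hw.2 hwQ
  have hAcard : ∀ x ∈ Q, k ≤ (A x).card := by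
    intro x hx
    have hsub : nbrs G (e x) ⊆ insert x (nbrs G (e x) \ Q) := by
      intro w hw
      by_cases hwQ : w ∈ Q
      · by_cases hwx : w = x
        · simp [hwx]
        · exfalso
          exact ear1 x hx w hwQ (Ne.symm hwx) (e x) (heQ x hx) (headj x hx)
            ((mem_nbrs.1 hw).symm)
      · simp [hw, hwQ]
    have h1 := Finset.card_le_card hsub
    have h2 := Finset.card_insert_le x (nbrs G (e x) \ Q)
    have h3 := h.degree_ge (e x)
    have h4 : (A x).card = (nbrs G (e x) \ Q).card + 1 := by
      apply Finset.card_insert_of_notMem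
      simp
    omega
  have hAdisj : ∀ x ∈ Q, ∀ y ∈ Q, x ≠ y → Disjoint (A x) (A y) := by
    intro x hx y hy hxy
    rw [Finset.disjoint_left]
    intro w hwx hwy
    simp only [A, mem_insert, mem_sdiff, mem_nbrs] at hwx hwy
    have hex := heQ x hx
    have hey := heQ y hy
    have hax := headj x hx
    have hay := headj y hy
    have hne : e x ≠ e y := by
      intro heq
      exact ear1 x hx y hy hxy (e x) hex hax (by rw [heq]; exact hay)
    have hnadj : ¬ G.Adj (e x) (e y) := fun hadj =>
      ear2 x hx y hy hxy (e x) (e y) hex hey hax hadj hay.symm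
    rcases hwx with rfl | hwx <;> rcases hwy with hwy | hwy
    · exact hne hwy
    · exact hnadj hwy.1.symm
    · subst hwy
      exact hnadj hwx.1
    · exact ear3 x hx y hy hxy (e x) w (e y) hex hwx.2 hey hne hax hwx.1 hwy.1.symm hay.symm
  -- counting
  have hdisjU : (Q : Set V).PairwiseDisjoint A := by
    intro x hx y hy hxy
    exact hAdisj x (by simpa using hx) y (by simpa using hy) hxy
  have hU : (Q.biUnion A).card = ∑ x ∈ Q, (A x).card := Finset.card_biUnion hdisjU
  have hge : k * k ≤ (Q.biUnion A).card := by
    rw [hU]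
    calc k * k = ∑ _x ∈ Q, k := by simp [hc]
      _ ≤ _ := Finset.sum_le_sum hAcard
  have hUQ : Disjoint (Q.biUnion A) Q := by
    rw [Finset.disjoint_biUnion_left]
    exact hAQ
  have htot : (Q.biUnion A ∪ Q).card ≤ Fintype.card V := by
    rw [← Finset.card_univ]
    exact Finset.card_le_card (subset_univ _)
  rw [Finset.card_union_of_disjoint hUQ, h.card, haeq, hc] at htot
  omega

/-- `X` is two-colourable (for the edges of `G` inside `X`). -/
def Bip (G : SimpleGraph V) (X : Finset V) : Prop :=
  ∃ c : V → Bool, ∀ x ∈ X, ∀ y ∈ X, G.Adj x y → c x ≠ c y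

/-- A two-colourable set has an independent subset of at least half of its size. -/
theorem Bip.half {X : Finset V} (h : Bip G X) : ∃ S ⊆ X, G.IsIndepSet (S : Set V) ∧ X.card ≤ 2 * S.card := by
  classical
  obtain ⟨c, hc⟩ := h
  have hsplit : (X.filter (fun x => c x = true)).card + (X.filter (fun x => ¬ c x = true)).card
      = X.card := Finset.card_filter_add_card_filter_not _
  by_cases hle : (X.filter (fun x => ¬ c x = true)).card ≤ (X.filter (fun x => c x = true)).card
  · refine ⟨X.filter (fun x => c x = true), filter_subset _ _, ?_, by omega⟩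
    intro x hx y hy hxy hadj
    simp only [coe_filter, Set.mem_ofPred_eq] at hx hy
    apply hc x hx.1 y hy.1 hadj
    rw [hx.2, hy.2]
  · refine ⟨X.filter (fun x => ¬ c x = true), filter_subset _ _, ?_, by omega⟩
    intro x hx y hy hxy hadj
    simp only [coe_filter, Set.mem_ofPred_eq] at hx hy
    apply hc x hx.1 y hy.1 hadj
    simp only [Bool.not_eq_true] at hx hy
    rw [hx.2, hy.2]

theorem Bip.mono {X Y : Finset V} (h : Bip G X) (hY : Y ⊆ X) : Bip G Y := by
  obtain ⟨c, hc⟩ := h
  exact ⟨c, fun x hx y hy => hc x (hY hx) y (hY hy)⟩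

/-- No triangle inside `X`. -/
def NoTri (G : SimpleGraph V) (X : Finset V) : Prop :=
  ∀ x ∈ X, ∀ y ∈ X, ∀ z ∈ X, G.Adj x y → G.Adj y z → G.Adj x z → False

/-- No path with five vertices inside `X`. -/
def NoP5 (G : SimpleGraph V) (X : Finset V) : Prop :=
  ∀ p ∈ X, ∀ q ∈ X, ∀ r ∈ X, ∀ s ∈ X, ∀ t ∈ X, G.Adj p q → G.Adj q r → G.Adj r s → G.Adj s t →
    p ≠ r → p ≠ s → p ≠ t → q ≠ s → q ≠ t → r ≠ t → False

/-- A triangle-free set without a five-vertex path is two-colourable. -/
theorem bip_of_noP5 (X : Finset V) (h3 : NoTri G X) (h5 : NoP5 G X) : Bip G X := by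
  classical
  induction X using Finset.strongInduction with
  | H X ih =>
    by_cases hne : X.Nonempty
    swap
    · rw [Finset.not_nonempty_iff_eq_empty] at hne
      subst hne
      exact ⟨fun _ => true, by simp⟩
    have hsub3 : ∀ Y ⊆ X, NoTri G Y := fun Y hY x hx y hy z hz =>
      h3 x (hY hx) y (hY hy) z (hY hz)
    have hsub5 : ∀ Y ⊆ X, NoP5 G Y := fun Y hY p hp q hq r hr s hs t ht =>
      h5 p (hY hp) q (hY hq) r (hY hr) s (hY hs) t (hY ht)
    by_cases hlow : ∃ u ∈ X, ∀ w ∈ X, ∀ w' ∈ X, G.Adj u w → G.Adj u w' → w = w'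
    · -- a vertex of degree at most one
      obtain ⟨u, hu, hlowu⟩ := hlow
      have hlt : X.erase u ⊂ X := Finset.erase_ssubset hu
      obtain ⟨c, hc⟩ := ih _ hlt (hsub3 _ hlt.subset) (hsub5 _ hlt.subset)
      by_cases hex : ∃ w ∈ X, G.Adj u w
      · obtain ⟨w, hw, huw⟩ := hex
        refine ⟨Function.update c u (!(c w)), ?_⟩
        intro x hx y hy hxy
        by_cases hxu : x = u
        · subst hxu
          have hyx : y ≠ x := hxy.ne.symm
          have hyw : y = w := hlowu y hy w hw hxy huw
          subst hyw
          simp [Function.update_of_ne hyx]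
        · by_cases hyu : y = u
          · subst hyu
            have hxw : x = w := hlowu x hx w hw hxy.symm huw
            subst hxw
            simp [Function.update_of_ne hxu]
          · rw [Function.update_of_ne hxu, Function.update_of_ne hyu]
            exact hc x (mem_erase.2 ⟨hxu, hx⟩) y (mem_erase.2 ⟨hyu, hy⟩) hxy
      · push Not at hex
        refine ⟨c, ?_⟩
        intro x hx y hy hxy
        by_cases hxu : x = u
        · subst hxu
          exact absurd hxy (hex y hy)
        · by_cases hyu : y = u
          · subst hyu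
            exact absurd hxy.symm (hex x hx)
          · exact hc x (mem_erase.2 ⟨hxu, hx⟩) y (mem_erase.2 ⟨hyu, hy⟩) hxy
    · -- all degrees at least two: a component `C_4`
      push Not at hlow
      obtain ⟨u, hu⟩ := hne
      obtain ⟨w, hw, w', hw', huw, huw', hww'⟩ := hlow u hu
      -- every vertex has a second neighbour
      have hsecond : ∀ b ∈ X, ∀ c ∈ X, G.Adj b c → ∃ d ∈ X, G.Adj b d ∧ d ≠ c := by
        intro b hb c hc hbc
        obtain ⟨d1, hd1, d2, hd2, h1, h2, h12⟩ := hlow b hb
        by_cases h : d1 = c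
        · exact ⟨d2, hd2, h2, fun h' => h12 (h.trans h'.symm)⟩
        · exact ⟨d1, hd1, h1, h⟩
      have hnww' : ¬ G.Adj w w' := fun h => h3 u hu w hw w' hw' huw h huw'
      -- second neighbours of `w, w'` coincide
      have hcommon : ∀ z ∈ X, ∀ z' ∈ X, G.Adj w z → z ≠ u → G.Adj w' z' → z' ≠ u → z = z' := by
        intro z hz z' hz' hwz hzu hwz' hz'u
        by_contra hzz'
        have hzw' : z ≠ w' := fun h => hnww' (h ▸ hwz)
        have hz'w : z' ≠ w := fun h => hnww' (h ▸ hwz').symm
        exact h5 z hz w hw u hu w' hw' z' hz' hwz.symm huw.symm huw' hwz' hzu hzw' hzz'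
          hww' hz'w.symm hz'u.symm
      obtain ⟨z, hz, hwz, hzu⟩ := hsecond w hw u hu huw.symm
      obtain ⟨z', hz', hwz', hz'u⟩ := hsecond w' hw' u hu huw'.symm
      have hzz' : z = z' := hcommon z hz z' hz' hwz hzu hwz' hz'u
      subst hzz'
      -- the closed set `R`
      have hnuz : ¬ G.Adj u z := fun h => h3 u hu w hw z hz huw hwz h
      have hNw : ∀ y ∈ X, G.Adj w y → y = u ∨ y = z := by
        intro y hy hwy
        by_cases hyu : y = u
        · exact Or.inl hyu
        · exact Or.inr (hcommon y hy z hz hwy hyu hwz' hzu)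
      have hNw' : ∀ y ∈ X, G.Adj w' y → y = u ∨ y = z := by
        intro y hy hwy
        by_cases hyu : y = u
        · exact Or.inl hyu
        · exact Or.inr (hcommon z hz y hy hwz hzu hwy hyu).symm
      have hNu : ∀ y ∈ X, G.Adj u y → y = w ∨ y = w' := by
        intro y hy huy
        by_contra hno
        push Not at hno
        have hyz : y ≠ z := fun h => hnuz (h ▸ huy)
        -- path `y u w z w'`
        exact h5 y hy u hu w hw z hz w' hw' huy.symm huw hwz hwz'.symm hno.1 hyz hno.2
          hzu.symm huw'.ne hww'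
      have hNz : ∀ y ∈ X, G.Adj z y → y = w ∨ y = w' := by
        intro y hy hzy
        by_contra hno
        push Not at hno
        have hyu : y ≠ u := fun h => hnuz (h ▸ hzy.symm)
        -- path `y z w u w'`
        exact h5 y hy z hz w hw u hu w' hw' hzy.symm hwz.symm huw.symm huw' hno.1 hyu hno.2
          hzu hwz'.ne.symm hww'
      set R : Finset V := {u, z, w, w'} with hR
      have hRsub : R ⊆ X := by
        intro y hy
        simp only [hR, mem_insert, mem_singleton] at hy
        rcases hy with rfl | rfl | rfl | rfl <;> assumption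
      have hlt : X \ R ⊂ X := by
        refine Finset.sdiff_ssubset hRsub ⟨u, by simp [hR]⟩
      obtain ⟨c, hc⟩ := ih _ hlt (hsub3 _ hlt.subset) (hsub5 _ hlt.subset)
      let c' : V → Bool := fun x => if x = u ∨ x = z then true else if x = w ∨ x = w' then false
        else c x
      have hvu : c' u = true := by simp [c']
      have hvz : c' z = true := by simp [c']
      have hvw : c' w = false := by
        simp [c', huw.ne.symm, hwz.ne]
      have hvw' : c' w' = false := by
        simp [c', huw'.ne.symm, hwz'.ne]
      have hvo : ∀ x, x ∉ R → c' x = c x := by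
        intro x hx
        simp only [hR, mem_insert, mem_singleton, not_or] at hx
        simp [c', hx.1, hx.2.1, hx.2.2.1, hx.2.2.2]
      refine ⟨c', ?_⟩
      intro x hx y hy hxy
      by_cases hxR : x ∈ R
      · simp only [hR, mem_insert, mem_singleton] at hxR
        rcases hxR with rfl | rfl | rfl | rfl
        · rcases hNu y hy hxy with rfl | rfl <;> simp [hvu, hvw, hvw']
        · rcases hNz y hy hxy with rfl | rfl <;> simp [hvz, hvw, hvw']
        · rcases hNw y hy hxy with rfl | rfl <;> simp [hvu, hvz, hvw]
        · rcases hNw' y hy hxy with rfl | rfl <;> simp [hvu, hvz, hvw']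
      · have hyR : y ∉ R := by
          intro hyR
          apply hxR
          simp only [hR, mem_insert, mem_singleton] at hyR ⊢
          rcases hyR with rfl | rfl | rfl | rfl
          · rcases hNu x hx hxy.symm with h | h <;> simp [h]
          · rcases hNz x hx hxy.symm with h | h <;> simp [h]
          · rcases hNw x hx hxy.symm with h | h <;> simp [h]
          · rcases hNw' x hx hxy.symm with h | h <;> simp [h]
        rw [hvo x hxR, hvo y hyR]
        exact hc x (mem_sdiff.2 ⟨hx, hxR⟩) y (mem_sdiff.2 ⟨hy, hyR⟩) hxy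

/-- The graph `G` restricted to the edges inside `X`, on the same vertex type. -/
def restrict (G : SimpleGraph V) (X : Finset V) : SimpleGraph V where
  Adj x y := G.Adj x y ∧ x ∈ X ∧ y ∈ X
  symm := ⟨fun _ _ h => ⟨h.1.symm, h.2.2, h.2.1⟩⟩
  loopless := ⟨fun x h => G.loopless.irrefl x h.1⟩

theorem bip_of_colorable {X : Finset V} (h : (restrict G X).Colorable 2) : Bip G X := by
  obtain ⟨c⟩ := h
  refine ⟨fun x => decide (c x = 0), ?_⟩
  intro x hx y hy hxy
  have hne : c x ≠ c y := c.valid ⟨hxy, hx, hy⟩
  intro heq
  simp only [decide_eq_decide] at heq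
  apply hne
  generalize c x = p at *
  generalize c y = q at *
  omega

theorem support_mem_restrict {X : Finset V} {x y : V} (p : (restrict G X).Walk x y) (hx : x ∈ X) :
    ∀ z ∈ p.support, z ∈ X := by
  induction p with
  | nil =>
    intro z hz
    simp only [SimpleGraph.Walk.support_nil, List.mem_singleton] at hz
    rwa [hz]
  | cons h p ih =>
    intro z hz
    simp only [SimpleGraph.Walk.support_cons, List.mem_cons] at hz
    rcases hz with rfl | hz
    · exact hx
    · exact ih h.2.2 z hz

/-- Parity of a walk in terms of a two-colouring of a set containing its support. -/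
theorem even_iff_of_color {X Y : Finset V} (c : V → Bool)
    (hc : ∀ x ∈ Y, ∀ y ∈ Y, G.Adj x y → c x ≠ c y) {x y : V} (p : (restrict G X).Walk x y)
    (hp : ∀ z ∈ p.support, z ∈ Y) : Even p.length ↔ c x = c y := by
  induction p with
  | nil => simp
  | @cons u v w h p ih =>
    have hu : u ∈ Y := hp u (by simp)
    have hv : v ∈ Y := hp v (by simp)
    have hne := hc u hu v hv h.1
    have hih := ih (fun z hz => hp z (by simp [hz]))
    simp only [SimpleGraph.Walk.length_cons, Nat.even_add_one, hih]
    cases hcu : c u <;> cases hcv : c v <;> cases hcw : c w <;> simp_all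

/-- If a set `X` has "parents" in such a way that paths `x m y` in `X` with `x ≠ y` force equal
parents, and every set of vertices of `X` with a common parent is two-colourable,
then `X` is two-colourable. -/
theorem bip_of_parent_rule {X : Finset V} (P : V → V → Prop)
    (hA : ∀ x ∈ X, ∃ a, P a x)
    (hR : ∀ x ∈ X, ∀ m ∈ X, ∀ y ∈ X, G.Adj x m → G.Adj m y → x ≠ y → ∀ a b, P a x → P b y → a = b)
    (hB : ∀ a, ∃ c : V → Bool, ∀ x ∈ X, ∀ y ∈ X, P a x → P a y → G.Adj x y → c x ≠ c y) :
    Bip G X := by
  classical
  apply bip_of_colorable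
  rw [SimpleGraph.two_colorable_iff_forall_loop_even]
  -- even walks preserve parents
  have hpar : ∀ n : ℕ, ∀ {x y : V} (p : (restrict G X).Walk x y), p.length = n → Even n → x ∈ X →
      ∀ a, P a x ↔ P a y := by
    intro n
    induction n using Nat.strong_induction_on with
    | _ n ih =>
      intro x y p hp hn hx a
      cases p with
      | nil => rfl
      | cons h1 q =>
        cases q with
        | nil =>
          simp at hp
          subst hp
          simp at hn
        | @cons _ y' _ h2 r =>
          simp only [SimpleGraph.Walk.length_cons] at hp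
          have hy' : y' ∈ X := h2.2.2
          have hr := ih r.length (by omega) r rfl (by
            have : n = r.length + 2 := by omega
            rw [this] at hn
            simpa [Nat.even_add] using hn) hy' a
          rw [← hr]
          by_cases hxy : x = y'
          · rw [hxy]
          · constructor
            · intro ha
              obtain ⟨b, hb⟩ := hA y' hy'
              have := hR x hx _ h1.2.2 y' hy' h1.1 h2.1 hxy a b ha hb
              rwa [this]
            · intro ha
              obtain ⟨b, hb⟩ := hA x hx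
              have := hR x hx _ h1.2.2 y' hy' h1.1 h2.1 hxy b a hb ha
              rwa [← this]
  intro u w
  by_contra hodd
  rw [Nat.not_even_iff_odd] at hodd
  have hu : u ∈ X := by
    cases w with
    | nil => simp at hodd
    | cons h _ => exact h.2.1
  obtain ⟨a, ha⟩ := hA u hu
  obtain ⟨c, hc⟩ := hB a
  have hsupp := support_mem_restrict w hu
  have hall : ∀ z ∈ w.support, P a z := by
    intro z hz
    have hspec := w.take_spec hz
    have hlen : (w.takeUntil z hz).length + (w.dropUntil z hz).length = w.length := by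
      rw [← SimpleGraph.Walk.length_append, hspec]
    by_cases he : Even (w.takeUntil z hz).length
    · exact (hpar _ (w.takeUntil z hz) rfl he hu a).1 ha
    · have he' : Even (w.dropUntil z hz).length := by
        rw [← hlen] at hodd
        rw [Nat.not_even_iff_odd] at he
        by_contra h2
        rw [Nat.not_even_iff_odd] at h2
        exact (Nat.not_even_iff_odd.2 hodd) (he.add_odd h2)
      exact (hpar _ (w.dropUntil z hz) rfl he' (hsupp z hz) a).2 ha
  have := (even_iff_of_color (X := X) (Y := X.filter (P a)) c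
    (fun x hx y hy hxy => hc x (mem_filter.1 hx).1 y (mem_filter.1 hy).1 (mem_filter.1 hx).2
      (mem_filter.1 hy).2 hxy) w (fun z hz => mem_filter.2 ⟨hsupp z hz, hall z hz⟩)).2 rfl
  exact (Nat.not_even_iff_odd.2 hodd) this

/-- The second neighbourhood of `v`. -/
noncomputable def L2 (G : SimpleGraph V) (v : V) : Finset V := by
  classical exact univ.filter (fun x => x ≠ v ∧ ¬ G.Adj v x ∧ ∃ a, G.Adj v a ∧ G.Adj a x)

@[simp] theorem mem_L2 {v x : V} :
    x ∈ L2 G v ↔ x ≠ v ∧ ¬ G.Adj v x ∧ ∃ a, G.Adj v a ∧ G.Adj a x := by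
  classical
  unfold L2
  simp

theorem MinCE.star {k a : ℕ} (h : MinCE k a G) (v : V) {S : Finset V} (hS : S ⊆ nbrs G v)
    (hi : G.IsIndepSet (S : Set V)) (hne : S.Nonempty) :
    k * S.card ≤ (nbrs G v).card + (L2 G v).card := by
  classical
  have h1 := h.card_closedNbhd hi hne
  have hsub : closedNbhd G S ⊆ insert v (nbrs G v ∪ L2 G v) := by
    intro x hx
    simp only [mem_closedNbhd] at hx
    simp only [mem_insert, mem_union, mem_nbrs, mem_L2]
    by_cases hxv : x = v
    · exact Or.inl hxv
    by_cases hvx : G.Adj v x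
    · exact Or.inr (Or.inl hvx)
    rcases hx with hx | ⟨y, hy, hyx⟩
    · exact absurd (mem_nbrs.1 (hS hx)) hvx
    · exact Or.inr (Or.inr ⟨hxv, hvx, y, mem_nbrs.1 (hS hy), hyx⟩)
  have h2 := Finset.card_le_card hsub
  have h3 := Finset.card_insert_le v (nbrs G v ∪ L2 G v)
  have h4 := Finset.card_union_le (nbrs G v) (L2 G v)
  omega

/-- `v` plus an independent subset of the second neighbourhood is independent. -/
theorem MinCE.L2_indep_le {k a : ℕ} (h : MinCE k a G) (v : V) {T : Finset V} (hT : T ⊆ L2 G v)
    (hi : G.IsIndepSet (T : Set V)) : T.card + 1 ≤ a := by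
  classical
  have hvT : v ∉ T := fun hv => (mem_L2.1 (hT hv)).1 rfl
  have hind : G.IsIndepSet ((insert v T : Finset V) : Set V) := by
    intro x hx y hy hxy hadj
    simp only [coe_insert, Set.mem_insert_iff, Finset.mem_coe] at hx hy
    rcases hx with rfl | hx <;> rcases hy with rfl | hy
    · exact hxy rfl
    · exact (mem_L2.1 (hT hy)).2.1 hadj
    · exact (mem_L2.1 (hT hx)).2.1 hadj.symm
    · exact hi hx hy hxy hadj
  have := h.noIndep _ hind
  rwa [Finset.card_insert_of_notMem hvT] at this

end Crest.Agent.Lib.CycleRamsey
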