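import Crest.Agent.Lib.CycleRamsey.Crossing
import Crest.Agent.Lib.CycleRamsey.Small

/-!
# Big clique: the longest short cycle through a maximum clique (helper38, row 54, S0075)
-/

set_option autoImplicit false
set_option linter.unusedSectionVars false
set_option linter.unusedVariables false

namespace Crest.Agent.CycleRamsey

open SimpleGraph
open Crest.Agent.Lib.CycleRamsey

variable {V : Type} [DecidableEq V] {G : SimpleGraph V}

/-- A clique on at least three vertices carries a cycle through all its vertices. -/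
theorem exists_cycle_on_clique {Q : Finset V} (hQ : ∀ x ∈ Q, ∀ y ∈ Q, x ≠ y → G.Adj x y)
    (h3 : 3 ≤ Q.card) :
    ∃ (u : V) (c : G.Walk u u), c.IsCycle ∧ c.length = Q.card ∧ ∀ a ∈ Q, a ∈ c.support := by
  have hl : Q.toList.length = Q.card := Q.length_toList
  have hnd : Q.toList.Nodup := Q.nodup_toList
  have hne : Q.toList ≠ [] := by
    intro h0
    rw [h0] at hl
    simp at hl
    omega
  have hadj : ∀ a ∈ Q.toList, ∀ b ∈ Q.toList, a ≠ b → G.Adj a b := by
    intro a ha b hb hab
    exact hQ a (Finset.mem_toList.1 ha) b (Finset.mem_toList.1 hb) hab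
  have hchain : Q.toList.IsChain G.Adj := by
    apply List.Pairwise.isChain
    exact hnd.imp_of_mem (fun {a b} ha hb hab => hadj a ha b hb hab)
  cases hlist : Q.toList with
  | nil => exact absurd hlist hne
  | cons x l =>
    rw [hlist] at hchain hnd hl
    obtain ⟨p, hp⟩ := exists_walk_of_chain G l x hchain
    have hpath : p.IsPath := by
      rw [SimpleGraph.Walk.isPath_def, hp]
      exact hnd
    have hplen : p.length + 1 = (x :: l).length := by
      rw [← SimpleGraph.Walk.length_support, hp]
    have hlast : (x :: l).getLast (by simp) ∈ Q.toList := by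
      rw [hlist]
      exact List.getLast_mem _
    have hxmem : x ∈ Q.toList := by
      rw [hlist]
      simp
    have hlong : (x :: l).getLast (by simp) ≠ x := by
      intro he
      have hlen : 2 ≤ (x :: l).length := by omega
      rw [List.getLast_eq_getElem] at he
      have h0 : (x :: l)[0]'(by omega) = x := rfl
      have hidx := (List.Nodup.getElem_inj_iff hnd).1 (he.trans h0.symm)
      simp only [List.length_cons, Nat.add_sub_cancel] at hidx hl
      omega
    have hclose : G.Adj ((x :: l).getLast (by simp)) x := hadj _ hlast _ hxmem hlong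
    refine ⟨(x :: l).getLast (by simp), SimpleGraph.Walk.cons hclose p, ?_, ?_, ?_⟩
    · rw [SimpleGraph.Walk.isCycle_iff_isPath_tail_and_le_length]
      constructor
      · simpa using hpath
      · simp only [SimpleGraph.Walk.length_cons]
        omega
    · simp only [SimpleGraph.Walk.length_cons]
      omega
    · intro a ha
      have : a ∈ Q.toList := Finset.mem_toList.2 ha
      rw [hlist] at this
      rw [SimpleGraph.Walk.support_cons, hp]
      exact List.mem_cons_of_mem _ this

/-- A longest cycle through the clique among those with at most `k` vertices. -/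
theorem exists_longest_cycle {Q : Finset V} {k : ℕ} (hQ : ∀ x ∈ Q, ∀ y ∈ Q, x ≠ y → G.Adj x y)
    (h3 : 3 ≤ Q.card) (hk : Q.card ≤ k) :
    ∃ (u : V) (c : G.Walk u u), c.IsCycle ∧ (∀ a ∈ Q, a ∈ c.support) ∧ c.length ≤ k ∧
      ∀ (u' : V) (c' : G.Walk u' u'), c'.IsCycle → (∀ a ∈ Q, a ∈ c'.support) → c'.length ≤ k →
        c'.length ≤ c.length := by
  classical
  let P : ℕ → Prop := fun L => ∃ (u : V) (c : G.Walk u u), c.IsCycle ∧ (∀ a ∈ Q, a ∈ c.support) ∧
    c.length = L
  obtain ⟨u0, c0, h01, h02, h03⟩ := exists_cycle_on_clique hQ h3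
  have hP0 : P Q.card := ⟨u0, c0, h01, h03, h02⟩
  set L := Nat.findGreatest P k with hL
  have hPL : P L := Nat.findGreatest_spec (P := P) hk hP0
  obtain ⟨u, c, h1, h2, h4⟩ := hPL
  refine ⟨u, c, h1, h2, ?_, ?_⟩
  · rw [h4]
    exact Nat.findGreatest_le k
  · intro u' c' h5 h6 h7
    rw [h4]
    exact Nat.le_findGreatest h7 ⟨u', c', h5, h6, rfl⟩

/-- A maximum clique containing at least as many vertices as a given clique. -/
theorem exists_max_clique [Fintype V] (G : SimpleGraph V) (Q0 : Finset V)
    (hQ0 : ∀ x ∈ Q0, ∀ y ∈ Q0, x ≠ y → G.Adj x y) :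
    ∃ Q : Finset V, (∀ x ∈ Q, ∀ y ∈ Q, x ≠ y → G.Adj x y) ∧ Q0.card ≤ Q.card ∧
      ∀ K : Finset V, (∀ x ∈ K, ∀ y ∈ K, x ≠ y → G.Adj x y) → K.card ≤ Q.card := by
  classical
  let S := (Finset.univ : Finset (Finset V)).filter (fun K => ∀ x ∈ K, ∀ y ∈ K, x ≠ y → G.Adj x y)
  have hne : S.Nonempty := ⟨Q0, Finset.mem_filter.2 ⟨Finset.mem_univ _, hQ0⟩⟩
  obtain ⟨Q, hQ, hmax⟩ := Finset.exists_max_image S Finset.card hne
  refine ⟨Q, (Finset.mem_filter.1 hQ).2, hmax Q0 (Finset.mem_filter.2 ⟨Finset.mem_univ _, hQ0⟩), ?_⟩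
  intro K hK
  exact hmax K (Finset.mem_filter.2 ⟨Finset.mem_univ _, hK⟩)

end Crest.Agent.CycleRamsey
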