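import Mathlib

/-!
# Bondy-type lemma: a cycle through both closed neighbourhoods of the ends of a path

(helper11, row 54, S0075.)  `G` a graph, `B` a vertex set with no cut vertex (`Conn2 G B`), and
`x 0, …, x m` a path in `B`.  Then `B` carries a cycle containing `x 0`, `x m` and all neighbours
of `x 0` and of `x m` that lie on the path.
-/

set_option autoImplicit false
set_option linter.unusedSectionVars false
set_option linter.unusedVariables false

namespace Crest.Agent.CycleRamsey

open SimpleGraph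

variable {V : Type} [DecidableEq V] (G : SimpleGraph V)

/-- `B` has no cut vertex: removing any vertex of `B` leaves a connected set (walks inside `B`). -/
def Conn2 (B : Set V) : Prop :=
  ∀ z ∈ B, ∀ u ∈ B, ∀ v ∈ B, u ≠ z → v ≠ z →
    ∃ w : G.Walk u v, ∀ y ∈ w.support, y ∈ B ∧ y ≠ z

variable {G}

lemma isPath_append' {u v w : V} {p : G.Walk u v} {q : G.Walk v w} (hp : p.IsPath) (hq : q.IsPath)
    (h : ∀ z, z ∈ p.support → z ∈ q.support → z = v) : (p.append q).IsPath := by
  rw [Walk.isPath_def, Walk.support_append, List.nodup_append]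
  have hq' := (Walk.isPath_def q).1 hq
  have hp' := (Walk.isPath_def p).1 hp
  have hsup : q.support = v :: q.support.tail := (Walk.cons_tail_support q).symm
  rw [hsup, List.nodup_cons] at hq'
  refine ⟨hp', hq'.2, ?_⟩
  intro a ha b hb hab
  subst hab
  have h1 : a ∈ q.support := List.mem_of_mem_tail hb
  have h2 := h a ha h1
  subst h2
  exact hq'.1 hb

lemma cycle_of_path {a b : V} {p : G.Walk a b} (hp : p.IsPath) (h : G.Adj b a)
    (hlen : 2 ≤ p.length) : (Walk.cons h p).IsCycle := by
  rw [Walk.cons_isCycle_iff]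
  refine ⟨hp, fun he => ?_⟩
  have : s(a, b) ∈ p.edges := by rwa [Sym2.eq_swap]
  have := hp.length_eq_one_of_mem_edges this
  omega

/-- segments of a path given by a function. -/
lemma exists_seg (x : ℕ → V) (m : ℕ) (hadj : ∀ i < m, G.Adj (x i) (x (i + 1)))
    (hinj : ∀ i ≤ m, ∀ j ≤ m, x i = x j → i = j) (i j : ℕ) (hij : i ≤ j) (hj : j ≤ m) :
    ∃ w : G.Walk (x i) (x j), w.IsPath ∧ ∀ z, z ∈ w.support ↔ ∃ t, i ≤ t ∧ t ≤ j ∧ z = x t := by
  induction j, hij using Nat.le_induction with
  | base =>
    refine ⟨Walk.nil, Walk.IsPath.nil, fun z => ?_⟩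
    simp only [Walk.support_nil, List.mem_singleton]
    constructor
    · rintro rfl; exact ⟨i, le_refl _, le_refl _, rfl⟩
    · rintro ⟨t, h1, h2, rfl⟩
      have : t = i := by omega
      rw [this]
  | succ j hij ih =>
    obtain ⟨w, hw, hmem⟩ := ih (by omega)
    have hA : G.Adj (x j) (x (j + 1)) := hadj j (by omega)
    refine ⟨w.concat hA, ?_, fun z => ?_⟩
    · apply hw.concat
      intro hmem'
      obtain ⟨t, h1, h2, h3⟩ := (hmem _).1 hmem'
      have := hinj _ hj t (by omega) h3
      omega
    · rw [Walk.support_concat, List.mem_append, List.mem_singleton, hmem]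
      constructor
      · rintro (⟨t, h1, h2, rfl⟩ | rfl)
        · exact ⟨t, h1, by omega, rfl⟩
        · exact ⟨j + 1, by omega, le_refl _, rfl⟩
      · rintro ⟨t, h1, h2, rfl⟩
        by_cases ht : t = j + 1
        · right; rw [ht]
        · left; exact ⟨t, h1, by omega, rfl⟩


/-- a path given by a function `x` on `0..m`. -/
structure PathFn (G : SimpleGraph V) (x : ℕ → V) (m : ℕ) : Prop where
  adj : ∀ i < m, G.Adj (x i) (x (i + 1))
  inj : ∀ i ≤ m, ∀ j ≤ m, x i = x j → i = j

section Bridge

variable (G) (x : ℕ → V) (m : ℕ) (B : Set V)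

/-- `z` in `B` and off the path. -/
def Off (z : V) : Prop := z ∈ B ∧ ∀ i ≤ m, z ≠ x i

/-- reachable through off-path vertices. -/
def OffReach (u v : V) : Prop := ∃ w : G.Walk u v, ∀ y ∈ w.support, Off x m B y

/-- `z` lies in an off-path component attached to `x a`. -/
def Att (a : ℕ) (z : V) : Prop := Off x m B z ∧ ∃ u, G.Adj (x a) u ∧ OffReach G x m B u z

/-- bridge between `x a` and `x e` : an edge, or a common off-path component. -/
def Br (a e : ℕ) : Prop := G.Adj (x a) (x e) ∨ ∃ z, Att G x m B a z ∧ Att G x m B e z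

/-- every attachment of the off-path component of `z` is at most `b`. -/
def Low (b : ℕ) (z : V) : Prop := ∀ e ≤ m, Att G x m B e z → e ≤ b

variable {G x m B}

lemma OffReach.symm {u v : V} (h : OffReach G x m B u v) : OffReach G x m B v u := by
  obtain ⟨w, hw⟩ := h
  exact ⟨w.reverse, fun y hy => hw y (by simpa using hy)⟩

lemma OffReach.trans {u v t : V} (h : OffReach G x m B u v) (h' : OffReach G x m B v t) :
    OffReach G x m B u t := by
  obtain ⟨w, hw⟩ := h
  obtain ⟨w', hw'⟩ := h'
  refine ⟨w.append w', fun y hy => ?_⟩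
  rcases (Walk.mem_support_append_iff _ _).1 hy with h1 | h1
  · exact hw y h1
  · exact hw' y h1

lemma OffReach.refl {u : V} (h : Off x m B u) : OffReach G x m B u u :=
  ⟨Walk.nil, fun y hy => by simp at hy; subst hy; exact h⟩

lemma Att.step {a : ℕ} {z y : V} (h : Att G x m B a z) (hy : Off x m B y) (hzy : G.Adj z y) :
    Att G x m B a y := by
  obtain ⟨hz, u, hu, hr⟩ := h
  refine ⟨hy, u, hu, hr.trans ?_⟩
  refine ⟨hzy.toWalk, fun t ht => ?_⟩
  simp only [Walk.support_cons, Walk.support_nil, List.mem_cons, List.not_mem_nil, or_false] at ht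
  rcases ht with rfl | rfl
  · exact hz
  · exact hy

/-- Two attachments to the same component give a bridge path. -/
lemma bridge_path {a e : ℕ} (hP : PathFn G x m) (ha : a ≤ m) (he : e ≤ m) (hae : a ≠ e)
    (h : Br G x m B a e) :
    ∃ q : G.Walk (x a) (x e), q.IsPath ∧
      ∀ z ∈ q.support, z = x a ∨ z = x e ∨ (Att G x m B a z ∧ Att G x m B e z) := by
  have hne : x a ≠ x e := fun h => hae (hP.inj _ ha _ he h)
  rcases h with h | ⟨z, hz1, hz2⟩
  · refine ⟨h.toWalk, by simpa using hne, fun z hz => ?_⟩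
    simp only [Walk.support_cons, Walk.support_nil, List.mem_cons, List.not_mem_nil,
      or_false] at hz
    rcases hz with rfl | rfl
    · exact Or.inl rfl
    · exact Or.inr (Or.inl rfl)
  · obtain ⟨hzo, u, hu, hr⟩ := hz1
    obtain ⟨_, v, hv, hr'⟩ := hz2
    obtain ⟨w, hw⟩ := hr.trans hr'.symm
    -- `w` from `u` to `v`, all off the path
    let w' := w.bypass
    have hw'p : w'.IsPath := w.bypass_isPath
    have hw's : ∀ y ∈ w'.support, y ∈ w.support := fun y hy => w.support_bypass_subset_support hy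
    have hoff : ∀ y ∈ w'.support, Off x m B y := fun y hy => hw y (hw's y hy)
    have hatt1 : ∀ y ∈ w'.support, Att G x m B a y := by
      intro y hy
      refine ⟨hoff y hy, u, hu, ?_⟩
      refine ⟨w'.takeUntil y hy, fun t ht => hoff t (Walk.support_takeUntil_subset_support _ _ ht)⟩
    have hatt2 : ∀ y ∈ w'.support, Att G x m B e y := by
      intro y hy
      refine ⟨hoff y hy, v, hv, ?_⟩
      refine OffReach.symm ?_
      refine ⟨w'.dropUntil y hy, fun t ht => hoff t (Walk.support_dropUntil_subset_support _ _ ht)⟩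
    refine ⟨Walk.cons hu (w'.concat hv.symm), ?_, ?_⟩
    · rw [Walk.cons_isPath_iff]
      constructor
      · apply hw'p.concat
        intro hc
        exact (hoff _ hc).2 e he rfl
      · rw [Walk.support_concat, List.mem_append, not_or]
        refine ⟨fun hc => (hoff _ hc).2 a ha rfl, ?_⟩
        simpa using hne
    · intro z hz
      rw [Walk.support_cons, List.mem_cons, Walk.support_concat, List.mem_append,
        List.mem_singleton] at hz
      rcases hz with rfl | hz | rfl
      · exact Or.inl rfl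
      · exact Or.inr (Or.inr ⟨hatt1 z hz, hatt2 z hz⟩)
      · exact Or.inr (Or.inl rfl)

/-- No cut vertex gives a bridge jumping over each interior vertex of the path. -/
lemma exists_bridge_over (hP : PathFn G x m) (hB : ∀ i ≤ m, x i ∈ B) (hc : Conn2 G B)
    {b : ℕ} (hb0 : 0 < b) (hbm : b < m) :
    ∃ a, a < b ∧ ∃ e, b < e ∧ e ≤ m ∧ Br G x m B a e := by
  by_contra hno
  push Not at hno
  -- the left part
  let Left : V → Prop := fun y => (∃ i, i < b ∧ y = x i) ∨ (∃ i, i < b ∧ Att G x m B i y)
  have hstep : ∀ (y t : V), Left y → G.Adj y t → t ∈ B → t ≠ x b → Left t := by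
    intro y t hy hyt htB htb
    by_cases hoff : Off x m B t
    · rcases hy with ⟨i, hi, rfl⟩ | ⟨i, hi, hatt⟩
      · exact Or.inr ⟨i, hi, hoff, t, hyt, OffReach.refl hoff⟩
      · exact Or.inr ⟨i, hi, hatt.step hoff hyt⟩
    · have : ∃ e ≤ m, t = x e := by
        by_contra hcon
        push Not at hcon
        exact hoff ⟨htB, hcon⟩
      obtain ⟨e, he, rfl⟩ := this
      have heb : e ≠ b := fun h => htb (by rw [h])
      by_cases hlt : e < b
      · exact Or.inl ⟨e, hlt, rfl⟩
      · exfalso
        have hgt : b < e := by omega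
        rcases hy with ⟨i, hi, rfl⟩ | ⟨i, hi, hatt⟩
        · exact hno i hi e hgt he (Or.inl hyt)
        · refine hno i hi e hgt he (Or.inr ⟨y, hatt, hatt.1, x e |> fun _ => ?_⟩)
          exact ⟨y, hyt.symm, OffReach.refl hatt.1⟩
  have hwalk : ∀ {u v : V} (w : G.Walk u v), Left u → (∀ y ∈ w.support, y ∈ B ∧ y ≠ x b) → Left v := by
    intro u v w
    induction w with
    | nil => intro h _; exact h
    | cons h p ih =>
      intro hu hs
      apply ih
      · exact hstep _ _ hu h (hs _ (by simp)).1 (hs _ (by simp)).2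
      · intro y hy
        exact hs y (by simp [hy])
  have hne0 : x 0 ≠ x b := fun h => by
    have := hP.inj 0 (by omega) b (by omega) h
    omega
  have hnem : x m ≠ x b := fun h => by
    have := hP.inj m (le_refl _) b (by omega) h
    omega
  obtain ⟨w, hw⟩ := hc (x b) (hB b (by omega)) (x 0) (hB 0 (by omega)) (x m) (hB m (le_refl _))
    hne0 hnem
  have hfin := hwalk w (Or.inl ⟨0, hb0, rfl⟩) hw
  rcases hfin with ⟨i, hi, h⟩ | ⟨i, hi, hatt⟩
  · have := hP.inj m (le_refl _) i (by omega) h
    omega
  · exact hatt.1.2 m (le_refl _) rfl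

/-- maximal top end of a bridge jumping over `b`. -/
lemma exists_max_bridge (hP : PathFn G x m) (hB : ∀ i ≤ m, x i ∈ B) (hc : Conn2 G B)
    {b : ℕ} (hb0 : 0 < b) (hbm : b < m) :
    ∃ a, a < b ∧ ∃ e, b < e ∧ e ≤ m ∧ Br G x m B a e ∧
      ∀ a' < b, ∀ e' ≤ m, Br G x m B a' e' → e' ≤ e := by
  classical
  obtain ⟨a0, ha0, e0, he0, he0m, hbr0⟩ := exists_bridge_over hP hB hc hb0 hbm
  let S : Finset ℕ := (Finset.range (m + 1)).filter (fun e => b < e ∧ ∃ a, a < b ∧ Br G x m B a e)
  have hS : S.Nonempty := ⟨e0, by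
    simp only [S, Finset.mem_filter, Finset.mem_range]
    exact ⟨by omega, he0, a0, ha0, hbr0⟩⟩
  let e := S.max' hS
  have he : e ∈ S := S.max'_mem hS
  simp only [S, Finset.mem_filter, Finset.mem_range] at he
  obtain ⟨hem, hbe, a, ha, hbr⟩ := he
  refine ⟨a, ha, e, hbe, by omega, hbr, ?_⟩
  intro a' ha' e' he' hbr'
  by_cases h : e' ≤ b
  · omega
  · apply S.le_max'
    simp only [S, Finset.mem_filter, Finset.mem_range]
    exact ⟨by omega, by omega, a', ha', hbr'⟩

/-- a walk from `x a` to `x e` inside `B` whose on-path vertices are controlled -/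
structure InvW (hi0 : ℕ) (b0 b1 a : ℕ) (W : G.Walk (x b1) (x a)) : Prop where
  path : W.IsPath
  zero : x 0 ∈ W.support
  nbr : ∀ i ≤ m, G.Adj (x 0) (x i) → x i ∈ W.support
  seg : ∀ i, b0 ≤ i → i ≤ a → x i ∈ W.support
  cls : ∀ z ∈ W.support, z = x b1 ∨ (∃ i, i ≤ a ∧ z = x i) ∨ (Off x m B z ∧ Low G x m B b1 z)

/-- The invariant of the greedy bridge chain. -/
structure Inv (b0 b1 : ℕ) : Prop where
  lt : b0 < b1
  le : b1 ≤ m
  prop : ∀ a < b0, ∀ e ≤ m, Br G x m B a e → e ≤ b1
  W : ∀ a, b0 ≤ a → a < b1 → ∃ W : G.Walk (x b1) (x a), InvW (G := G) (x := x) (m := m) (B := B) 0 b0 b1 a W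

lemma inv_base (hP : PathFn G x m) (hB : ∀ i ≤ m, x i ∈ B) (hc : Conn2 G B) {s : ℕ}
    (hs0 : 0 < s) (hsm : s < m) (hadj : G.Adj (x 0) (x s))
    (hmax : ∀ i ≤ m, G.Adj (x 0) (x i) → i ≤ s) :
    ∃ b1, Inv (G := G) (x := x) (m := m) (B := B) s b1 := by
  classical
  obtain ⟨a1, ha1, b1, hb1, hb1m, hbr, hbmax⟩ := exists_max_bridge hP hB hc hs0 hsm
  refine ⟨b1, hb1, hb1m, hbmax, ?_⟩
  intro a hsa hab1
  obtain ⟨q, hq, hqs⟩ := bridge_path hP (by omega) hb1m (by omega) hbr
  -- i0 = first neighbour of x 0 beyond a1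
  have hex : ∃ i, a1 < i ∧ G.Adj (x 0) (x i) := ⟨s, ha1, hadj⟩
  let i0 := Nat.find hex
  have hi0 : a1 < i0 ∧ G.Adj (x 0) (x i0) := Nat.find_spec hex
  have hi0min : ∀ i, i < i0 → ¬ (a1 < i ∧ G.Adj (x 0) (x i)) := fun i hi => Nat.find_min hex hi
  have hi0s : i0 ≤ s := Nat.find_min' hex ⟨ha1, hadj⟩
  obtain ⟨seg1, hseg1, hseg1s⟩ := exists_seg (G := G) x m hP.adj hP.inj 0 a1 (by omega) (by omega)
  obtain ⟨seg2, hseg2, hseg2s⟩ := exists_seg (G := G) x m hP.adj hP.inj i0 a (by omega) (by omega)
  let tail : G.Walk (x 0) (x a) := Walk.cons hi0.2 seg2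
  have hx0seg2 : x 0 ∉ seg2.support := by
    intro hc'
    obtain ⟨t, h1, h2, h3⟩ := (hseg2s _).1 hc'
    have := hP.inj 0 (by omega) t (by omega) h3
    omega
  have htail : tail.IsPath := hseg2.cons hx0seg2
  have htails : ∀ z, z ∈ tail.support ↔ z = x 0 ∨ ∃ t, i0 ≤ t ∧ t ≤ a ∧ z = x t := by
    intro z
    simp only [tail, Walk.support_cons, List.mem_cons, hseg2s]
  have hmid : (seg1.reverse.append tail).IsPath := by
    apply isPath_append' hseg1.reverse htail
    intro z hz hz'
    rw [Walk.support_reverse, List.mem_reverse, hseg1s] at hz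
    obtain ⟨t, h1, h2, rfl⟩ := hz
    rcases (htails _).1 hz' with h | ⟨t', h3, h4, h5⟩
    · exact h
    · have := hP.inj t (by omega) t' (by omega) h5
      omega
  refine ⟨q.reverse.append (seg1.reverse.append tail), ?_⟩
  have hmems : ∀ z, z ∈ (seg1.reverse.append tail).support ↔
      (∃ t, 0 ≤ t ∧ t ≤ a1 ∧ z = x t) ∨ z = x 0 ∨ ∃ t, i0 ≤ t ∧ t ≤ a ∧ z = x t := by
    intro z
    rw [Walk.mem_support_append_iff, Walk.support_reverse, List.mem_reverse, hseg1s, htails]
  constructor
  · apply isPath_append' hq.reverse hmid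
    intro z hz hz'
    rw [Walk.support_reverse, List.mem_reverse] at hz
    have hz2 : ∃ t, t < b1 ∧ z = x t := by
      rcases (hmems z).1 hz' with ⟨t, h1, h2, h3⟩ | h | ⟨t, h1, h2, h3⟩
      · exact ⟨t, by omega, h3⟩
      · exact ⟨0, by omega, h⟩
      · exact ⟨t, by omega, h3⟩
    obtain ⟨t, ht, rfl⟩ := hz2
    rcases hqs _ hz with h | h | h
    · exact h
    · have := hP.inj t (by omega) b1 hb1m h
      omega
    · exact absurd rfl (h.1.1.2 t (by omega))
  · rw [Walk.mem_support_append_iff]; right
    rw [hmems]; right; left; rfl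
  · intro i him hi
    rw [Walk.mem_support_append_iff]; right
    rw [hmems]
    by_cases h : i ≤ a1
    · left; exact ⟨i, by omega, h, rfl⟩
    · right; right
      have h1 : i0 ≤ i := by
        by_contra hlt
        exact hi0min i (by omega) ⟨by omega, hi⟩
      exact ⟨i, h1, by have := hmax i him hi; omega, rfl⟩
  · intro i h1 h2
    rw [Walk.mem_support_append_iff]; right
    rw [hmems]; right; right
    exact ⟨i, by omega, h2, rfl⟩
  · intro z hz
    rw [Walk.mem_support_append_iff, Walk.support_reverse, List.mem_reverse] at hz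
    rcases hz with hz | hz
    · rcases hqs z hz with h | h | h
      · right; left; exact ⟨a1, by omega, h⟩
      · left; exact h
      · right; right
        refine ⟨h.1.1, fun e he hatt => ?_⟩
        exact hbmax a1 ha1 e he (Or.inr ⟨z, h.1, hatt⟩)
    · right; left
      rcases (hmems z).1 hz with ⟨t, h1, h2, h3⟩ | h | ⟨t, h1, h2, h3⟩
      · exact ⟨t, by omega, h3⟩
      · exact ⟨0, by omega, h⟩
      · exact ⟨t, h2, h3⟩

lemma inv_step (hP : PathFn G x m) (hB : ∀ i ≤ m, x i ∈ B) (hc : Conn2 G B) {b0 b1 : ℕ}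
    (hb0 : 0 < b1) (hb1 : b1 < m) (hI : Inv (G := G) (x := x) (m := m) (B := B) b0 b1) :
    ∃ b2, Inv (G := G) (x := x) (m := m) (B := B) b1 b2 := by
  classical
  obtain ⟨a', ha', b2, hb2, hb2m, hbr, hbmax⟩ := exists_max_bridge hP hB hc hb0 hb1
  have hprop : ∀ a < b1, ∀ e ≤ m, Br G x m B a e → e ≤ b2 := hbmax
  refine ⟨b2, hb2, hb2m, hprop, ?_⟩
  intro a hsa hab2
  -- a' ≥ b0
  have ha'0 : b0 ≤ a' := by
    by_contra hlt
    have := hI.prop a' (by omega) b2 hb2m hbr
    omega
  obtain ⟨W0, hW0⟩ := hI.W a' ha'0 ha'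
  obtain ⟨q, hq, hqs⟩ := bridge_path hP (by omega) hb2m (by omega) hbr
  obtain ⟨seg3, hseg3, hseg3s⟩ := exists_seg (G := G) x m hP.adj hP.inj b1 a (by omega) (by omega)
  have hmid : (W0.reverse.append seg3).IsPath := by
    apply isPath_append' hW0.path.reverse hseg3
    intro z hz hz'
    rw [Walk.support_reverse, List.mem_reverse] at hz
    obtain ⟨t, h1, h2, rfl⟩ := (hseg3s _).1 hz'
    rcases hW0.cls _ hz with h | ⟨i, hi, h⟩ | h
    · exact h
    · have := hP.inj t (by omega) i (by omega) h
      omega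
    · exact absurd rfl (h.1.2 t (by omega))
  refine ⟨q.reverse.append (W0.reverse.append seg3), ?_⟩
  have hmems : ∀ z, z ∈ (W0.reverse.append seg3).support ↔
      z ∈ W0.support ∨ ∃ t, b1 ≤ t ∧ t ≤ a ∧ z = x t := by
    intro z
    rw [Walk.mem_support_append_iff, Walk.support_reverse, List.mem_reverse, hseg3s]
  constructor
  · apply isPath_append' hq.reverse hmid
    intro z hz hz'
    rw [Walk.support_reverse, List.mem_reverse] at hz
    rcases hqs z hz with h | h | h
    · exact h
    · exfalso
      subst h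
      rcases (hmems _).1 hz' with h1 | ⟨t, h1, h2, h3⟩
      · rcases hW0.cls _ h1 with h | ⟨i, hi, h⟩ | h
        · have := hP.inj b2 hb2m b1 (by omega) h
          omega
        · have := hP.inj b2 hb2m i (by omega) h
          omega
        · exact h.1.2 b2 hb2m rfl
      · have := hP.inj b2 hb2m t (by omega) h3
        omega
    · exfalso
      rcases (hmems _).1 hz' with h1 | ⟨t, h1, h2, h3⟩
      · rcases hW0.cls _ h1 with h' | ⟨i, hi, h'⟩ | h'
        · exact h.1.1.2 b1 (by omega) h'
        · exact h.1.1.2 i (by omega) h'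
        · have := h'.2 b2 hb2m h.2
          omega
      · exact h.1.1.2 t (by omega) h3
  · rw [Walk.mem_support_append_iff]; right
    rw [hmems]; left; exact hW0.zero
  · intro i him hi
    rw [Walk.mem_support_append_iff]; right
    rw [hmems]; left; exact hW0.nbr i him hi
  · intro i h1 h2
    rw [Walk.mem_support_append_iff]; right
    rw [hmems]; right
    exact ⟨i, h1, h2, rfl⟩
  · intro z hz
    rw [Walk.mem_support_append_iff, Walk.support_reverse, List.mem_reverse] at hz
    rcases hz with hz | hz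
    · rcases hqs z hz with h | h | h
      · right; left; exact ⟨a', by omega, h⟩
      · left; exact h
      · right; right
        refine ⟨h.1.1, fun e he hatt => ?_⟩
        exact hbmax a' ha' e he (Or.inr ⟨z, h.1, hatt⟩)
    · rcases (hmems z).1 hz with h1 | ⟨t, h1, h2, h3⟩
      · rcases hW0.cls _ h1 with h | ⟨i, hi, h⟩ | h
        · right; left; exact ⟨b1, by omega, h⟩
        · right; left; exact ⟨i, by omega, h⟩
        · right; right
          refine ⟨h.1, fun e he hatt => ?_⟩
          have := h.2 e he hatt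
          omega
      · right; left; exact ⟨t, h2, h3⟩

/-- Greedy chain reaches beyond `t`. -/
lemma inv_chain (hP : PathFn G x m) (hB : ∀ i ≤ m, x i ∈ B) (hc : Conn2 G B) {s t : ℕ}
    (hs0 : 0 < s) (hsm : s < m) (hadj : G.Adj (x 0) (x s))
    (hmax : ∀ i ≤ m, G.Adj (x 0) (x i) → i ≤ s) (hst : s ≤ t) (htm : t < m) :
    ∃ b0 b1, b0 ≤ t ∧ t < b1 ∧ Inv (G := G) (x := x) (m := m) (B := B) b0 b1 := by
  obtain ⟨b1, hb1⟩ := inv_base hP hB hc hs0 hsm hadj hmax
  -- induct on the distance m - b1
  suffices H : ∀ n b0 b1, m - b1 = n → b0 ≤ t → 0 < b0 →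
      Inv (G := G) (x := x) (m := m) (B := B) b0 b1 →
      ∃ b0' b1', b0' ≤ t ∧ t < b1' ∧ Inv (G := G) (x := x) (m := m) (B := B) b0' b1' from
    H _ s b1 rfl hst hs0 hb1
  intro n
  induction n using Nat.strong_induction_on with
  | _ n ih =>
    intro b0 b1 hn hb0t hb00 hI
    by_cases h : t < b1
    · exact ⟨b0, b1, hb0t, h, hI⟩
    · have hb1m : b1 < m := by omega
      have hb10 : 0 < b1 := by have := hI.lt; omega
      obtain ⟨b2, hb2⟩ := inv_step hP hB hc hb10 hb1m hI
      exact ih (m - b2) (by have := hb2.lt; have := hb2.le; omega) b1 b2 rfl (by omega) hb10 hb2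

end Bridge

lemma two_le_length {u v z : V} (p : G.Walk u v) (hz : z ∈ p.support) (hu : z ≠ u) (hv : z ≠ v) :
    2 ≤ p.length := by
  cases p with
  | nil => simp at hz; exact absurd hz hu
  | cons h q =>
    cases q with
    | nil =>
      simp only [Walk.support_cons, Walk.support_nil, List.mem_cons, List.not_mem_nil,
        or_false] at hz
      rcases hz with rfl | rfl
      · exact absurd rfl hu
      · exact absurd rfl hv
    | cons h' q' => simp only [Walk.length_cons]; omega

/-- Bondy's lemma. -/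
theorem bondy {x : ℕ → V} {m : ℕ} {B : Set V} (hm : 2 ≤ m) (hP : PathFn G x m)
    (hB : ∀ i ≤ m, x i ∈ B) (hc : Conn2 G B) :
    ∃ (v : V) (c : G.Walk v v), c.IsCycle ∧ (∀ z ∈ c.support, z ∈ B) ∧
      x 0 ∈ c.support ∧ x m ∈ c.support ∧
      (∀ i ≤ m, G.Adj (x 0) (x i) → x i ∈ c.support) ∧
      (∀ i ≤ m, G.Adj (x m) (x i) → x i ∈ c.support) := by
  classical
  have hne0m : x 0 ≠ x m := fun h => by
    have := hP.inj 0 (by omega) m (le_refl _) h
    omega
  by_cases h0m : G.Adj (x 0) (x m)
  · -- spanning cycle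
    obtain ⟨seg, hseg, hsegs⟩ := exists_seg (G := G) x m hP.adj hP.inj 0 m (by omega) (le_refl _)
    have hlen : 2 ≤ seg.length := by
      apply two_le_length seg (z := x 1) ((hsegs _).2 ⟨1, by omega, by omega, rfl⟩)
      · intro h
        have := hP.inj 1 (by omega) 0 (by omega) h
        omega
      · intro h
        have := hP.inj 1 (by omega) m (le_refl _) h
        omega
    have hmem : ∀ i ≤ m, x i ∈ (Walk.cons h0m.symm seg).support := by
      intro i hi
      rw [Walk.support_cons, List.mem_cons]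
      right
      exact (hsegs _).2 ⟨i, by omega, hi, rfl⟩
    refine ⟨_, Walk.cons h0m.symm seg, cycle_of_path hseg _ hlen, ?_, hmem 0 (by omega),
      hmem m (le_refl _), fun i hi _ => hmem i hi, fun i hi _ => hmem i hi⟩
    intro z hz
    rw [Walk.support_cons, List.mem_cons] at hz
    rcases hz with rfl | hz
    · exact hB m (le_refl _)
    · obtain ⟨t, h1, h2, rfl⟩ := (hsegs _).1 hz
      exact hB t h2
  -- the two extreme neighbours
  let P : ℕ → Prop := fun i => G.Adj (x 0) (x i)
  let R : ℕ → Prop := fun i => G.Adj (x m) (x i)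
  have hP1 : P 1 := hP.adj 0 (by omega)
  have hRm : R (m - 1) := by
    have := hP.adj (m - 1) (by omega)
    have e : m - 1 + 1 = m := by omega
    rw [e] at this
    exact this.symm
  let s := Nat.findGreatest P m
  have hsP : P s := Nat.findGreatest_spec (P := P) (m := 1) (by omega) hP1
  have hsmax : ∀ i ≤ m, P i → i ≤ s := fun i hi hPi => Nat.le_findGreatest hi hPi
  have hs1 : 1 ≤ s := hsmax 1 (by omega) hP1
  have hsm : s < m := by
    have h1 : s ≤ m := Nat.findGreatest_le m
    rcases Nat.lt_or_ge s m with h | h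
    · exact h
    · have : s = m := by omega
      rw [this] at hsP
      exact absurd hsP h0m
  have hexR : ∃ i, R i := ⟨m - 1, hRm⟩
  let t := Nat.find hexR
  have htR : R t := Nat.find_spec hexR
  have htmin : ∀ i, R i → t ≤ i := fun i hi => Nat.find_min' hexR hi
  have ht1 : t ≠ 0 := by
    intro h
    rw [h] at htR
    exact h0m htR.symm
  have htm : t < m := by
    have := htmin _ hRm
    omega
  by_cases hover : t < s
  · -- overlap
    have hexP : ∃ e, t < e ∧ P e := ⟨s, hover, hsP⟩
    let i' := Nat.find hexP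
    have hi' : t < i' ∧ P i' := Nat.find_spec hexP
    have hi'min : ∀ e, t < e → P e → i' ≤ e := fun e h1 h2 => Nat.find_min' hexP ⟨h1, h2⟩
    have hi's : i' ≤ s := hi'min s hover hsP
    let i := Nat.findGreatest R (i' - 1)
    have htle : t ≤ i' - 1 := by have := hi'.1; omega
    have hiR : R i := Nat.findGreatest_spec (P := R) (m := t) htle htR
    have himax : ∀ y, y ≤ i' - 1 → R y → y ≤ i := fun y hy hR => Nat.le_findGreatest hy hR
    have hit : t ≤ i := himax t htle htR
    have hii' : i < i' := by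
      have h1 : i ≤ i' - 1 := Nat.findGreatest_le _
      have := hi'.1
      omega
    have hi0 : i ≠ 0 := by omega
    have hi'm : i' ≤ m := by omega
    obtain ⟨seg1, hseg1, hseg1s⟩ := exists_seg (G := G) x m hP.adj hP.inj 0 i (by omega) (by omega)
    obtain ⟨seg2, hseg2, hseg2s⟩ := exists_seg (G := G) x m hP.adj hP.inj i' m (by omega) (le_refl _)
    let tail : G.Walk (x i) (x i') := Walk.cons hiR.symm seg2.reverse
    have hxi : x i ∉ seg2.reverse.support := by
      rw [Walk.support_reverse, List.mem_reverse]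
      intro hc'
      obtain ⟨t', h1, h2, h3⟩ := (hseg2s _).1 hc'
      have := hP.inj i (by omega) t' (by omega) h3
      omega
    have htail : tail.IsPath := hseg2.reverse.cons hxi
    have htails : ∀ z, z ∈ tail.support ↔ z = x i ∨ ∃ t', i' ≤ t' ∧ t' ≤ m ∧ z = x t' := by
      intro z
      simp only [tail, Walk.support_cons, List.mem_cons, Walk.support_reverse, List.mem_reverse,
        hseg2s]
    have hpath : (seg1.append tail).IsPath := by
      apply isPath_append' hseg1 htail
      intro z hz hz'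
      obtain ⟨t1, h1, h2, rfl⟩ := (hseg1s _).1 hz
      rcases (htails _).1 hz' with h | ⟨t', h3, h4, h5⟩
      · exact h
      · have := hP.inj t1 (by omega) t' (by omega) h5
        omega
    have hmems : ∀ z, z ∈ (seg1.append tail).support ↔
        (∃ t1, 0 ≤ t1 ∧ t1 ≤ i ∧ z = x t1) ∨ z = x i ∨ ∃ t', i' ≤ t' ∧ t' ≤ m ∧ z = x t' := by
      intro z
      rw [Walk.mem_support_append_iff, hseg1s, htails]
    have hlen : 2 ≤ (seg1.append tail).length := by
      apply two_le_length _ (z := x i) ((hmems _).2 (Or.inr (Or.inl rfl)))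
      · intro h
        have := hP.inj i (by omega) 0 (by omega) h
        omega
      · intro h
        have := hP.inj i (by omega) i' (by omega) h
        omega
    have hcy := cycle_of_path hpath (hi'.2.symm) hlen
    have hmemc : ∀ z, z ∈ (Walk.cons hi'.2.symm (seg1.append tail)).support ↔
        z = x i' ∨ z ∈ (seg1.append tail).support := by
      intro z
      rw [Walk.support_cons, List.mem_cons]
    refine ⟨_, _, hcy, ?_, ?_, ?_, ?_, ?_⟩
    · intro z hz
      rcases (hmemc z).1 hz with rfl | hz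
      · exact hB _ hi'm
      · rcases (hmems z).1 hz with ⟨t1, h1, h2, rfl⟩ | rfl | ⟨t', h1, h2, rfl⟩
        · exact hB _ (by omega)
        · exact hB _ (by omega)
        · exact hB _ h2
    · rw [hmemc]; right; rw [hmems]; left; exact ⟨0, by omega, by omega, rfl⟩
    · rw [hmemc]; right; rw [hmems]; right; right; exact ⟨m, by omega, le_refl _, rfl⟩
    · intro e he hadj
      rw [hmemc]; right; rw [hmems]
      by_cases h1 : e ≤ i
      · left; exact ⟨e, by omega, h1, rfl⟩
      · right; right
        exact ⟨e, hi'min e (by omega) hadj, he, rfl⟩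
    · intro e he hadj
      rw [hmemc]; right; rw [hmems]
      by_cases h1 : e ≤ i
      · left; exact ⟨e, by omega, h1, rfl⟩
      · right; right
        refine ⟨e, ?_, he, rfl⟩
        by_contra hlt
        have := himax e (by omega) hadj
        omega
  · -- non overlap
    have hst : s ≤ t := by omega
    obtain ⟨b0, b1, hb0t, htb1, hI⟩ := inv_chain hP hB hc hs1 hsm hsP hsmax hst htm
    let j := Nat.findGreatest R (b1 - 1)
    have htle : t ≤ b1 - 1 := by omega
    have hjR : R j := Nat.findGreatest_spec (P := R) (m := t) htle htR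
    have hjmax : ∀ y, y ≤ b1 - 1 → R y → y ≤ j := fun y hy hR => Nat.le_findGreatest hy hR
    have htj : t ≤ j := hjmax t htle htR
    have hjb1 : j < b1 := by
      have h1 : j ≤ b1 - 1 := Nat.findGreatest_le _
      omega
    have hb1m := hI.le
    obtain ⟨W, hW⟩ := hI.W j (by omega) hjb1
    obtain ⟨seg, hseg, hsegs⟩ := exists_seg (G := G) x m hP.adj hP.inj b1 m hb1m (le_refl _)
    have hpath : (seg.reverse.append W).IsPath := by
      apply isPath_append' hseg.reverse hW.path
      intro z hz hz'
      rw [Walk.support_reverse, List.mem_reverse] at hz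
      obtain ⟨t1, h1, h2, rfl⟩ := (hsegs _).1 hz
      rcases hW.cls _ hz' with h | ⟨i, hi, h⟩ | h
      · exact h
      · have := hP.inj t1 (by omega) i (by omega) h
        omega
      · exact absurd rfl (h.1.2 t1 h2)
    have hmems : ∀ z, z ∈ (seg.reverse.append W).support ↔
        (∃ t1, b1 ≤ t1 ∧ t1 ≤ m ∧ z = x t1) ∨ z ∈ W.support := by
      intro z
      rw [Walk.mem_support_append_iff, Walk.support_reverse, List.mem_reverse, hsegs]
    have hj0 : j ≠ 0 := by omega
    have hlen : 2 ≤ (seg.reverse.append W).length := by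
      apply two_le_length _ (z := x 0) ((hmems _).2 (Or.inr hW.zero))
      · intro h
        have := hP.inj 0 (by omega) m (le_refl _) h
        omega
      · intro h
        have := hP.inj 0 (by omega) j (by omega) h
        omega
    have hcy := cycle_of_path hpath hjR.symm hlen
    have hmemc : ∀ z, z ∈ (Walk.cons hjR.symm (seg.reverse.append W)).support ↔
        z = x j ∨ z ∈ (seg.reverse.append W).support := by
      intro z
      rw [Walk.support_cons, List.mem_cons]
    refine ⟨_, _, hcy, ?_, ?_, ?_, ?_, ?_⟩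
    · intro z hz
      rcases (hmemc z).1 hz with rfl | hz
      · exact hB _ (by omega)
      · rcases (hmems z).1 hz with ⟨t1, h1, h2, rfl⟩ | hz
        · exact hB _ h2
        · rcases hW.cls _ hz with rfl | ⟨i, hi, rfl⟩ | h
          · exact hB _ hb1m
          · exact hB _ (by omega)
          · exact h.1.1
    · rw [hmemc]; right; rw [hmems]; right; exact hW.zero
    · rw [hmemc]; right; rw [hmems]; left; exact ⟨m, hb1m, le_refl _, rfl⟩
    · intro e he hadj
      rw [hmemc]; right; rw [hmems]; right; exact hW.nbr e he hadj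
    · intro e he hadj
      rw [hmemc]; right; rw [hmems]
      by_cases h1 : b1 ≤ e
      · left; exact ⟨e, h1, he, rfl⟩
      · right
        have h2 : e ≤ j := hjmax e (by omega) hadj
        have h3 : t ≤ e := htmin e hadj
        exact hW.seg e (by omega) h2

end Crest.Agent.CycleRamsey
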