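import Crest.Agent.Lib.CycleRamsey.RuleC

/-!
# The crossing (2-opt) lemma (helper11, row 54, S0075)

`crossing`: `v` a cycle, `v (i+1), v (j+1)` in the clique `Q`, `v i ≠ v j`, `g` a path from `v i` to
`v j` with interior off the cycle.  Then there is a cycle with vertex set `V(v) ∪ V(g)`.
`crossing_excl`: in the main range `r + 3 ≤ q` such a path with `1 ≤ s ≤ q - 1` interior vertices
is impossible for a longest cycle through `Q` of length at most `k` when `G` has no `C_{k+1}`.
-/

set_option autoImplicit false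
set_option linter.unusedSectionVars false
set_option linter.unusedVariables false
set_option linter.unreachableTactic false
set_option linter.unusedTactic false

namespace Crest.Agent.CycleRamsey

open SimpleGraph
open Crest.Agent.Lib.CycleRamsey (HasCycle)

variable {V : Type} [DecidableEq V] {G : SimpleGraph V}

/-- The 2-opt cycle, starting along `g`. -/
theorem crossing' {n : ℕ} {v : ℤ → V} (hc : CycFn G n v) {Q : Finset V}
    (hQ : ∀ x ∈ Q, ∀ y ∈ Q, x ≠ y → G.Adj x y) {i j : ℤ} (hi : v (i + 1) ∈ Q) (hj : v (j + 1) ∈ Q)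
    (hij : v i ≠ v j) (g : G.Walk (v i) (v j)) (hg : g.IsPath)
    (hoff : ∀ z ∈ g.support, z ≠ v i → z ≠ v j → ∀ t, z ≠ v t) (hlen : 2 ≤ g.length) :
    ∃ (u : V) (c : G.Walk u u), c.IsCycle ∧ c.length + 1 = n + g.length ∧
      (∀ z, z ∈ c.support ↔ (∃ t, z = v t) ∨ z ∈ g.support) ∧
      ∀ t, t < g.length → c.getVert t = g.getVert t := by
  classical
  have hn3 := hc.n_ge
  -- the base path
  let w : ℕ → V := fun t => v (i + 1 + t)
  have hP : PathFn G w (n - 1) := by
    refine ⟨fun t _ => ?_, fun s hs t ht h => ?_⟩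
    · have := hc.adj (i + 1 + t)
      have e : i + 1 + ((t + 1 : ℕ) : ℤ) = i + 1 + t + 1 := by push_cast; ring
      simp only [w]
      rw [e]
      exact this
    · have := hc.inj_window h (by omega) (by omega)
      omega
  have hwlast : w (n - 1) = v i := by
    simp only [w]
    rw [hc.eq_iff]
    have : i + 1 + ((n - 1 : ℕ) : ℤ) - i = n := by omega
    rw [this]
  -- position of `v j`
  obtain ⟨d, hd, hdj⟩ := hc.exists_window (i + 1) j
  -- `v j = w d`, d < n - 1 since `v j ≠ v i`
  have hdj' : v j = w d := hdj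
  have hdlt : d < n - 1 := by
    by_contra hcon
    have : d = n - 1 := by omega
    apply hij
    rw [hdj', this, hwlast]
  have hsucc : v (j + 1) = w (d + 1) := by
    have h1 := (hc.eq_iff _ _).1 hdj
    simp only [w]
    rw [hc.eq_iff]
    have e : j + 1 - (i + 1 + ((d + 1 : ℕ) : ℤ)) = j - (i + 1 + (d : ℤ)) := by push_cast; ring
    rw [e]
    exact h1
  have hw0 : w 0 = v (i + 1) := by simp [w]
  have hw0Q : w 0 ∈ Q := by rw [hw0]; exact hi
  have hwdQ : w (d + 1) ∈ Q := by rw [← hsucc]; exact hj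
  have hwinj := hP.inj
  have hne : w 0 ≠ w (d + 1) := by
    intro h
    have := hwinj 0 (by omega) (d + 1) (by omega) h
    omega
  have hedge : G.Adj (w 0) (w (d + 1)) := hQ _ hw0Q _ hwdQ hne
  obtain ⟨A, hA, hAs⟩ := exists_seg (G := G) w (n - 1) hP.adj hP.inj 0 d (by omega) (by omega)
  obtain ⟨B, hB, hBs⟩ := exists_seg (G := G) w (n - 1) hP.adj hP.inj (d + 1) (n - 1) (by omega) (le_refl _)
  -- lengths by support counting
  have hlenS : ∀ {a b : ℕ} (hab : a ≤ b) (hb : b ≤ n - 1) (W : G.Walk (w a) (w b)), W.IsPath →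
      (∀ z, z ∈ W.support ↔ ∃ t, a ≤ t ∧ t ≤ b ∧ z = w t) → W.length = b - a := by
    intro a b hab hb W hW hs
    have h1 : W.support.toFinset = (Finset.Icc a b).image w := by
      ext z
      simp only [List.mem_toFinset, Finset.mem_image, Finset.mem_Icc, hs]
      constructor
      · rintro ⟨t, h1, h2, rfl⟩
        exact ⟨t, ⟨h1, h2⟩, rfl⟩
      · rintro ⟨t, ⟨h1, h2⟩, rfl⟩
        exact ⟨t, h1, h2, rfl⟩
    have h2 := congrArg Finset.card h1
    rw [List.toFinset_card_of_nodup hW.support_nodup, Walk.length_support,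
      Finset.card_image_of_injOn, Nat.card_Icc] at h2
    · omega
    · intro s hs' t ht' hst
      simp only [Finset.coe_Icc, Set.mem_Icc] at hs' ht'
      exact hP.inj s (by omega) t (by omega) hst
  have hAl := hlenS (by omega) (by omega) A hA hAs
  have hBl := hlenS (by omega) (le_refl _) B hB hBs
  -- assemble
  let tail : G.Walk (w 0) (w (n - 1)) := Walk.cons hedge B
  have htail : tail.IsPath := by
    apply hB.cons
    intro hc'
    obtain ⟨t, h1, h2, h3⟩ := (hBs _).1 hc'
    have := hP.inj 0 (by omega) t (by omega) h3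
    omega
  have htails : ∀ z, z ∈ tail.support ↔ z = w 0 ∨ ∃ t, d + 1 ≤ t ∧ t ≤ n - 1 ∧ z = w t := by
    intro z
    simp only [tail, Walk.support_cons, List.mem_cons, hBs]
  have hp : (A.reverse.append tail).IsPath := by
    apply isPath_append' hA.reverse htail
    intro z hz hz'
    rw [Walk.support_reverse, List.mem_reverse] at hz
    obtain ⟨t, h1, h2, rfl⟩ := (hAs _).1 hz
    rcases (htails _).1 hz' with h | ⟨t', h3, h4, h5⟩
    · exact h
    · have := hP.inj t (by omega) t' (by omega) h5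
      omega
  have hpmem : ∀ z, z ∈ (A.reverse.append tail).support ↔ ∃ t, t ≤ n - 1 ∧ z = w t := by
    intro z
    rw [Walk.mem_support_append_iff, Walk.support_reverse, List.mem_reverse, hAs, htails]
    constructor
    · rintro (⟨t, h1, h2, rfl⟩ | rfl | ⟨t, h1, h2, rfl⟩)
      · exact ⟨t, by omega, rfl⟩
      · exact ⟨0, by omega, rfl⟩
      · exact ⟨t, h2, rfl⟩
    · rintro ⟨t, h1, rfl⟩
      by_cases h : t ≤ d
      · exact Or.inl ⟨t, by omega, h, rfl⟩
      · exact Or.inr (Or.inr ⟨t, by omega, h1, rfl⟩)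
  have hplen : (A.reverse.append tail).length + 1 = n := by
    simp only [Walk.length_append, Walk.length_reverse, tail, Walk.length_cons, hAl, hBl]
    omega
  -- `g` as a walk between the right vertices
  let g' : G.Walk (w (n - 1)) (w d) := g.copy hwlast.symm hdj'
  have hg' : g'.IsPath := (Walk.isPath_copy _ _ _).2 hg
  have hg's : ∀ z, z ∈ g'.support ↔ z ∈ g.support := by
    intro z
    simp only [g', Walk.support_copy]
  have hg'l : g'.length = g.length := by simp only [g', Walk.length_copy]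
  have aux : ∀ (L : List V) (a b : V), a = b → b ∈ L → a ∈ L := by
    intro L a b h hb
    rw [h]
    exact hb
  have hcyc : (g'.append (A.reverse.append tail)).IsCycle := by
    apply hg'.isCycle_append hp
    · intro z hz hz'
      have hzg : z ∈ g.support := (hg's z).1 (List.mem_of_mem_tail hz)
      have hzp := List.mem_of_mem_tail hz'
      obtain ⟨t, ht, rfl⟩ := (hpmem _).1 hzp
      -- z = w t is on the cycle, hence an end of g
      by_cases h1 : w t = v i
      · -- then z = w (n-1) is the start of g', not in its tail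
        have hnd := hg'.support_nodup
        rw [← Walk.cons_tail_support g', List.nodup_cons] at hnd
        exact hnd.1 (aux _ _ _ (hwlast.trans h1.symm) hz)
      · by_cases h2 : w t = v j
        · -- the start of the path p, not in its tail
          have hnd := hp.support_nodup
          rw [← Walk.cons_tail_support (A.reverse.append tail), List.nodup_cons] at hnd
          exact hnd.1 (aux _ _ _ (hdj'.symm.trans h2.symm) hz')
        · exact hoff _ hzg h1 h2 _ rfl
    · left
      rw [hg'l]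
      omega
  refine ⟨_, _, hcyc, ?_, ?_, ?_⟩
  · rw [Walk.length_append, hg'l]
    omega
  · intro z
    rw [Walk.mem_support_append_iff, hg's, hpmem]
    constructor
    · rintro (h | ⟨t, h1, rfl⟩)
      · exact Or.inr h
      · exact Or.inl ⟨_, rfl⟩
    · rintro (⟨t, rfl⟩ | h)
      · right
        obtain ⟨s, hs, h'⟩ := hc.exists_window (i + 1) t
        exact ⟨s, by omega, h'⟩
      · exact Or.inl h
  · intro t ht
    rw [Walk.getVert_append, if_pos (by rw [hg'l]; exact ht)]
    simp only [g', Walk.getVert_copy]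

/-- The 2-opt cycle. -/
theorem crossing {n : ℕ} {v : ℤ → V} (hc : CycFn G n v) {Q : Finset V}
    (hQ : ∀ x ∈ Q, ∀ y ∈ Q, x ≠ y → G.Adj x y) {i j : ℤ} (hi : v (i + 1) ∈ Q) (hj : v (j + 1) ∈ Q)
    (hij : v i ≠ v j) (g : G.Walk (v i) (v j)) (hg : g.IsPath)
    (hoff : ∀ z ∈ g.support, z ≠ v i → z ≠ v j → ∀ t, z ≠ v t) (hlen : 2 ≤ g.length) :
    ∃ (u : V) (c : G.Walk u u), c.IsCycle ∧ c.length + 1 = n + g.length ∧
      ∀ z, z ∈ c.support ↔ (∃ t, z = v t) ∨ z ∈ g.support := by
  obtain ⟨u, c, h1, h2, h3, _⟩ := crossing' hc hQ hi hj hij g hg hoff hlen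
  exact ⟨u, c, h1, h2, h3⟩

/-- Exclusion of short paths between units in the main range. -/
theorem crossing_excl {n r : ℕ} {v : ℤ → V} (hc : CycFn G n v) {Q : Finset V}
    (hQ : ∀ x ∈ Q, ∀ y ∈ Q, x ≠ y → G.Adj x y) (hQv : ∀ a ∈ Q, ∃ t, v t = a)
    (hr : r + 3 ≤ Q.card) (hn : n ≤ Q.card + r)
    (hno : ¬ HasCycle G (Q.card + r + 1))
    (hmax : ∀ (u : V) (c : G.Walk u u), c.IsCycle → (∀ a ∈ Q, a ∈ c.support) →
      c.length ≤ Q.card + r → c.length ≤ n)
    {i j : ℤ} (hi : v (i + 1) ∈ Q) (hj : v (j + 1) ∈ Q) (hij : v i ≠ v j)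
    (g : G.Walk (v i) (v j)) (hg : g.IsPath)
    (hoff : ∀ z ∈ g.support, z ≠ v i → z ≠ v j → ∀ t, z ≠ v t) (hlen : 2 ≤ g.length)
    (hlen2 : g.length ≤ Q.card) : False := by
  classical
  obtain ⟨u, c, hcy, hcl, hcs⟩ := crossing hc hQ hi hj hij g hg hoff hlen
  have hQc : ∀ a ∈ Q, a ∈ c.support := by
    intro a ha
    obtain ⟨t, rfl⟩ := hQv a ha
    exact (hcs _).2 (Or.inl ⟨t, rfl⟩)
  by_cases hL : c.length ≤ Q.card + r
  · have := hmax u c hcy hQc hL
    omega
  · apply hno
    refine ruleC_main (cycFn_of_isCycle hcy) hQ (fun a ha => exists_cyc_eq hcy (hQc a ha)) hr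
      (by omega) (by omega)

end Crest.Agent.CycleRamsey
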