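import Crest.Agent.Lib.CycleRamsey.ExclBig

/-!
# Dispatch of the exclusions for `q ≤ 7` (helper11, row 54, S0075)

`IsArc`: a maximal run of non-`Q` vertices of a cycle.
`HasEar G Q m`: a path with ends in `Q`, distinct, and exactly `m` interior vertices off `Q`.
`excl_fail`: the data of a failure of the exclusion.
`excl_small`: for `5 ≤ q ≤ 7`, `q ≤ r + 2`, `r < q` the failure gives an ear of weight exactly `r`
or (`q = 7`, `r = 6`) two disjoint ears of weight `3` with four distinct ends.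
-/

set_option autoImplicit false
set_option linter.unusedSectionVars false
set_option linter.unusedVariables false
set_option linter.unreachableTactic false
set_option linter.unusedTactic false

namespace Crest.Agent.CycleRamsey

open SimpleGraph
open Crest.Agent.Lib.CycleRamsey (HasCycle)

variable {V : Type} [DecidableEq V] {G : SimpleGraph V}

/-- A maximal run of non-`Q` vertices, positions `p, …, p + m - 1`. -/
structure IsArc (v : ℤ → V) (Q A : Finset V) (p : ℤ) (m : ℕ) : Prop where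
  left : v (p - 1) ∈ Q
  right : v (p + m) ∈ Q
  off : ∀ t : ℕ, t < m → v (p + t) ∉ Q
  mem : ∀ z, z ∈ A ↔ ∃ t : ℕ, t < m ∧ v (p + t) = z

section
variable {n : ℕ} {v : ℤ → V} {Q A : Finset V} {p : ℤ} {m : ℕ}

lemma shift_eq (hc : CycFn G n v) {x y : ℤ} (d : ℤ) (h : v x = v y) : v (x + d) = v (y + d) := by
  have h1 := (hc.eq_iff _ _).1 h
  rw [hc.eq_iff]
  have e : x + d - (y + d) = x - y := by ring
  rw [e]
  exact h1

lemma IsArc.closed (hc : CycFn G n v) (h : IsArc v Q A p m) : ArcClosed v Q A := by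
  refine ⟨?_, ?_, ?_, ?_⟩
  · intro z hz
    obtain ⟨t, ht, rfl⟩ := (h.mem z).1 hz
    exact h.off t ht
  · intro z hz
    obtain ⟨t, ht, rfl⟩ := (h.mem z).1 hz
    exact ⟨_, rfl⟩
  · intro i hi hq
    obtain ⟨t, ht, hvt⟩ := (h.mem _).1 hi
    have h1 : v (i + 1) = v (p + t + 1) := (shift_eq hc 1 hvt).symm
    by_cases h2 : t + 1 < m
    · refine (h.mem _).2 ⟨t + 1, h2, ?_⟩
      rw [h1]
      congr 1
      push_cast
      ring
    · exfalso
      have h3 : t + 1 = m := by omega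
      apply hq
      rw [h1]
      have e : p + (t : ℤ) + 1 = p + m := by
        rw [← h3]; push_cast; ring
      rw [e]
      exact h.right
  · intro i hi hq
    obtain ⟨t, ht, hvt⟩ := (h.mem _).1 hi
    have h1 : v (i - 1) = v (p + t - 1) := by
      have := (shift_eq hc (-1) hvt).symm
      simpa [sub_eq_add_neg] using this
    rcases Nat.eq_zero_or_pos t with h0 | h0
    · exfalso
      apply hq
      rw [h1, h0]
      simpa using h.left
    · refine (h.mem _).2 ⟨t - 1, by omega, ?_⟩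
      rw [h1]
      congr 1
      have : ((t - 1 : ℕ) : ℤ) = (t : ℤ) - 1 := by omega
      rw [this]
      ring

lemma IsArc.lt (hc : CycFn G n v) (h : IsArc v Q A p m) : m < n := by
  by_contra hcon
  have hn := hc.n_ge
  have h1 := h.off (n - 1) (by omega)
  apply h1
  have : v (p + ((n - 1 : ℕ) : ℤ)) = v (p - 1) := by
    rw [hc.eq_iff]
    have e : p + ((n - 1 : ℕ) : ℤ) - (p - 1) = n := by omega
    rw [e]
  rw [this]
  exact h.left

lemma IsArc.card (hc : CycFn G n v) (h : IsArc v Q A p m) : A.card = m := by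
  have hm := h.lt hc
  have e : A = (Finset.range m).image (fun t : ℕ => v (p + t)) := by
    ext z
    rw [h.mem]
    simp only [Finset.mem_image, Finset.mem_range]
  rw [e, Finset.card_image_of_injOn, Finset.card_range]
  intro s hs t ht hst
  have hs' := Finset.mem_range.1 hs
  have ht' := Finset.mem_range.1 ht
  have := hc.inj_window hst (by omega) (by omega)
  omega

lemma IsArc.left_le (hc : CycFn G n v) (h : IsArc v Q A p m) : (leftEnds v Q A).card ≤ 1 := by
  have key : ∀ z ∈ leftEnds v Q A, z = v p := by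
    intro z hz
    obtain ⟨hzA, i, hi, hi'⟩ := mem_leftEnds.1 hz
    obtain ⟨t, ht, hvt⟩ := (h.mem _).1 hzA
    rcases Nat.eq_zero_or_pos t with h0 | h0
    · rw [← hvt, h0]
      simp
    · exfalso
      have h1 : v (p + t - 1) ∈ Q := by
        have := shift_eq hc (-1) (hvt.trans hi.symm)
        have e1 : p + (t : ℤ) + -1 = p + t - 1 := by ring
        have e2 : i + -1 = i - 1 := by ring
        rw [e1, e2] at this
        rw [this]
        exact hi'
      have e : p + (t : ℤ) - 1 = p + ((t - 1 : ℕ) : ℤ) := by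
        have : ((t - 1 : ℕ) : ℤ) = (t : ℤ) - 1 := by omega
        rw [this]
        ring
      rw [e] at h1
      exact h.off _ (by omega) h1
  rw [Finset.card_le_one]
  intro x hx y hy
  rw [key x hx, key y hy]

lemma IsArc.right_le (hc : CycFn G n v) (h : IsArc v Q A p m) :
    (leftEnds (fun i => v (-i)) Q A).card ≤ 1 := by
  have key : ∀ z ∈ leftEnds (fun i => v (-i)) Q A, z = v (p + m - 1) := by
    intro z hz
    obtain ⟨hzA, i, hi, hi'⟩ := mem_leftEnds.1 hz
    obtain ⟨t, ht, hvt⟩ := (h.mem _).1 hzA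
    have hi2 : v (-i) = z := hi
    have hi2' : v (-(i - 1)) ∈ Q := hi'
    by_cases h2 : t + 1 < m
    · exfalso
      have h1 : v (p + t + 1) ∈ Q := by
        have := shift_eq hc 1 (hvt.trans hi2.symm)
        have e2 : -(i - 1) = -i + 1 := by ring
        rw [e2] at hi2'
        rw [this]
        exact hi2'
      have e : p + (t : ℤ) + 1 = p + ((t + 1 : ℕ) : ℤ) := by push_cast; ring
      rw [e] at h1
      exact h.off _ h2 h1
    · have h3 : t + 1 = m := by omega
      rw [← hvt]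
      congr 1
      rw [← h3]
      push_cast
      ring
  rw [Finset.card_le_one]
  intro x hx y hy
  rw [key x hx, key y hy]

/-- A closed set containing a vertex of an arc contains the arc. -/
lemma IsArc.subset (h : IsArc v Q A p m) {B : Finset V} (hB : ArcClosed v Q B) {t0 : ℕ}
    (ht0 : t0 < m) (hin : v (p + t0) ∈ B) : A ⊆ B := by
  have up : ∀ d : ℕ, t0 + d < m → v (p + (t0 + d : ℕ)) ∈ B := by
    intro d
    induction d with
    | zero => intro _; simpa using hin
    | succ d ih =>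
      intro hd
      have h1 := ih (by omega)
      have h2 := h.off (t0 + (d + 1)) hd
      have e : p + ((t0 + (d + 1) : ℕ) : ℤ) = p + ((t0 + d : ℕ) : ℤ) + 1 := by push_cast; ring
      rw [e] at h2 ⊢
      exact hB.succ _ h1 h2
  have down : ∀ d : ℕ, d ≤ t0 → v (p + (t0 - d : ℕ)) ∈ B := by
    intro d
    induction d with
    | zero => intro _; simpa using hin
    | succ d ih =>
      intro hd
      have h1 := ih (by omega)
      have h2 := h.off (t0 - (d + 1)) (by omega)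
      have e : p + ((t0 - (d + 1) : ℕ) : ℤ) = p + ((t0 - d : ℕ) : ℤ) - 1 := by
        have e1 : ((t0 - (d + 1) : ℕ) : ℤ) = (t0 : ℤ) - d - 1 := by omega
        have e2 : ((t0 - d : ℕ) : ℤ) = (t0 : ℤ) - d := by omega
        rw [e1, e2]
        ring
      rw [e] at h2 ⊢
      exact hB.pred _ h1 h2
  intro z hz
  obtain ⟨t, ht, rfl⟩ := (h.mem z).1 hz
  by_cases hle : t0 ≤ t
  · have := up (t - t0) (by omega)
    have e : t0 + (t - t0) = t := by omega
    rwa [e] at this
  · have := down (t0 - t) (by omega)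
    have e : t0 - (t0 - t) = t := by omega
    rwa [e] at this

/-- The arc through a position off `Q`. -/
lemma exists_isArc (hc : CycFn G n v) (hQne : ∃ i0, v i0 ∈ Q) {i : ℤ} (hp : v i ∉ Q) :
    ∃ (A : Finset V) (p : ℤ) (m t : ℕ), IsArc v Q A p m ∧ t < m ∧ p + t = i := by
  classical
  obtain ⟨ℓ₁, h11, h12, h13, _⟩ := exists_arc_len hc hQne i
  obtain ⟨ℓ₂, h21, h22, h23, _⟩ := exists_arc_len hc.rev (by
    obtain ⟨i0, hi0⟩ := hQne
    exact ⟨-i0, by simpa using hi0⟩) (-i)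
  have h22' : v (i - ℓ₂) ∈ Q := by
    have e : -(-i + (ℓ₂ : ℤ)) = i - ℓ₂ := by ring
    simpa only [e] using h22
  have h23' : ∀ t : ℕ, 1 ≤ t → t < ℓ₂ → v (i - t) ∉ Q := by
    intro t h1 h2
    have := h23 t h1 h2
    have e : -(-i + (t : ℤ)) = i - t := by ring
    simpa only [e] using this
  refine ⟨(Finset.range (ℓ₁ + ℓ₂ - 1)).image (fun t : ℕ => v (i - ℓ₂ + 1 + t)), i - ℓ₂ + 1,
    ℓ₁ + ℓ₂ - 1, ℓ₂ - 1, ⟨?_, ?_, ?_, ?_⟩, by omega, by
      have : ((ℓ₂ - 1 : ℕ) : ℤ) = (ℓ₂ : ℤ) - 1 := by omega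
      rw [this]
      ring⟩
  · have e : i - ℓ₂ + 1 - 1 = i - ℓ₂ := by ring
    rw [e]
    exact h22'
  · have e : i - (ℓ₂ : ℤ) + 1 + ((ℓ₁ + ℓ₂ - 1 : ℕ) : ℤ) = i + ℓ₁ := by
      have : ((ℓ₁ + ℓ₂ - 1 : ℕ) : ℤ) = (ℓ₁ : ℤ) + ℓ₂ - 1 := by omega
      rw [this]
      ring
    rw [e]
    exact h12
  · intro t ht
    by_cases h1 : t + 1 = ℓ₂
    · have e : i - (ℓ₂ : ℤ) + 1 + (t : ℤ) = i := by
        rw [← h1]; push_cast; ring
      rw [e]
      exact hp
    · by_cases h2 : t + 1 < ℓ₂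
      · have := h23' (ℓ₂ - 1 - t) (by omega) (by omega)
        have e : i - (ℓ₂ : ℤ) + 1 + (t : ℤ) = i - ((ℓ₂ - 1 - t : ℕ) : ℤ) := by
          have : ((ℓ₂ - 1 - t : ℕ) : ℤ) = (ℓ₂ : ℤ) - 1 - t := by omega
          rw [this]
          ring
        rw [e]
        exact this
      · have := h13 (t + 1 - ℓ₂) (by omega) (by omega)
        have e : i - (ℓ₂ : ℤ) + 1 + (t : ℤ) = i + ((t + 1 - ℓ₂ : ℕ) : ℤ) := by
          have : ((t + 1 - ℓ₂ : ℕ) : ℤ) = (t : ℤ) + 1 - ℓ₂ := by omega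
          rw [this]
          ring
        rw [e]
        exact this
  · intro z
    simp only [Finset.mem_image, Finset.mem_range]

/-- A nonempty closed set has a left end. -/
lemma exists_leftEnd (hc : CycFn G n v) (hQne : ∃ i0, v i0 ∈ Q) {B : Finset V}
    (hB : ArcClosed v Q B) (hne : B.Nonempty) : (leftEnds v Q B).Nonempty := by
  classical
  obtain ⟨y, hy⟩ := hne
  obtain ⟨i, rfl⟩ := hB.on y hy
  obtain ⟨A, p, m, t, hA, ht, hpt⟩ := exists_isArc hc hQne (hB.notQ _ hy)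
  have hsub : A ⊆ B := hA.subset hB ht (by rw [hpt]; exact hy)
  have hm0 : 0 < m := by omega
  have hmem : v p ∈ A := (hA.mem _).2 ⟨0, hm0, by simp⟩
  exact ⟨v p, mem_leftEnds.2 ⟨hsub hmem, p, rfl, hA.left⟩⟩

/-- A closed set with at most one left end is an arc. -/
lemma isArc_of_left_le (hc : CycFn G n v) (hQne : ∃ i0, v i0 ∈ Q) {B : Finset V}
    (hB : ArcClosed v Q B) (hne : B.Nonempty) (hL : (leftEnds v Q B).card ≤ 1) :
    ∃ p, IsArc v Q B p B.card := by
  classical
  obtain ⟨z, hz⟩ := exists_leftEnd hc hQne hB hne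
  obtain ⟨hzB, i, hi, hi'⟩ := mem_leftEnds.1 hz
  subst hi
  obtain ⟨A, p, m, t, hA, ht, hpt⟩ := exists_isArc hc hQne (hB.notQ _ hzB)
  have hsub : A ⊆ B := hA.subset hB ht (by rw [hpt]; exact hzB)
  have ht0 : t = 0 := by
    by_contra hne0
    have h1 := hA.off (t - 1) (by omega)
    apply h1
    have e : p + ((t - 1 : ℕ) : ℤ) = i - 1 := by
      have : ((t - 1 : ℕ) : ℤ) = (t : ℤ) - 1 := by omega
      rw [this, ← hpt]
      ring
    rw [e]
    exact hi'
  have hpi : p = i := by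
    rw [ht0] at hpt
    simpa using hpt
  subst hpi
  have hAB : A = B := by
    by_contra hcon
    have hsdne : (B \ A).Nonempty := by
      rw [Finset.sdiff_nonempty]
      intro hsub'
      exact hcon (Finset.Subset.antisymm hsub hsub')
    obtain ⟨z2, hz2⟩ := exists_leftEnd hc hQne (hB.sdiff (hA.closed hc)) hsdne
    obtain ⟨hz2B, i2, hi2, hi2'⟩ := mem_leftEnds.1 hz2
    have hz2' : z2 ∈ leftEnds v Q B :=
      mem_leftEnds.2 ⟨(Finset.mem_sdiff.1 hz2B).1, i2, hi2, hi2'⟩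
    have heq := Finset.card_le_one.1 hL _ hz2' _ hz
    have : z2 ∈ A := by
      rw [heq]
      exact (hA.mem _).2 ⟨0, by omega, by simp⟩
    exact (Finset.mem_sdiff.1 hz2B).2 this
  subst hAB
  rw [hA.card hc]
  exact ⟨p, hA⟩

end

/-- An ear: a path from `e ∈ Q` to `f ∈ Q`, `e ≠ f`, with `m` interior vertices off `Q`. -/
def HasEar (G : SimpleGraph V) (Q : Finset V) (m : ℕ) : Prop :=
  ∃ (e f : V) (x : List V), e ∈ Q ∧ f ∈ Q ∧ e ≠ f ∧ x.length = m ∧ (∀ y ∈ x, y ∉ Q) ∧ x.Nodup ∧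
    (e :: (x ++ [f])).IsChain G.Adj

/-- Ends of an arc are distinct if the cycle has two vertices of `Q`. -/
lemma IsArc.ends_ne {n : ℕ} {v : ℤ → V} {Q A : Finset V} {p : ℤ} {m : ℕ} (hc : CycFn G n v)
    (h : IsArc v Q A p m) (hm : 1 ≤ m) (hQv : ∀ a ∈ Q, ∃ t, v t = a) (hq2 : 2 ≤ Q.card) :
    v (p - 1) ≠ v (p + m) := by
  intro heq
  have hlt := h.lt hc
  have hd := (hc.eq_iff _ _).1 heq
  have hm1 : m + 1 = n := by
    have h1 : (n : ℤ) ∣ ((m : ℤ) + 1) := by
      have := dvd_neg.2 hd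
      have e : -(p - 1 - (p + (m : ℤ))) = (m : ℤ) + 1 := by ring
      rwa [e] at this
    have h2 := Int.le_of_dvd (by omega) h1
    omega
  have hall : ∀ a ∈ Q, a = v (p - 1) := by
    intro a ha
    obtain ⟨t, rfl⟩ := hQv a ha
    obtain ⟨s, hs, hts⟩ := hc.exists_window (p - 1) t
    rcases Nat.eq_zero_or_pos s with h0 | h0
    · rw [hts, h0]
      simp
    · exfalso
      have h1 := h.off (s - 1) (by omega)
      apply h1
      have e : p + ((s - 1 : ℕ) : ℤ) = p - 1 + s := by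
        have : ((s - 1 : ℕ) : ℤ) = (s : ℤ) - 1 := by omega
        rw [this]
        ring
      rw [e, ← hts]
      exact ha
  have : Q.card ≤ 1 := by
    rw [Finset.card_le_one]
    intro a ha b hb
    rw [hall a ha, hall b hb]
  omega

theorem IsArc.hasEar {n : ℕ} {v : ℤ → V} {Q A : Finset V} {p : ℤ} {m : ℕ} (hc : CycFn G n v)
    (h : IsArc v Q A p m) (hm : 1 ≤ m) (hQv : ∀ a ∈ Q, ∃ t, v t = a) (hq2 : 2 ≤ Q.card) :
    HasEar G Q m := by
  refine ⟨v (p - 1), v (p + m), seg v p m, h.left, h.right, h.ends_ne hc hm hQv hq2,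
    length_seg _ _ _, ?_, seg_nodup hc _ _ (h.lt hc).le, ?_⟩
  · intro y hy
    obtain ⟨s, hs, rfl⟩ := mem_seg.1 hy
    exact h.off s hs
  · have h1 := seg_chain hc (p - 1) (m + 2)
    have e1 : seg v (p - 1) (m + 2) = v (p - 1) :: seg v p (m + 1) := by
      have := seg_succ' v (p - 1) (m + 1)
      have e : p - 1 + 1 = p := by ring
      rw [e] at this
      exact this
    rw [e1, seg_succ] at h1
    exact h1

/-- The data of a failure of the exclusion. -/
theorem excl_fail {n r : ℕ} {v : ℤ → V} (hc : CycFn G n v) {Q : Finset V}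
    (hQ : ∀ x ∈ Q, ∀ y ∈ Q, x ≠ y → G.Adj x y) (hQv : ∀ a ∈ Q, ∃ t, v t = a)
    (hq3 : 3 ≤ Q.card) (hn : n ≤ Q.card + r)
    (hno : ¬ HasCycle G (Q.card + r + 1))
    (hmax : ∀ (u : V) (c : G.Walk u u), c.IsCycle → (∀ a ∈ Q, a ∈ c.support) →
      c.length ≤ Q.card + r → c.length ≤ n)
    {i j : ℤ} (hi : v (i + 1) ∈ Q) (hj : v (j + 1) ∈ Q) (hij : v i ≠ v j)
    (g : G.Walk (v i) (v j)) (hg : g.IsPath)
    (hoff : ∀ z ∈ g.support, z ≠ v i → z ≠ v j → ∀ t, z ≠ v t) (hlen : 2 ≤ g.length) :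
    ∃ (n' : ℕ) (v' : ℤ → V) (A C : Finset V) (b : ℤ) (m e s : ℕ),
      CycFn G n' v' ∧ (∀ a ∈ Q, ∃ t, v' t = a) ∧ n' = n + s ∧ g.length = s + 1 ∧
      IsArc v' Q A b m ∧ s ≤ m ∧ ArcClosed v' Q C ∧ A ⊆ C ∧ C.card = r + 1 + e ∧ e + 1 ≤ s ∧
      1 ≤ e ∧
      (leftEnds v' Q (C \ A)).card * (e + 1) ≤ (C \ A).card ∧
      (leftEnds (fun i => v' (-i)) Q (C \ A)).card * (e + 1) ≤ (C \ A).card ∧
      Q.card + 1 ≤ (bdry v' Q C).card + e ∧
      (bdry v' Q C).card ≤ (leftEnds v' Q (C \ A)).card +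
        (leftEnds (fun i => v' (-i)) Q (C \ A)).card + 2 ∧
      (∀ B : Finset V, B ⊆ C \ A → B.Nonempty → ArcClosed v' Q B → ArcClosed v' Q ((C \ A) \ B) →
        e + 1 ≤ B.card) ∧
      (∀ X : Finset V, ArcClosed v' Q X → n + 1 ≤ X.card + Q.card → X.card ≤ r + 1 → False) := by
  classical
  obtain ⟨u, c, hcy, hcl, hcs, hcg⟩ := crossing' hc hQ hi hj hij g hg hoff hlen
  have hQc : ∀ a ∈ Q, a ∈ c.support := by
    intro a ha
    obtain ⟨t, rfl⟩ := hQv a ha
    exact (hcs _).2 (Or.inl ⟨t, rfl⟩)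
  obtain ⟨s, hs⟩ : ∃ s, g.length = s + 1 := ⟨g.length - 1, by omega⟩
  have hL : c.length = n + s := by omega
  have hs1 : 1 ≤ s := by omega
  by_cases hcase : c.length ≤ Q.card + r
  · have := hmax u c hcy hQc hcase
    omega
  have hc' := cycFn_of_isCycle hcy
  set v' := cyc c with hv'
  have hQv' : ∀ a ∈ Q, ∃ t, v' t = a := fun a ha => exists_cyc_eq hcy (hQc a ha)
  have hQne : ∃ i0, v' i0 ∈ Q := by
    obtain ⟨a, ha⟩ : Q.Nonempty := Finset.card_pos.1 (by omega)
    obtain ⟨t, ht⟩ := hQv' a ha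
    exact ⟨t, ht ▸ ha⟩
  have hn3 := hc.n_ge
  have hpos : ∀ t : ℕ, t < g.length → v' t = g.getVert t := by
    intro t ht
    rw [hv', cyc_natCast c (by omega)]
    exact hcg t ht
  have hginj : ∀ x y : ℕ, x ≤ g.length → y ≤ g.length → g.getVert x = g.getVert y → x = y := by
    intro x y hx hy h
    exact hg.getVert_injOn (by simpa using hx) (by simpa using hy) h
  have hint : ∀ t : ℕ, 1 ≤ t → t ≤ s → v' t ∉ Q := by
    intro t h1 h2 hq
    rw [hpos t (by omega)] at hq
    obtain ⟨x, hx⟩ := hQv _ hq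
    refine hoff (g.getVert t) (g.getVert_mem_support t) ?_ ?_ x hx.symm
    · intro h
      have h0 : g.getVert 0 = v i := by simp
      have := hginj t 0 (by omega) (by omega) (h.trans h0.symm)
      omega
    · intro h
      have h0 : g.getVert g.length = v j := by simp
      have := hginj t g.length (by omega) (le_refl _) (h.trans h0.symm)
      omega
  obtain ⟨A, b, m, t0, hAa, ht0, hbt⟩ := exists_isArc hc' hQne (i := ((1 : ℕ) : ℤ))
    (hint 1 (le_refl _) hs1)
  have hA := hAa.closed hc'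
  -- the arc contains the interior of `g`
  have hrun : ∀ x : ℕ, x < s → t0 + x < m := by
    intro x
    induction x with
    | zero => intro _; omega
    | succ x ih =>
      intro hx
      have h1 := ih (by omega)
      by_contra hcon
      have h2 : t0 + (x + 1) = m := by omega
      have h3 := hAa.right
      have e : b + (m : ℤ) = ((1 + (x + 1) : ℕ) : ℤ) := by
        rw [← h2]
        push_cast
        have : (1 : ℤ) = b + t0 := by rw [hbt]; simp
        rw [this]
        ring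
      rw [e] at h3
      exact hint (1 + (x + 1)) (by omega) (by omega) h3
  have hms : s ≤ m := by
    have := hrun (s - 1) (by omega)
    omega
  have hAL := hAa.left_le hc'
  have hAR := hAa.right_le hc'
  have hNcard := card_offQ hc' hQv'
  obtain ⟨C, e, L, R, hCl, hAC, hCc, hL1, hR1, hbd, hLdef, hRdef, hmin⟩ :=
    min_closed hc' hQne hA hAL hAR (r := r) (by omega)
  have hCle : C.card ≤ (offQ v' c.length Q).card := Finset.card_le_card (hCl.subset_offQ hc')
  have hes : e + 1 ≤ s := by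
    rw [hCc] at hCle
    omega
  have hfail : Q.card + 1 ≤ (bdry v' Q C).card + e := by
    by_contra hcon
    apply hno
    have hrule := ruleC_card hc' hQ hCl hQv' (t := Q.card - e) (by omega) (by omega) (by omega)
    have e2 : C.card + (Q.card - e) = Q.card + r + 1 := by omega
    rwa [e2] at hrule
  have hbdQ : (bdry v' Q C).card ≤ Q.card :=
    Finset.card_le_card (fun x hx => (mem_bdry.1 hx).1)
  have he1 : 1 ≤ e := by omega
  subst hLdef hRdef
  refine ⟨c.length, v', A, C, b, m, e, s, hc', hQv', hL, hs, hAa, hms, hCl, hAC, hCc, hes, he1,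
    hL1, hR1, hfail, hbd, hmin, ?_⟩
  intro X hX h1 h2
  have hdisj : Disjoint X Q := by
    rw [Finset.disjoint_left]
    intro a ha ha'
    exact hX.notQ a ha ha'
  have hcardU : (X ∪ Q).card = X.card + Q.card := Finset.card_union_of_disjoint hdisj
  obtain ⟨u2, c2, h21, h22, h23⟩ := ruleC hc' hQ hX (Finset.Subset.refl Q) hQv'
    (fun i _ => ⟨id, id⟩) (by omega)
  by_cases hk : X.card ≤ r
  · have := hmax u2 c2 h21 (fun a ha => (h23 a).2 (Finset.mem_union_right _ ha)) (by omega)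
    omega
  · apply hno
    refine ⟨u2, c2, h21, by omega⟩

/-- Arithmetic table for `5 ≤ q ≤ 7`, `q ≤ r + 2`, `r < q`. -/
lemma table_small {q r s e L R a c : ℕ} (hq5 : 5 ≤ q) (hq7 : q ≤ 7) (hrl : q ≤ r + 2)
    (hr : r + 1 ≤ q) (hs : s = 3 ∨ s = 4) (he1 : 1 ≤ e) (hes : e + 1 ≤ s) (hsa : s ≤ a)
    (hac : a + c = r + 1 + e) (hL : L * (e + 1) ≤ c) (hR : R * (e + 1) ≤ c)
    (hb : q + 1 ≤ L + R + 2 + e) (hLc : 1 ≤ c → 1 ≤ L ∧ 1 ≤ R) (hc0 : c = 0 → L = 0 ∧ R = 0)
    (hdrop : s = 3 → e = 1 → L * 3 ≤ c ∧ R * 3 ≤ c) :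
    (q ≤ 6 ∧ a = r) ∨ (q ≤ 6 ∧ c = r ∧ L = 1) ∨
      (q = 7 ∧ r = 6 ∧ s = 3 ∧ e = 2 ∧ L = 2 ∧ R = 2 ∧ c = 6 ∧ a = 3) := by
  have hq : q = 5 ∨ q = 6 ∨ q = 7 := by omega
  have hr2 : r + 2 = q ∨ r + 1 = q := by omega
  have he : e = 1 ∨ e = 2 ∨ e = 3 := by omega
  rcases hs with rfl | rfl <;> rcases he with rfl | rfl | rfl <;> rcases hq with rfl | rfl | rfl <;>
    rcases hr2 with h | h <;> simp at hdrop <;> omega

/-- Two disjoint ears of weight `3` with four distinct ends. -/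
def TwoEars3 (G : SimpleGraph V) (Q : Finset V) : Prop :=
  ∃ (e₁ f₁ e₂ f₂ : V) (x y : List V), e₁ ∈ Q ∧ f₁ ∈ Q ∧ e₂ ∈ Q ∧ f₂ ∈ Q ∧
    e₁ ≠ f₁ ∧ e₁ ≠ e₂ ∧ e₁ ≠ f₂ ∧ f₁ ≠ e₂ ∧ f₁ ≠ f₂ ∧ e₂ ≠ f₂ ∧
    x.length = 3 ∧ y.length = 3 ∧ (∀ z ∈ x, z ∉ Q) ∧ (∀ z ∈ y, z ∉ Q) ∧ (x ++ y).Nodup ∧
    (e₁ :: (x ++ [f₁])).IsChain G.Adj ∧ (e₂ :: (y ++ [f₂])).IsChain G.Adj

lemma four_distinct {a b c d : V} (h : 4 ≤ ({a, b, c, d} : Finset V).card) :
    a ≠ b ∧ a ≠ c ∧ a ≠ d ∧ b ≠ c ∧ b ≠ d ∧ c ≠ d := by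
  refine ⟨?_, ?_, ?_, ?_, ?_, ?_⟩ <;> rintro rfl
  · have h1 : ({a, a, c, d} : Finset V) = {a, c, d} := by ext; simp
    have h2 : ({a, c, d} : Finset V).card ≤ 3 := Finset.card_le_three
    rw [h1] at h
    omega
  · have h1 : ({a, b, a, d} : Finset V) = {a, b, d} := by ext; simp; tauto
    have h2 : ({a, b, d} : Finset V).card ≤ 3 := Finset.card_le_three
    rw [h1] at h
    omega
  · have h1 : ({a, b, c, a} : Finset V) = {a, b, c} := by ext; simp; tauto
    have h2 : ({a, b, c} : Finset V).card ≤ 3 := Finset.card_le_three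
    rw [h1] at h
    omega
  · have h1 : ({a, b, b, d} : Finset V) = {a, b, d} := by ext; simp
    have h2 : ({a, b, d} : Finset V).card ≤ 3 := Finset.card_le_three
    rw [h1] at h
    omega
  · have h1 : ({a, b, c, b} : Finset V) = {a, b, c} := by ext; simp; tauto
    have h2 : ({a, b, c} : Finset V).card ≤ 3 := Finset.card_le_three
    rw [h1] at h
    omega
  · have h1 : ({a, b, c, c} : Finset V) = {a, b, c} := by ext; simp
    have h2 : ({a, b, c} : Finset V).card ≤ 3 := Finset.card_le_three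
    rw [h1] at h
    omega

lemma IsArc.bdry_subset {n : ℕ} {v : ℤ → V} {Q A : Finset V} {p : ℤ} {m : ℕ} (hc : CycFn G n v)
    (h : IsArc v Q A p m) : bdry v Q A ⊆ {v (p - 1), v (p + m)} := by
  intro a ha
  obtain ⟨haQ, i, hi, h1 | h1⟩ := mem_bdry.1 ha
  · obtain ⟨t, ht, hvt⟩ := (h.mem _).1 h1
    have e1 : v i = v (p + t - 1) := by
      have := (shift_eq hc (-1) hvt).symm
      have e2 : i + 1 + -1 = i := by ring
      have e3 : p + (t : ℤ) + -1 = p + t - 1 := by ring
      rwa [e2, e3] at this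
    rcases Nat.eq_zero_or_pos t with h0 | h0
    · subst h0
      simp only [Finset.mem_insert, Finset.mem_singleton]
      left
      rw [← hi, e1]
      simp
    · exfalso
      have h2 := h.off (t - 1) (by omega)
      apply h2
      have e : p + ((t - 1 : ℕ) : ℤ) = p + t - 1 := by
        have : ((t - 1 : ℕ) : ℤ) = (t : ℤ) - 1 := by omega
        rw [this]
        ring
      rw [e, ← e1, hi]
      exact haQ
  · obtain ⟨t, ht, hvt⟩ := (h.mem _).1 h1
    have e1 : v i = v (p + t + 1) := by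
      have := (shift_eq hc 1 hvt).symm
      have e2 : i - 1 + 1 = i := by ring
      rwa [e2] at this
    by_cases h2 : t + 1 < m
    · exfalso
      have h3 := h.off (t + 1) h2
      apply h3
      have e : p + ((t + 1 : ℕ) : ℤ) = p + t + 1 := by push_cast; ring
      rw [e, ← e1, hi]
      exact haQ
    · have h3 : t + 1 = m := by omega
      simp only [Finset.mem_insert, Finset.mem_singleton]
      right
      rw [← hi, e1]
      congr 1
      rw [← h3]
      push_cast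
      ring

lemma bdry_union_subset {v : ℤ → V} {Q X Y : Finset V} : bdry v Q (X ∪ Y) ⊆ bdry v Q X ∪ bdry v Q Y := by
  intro a ha
  obtain ⟨haQ, i, hi, h1 | h1⟩ := mem_bdry.1 ha
  · rcases Finset.mem_union.1 h1 with h | h
    · exact Finset.mem_union_left _ (mem_bdry.2 ⟨haQ, i, hi, Or.inl h⟩)
    · exact Finset.mem_union_right _ (mem_bdry.2 ⟨haQ, i, hi, Or.inl h⟩)
  · rcases Finset.mem_union.1 h1 with h | h
    · exact Finset.mem_union_left _ (mem_bdry.2 ⟨haQ, i, hi, Or.inr h⟩)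
    · exact Finset.mem_union_right _ (mem_bdry.2 ⟨haQ, i, hi, Or.inr h⟩)

lemma leftEnds_card_sdiff_le {w : ℤ → V} {Q X Y : Finset V} (hY : Y ⊆ X) (hne : (leftEnds w Q Y).Nonempty) :
    (leftEnds w Q (X \ Y)).card + 1 ≤ (leftEnds w Q X).card := by
  classical
  obtain ⟨z, hz⟩ := hne
  have hsub : leftEnds w Q (X \ Y) ⊂ leftEnds w Q X := by
    rw [Finset.ssubset_iff_of_subset]
    · refine ⟨z, ?_, ?_⟩
      · obtain ⟨h1, h2⟩ := mem_leftEnds.1 hz
        exact mem_leftEnds.2 ⟨hY h1, h2⟩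
      · intro hz'
        exact (Finset.mem_sdiff.1 (mem_leftEnds.1 hz').1).2 (mem_leftEnds.1 hz).1
    · intro y hy
      obtain ⟨h1, h2⟩ := mem_leftEnds.1 hy
      exact mem_leftEnds.2 ⟨(Finset.mem_sdiff.1 h1).1, h2⟩
  exact Finset.card_lt_card hsub

/-- **Dispatch for `5 ≤ q ≤ 7`.** -/
theorem excl_small {n r : ℕ} {v : ℤ → V} (hc : CycFn G n v) {Q : Finset V}
    (hQ : ∀ x ∈ Q, ∀ y ∈ Q, x ≠ y → G.Adj x y) (hQv : ∀ a ∈ Q, ∃ t, v t = a)
    (hq5 : 5 ≤ Q.card) (hq7 : Q.card ≤ 7) (hrl : Q.card ≤ r + 2) (hr : r + 1 ≤ Q.card)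
    (hn : n ≤ Q.card + r) (hno : ¬ HasCycle G (Q.card + r + 1))
    (hmax : ∀ (u : V) (c : G.Walk u u), c.IsCycle → (∀ a ∈ Q, a ∈ c.support) →
      c.length ≤ Q.card + r → c.length ≤ n)
    {i j : ℤ} (hi : v (i + 1) ∈ Q) (hj : v (j + 1) ∈ Q) (hij : v i ≠ v j)
    (g : G.Walk (v i) (v j)) (hg : g.IsPath)
    (hoff : ∀ z ∈ g.support, z ≠ v i → z ≠ v j → ∀ t, z ≠ v t)
    (hlen : g.length = 2 ∨ g.length = 4 ∨ g.length = 5) :
    (Q.card ≤ 6 ∧ HasEar G Q r) ∨ (Q.card = 7 ∧ r = 6 ∧ TwoEars3 G Q) := by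
  classical
  obtain ⟨n', v', A, C, b, m, e, s, hc', hQv', hn', hs, hAa, hms, hCl, hAC, hCc, hes, he1,
    hL1, hR1, hfail, hbd, hmin, hnoX⟩ :=
    excl_fail hc hQ hQv (by omega) hn hno hmax hi hj hij g hg hoff (by omega)
  have hQne : ∃ i0, v' i0 ∈ Q := by
    obtain ⟨a, ha⟩ : Q.Nonempty := Finset.card_pos.1 (by omega)
    obtain ⟨t, ht⟩ := hQv' a ha
    exact ⟨t, ht ▸ ha⟩
  have hQne' : ∃ i0, (fun i => v' (-i)) i0 ∈ Q := by
    obtain ⟨i0, hi0⟩ := hQne
    exact ⟨-i0, by simpa using hi0⟩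
  have hs' : s = 3 ∨ s = 4 := by
    rcases hlen with h | h | h <;> omega
  have hA := hAa.closed hc'
  have hAcard := hAa.card hc'
  have hC' : ArcClosed v' Q (C \ A) := hCl.sdiff hA
  set L := (leftEnds v' Q (C \ A)).card with hL
  set R := (leftEnds (fun i => v' (-i)) Q (C \ A)).card with hR
  have hcc : (C \ A).card + A.card = C.card := Finset.card_sdiff_add_card_eq_card hAC
  have hLc : 1 ≤ (C \ A).card → 1 ≤ L ∧ 1 ≤ R := by
    intro h
    have hne : (C \ A).Nonempty := Finset.card_pos.1 h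
    exact ⟨Finset.card_pos.2 (exists_leftEnd hc' hQne hC' hne),
      Finset.card_pos.2 (exists_leftEnd hc'.rev hQne' hC'.rev hne)⟩
  have hc0 : (C \ A).card = 0 → L = 0 ∧ R = 0 := by
    intro h
    have h1 : ∀ (w : ℤ → V), (leftEnds w Q (C \ A)).card ≤ (C \ A).card := by
      intro w
      apply Finset.card_le_card
      intro x hx
      exact (mem_leftEnds.1 hx).1
    have h2 := h1 v'
    have h3 := h1 (fun i => v' (-i))
    omega
  have hNcard := card_offQ hc' hQv'
  have hdrop : s = 3 → e = 1 → L * 3 ≤ (C \ A).card ∧ R * 3 ≤ (C \ A).card := by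
    intro hs3 he
    by_cases hex : ∃ B : Finset V, B ⊆ C \ A ∧ B.Nonempty ∧ ArcClosed v' Q B ∧
        ArcClosed v' Q ((C \ A) \ B) ∧ B.card ≤ 2
    · exfalso
      obtain ⟨B, hB, hBne, hBc, hBc', hB2⟩ := hex
      have h2 := hmin B hB hBne hBc hBc'
      have hBcard : B.card = 2 := by omega
      have hX : ArcClosed v' Q (offQ v' n' Q \ B) := (offQ_closed hc').sdiff hBc
      have hBN : B ⊆ offQ v' n' Q := hBc.subset_offQ hc'
      have hXcard : (offQ v' n' Q \ B).card + B.card = (offQ v' n' Q).card :=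
        Finset.card_sdiff_add_card_eq_card hBN
      exact hnoX _ hX (by omega) (by omega)
    · have hm3 : ∀ B : Finset V, B ⊆ C \ A → B.Nonempty → ArcClosed v' Q B →
          ArcClosed v' Q ((C \ A) \ B) → 2 + 1 ≤ B.card := by
        intro B hB hBne hBc hBc'
        by_contra hlt
        exact hex ⟨B, hB, hBne, hBc, hBc', by omega⟩
      have h3L := card_leftEnds_mul_le hc' hQne hC' 2 hm3
      have h3R := card_leftEnds_mul_le hc'.rev hQne' hC'.rev 2
        (fun B hB hne h1 h2 => hm3 B hB hne h1.of_rev h2.of_rev)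
      exact ⟨h3L, h3R⟩
  have hrzero : 3 ≤ r := by omega
  rcases table_small (q := Q.card) (r := r) (s := s) (e := e) (L := L) (R := R) (a := A.card)
    (c := (C \ A).card) hq5 hq7 hrl hr hs' he1 hes (by rw [hAcard]; exact hms)
    (by omega) hL1 hR1 (by omega) hLc hc0 hdrop with ⟨h0, h1⟩ | ⟨h0, h1, h2⟩ | ⟨h1, h2, h3, h4, h5, h6, h7, h8⟩
  · left
    refine ⟨h0, ?_⟩
    have hm : m = r := by omega
    rw [← hm]
    exact hAa.hasEar hc' (by omega) hQv' (by omega)
  · left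
    refine ⟨h0, ?_⟩
    have hne : (C \ A).Nonempty := Finset.card_pos.1 (by omega)
    obtain ⟨p, hp⟩ := isArc_of_left_le hc' hQne hC' hne (by omega)
    rw [← h1]
    exact hp.hasEar hc' (by omega) hQv' (by omega)
  · right
    refine ⟨h1, h2, ?_⟩
    subst h4
    -- an arc inside `C \ A`
    have hne : (C \ A).Nonempty := Finset.card_pos.1 (by omega)
    obtain ⟨y, hy⟩ := hne
    obtain ⟨i0, rfl⟩ := hC'.on y hy
    obtain ⟨A₁, p₁, m₁, t₁, hA₁, ht₁, hpt₁⟩ := exists_isArc hc' hQne (hC'.notQ _ hy)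
    have hA₁c := hA₁.closed hc'
    have hsub₁ : A₁ ⊆ C \ A := hA₁.subset hC' ht₁ (by rw [hpt₁]; exact hy)
    have hA₁ne : A₁.Nonempty := ⟨_, (hA₁.mem _).2 ⟨t₁, ht₁, rfl⟩⟩
    have hC'' : ArcClosed v' Q ((C \ A) \ A₁) := hC'.sdiff hA₁c
    have hm₁ := hmin A₁ hsub₁ hA₁ne hA₁c hC''
    have hA₁card := hA₁.card hc'
    have hcc2 : ((C \ A) \ A₁).card + A₁.card = (C \ A).card :=
      Finset.card_sdiff_add_card_eq_card hsub₁
    have hL1arc : (leftEnds v' Q A₁).Nonempty := exists_leftEnd hc' hQne hA₁c hA₁ne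
    have hR1arc : (leftEnds (fun i => v' (-i)) Q A₁).Nonempty :=
      exists_leftEnd hc'.rev hQne' hA₁c.rev hA₁ne
    have hL2 := leftEnds_card_sdiff_le hsub₁ hL1arc
    have hR2 := leftEnds_card_sdiff_le hsub₁ hR1arc
    have hC''ne : ((C \ A) \ A₁).Nonempty := by
      by_contra hcon
      rw [Finset.not_nonempty_iff_eq_empty] at hcon
      have hAeq : A₁ = C \ A := by
        apply Finset.Subset.antisymm hsub₁
        exact Finset.sdiff_eq_empty_iff_subset.1 hcon
      have := hA₁.left_le hc'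
      rw [hAeq] at this
      omega
    have hsubC'' : (C \ A) \ A₁ ⊆ C \ A := Finset.sdiff_subset
    have hback : ArcClosed v' Q ((C \ A) \ ((C \ A) \ A₁)) := by
      rw [Finset.sdiff_sdiff_eq_self hsub₁]
      exact hA₁c
    have hm₂ := hmin _ hsubC'' hC''ne hC'' hback
    have hm₁3 : m₁ = 3 := by omega
    -- the ends
    have hbA := hAa.bdry_subset hc'
    have hbA₁ := hA₁.bdry_subset hc'
    have hCsplit : C = A ∪ (A₁ ∪ ((C \ A) \ A₁)) := by
      ext z
      simp only [Finset.mem_union, Finset.mem_sdiff]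
      constructor
      · intro hz
        by_cases h1 : z ∈ A
        · exact Or.inl h1
        · by_cases h2 : z ∈ A₁
          · exact Or.inr (Or.inl h2)
          · exact Or.inr (Or.inr ⟨⟨hz, h1⟩, h2⟩)
      · rintro (h | h | h)
        · exact hAC h
        · exact (Finset.mem_sdiff.1 (hsub₁ h)).1
        · exact h.1.1
    have hbC : (bdry v' Q C).card ≤
        (({v' (b - 1), v' (b + m)} ∪ {v' (p₁ - 1), v' (p₁ + m₁)} : Finset V)).card +
          (bdry v' Q ((C \ A) \ A₁)).card := by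
      refine le_trans (Finset.card_le_card ?_) (Finset.card_union_le _ _)
      intro a ha
      rw [hCsplit] at ha
      rcases Finset.mem_union.1 (bdry_union_subset ha) with h | h
      · exact Finset.mem_union_left _ (Finset.mem_union_left _ (hbA h))
      · rcases Finset.mem_union.1 (bdry_union_subset h) with h | h
        · exact Finset.mem_union_left _ (Finset.mem_union_right _ (hbA₁ h))
        · exact Finset.mem_union_right _ h
    have hb2 := card_bdry_le (Q := Q) (C := (C \ A) \ A₁) hc'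
    have h4dist : 4 ≤ ({v' (b - 1), v' (b + m), v' (p₁ - 1), v' (p₁ + m₁)} : Finset V).card := by
      have e1 : ({v' (b - 1), v' (b + m)} ∪ {v' (p₁ - 1), v' (p₁ + m₁)} : Finset V) =
          {v' (b - 1), v' (b + m), v' (p₁ - 1), v' (p₁ + m₁)} := by
        ext z
        simp only [Finset.mem_union, Finset.mem_insert, Finset.mem_singleton]
        tauto
      rw [← e1]
      omega
    obtain ⟨h12, h13, h14, h23, h24, h34⟩ := four_distinct h4dist
    have hm3 : m = 3 := by omega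
    -- disjointness of the two arcs
    have hseg : ∀ {X : Finset V} {p : ℤ} {m : ℕ}, IsArc v' Q X p m → ∀ z, z ∈ seg v' p m ↔ z ∈ X := by
      intro X p m hX z
      rw [mem_seg, hX.mem]
      constructor
      · rintro ⟨s, hs, rfl⟩
        exact ⟨s, hs, rfl⟩
      · rintro ⟨s, hs, rfl⟩
        exact ⟨s, hs, rfl⟩
    have hchain : ∀ (p : ℤ) (m : ℕ), (v' (p - 1) :: (seg v' p m ++ [v' (p + m)])).IsChain G.Adj := by
      intro p m
      have h1 := seg_chain hc' (p - 1) (m + 2)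
      have e1 : seg v' (p - 1) (m + 2) = v' (p - 1) :: seg v' p (m + 1) := by
        have := seg_succ' v' (p - 1) (m + 1)
        have e : p - 1 + 1 = p := by ring
        rw [e] at this
        exact this
      rw [e1, seg_succ] at h1
      exact h1
    refine ⟨v' (b - 1), v' (b + m), v' (p₁ - 1), v' (p₁ + m₁), seg v' b m, seg v' p₁ m₁,
      hAa.left, hAa.right, hA₁.left, hA₁.right, h12, h13, h14, h23, h24, h34,
      by rw [length_seg, hm3], by rw [length_seg, hm₁3], ?_, ?_, ?_, hchain _ _, hchain _ _⟩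
    · intro z hz
      exact hA.notQ z ((hseg hAa z).1 hz)
    · intro z hz
      exact hA₁c.notQ z ((hseg hA₁ z).1 hz)
    · rw [List.nodup_append]
      refine ⟨seg_nodup hc' _ _ (hAa.lt hc').le, seg_nodup hc' _ _ (hA₁.lt hc').le, ?_⟩
      intro x hx y hy hxy
      subst hxy
      exact (Finset.mem_sdiff.1 (hsub₁ ((hseg hA₁ x).1 hy))).2 ((hseg hAa x).1 hx)

end Crest.Agent.CycleRamsey
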