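import Crest.Agent.Lib.CycleRamsey.Basic

/-!
# Cycles through a clique (row 54, S0075, big clique regime)

Cycles are duplicate-free lists (`CycL`), closed under rotation and reversal.  `IsSucc Z u v`: `v` comes
right after `u` on `Z`.  The master lemma `hasCycle_of_kept` says: keeping from a cycle a set `K` of
vertices such that all neighbours on the cycle of a kept vertex outside the clique `Q` are kept gives
a cycle on `K`.  From it: RULE C for the ears of a cycle containing `Q`, and the crossing lemma.
-/

set_option autoImplicit false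
set_option linter.unusedSectionVars false
set_option linter.unusedVariables false

open Finset List
open Crest.Agent.Lib.CycleRamsey

namespace Crest.Agent.CycleRamsey.ListCyc

variable {V : Type} [DecidableEq V] {G : SimpleGraph V}

/-- Closed chain. -/
def CycChain (R : V → V → Prop) : List V → Prop
  | [] => True
  | x :: l => (x :: (l ++ [x])).IsChain R

lemma cycChain_rot1 {R : V → V → Prop} {x : V} {l : List V} (h : CycChain R (x :: l)) :
    CycChain R (l ++ [x]) := by
  cases l with
  | nil => exact h
  | cons y m =>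
    have h' : (x :: y :: (m ++ [x])).IsChain R := h
    rw [List.isChain_cons_cons] at h'
    obtain ⟨h1, h3⟩ := h'
    show (y :: (m ++ [x] ++ [y])).IsChain R
    have e : y :: (m ++ [x] ++ [y]) = (y :: m) ++ x :: [y] := by simp
    rw [e, List.isChain_split]
    refine ⟨?_, ?_⟩
    · simpa using h3
    · simpa using h1

lemma CycChain.rotate {R : V → V → Prop} (n : ℕ) : ∀ {Z : List V}, CycChain R Z → CycChain R (Z.rotate n) := by
  induction n with
  | zero => intro Z h; simpa using h
  | succ n ih =>
    intro Z h
    cases Z with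
    | nil => simpa using h
    | cons x l =>
      rw [List.rotate_cons_succ]
      exact ih (cycChain_rot1 h)

lemma CycChain.rotated {R : V → V → Prop} {Z Z' : List V} (h : CycChain R Z) (hr : Z ~r Z') : CycChain R Z' := by
  obtain ⟨n, rfl⟩ := hr
  exact h.rotate n

/-- A cycle given as a list. -/
structure CycL (G : SimpleGraph V) (Z : List V) : Prop where
  nodup : Z.Nodup
  three : 3 ≤ Z.length
  adj : CycChain G.Adj Z

lemma CycL.rotated {Z Z' : List V} (h : CycL G Z) (hr : Z ~r Z') : CycL G Z' :=
  ⟨hr.nodup_iff.1 h.nodup, by rw [← hr.perm.length_eq]; exact h.three, h.adj.rotated hr⟩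

lemma CycL.hasCycle {Z : List V} (h : CycL G Z) : HasCycle G Z.length := by
  cases Z with
  | nil => have := h.three; simp at this
  | cons x l =>
    have h1 : (x :: (l ++ [x])).IsChain G.Adj := h.adj
    have e : x :: (l ++ [x]) = (x :: l) ++ [x] := by simp
    rw [e] at h1
    refine hasCycle_of_list G (x :: l) (by simp) h.nodup h1.left_of_append ?_ h.three
    have := h1.rel_getLast_head_of_append (l₁ := x :: l) (l₂ := [x]) (by simp) (by simp)
    simpa using this

lemma CycL.reverse {Z : List V} (h : CycL G Z) : CycL G Z.reverse := by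
  refine ⟨List.nodup_reverse.2 h.nodup, by simpa using h.three, ?_⟩
  cases Z with
  | nil => exact trivial
  | cons x l =>
    have h1 : (x :: (l ++ [x])).IsChain G.Adj := h.adj
    have h3 : (x :: (l.reverse ++ [x])).IsChain G.Adj := by
      have e : x :: (l.reverse ++ [x]) = (x :: (l ++ [x])).reverse := by simp
      rw [e, List.isChain_reverse]
      exact h1.imp (fun a b hab => hab.symm)
    have h4 : CycChain G.Adj (x :: l.reverse) := h3
    have h5 := cycChain_rot1 h4
    simpa using h5

/-- `v` comes right after `u` on `Z`. -/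
def IsSucc (Z : List V) (u v : V) : Prop := ∃ l, Z ~r u :: v :: l

lemma IsSucc.mem_left {Z : List V} {u v : V} (h : IsSucc Z u v) : u ∈ Z := by
  obtain ⟨l, hl⟩ := h
  exact hl.mem_iff.2 (by simp)

lemma IsSucc.mem_right {Z : List V} {u v : V} (h : IsSucc Z u v) : v ∈ Z := by
  obtain ⟨l, hl⟩ := h
  exact hl.mem_iff.2 (by simp)

lemma IsSucc.ne {Z : List V} {u v : V} (h : IsSucc Z u v) (hZ : Z.Nodup) : u ≠ v := by
  obtain ⟨l, hl⟩ := h
  have := hl.nodup_iff.1 hZ
  intro e
  subst e
  simp at this

lemma isSucc_of_eq {Z A B : List V} {u v : V} (h : Z = A ++ u :: v :: B) : IsSucc Z u v := by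
  refine ⟨B ++ A, ?_⟩
  rw [h]
  have := List.isRotated_append (l := A) (l' := u :: v :: B)
  simpa using this

lemma isSucc_close {Z A : List V} {u x : V} (h : Z = x :: (A ++ [u])) : IsSucc Z u x := by
  refine ⟨A, ?_⟩
  rw [h]
  have := List.isRotated_append (l := x :: A) (l' := [u])
  simpa using this

lemma IsSucc.rotated {Z Z' : List V} {u v : V} (h : IsSucc Z u v) (hr : Z ~r Z') : IsSucc Z' u v := by
  obtain ⟨l, hl⟩ := h
  exact ⟨l, hr.symm.trans hl⟩

/-- Pairs on a chain. -/
lemma CycChain.of_isSucc {R : V → V → Prop} {Z : List V} (h2 : 2 ≤ Z.length)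
    (h : ∀ u v, IsSucc Z u v → R u v) : CycChain R Z := by
  cases Z with
  | nil => exact trivial
  | cons x l =>
    show (x :: (l ++ [x])).IsChain R
    rw [List.isChain_iff_forall_rel_of_append_cons_cons]
    intro a b l₁ l₂ e
    rcases List.eq_nil_or_concat l₂ with rfl | ⟨l3, y, rfl⟩
    · -- closing pair
      have e' : (x :: l) ++ [x] = (l₁ ++ [a]) ++ [b] := by
        simpa using e
      have e3 := List.append_inj' e' rfl
      have hb : x = b := by simpa using e3.2
      subst hb
      cases l₁ with
      | nil =>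
        simp only [List.nil_append] at e3
        have := List.cons.inj e3.1
        rw [this.2] at h2
        simp at h2
      | cons c l₄ =>
        have e4 := e3.1
        simp only [List.cons_append, List.cons.injEq] at e4
        obtain ⟨rfl, e5⟩ := e4
        exact h _ _ (isSucc_close (A := l₄) (by rw [e5]))
    · have e' : (x :: l) ++ [x] = (l₁ ++ a :: b :: l3) ++ [y] := by
        simpa using e
      have e3 := List.append_inj' e' rfl
      exact h _ _ (isSucc_of_eq e3.1)

lemma CycChain.rel_of_isSucc {R : V → V → Prop} {Z : List V} (h : CycChain R Z) {u v : V} (hs : IsSucc Z u v) :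
    R u v := by
  obtain ⟨l, hl⟩ := hs
  have h1 : CycChain R (u :: v :: l) := h.rotated hl
  have h3 : (u :: v :: (l ++ [u])).IsChain R := h1
  exact (List.isChain_cons_cons.1 h3).1

lemma CycL.adj_of_isSucc {Z : List V} (h : CycL G Z) {u v : V} (hs : IsSucc Z u v) : G.Adj u v :=
  h.adj.rel_of_isSucc hs

/-- Two rotations of a duplicate-free list with the same head are equal. -/
lemma rot_same_head {x : V} {l m : List V} (hnd : (x :: l).Nodup) (hr : (x :: l) ~r (x :: m)) : l = m := by
  obtain ⟨n, hn⟩ := hr
  have hlen : 0 < (x :: l).length := by simp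
  have h0 : ((x :: l).rotate n)[0]'(by simp) = x := by
    simp only [hn]
    rfl
  have h1 : ((x :: l).rotate n)[0]'(by simp) = (x :: l)[(0 + n) % (x :: l).length]'(Nat.mod_lt _ hlen) := by
    rw [List.getElem_rotate]
  rw [h0] at h1
  have h3 : (x :: l)[(0 + n) % (x :: l).length]'(Nat.mod_lt _ hlen) = (x :: l)[0]'hlen := by
    rw [← h1]
    rfl
  have h4 := (List.Nodup.getElem_inj_iff hnd).1 h3
  have h5 : (x :: l).rotate n = (x :: l).rotate 0 := by
    rw [← List.rotate_mod, show n % (x :: l).length = 0 by simpa using h4]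
  rw [hn] at h5
  simp only [List.rotate_zero, List.cons.injEq, true_and] at h5
  exact h5.symm

lemma IsSucc.right_unique {Z : List V} {u v v' : V} (hZ : Z.Nodup) (h : IsSucc Z u v) (h' : IsSucc Z u v') :
    v = v' := by
  obtain ⟨l, hl⟩ := h
  obtain ⟨l', hl'⟩ := h'
  have := rot_same_head (hl.nodup_iff.1 hZ) (hl.symm.trans hl')
  exact (List.cons.inj this).1

lemma IsSucc.left_unique {Z : List V} {u u' v : V} (hZ : Z.Nodup) (h : IsSucc Z u v) (h' : IsSucc Z u' v) :
    u = u' := by
  obtain ⟨l, hl⟩ := h
  obtain ⟨l', hl'⟩ := h'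
  -- rotate both so that `v` comes first
  have h1 : Z ~r v :: (l ++ [u]) := by
    refine hl.trans ?_
    have := List.isRotated_append (l := [u]) (l' := v :: l)
    simpa using this
  have h2 : Z ~r v :: (l' ++ [u']) := by
    refine hl'.trans ?_
    have := List.isRotated_append (l := [u']) (l' := v :: l')
    simpa using this
  have := rot_same_head (h1.nodup_iff.1 hZ) (h1.symm.trans h2)
  have e : l ++ [u] = l' ++ [u'] := this
  have := List.append_inj' e rfl
  simpa using this.2

/-- Successors exist. -/
lemma exists_succ {Z : List V} (h2 : 2 ≤ Z.length) {x : V} (hx : x ∈ Z) : ∃ y, IsSucc Z x y := by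
  obtain ⟨A, B, rfl⟩ := List.append_of_mem hx
  cases B with
  | cons y B => exact ⟨y, isSucc_of_eq rfl⟩
  | nil =>
    cases A with
    | nil => simp at h2
    | cons a A => exact ⟨a, isSucc_close (A := A) (by simp)⟩

lemma exists_pred {Z : List V} (h2 : 2 ≤ Z.length) {x : V} (hx : x ∈ Z) : ∃ y, IsSucc Z y x := by
  obtain ⟨A, B, rfl⟩ := List.append_of_mem hx
  cases A using List.reverseRecOn with
  | nil =>
    cases B using List.reverseRecOn with
    | nil => simp at h2
    | append_singleton B u _ => exact ⟨u, isSucc_close (A := B) (by simp)⟩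
  | append_singleton A u _ => exact ⟨u, isSucc_of_eq (A := A) (B := B) (by simp)⟩

/-! ### The master lemma: keeping vertices -/

section kept

variable {Q : Finset V} (hQ : ∀ x ∈ Q, ∀ y ∈ Q, x ≠ y → G.Adj x y) (P : V → Prop) [DecidablePred P]

/-- The relation along the cycle: at a boundary between kept and dropped, the kept vertex is in `Q`. -/
def BdR (G : SimpleGraph V) (Q : Finset V) (P : V → Prop) (u v : V) : Prop :=
  G.Adj u v ∧ (P u → ¬ P v → u ∈ Q) ∧ (¬ P u → P v → v ∈ Q)

/-- The link of the last kept vertex `a` with the rest. -/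
def Link (G : SimpleGraph V) (Q : Finset V) (P : V → Prop) (a : V) : List V → Prop
  | [] => True
  | y :: _ => (P y → G.Adj a y) ∧ (¬ P y → a ∈ Q)

include hQ in
lemma filter_chain_aux (h : V) (hPh : P h) :
    ∀ (L : List V) (a : V), (a :: L).Nodup → h ∉ L → (a ≠ h ∨ L.filter P ≠ []) →
      Link G Q P a (L ++ [h]) → (L ++ [h]).IsChain (BdR G Q P) →
      (a :: (L.filter P ++ [h])).IsChain G.Adj := by
  intro L
  induction L with
  | nil =>
    intro a hnd hh hne hl hc
    have hne' : a ≠ h := by simpa using hne
    have h1 : G.Adj a h := hl.1 hPh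
    simpa using h1
  | cons y L ih =>
    intro a hnd hh hne hl hc
    have hnd' := List.nodup_cons.1 hnd
    have hnd2 := List.nodup_cons.1 hnd'.2
    have hay : a ∉ L := fun h' => hnd'.1 (List.mem_cons_of_mem _ h')
    have hhy : y ≠ h := fun e => hh (e ▸ List.mem_cons_self)
    have hhL : h ∉ L := fun h' => hh (List.mem_cons_of_mem _ h')
    have hchain : (y :: (L ++ [h])).IsChain (BdR G Q P) := by simpa using hc
    -- the relation of `y` with the next vertex
    have hnext : ∀ z, (L ++ [h]).head? = some z → BdR G Q P y z := by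
      intro z hz
      exact hchain.rel_head? (by simp [hz])
    by_cases hPy : P y
    · -- `y` kept
      have e : (y :: L).filter P = y :: L.filter P := by simp [hPy]
      rw [e]
      have h1 : G.Adj a y := hl.1 hPy
      have hrest : (y :: (L.filter P ++ [h])).IsChain G.Adj := by
        refine ih y hnd'.2 hhL (Or.inl hhy) ?_ hchain.tail
        cases hL : L ++ [h] with
        | nil => exact trivial
        | cons z m =>
          have hz := hnext z (by simp [hL])
          refine ⟨fun _ => hz.1, fun hPz => hz.2.1 hPy hPz⟩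
      have e2 : a :: (y :: L.filter P ++ [h]) = a :: y :: (L.filter P ++ [h]) := by simp
      rw [e2, List.isChain_cons_cons]
      exact ⟨h1, hrest⟩
    · -- `y` dropped
      have e : (y :: L).filter P = L.filter P := by simp [hPy]
      rw [e] at hne ⊢
      have haQ : a ∈ Q := hl.2 hPy
      refine ih a (List.nodup_cons.2 ⟨hay, hnd2.2⟩) hhL hne ?_ hchain.tail
      cases hL : L ++ [h] with
      | nil => exact trivial
      | cons z m =>
        have hz := hnext z (by simp [hL])
        refine ⟨fun hPz => ?_, fun _ => haQ⟩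
        have hzQ : z ∈ Q := hz.2.2 hPy hPz
        refine hQ a haQ z hzQ ?_
        -- `a ≠ z`
        cases L with
        | nil =>
          have : z = h := by simpa using (List.cons.inj hL).1.symm
          subst this
          simpa using hne
        | cons z' m' =>
          have : z' = z := (List.cons.inj hL).1
          subst this
          intro e'
          exact hay (e' ▸ List.mem_cons_self)

include hQ in
/-- The filter of a cycle is a closed chain. -/
lemma cycChain_filter {h : V} {rest : List V} (hnd : (h :: rest).Nodup) (hPh : P h)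
    (hne : rest.filter P ≠ []) (hc : CycChain (BdR G Q P) (h :: rest)) :
    CycChain G.Adj (h :: rest.filter P) := by
  have hc' : (h :: (rest ++ [h])).IsChain (BdR G Q P) := hc
  have hh : h ∉ rest := (List.nodup_cons.1 hnd).1
  refine filter_chain_aux hQ P h hPh rest h hnd hh (Or.inr hne) ?_ hc'.tail
  cases hL : rest ++ [h] with
  | nil => exact trivial
  | cons z m =>
    rw [hL] at hc'
    have hz := (List.isChain_cons_cons.1 hc').1
    exact ⟨fun _ => hz.1, fun hPz => hz.2.1 hPh hPz⟩

end kept

/-- MASTER LEMMA. Keeping `K` from a cycle `Z`: if all neighbours on `Z` of a kept vertex outside the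
clique `Q` are kept, `K` is the vertex set of a cycle. -/
theorem hasCycle_of_kept {Q : Finset V} (hQ : ∀ x ∈ Q, ∀ y ∈ Q, x ≠ y → G.Adj x y) {Z : List V} (hZ : CycL G Z)
    (K : Finset V) (hK : ∀ x ∈ K, x ∈ Z) (h3 : 3 ≤ K.card)
    (hcl : ∀ u v, IsSucc Z u v → (u ∈ K → u ∉ Q → v ∈ K) ∧ (v ∈ K → v ∉ Q → u ∈ K)) :
    HasCycle G K.card := by
  obtain ⟨h, hh⟩ : K.Nonempty := Finset.card_pos.1 (by omega)
  -- rotate so that `h` comes first
  obtain ⟨A, B, e⟩ := List.append_of_mem (hK h hh)
  have hrot : Z ~r h :: (B ++ A) := by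
    rw [e]
    have := List.isRotated_append (l := A) (l' := h :: B)
    simpa using this
  have hZ' : CycL G (h :: (B ++ A)) := hZ.rotated hrot
  set rest := B ++ A with hrest
  have hcard : (h :: rest).filter (· ∈ K) = h :: rest.filter (· ∈ K) := by simp [hh]
  have hnd := hZ'.nodup
  have hlen : ((h :: rest).filter (· ∈ K)).length = K.card := by
    have h4 : ((h :: rest).filter (· ∈ K)).toFinset = K := by
      ext x
      simp only [List.mem_toFinset, List.mem_filter, decide_eq_true_eq]
      constructor
      · exact fun hx => hx.2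
      · intro hx
        refine ⟨?_, hx⟩
        exact hrot.mem_iff.1 (hK x hx)
    have h5 := List.toFinset_card_of_nodup (hnd.filter (fun x => decide (x ∈ K)))
    rw [h4] at h5
    exact h5.symm
  rw [hcard] at hlen
  have hne : rest.filter (· ∈ K) ≠ [] := by
    intro h0
    rw [h0] at hlen
    simp at hlen
    omega
  have hc : CycChain (BdR G Q (· ∈ K)) (h :: rest) := by
    refine CycChain.of_isSucc (by have := hZ'.three; simp only [List.length_cons] at this ⊢; omega) ?_
    intro u v huv
    have huv' : IsSucc Z u v := huv.rotated hrot.symm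
    refine ⟨hZ'.adj_of_isSucc huv, ?_, ?_⟩
    · intro hu hv
      by_contra hn
      exact hv ((hcl u v huv').1 hu hn)
    · intro hu hv
      by_contra hn
      exact hu ((hcl u v huv').2 hv hn)
  have hcyc := cycChain_filter hQ (· ∈ K) hnd hh hne hc
  have hfin : CycL G (h :: rest.filter (· ∈ K)) := by
    refine ⟨?_, by rw [hlen]; exact h3, hcyc⟩
    have : (h :: rest.filter (· ∈ K)) = (h :: rest).filter (· ∈ K) := hcard.symm
    rw [this]
    exact hnd.filter _
  have := hfin.hasCycle
  rwa [hlen] at this

/-! ### Ears of a cycle through `Q` -/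

/-- The list of a block decomposition: each block is a vertex of `Q` followed by the interior of the
ear which starts there. -/
def flatB (B : List (V × List V)) : List V := B.flatMap (fun p => p.1 :: p.2)

@[simp] lemma flatB_nil : flatB ([] : List (V × List V)) = [] := rfl

@[simp] lemma flatB_cons (p : V × List V) (B : List (V × List V)) :
    flatB (p :: B) = p.1 :: (p.2 ++ flatB B) := by
  simp [flatB]

lemma mem_flatB {B : List (V × List V)} {x : V} :
    x ∈ flatB B ↔ ∃ p ∈ B, x = p.1 ∨ x ∈ p.2 := by
  simp [flatB, List.mem_flatMap]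

lemma length_flatB (B : List (V × List V)) :
    (flatB B).length = B.length + (B.map (fun p => p.2.length)).sum := by
  induction B with
  | nil => simp
  | cons p B ih =>
    simp only [flatB_cons, List.length_cons, List.length_append, ih, List.map_cons, List.sum_cons]
    omega

/-- Block decomposition of a list which starts in `Q`. -/
lemma exists_blocks (Q : Finset V) : ∀ (n : ℕ) (x : V) (l : List V), l.length ≤ n → x ∈ Q →
    ∃ B : List (V × List V), x :: l = flatB B ∧ (∀ p ∈ B, p.1 ∈ Q) ∧ (∀ p ∈ B, ∀ y ∈ p.2, y ∉ Q) := by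
  intro n
  induction n with
  | zero =>
    intro x l hl hx
    have : l = [] := List.length_eq_zero_iff.1 (by omega)
    subst this
    exact ⟨[(x, [])], by simp, by simpa using hx, by simp⟩
  | succ n ih =>
    intro x l hl hx
    by_cases hall : ∀ y ∈ l, y ∉ Q
    · exact ⟨[(x, l)], by simp, by simpa using hx, by simpa using hall⟩
    · -- first vertex of `Q` in `l`
      have h1 : ∃ A y C, l = A ++ y :: C ∧ y ∈ Q ∧ ∀ a ∈ A, a ∉ Q := by
        clear ih hl
        induction l with
        | nil => simp at hall
        | cons a m ihm =>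
          by_cases ha : a ∈ Q
          · exact ⟨[], a, m, rfl, ha, by simp⟩
          · have hall' : ¬ ∀ y ∈ m, y ∉ Q := by
              intro h
              apply hall
              intro y hy
              rcases List.mem_cons.1 hy with rfl | hy
              · exact ha
              · exact h y hy
            obtain ⟨A, y, C, e, hy, hA⟩ := ihm hall'
            refine ⟨a :: A, y, C, by simp [e], hy, ?_⟩
            intro b hb
            rcases List.mem_cons.1 hb with rfl | hb
            · exact ha
            · exact hA b hb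
      obtain ⟨A, y, C, rfl, hy, hA⟩ := h1
      have hC : C.length ≤ n := by
        simp only [List.length_append, List.length_cons] at hl
        omega
      obtain ⟨B, e, h2, h3⟩ := ih y C hC hy
      refine ⟨(x, A) :: B, ?_, ?_, ?_⟩
      · simp [← e]
      · intro p hp
        rcases List.mem_cons.1 hp with rfl | hp
        · exact hx
        · exact h2 p hp
      · intro p hp
        rcases List.mem_cons.1 hp with rfl | hp
        · exact hA
        · exact h3 p hp

/-- The tail of the next block, or `y` at the end. -/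
def headOf : List (V × List V) → V → V
  | [], y => y
  | q :: _, _ => q.1

/-- The head of an ear: the start of the next block. -/
def hdOf : List (V × List V) → V → (V × List V) → V
  | [], y, _ => y
  | q :: B, y, p => if q = p then headOf B y else hdOf B y p

lemma flatB_append_head (B : List (V × List V)) (y : V) :
    ∃ l, flatB B ++ [y] = headOf B y :: l := by
  cases B with
  | nil => exact ⟨[], by simp [headOf]⟩
  | cons q B => exact ⟨q.2 ++ flatB B ++ [y], by simp [headOf]⟩

section rules

variable {Q : Finset V} {K : Finset V}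

/-- The relation of the master lemma. -/
def KeepR (Q K : Finset V) (u v : V) : Prop := (u ∈ K → u ∉ Q → v ∈ K) ∧ (v ∈ K → v ∉ Q → u ∈ K)

lemma keep_chain : ∀ (B : List (V × List V)) (y : V), B.Nodup → y ∈ Q →
    (∀ p ∈ B, p.1 ∈ Q) → (∀ p ∈ B, ∀ a ∈ p.2, a ∉ Q) →
    (∀ p ∈ B, ∀ a ∈ p.2, a ∈ K → p.1 ∈ K ∧ (∀ b ∈ p.2, b ∈ K) ∧ hdOf B y p ∈ K) →
    (flatB B ++ [y]).IsChain (KeepR Q K) := by
  intro B
  induction B with
  | nil => intro y _ _ _ _ _; simp
  | cons p B ih =>
    intro y hnd hy hB hI hK
    obtain ⟨z, hz⟩ : ∃ l, flatB B ++ [y] = headOf B y :: l := flatB_append_head B y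
    have hnd' := List.nodup_cons.1 hnd
    have hrest := ih y hnd'.2 hy (fun q hq => hB q (List.mem_cons_of_mem _ hq))
      (fun q hq => hI q (List.mem_cons_of_mem _ hq)) (by
        intro q hq a ha haK
        obtain ⟨h1, h3, h4⟩ := hK q (List.mem_cons_of_mem _ hq) a ha haK
        refine ⟨h1, h3, ?_⟩
        have hne : p ≠ q := fun e => hnd'.1 (e ▸ hq)
        simpa [hdOf, hne] using h4)
    have hzQ : headOf B y ∈ Q := by
      cases B with
      | nil => exact hy
      | cons q B => exact hB q (List.mem_cons_of_mem _ List.mem_cons_self)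
    have hpK : ∀ a ∈ p.2, a ∈ K → p.1 ∈ K ∧ (∀ b ∈ p.2, b ∈ K) ∧ headOf B y ∈ K := by
      intro a ha haK
      obtain ⟨h1, h3, h4⟩ := hK p List.mem_cons_self a ha haK
      refine ⟨h1, h3, ?_⟩
      simpa [hdOf] using h4
    have hp1 : p.1 ∈ Q := hB p List.mem_cons_self
    have hblock : ((p.1 :: p.2) ++ [headOf B y]).IsChain (KeepR Q K) := by
      rw [List.isChain_iff_forall_rel_of_append_cons_cons]
      intro a b l₁ l₂ e
      have ha : a ∈ (p.1 :: p.2) ++ [headOf B y] := by rw [e]; simp
      have hb : b ∈ (p.1 :: p.2) ++ [headOf B y] := by rw [e]; simp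
      simp only [List.cons_append, List.mem_cons, List.mem_append, List.not_mem_nil, or_false] at ha hb
      constructor
      · intro haK haQ
        have ha' : a ∈ p.2 := by
          rcases ha with rfl | ha | rfl
          · exact absurd hp1 haQ
          · exact ha
          · exact absurd hzQ haQ
        obtain ⟨h1, h3, h4⟩ := hpK a ha' haK
        rcases hb with rfl | hb | rfl
        · exact h1
        · exact h3 _ hb
        · exact h4
      · intro hbK hbQ
        have hb' : b ∈ p.2 := by
          rcases hb with rfl | hb | rfl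
          · exact absurd hp1 hbQ
          · exact hb
          · exact absurd hzQ hbQ
        obtain ⟨h1, h3, h4⟩ := hpK b hb' hbK
        rcases ha with rfl | ha | rfl
        · exact h1
        · exact h3 _ ha
        · exact h4
    have e : flatB (p :: B) ++ [y] = (p.1 :: p.2) ++ headOf B y :: z := by
      simp only [flatB_cons, List.cons_append, List.append_assoc, hz]
    rw [e, List.isChain_split]
    exact ⟨hblock, by rw [← hz]; exact hrest⟩

/-- A block decomposition of a cycle. -/
structure EarD (Q : Finset V) (Z : List V) (B : List (V × List V)) : Prop where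
  rot : Z ~r flatB B
  ne : B ≠ []
  tails : ∀ p ∈ B, p.1 ∈ Q
  ints : ∀ p ∈ B, ∀ y ∈ p.2, y ∉ Q

/-- Existence of a block decomposition. -/
lemma exists_earD {Z : List V} {x : V} (hx : x ∈ Z) (hxQ : x ∈ Q) : ∃ B, EarD Q Z B := by
  obtain ⟨A, C, rfl⟩ := List.append_of_mem hx
  obtain ⟨B, e, h1, h3⟩ := exists_blocks Q _ x (C ++ A) le_rfl hxQ
  refine ⟨B, ?_, ?_, h1, h3⟩
  · rw [← e]
    have := List.isRotated_append (l := A) (l' := x :: C)
    simpa using this
  · rintro rfl
    simp at e

lemma EarD.nodup_flat {Z : List V} {B : List (V × List V)} (hB : EarD Q Z B) (hZ : Z.Nodup) :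
    (flatB B).Nodup := hB.rot.nodup_iff.1 hZ

lemma nodup_of_flat {B : List (V × List V)} (h : (flatB B).Nodup) : B.Nodup := by
  induction B with
  | nil => simp
  | cons p B ih =>
    rw [flatB_cons] at h
    have h1 := List.nodup_cons.1 h
    have h3 := List.nodup_append.1 h1.2
    refine List.nodup_cons.2 ⟨?_, ih h3.2.1⟩
    intro hp
    exact h1.1 (List.mem_append_right _ (mem_flatB.2 ⟨p, hp, Or.inl rfl⟩))

lemma disjoint_of_flat {B : List (V × List V)} (h : (flatB B).Nodup) {p q : V × List V} (hp : p ∈ B) (hq : q ∈ B)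
    (hne : p ≠ q) {x : V} (h1 : x ∈ p.2) (h3 : x ∈ q.2) : False := by
  induction B with
  | nil => simp at hp
  | cons r B ih =>
    rw [flatB_cons] at h
    have h4 := List.nodup_cons.1 h
    have h5 := List.nodup_append.1 h4.2
    rcases List.mem_cons.1 hp with rfl | hp' <;> rcases List.mem_cons.1 hq with rfl | hq'
    · exact hne rfl
    · exact h5.2.2 x h1 x (mem_flatB.2 ⟨q, hq', Or.inr h3⟩) rfl
    · exact h5.2.2 x h3 x (mem_flatB.2 ⟨p, hp', Or.inr h1⟩) rfl
    · exact ih h5.2.1 hp' hq'

/-- The interior vertices of a set of ears. -/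
def intOf (I : Finset (V × List V)) : Finset V := I.biUnion (fun p => p.2.toFinset)

lemma mem_intOf {I : Finset (V × List V)} {x : V} : x ∈ intOf I ↔ ∃ p ∈ I, x ∈ p.2 := by
  simp [intOf]

/-- The weight of a set of ears. -/
def wt (I : Finset (V × List V)) : ℕ := ∑ p ∈ I, p.2.length

/-- The cyclic next tail. -/
def hdB (B : List (V × List V)) (p : V × List V) : V := hdOf B (headOf B p.1) p

lemma card_intOf {B : List (V × List V)} (h : (flatB B).Nodup) {I : Finset (V × List V)} (hI : ∀ p ∈ I, p ∈ B) :
    (intOf I).card = wt I := by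
  unfold intOf wt
  rw [Finset.card_biUnion]
  · refine Finset.sum_congr rfl ?_
    intro p hp
    refine List.toFinset_card_of_nodup ?_
    obtain ⟨B1, B2, e⟩ := List.append_of_mem (hI p hp)
    rw [e] at h
    simp only [flatB, List.flatMap_append, List.flatMap_cons] at h
    have h3 := (List.nodup_append.1 h).2.1
    have h4 := (List.nodup_append.1 h3).1
    exact (List.nodup_cons.1 h4).2
  · intro p hp q hq hne
    simp only [Function.onFun]
    rw [Finset.disjoint_left]
    intro x hx hx'
    exact disjoint_of_flat h (hI p (Finset.mem_coe.1 hp)) (hI q (Finset.mem_coe.1 hq)) hne (List.mem_toFinset.1 hx) (List.mem_toFinset.1 hx')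

/-- The touched vertices of a set of ears. -/
def touched (B : List (V × List V)) (I : Finset (V × List V)) : Finset V :=
  I.image Prod.fst ∪ I.image (hdB B)

lemma card_touched_le (B : List (V × List V)) (I : Finset (V × List V)) : (touched B I).card ≤ 2 * I.card := by
  unfold touched
  have h1 := Finset.card_union_le (I.image Prod.fst) (I.image (hdB B))
  have h3 : (I.image Prod.fst).card ≤ I.card := Finset.card_image_le
  have h4 : (I.image (hdB B)).card ≤ I.card := Finset.card_image_le
  omega

lemma hdOf_mem {y : V} (hy : y ∈ Q) : ∀ {B : List (V × List V)} {p : V × List V},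
    (∀ q ∈ B, q.1 ∈ Q) → hdOf B y p ∈ Q := by
  intro B
  induction B with
  | nil => intro p _; exact hy
  | cons q B ih =>
    intro p hB
    simp only [hdOf]
    split_ifs with h
    · cases B with
      | nil => exact hy
      | cons q' B => exact hB q' (List.mem_cons_of_mem _ List.mem_cons_self)
    · exact ih (fun r hr => hB r (List.mem_cons_of_mem _ hr))

lemma touched_subset {B : List (V × List V)} (hB : ∀ p ∈ B, p.1 ∈ Q) {I : Finset (V × List V)} (hI : ∀ p ∈ I, p ∈ B) :
    touched B I ⊆ Q := by
  intro x hx
  unfold touched at hx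
  rcases Finset.mem_union.1 hx with hx | hx
  · obtain ⟨p, hp, rfl⟩ := Finset.mem_image.1 hx
    exact hB p (hI p hp)
  · obtain ⟨p, hp, rfl⟩ := Finset.mem_image.1 hx
    refine hdOf_mem ?_ hB
    have hpB := hI p hp
    cases B with
    | nil => simp at hpB
    | cons q B => exact hB q List.mem_cons_self

/-- RULE C, raw form: keep the interiors of a set `I` of ears of `Z`, and any set `U` of vertices of `Q`
containing the touched ones. -/
theorem hasCycle_of_ears (hQ : ∀ x ∈ Q, ∀ y ∈ Q, x ≠ y → G.Adj x y) {Z : List V} {B : List (V × List V)}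
    (hZ : CycL G Z) (hB : EarD Q Z B) (hQZ : ∀ x ∈ Q, x ∈ Z)
    (I : Finset (V × List V)) (hI : ∀ p ∈ I, p ∈ B) (U : Finset V) (hU : U ⊆ Q) (hT : touched B I ⊆ U)
    (h3 : 3 ≤ wt I + U.card) : HasCycle G (wt I + U.card) := by
  have hflat := hB.nodup_flat hZ.nodup
  have hcard : (intOf I ∪ U).card = wt I + U.card := by
    rw [Finset.card_union_of_disjoint, card_intOf hflat hI]
    rw [Finset.disjoint_left]
    intro x hx hxU
    obtain ⟨p, hp, hxp⟩ := mem_intOf.1 hx
    exact hB.ints p (hI p hp) x hxp (hU hxU)
  rw [← hcard] at h3 ⊢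
  refine hasCycle_of_kept hQ hZ (intOf I ∪ U) ?_ h3 ?_
  · intro x hx
    rcases Finset.mem_union.1 hx with hx | hx
    · obtain ⟨p, hp, hxp⟩ := mem_intOf.1 hx
      exact hB.rot.mem_iff.2 (mem_flatB.2 ⟨p, hI p hp, Or.inr hxp⟩)
    · exact hQZ x (hU hx)
  · -- the closure
    set K := intOf I ∪ U with hK
    have hne := hB.ne
    obtain ⟨p0, B', hB0⟩ : ∃ p0 B', B = p0 :: B' := by
      cases B with
      | nil => exact absurd rfl hne
      | cons p0 B' => exact ⟨p0, B', rfl⟩
    have hkeep : (flatB B ++ [p0.1]).IsChain (KeepR Q K) := by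
      refine keep_chain B p0.1 (nodup_of_flat hflat) (hB.tails p0 (by simp [hB0])) hB.tails hB.ints ?_
      intro p hp a ha haK
      have hai : a ∈ intOf I := by
        rcases Finset.mem_union.1 haK with h | h
        · exact h
        · exact absurd (hU h) (hB.ints p hp a ha)
      obtain ⟨p', hp', hap'⟩ := mem_intOf.1 hai
      have hpp : p = p' := by
        by_contra hn
        exact disjoint_of_flat hflat hp (hI p' hp') hn ha hap'
      subst hpp
      refine ⟨Finset.mem_union_right _ (hT (Finset.mem_union_left _ (Finset.mem_image_of_mem _ hp'))),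
        fun b hb => Finset.mem_union_left _ (mem_intOf.2 ⟨p, hp', hb⟩), ?_⟩
      have h4 : hdOf B p0.1 p = hdB B p := by
        unfold hdB
        rw [hB0]
        rfl
      rw [h4]
      exact Finset.mem_union_right _ (hT (Finset.mem_union_right _ (Finset.mem_image_of_mem _ hp')))
    have hcyc : CycChain (KeepR Q K) (flatB B) := by
      rw [hB0]
      rw [hB0] at hkeep
      simpa [CycChain] using hkeep
    intro u v huv
    exact hcyc.rel_of_isSucc (huv.rotated hB.rot)

/-- RULE C, exact lengths. -/
theorem ruleC (hQ : ∀ x ∈ Q, ∀ y ∈ Q, x ≠ y → G.Adj x y) {Z : List V} {B : List (V × List V)}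
    (hZ : CycL G Z) (hB : EarD Q Z B) (hQZ : ∀ x ∈ Q, x ∈ Z)
    (I : Finset (V × List V)) (hI : ∀ p ∈ I, p ∈ B) {m : ℕ} (h3 : 3 ≤ m)
    (h1 : wt I + (touched B I).card ≤ m) (h2' : m ≤ wt I + Q.card) : HasCycle G m := by
  obtain ⟨U, hU1, hU2, hU3⟩ := Finset.exists_subsuperset_card_eq (touched_subset hB.tails hI)
    (show (touched B I).card ≤ m - wt I by omega) (show m - wt I ≤ Q.card by omega)
  have := hasCycle_of_ears hQ hZ hB hQZ I hI U hU2 hU1 (by omega)
  have e : wt I + U.card = m := by omega
  rwa [e] at this

/-- The total weight of a decomposition. -/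
lemma wt_toFinset {Z : List V} {B : List (V × List V)} (hZ : Z.Nodup) (hB : EarD Q Z B) :
    wt B.toFinset + B.length = Z.length := by
  have hflat := hB.nodup_flat hZ
  have hnd := nodup_of_flat hflat
  have h1 := length_flatB B
  have h3 : Z.length = (flatB B).length := hB.rot.perm.length_eq
  have h4 : wt B.toFinset = (B.map (fun p => p.2.length)).sum := by
    unfold wt
    exact List.sum_toFinset _ hnd
  omega

lemma length_of_earD {Z : List V} {B : List (V × List V)} (hZ : Z.Nodup) (hB : EarD Q Z B)
    (hQZ : ∀ x ∈ Q, x ∈ Z) : B.length = Q.card := by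
  have hflat := hB.nodup_flat hZ
  have hnd : (B.map Prod.fst).Nodup := by
    clear hB hQZ
    induction B with
    | nil => simp
    | cons p B ih =>
      rw [flatB_cons] at hflat
      have h4 := List.nodup_cons.1 hflat
      have h5 := List.nodup_append.1 h4.2
      simp only [List.map_cons]
      refine List.nodup_cons.2 ⟨?_, ih h5.2.1⟩
      intro hp
      obtain ⟨q, hq, e⟩ := List.mem_map.1 hp
      exact h4.1 (List.mem_append_right _ (mem_flatB.2 ⟨q, hq, Or.inl e.symm⟩))
  have e : (B.map Prod.fst).toFinset = Q := by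
    ext x
    simp only [List.mem_toFinset, List.mem_map]
    constructor
    · rintro ⟨p, hp, rfl⟩
      exact hB.tails p hp
    · intro hx
      have h1 := hB.rot.mem_iff.1 (hQZ x hx)
      obtain ⟨p, hp, h3 | h3⟩ := mem_flatB.1 h1
      · exact ⟨p, hp, h3.symm⟩
      · exact absurd hx (hB.ints p hp x h3)
  have := List.toFinset_card_of_nodup hnd
  rw [e] at this
  simpa using this.symm

end rules

/-- The arithmetic of the minimal set of ears. -/
lemma ear_arith {f e r : ℕ} (he : 1 ≤ e) (her : e + 1 ≤ r) (h : f * (e + 1) ≤ r + 1 + e) : 2 * f + e ≤ r + 3 := by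
  obtain ⟨d, rfl⟩ : ∃ d, r = e + 1 + d := ⟨r - (e + 1), by omega⟩
  by_contra hn
  have h1 : d + 5 ≤ 2 * f := by omega
  have h3 : (d + 5) * (e + 1) ≤ 2 * f * (e + 1) := Nat.mul_le_mul_right _ h1
  have h4 : d ≤ d * e := Nat.le_mul_of_pos_right _ (by omega)
  nlinarith

section ear_lemma

variable {Q : Finset V}

/-- EAR LEMMA. A cycle through `Q` with weight in `[r+1, k-1]` gives a cycle of length `k+1`, when `q ≥ r+3`. -/
theorem ear_lemma (hQ : ∀ x ∈ Q, ∀ y ∈ Q, x ≠ y → G.Adj x y) {Z : List V} (hZ : CycL G Z) (hQZ : ∀ x ∈ Q, x ∈ Z)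
    {k r : ℕ} (hk : k = Q.card + r) (hq : r + 3 ≤ Q.card) (h1 : Q.card + r + 1 ≤ Z.length)
    (h2' : Z.length ≤ Q.card + k - 1) : HasCycle G (k + 1) := by
  obtain ⟨x, hx⟩ : Q.Nonempty := Finset.card_pos.1 (by omega)
  obtain ⟨B, hB⟩ := exists_earD (hQZ x hx) hx
  have hlen := length_of_earD hZ.nodup hB hQZ
  have htot := wt_toFinset hZ.nodup hB
  set F := (B.toFinset.powerset).filter (fun I => r + 1 ≤ wt I) with hF
  have hFne : F.Nonempty := ⟨B.toFinset, Finset.mem_filter.2 ⟨Finset.mem_powerset.2 (Finset.Subset.refl _), by omega⟩⟩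
  obtain ⟨I, hIF, hmin⟩ := Finset.exists_min_image F Finset.card hFne
  obtain ⟨hI1, hI2⟩ := Finset.mem_filter.1 hIF
  have hIB : ∀ p ∈ I, p ∈ B := by
    intro p hp
    exact List.mem_toFinset.1 (Finset.mem_powerset.1 hI1 hp)
  have hIne : I.Nonempty := by
    rw [Finset.nonempty_iff_ne_empty]
    rintro rfl
    simp [wt] at hI2
  set e := wt I - (r + 1) with he
  have hw : wt I = r + 1 + e := by omega
  -- each ear of `I` has weight at least `e+1`
  have hear : ∀ p ∈ I, e + 1 ≤ p.2.length := by
    intro p hp
    by_contra hn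
    have hsum : wt (I.erase p) + p.2.length = wt I := Finset.sum_erase_add _ _ hp
    have hnew : I.erase p ∈ F := Finset.mem_filter.2 ⟨Finset.mem_powerset.2
      ((Finset.erase_subset _ _).trans (Finset.mem_powerset.1 hI1)), by omega⟩
    have := hmin _ hnew
    rw [Finset.card_erase_of_mem hp] at this
    have hpos : 0 < I.card := Finset.card_pos.2 hIne
    omega
  have hmul : I.card * (e + 1) ≤ wt I := by
    have := Finset.card_nsmul_le_sum I (fun p => p.2.length) (e + 1) hear
    simpa [wt] using this
  have hT1 := card_touched_le B I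
  have hT2 : (touched B I).card ≤ Q.card := Finset.card_le_card (touched_subset hB.tails hIB)
  refine ruleC hQ hZ hB hQZ I hIB (by omega) ?_ (by omega)
  by_cases he0 : e = 0
  · omega
  have hwB : wt I ≤ wt B.toFinset := by
    unfold wt
    exact Finset.sum_le_sum_of_subset (Finset.mem_powerset.1 hI1)
  by_cases hf1 : I.card = 1
  · omega
  · have hf2 : 2 ≤ I.card := by
      have := Finset.card_pos.2 hIne
      omega
    have h4 : 2 * (e + 1) ≤ I.card * (e + 1) := Nat.mul_le_mul_right _ hf2
    have h5 := ear_arith (f := I.card) (e := e) (r := r) (by omega) (by omega) (by omega)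
    omega

end ear_lemma

/-! ### Crossing -/

lemma cycChain_iff {R : V → V → Prop} {Z : List V} :
    CycChain R Z ↔ Z.IsChain R ∧ ∀ x ∈ Z.getLast?, ∀ y ∈ Z.head?, R x y := by
  cases Z with
  | nil => simp [CycChain]
  | cons x l =>
    show (x :: (l ++ [x])).IsChain R ↔ _
    have e : x :: (l ++ [x]) = (x :: l) ++ [x] := by simp
    rw [e, List.isChain_append]
    simp

/-- Split a cycle at two units. -/
lemma split_units {Z : List V} {u v u' v' : V} (hnd : Z.Nodup) (hs : IsSucc Z v u) (hs' : IsSucc Z v' u') (hne : v ≠ v') :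
    ∃ A B : List V, Z ~r A ++ B ∧ A.head? = some u ∧ A.getLast? = some v' ∧ B.head? = some u' ∧ B.getLast? = some v := by
  obtain ⟨l, hl⟩ := hs
  have hv' : v' ∈ v :: u :: l := hl.mem_iff.1 hs'.mem_left
  have hv'2 : v' ∈ u :: l := by
    rcases List.mem_cons.1 hv' with h | h
    · exact absurd h.symm hne
    · exact h
  obtain ⟨A0, C, e⟩ := List.append_of_mem hv'2
  refine ⟨A0 ++ [v'], C ++ [v], ?_, ?_, by simp, ?_, by simp⟩
  · refine hl.trans ?_
    rw [e]
    have := List.isRotated_append (l := [v]) (l' := A0 ++ v' :: C)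
    simpa using this
  · cases A0 with
    | nil =>
      simp only [List.nil_append, List.cons.injEq] at e
      simp [e.1]
    | cons a A0 =>
      simp only [List.cons_append, List.cons.injEq] at e
      simp [e.1]
  · -- the head of `B`
    have h1 : Z ~r v' :: (C ++ [v] ++ A0) := by
      refine hl.trans ?_
      rw [e]
      have h3 := List.isRotated_append (l := v :: A0) (l' := v' :: C)
      have e1 : v :: (A0 ++ v' :: C) = (v :: A0) ++ (v' :: C) := by simp
      rw [e1]
      refine h3.trans ?_
      have h4 := List.isRotated_append (l := v' :: C) (l' := v :: A0)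
      have e2 : v' :: (C ++ [v] ++ A0) = (v' :: C) ++ ([v] ++ A0) := by simp
      rw [e2]
      simp only [List.cons_append, List.nil_append]
      exact (List.IsRotated.refl _)
    obtain ⟨m, hm⟩ := hs'
    have h2' := rot_same_head (h1.nodup_iff.1 hnd) (h1.symm.trans hm)
    cases C with
    | nil =>
      have : v = u' := by simpa using (List.cons.inj h2').1
      simp [this]
    | cons c C =>
      have : c = u' := by simpa using (List.cons.inj h2').1
      simp [this]

/-- CROSSING. Two units `v ≠ v'` of `Z` (with adjacent successors) joined by a path `g` outside `Z`: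
`Z` can be rerouted through `g`. -/
theorem crossing {Z : List V} (hZ : CycL G Z) {u v u' v' : V} (hs : IsSucc Z v u) (hs' : IsSucc Z v' u') (hne : v ≠ v')
    (huu : G.Adj u u') (g : List V) (hgne : g ≠ []) (gnd : g.Nodup) (gch : g.IsChain G.Adj)
    (gh : G.Adj v (g.head hgne)) (gl : G.Adj (g.getLast hgne) v') (gd : ∀ x ∈ g, x ∉ Z) :
    ∃ Z', CycL G Z' ∧ (∀ x, x ∈ Z' ↔ x ∈ Z ∨ x ∈ g) ∧ Z'.length = Z.length + g.length := by
  obtain ⟨A, B, hr, hA1, hA2, hB1, hB2⟩ := split_units hZ.nodup hs hs' hne
  have hZ' : CycL G (A ++ B) := hZ.rotated hr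
  have hAB := List.nodup_append.1 hZ'.nodup
  have hchAB := (cycChain_iff.1 hZ'.adj).1
  have hchA := hchAB.left_of_append
  have hchB := hchAB.right_of_append
  refine ⟨B ++ g ++ A.reverse, ⟨?_, ?_, ?_⟩, ?_, ?_⟩
  · -- duplicate-free
    rw [List.nodup_append, List.nodup_append]
    refine ⟨⟨hAB.2.1, gnd, ?_⟩, List.nodup_reverse.2 hAB.1, ?_⟩
    · intro a ha b hb e
      subst e
      exact gd a hb (hr.mem_iff.2 (List.mem_append_right _ ha))
    · intro a ha b hb e
      subst e
      rw [List.mem_reverse] at hb
      rcases List.mem_append.1 ha with ha | ha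
      · exact hAB.2.2 a hb a ha rfl
      · exact gd a ha (hr.mem_iff.2 (List.mem_append_left _ hb))
  · have h3 := hZ'.three
    have hg1 : 1 ≤ g.length := List.length_pos_iff.2 hgne
    simp only [List.length_append, List.length_reverse] at h3 ⊢
    omega
  · rw [cycChain_iff]
    have hch1 : (B ++ g).IsChain G.Adj := by
      refine hchB.append gch ?_
      intro x hx y hy
      rw [hB2] at hx
      obtain rfl := Option.some.inj hx
      rw [List.head?_eq_some_head hgne] at hy
      obtain rfl := Option.some.inj hy
      exact gh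
    have hchRev : A.reverse.IsChain G.Adj := by
      rw [List.isChain_reverse]
      exact hchA.imp (fun a b h => h.symm)
    have hlast1 : (B ++ g).getLast? = some (g.getLast hgne) := by
      rw [List.getLast?_append_of_ne_nil _ hgne, List.getLast?_eq_some_getLast hgne]
    constructor
    · refine hch1.append hchRev ?_
      intro x hx y hy
      rw [hlast1] at hx
      obtain rfl := Option.some.inj hx
      rw [List.head?_reverse, hA2] at hy
      obtain rfl := Option.some.inj hy
      exact gl
    · intro x hx y hy
      have hAne : A ≠ [] := by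
        rintro rfl
        simp at hA1
      have hrevne : A.reverse ≠ [] := by simpa using hAne
      have hBne : B ≠ [] := by
        rintro rfl
        simp at hB1
      rw [List.getLast?_append_of_ne_nil _ hrevne, List.getLast?_reverse, hA1] at hx
      obtain rfl := Option.some.inj hx
      have e1 : (B ++ g ++ A.reverse).head? = some u' := by
        rw [List.append_assoc, List.head?_append_of_ne_nil _ hBne, hB1]
      rw [e1] at hy
      obtain rfl := Option.some.inj hy
      exact huu
  · intro x
    simp only [List.mem_append, List.mem_reverse, hr.mem_iff]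
    tauto
  · have := hr.perm.length_eq
    simp only [List.length_append, List.length_reverse] at this ⊢
    omega

/-- Inserting a vertex adjacent to two consecutive vertices of a cycle. -/
theorem insert_vertex {Z : List V} (hZ : CycL G Z) {x y w : V} (hs : IsSucc Z x y) (hw : w ∉ Z)
    (h1 : G.Adj x w) (h3 : G.Adj w y) : HasCycle G (Z.length + 1) := by
  obtain ⟨l, hl⟩ := hs
  have hZ1 : CycL G (x :: y :: l) := hZ.rotated hl
  have hlen : (x :: y :: l).length = Z.length := hl.perm.length_eq.symm
  have hZ2 : CycL G (x :: w :: y :: l) := by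
    refine ⟨?_, ?_, ?_⟩
    · have hnd := hZ1.nodup
      have hw' : w ∉ x :: y :: l := fun h => hw (hl.mem_iff.2 h)
      simp only [List.mem_cons, not_or] at hw'
      simp only [List.nodup_cons, List.mem_cons, not_or] at hnd ⊢
      refine ⟨⟨?_, hnd.1.1, hnd.1.2⟩, ⟨?_, hw'.2.2⟩, hnd.2⟩
      · exact fun e => hw'.1 e.symm
      · exact fun e => hw'.2.1 e
    · simp only [List.length_cons] at hlen ⊢
      have := hZ1.three
      simp only [List.length_cons] at this
      omega
    · have h4 : (x :: y :: (l ++ [x])).IsChain G.Adj := hZ1.adj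
      show (x :: w :: (y :: l ++ [x])).IsChain G.Adj
      rw [List.isChain_cons_cons] at h4 ⊢
      refine ⟨h1, ?_⟩
      simp only [List.cons_append]
      rw [List.isChain_cons_cons]
      exact ⟨h3, h4.2⟩
  have := hZ2.hasCycle
  simp only [List.length_cons] at this hlen
  have e : l.length + 1 + 1 + 1 = Z.length + 1 := by omega
  rwa [e] at this

end Crest.Agent.CycleRamsey.ListCyc
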