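import Crest.Agent.Lib.CycleRamsey.Crossing

/-!
# Inserting an outside vertex into a cycle through a clique (helper11, row 54, S0075)

`spans_of_list`: a duplicate-free closed chain gives a cycle with exactly these vertices.
`seg v a m`: the segment `v a, …, v (a + m - 1)`.
`insert_vertex`: `w` off the cycle, adjacent to two consecutive vertices: cycle on `V(v) + w`.
`three_cut`: `w` off the cycle, adjacent to `v p` and `v t` with suitable clique vertices around:
cycle on `V(v) + w`.
`type2_unique`: two "type 2" units are equal.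
-/

set_option autoImplicit false
set_option linter.unusedSectionVars false
set_option linter.unusedVariables false
set_option linter.unreachableTactic false
set_option linter.unusedTactic false

namespace Crest.Agent.CycleRamsey

open SimpleGraph
open Crest.Agent.Lib.CycleRamsey (HasCycle exists_walk_of_chain)

variable {V : Type} [DecidableEq V] {G : SimpleGraph V}

/-- A duplicate-free closed chain gives a cycle with exactly these vertices. -/
theorem spans_of_list (l : List V) (hne : l ≠ []) (hnd : l.Nodup) (hchain : l.IsChain G.Adj)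
    (hclose : G.Adj (l.getLast hne) (l.head hne)) (hlen : 3 ≤ l.length) :
    ∃ (u : V) (c : G.Walk u u), c.IsCycle ∧ c.length = l.length ∧ ∀ z, z ∈ c.support ↔ z ∈ l := by
  cases l with
  | nil => exact absurd rfl hne
  | cons x l =>
    obtain ⟨p, hp⟩ := exists_walk_of_chain G l x hchain
    have hpath : p.IsPath := by
      rw [SimpleGraph.Walk.isPath_def, hp]; exact hnd
    simp only [List.head_cons] at hclose
    have hplen : p.length + 1 = (x :: l).length := by
      rw [← SimpleGraph.Walk.length_support, hp]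
    refine ⟨(x :: l).getLast (by simp), SimpleGraph.Walk.cons hclose p, ?_, ?_, ?_⟩
    · exact cycle_of_path hpath hclose (by omega)
    · simp only [SimpleGraph.Walk.length_cons]; omega
    · intro z
      rw [Walk.support_cons, List.mem_cons, hp]
      constructor
      · rintro (rfl | h)
        · exact List.getLast_mem _
        · exact h
      · exact Or.inr

/-- The segment `v a, …, v (a + m - 1)`. -/
def seg (v : ℤ → V) (a : ℤ) (m : ℕ) : List V := (List.range m).map (fun s : ℕ => v (a + s))

lemma length_seg (v : ℤ → V) (a : ℤ) (m : ℕ) : (seg v a m).length = m := by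
  simp [seg]

lemma mem_seg {v : ℤ → V} {a : ℤ} {m : ℕ} {z : V} :
    z ∈ seg v a m ↔ ∃ s : ℕ, s < m ∧ z = v (a + s) := by
  simp only [seg, List.mem_map, List.mem_range]
  constructor
  · rintro ⟨s, h, rfl⟩
    exact ⟨s, h, rfl⟩
  · rintro ⟨s, h, rfl⟩
    exact ⟨s, h, rfl⟩

lemma seg_succ (v : ℤ → V) (a : ℤ) (m : ℕ) : seg v a (m + 1) = seg v a m ++ [v (a + m)] := by
  simp [seg, List.range_succ]

lemma seg_succ' (v : ℤ → V) (a : ℤ) (m : ℕ) : seg v a (m + 1) = v a :: seg v (a + 1) m := by
  simp only [seg, List.range_succ_eq_map, List.map_cons, List.map_map]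
  simp only [Nat.cast_zero, add_zero, List.cons.injEq, true_and]
  apply List.map_congr_left
  intro s _
  simp only [Function.comp]
  congr 1
  push_cast
  ring

lemma getLast?_seg (v : ℤ → V) (a : ℤ) (m : ℕ) : (seg v a (m + 1)).getLast? = some (v (a + m)) := by
  rw [seg_succ]
  simp

lemma head?_seg (v : ℤ → V) (a : ℤ) (m : ℕ) : (seg v a (m + 1)).head? = some (v a) := by
  rw [seg_succ']
  simp

lemma seg_chain {n : ℕ} {v : ℤ → V} (hc : CycFn G n v) (a : ℤ) (m : ℕ) :
    (seg v a m).IsChain G.Adj := by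
  induction m with
  | zero => simp [seg]
  | succ m ih =>
    rw [seg_succ, List.isChain_append]
    refine ⟨ih, by simp, ?_⟩
    intro x hx y hy
    simp only [List.head?_cons, Option.mem_def, Option.some.injEq] at hy
    subst hy
    cases m with
    | zero => simp [seg] at hx
    | succ m =>
      rw [getLast?_seg] at hx
      simp only [Option.mem_def, Option.some.injEq] at hx
      subst hx
      have := hc.adj (a + m)
      have e : a + ((m + 1 : ℕ) : ℤ) = a + m + 1 := by push_cast; ring
      rw [e]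
      exact this

lemma seg_nodup {n : ℕ} {v : ℤ → V} (hc : CycFn G n v) (a : ℤ) (m : ℕ) (hm : m ≤ n) :
    (seg v a m).Nodup := by
  unfold seg
  apply List.Nodup.map_on _ List.nodup_range
  intro s hs t ht h
  have hs' := List.mem_range.1 hs
  have ht' := List.mem_range.1 ht
  have := hc.inj_window h (by omega) (by omega)
  omega

/-- Inserting a vertex adjacent to two consecutive vertices of the cycle. -/
theorem insert_vertex {n : ℕ} {v : ℤ → V} (hc : CycFn G n v) {w : V} (hw : ∀ t, w ≠ v t) {i : ℤ}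
    (h1 : G.Adj w (v i)) (h2 : G.Adj w (v (i + 1))) :
    ∃ (u : V) (c : G.Walk u u), c.IsCycle ∧ c.length = n + 1 ∧
      ∀ z, z ∈ c.support ↔ (∃ t, z = v t) ∨ z = w := by
  classical
  have hn3 := hc.n_ge
  obtain ⟨m, rfl⟩ : ∃ m, n = m + 1 := ⟨n - 1, by omega⟩
  have hlast : v (i + 1 + m) = v i := by
    rw [hc.eq_iff]
    have : i + 1 + (m : ℤ) - i = ((m + 1 : ℕ) : ℤ) := by push_cast; ring
    rw [this]
  have hne : seg v (i + 1) (m + 1) ++ [w] ≠ [] := by simp
  obtain ⟨u, c, hc1, hc2, hc3⟩ := spans_of_list (G := G) (seg v (i + 1) (m + 1) ++ [w]) hne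
    (by
      rw [List.nodup_append]
      refine ⟨seg_nodup hc _ _ (le_refl _), by simp, ?_⟩
      intro x hx y hy hxy
      rw [List.mem_singleton] at hy
      subst hy
      subst hxy
      obtain ⟨s, _, hs⟩ := mem_seg.1 hx
      exact hw _ hs)
    (by
      rw [List.isChain_append]
      refine ⟨seg_chain hc _ _, by simp, ?_⟩
      intro x hx y hy
      rw [getLast?_seg] at hx
      simp only [List.head?_cons, Option.mem_def, Option.some.injEq] at hx hy
      subst hx hy
      rw [hlast]
      exact h1.symm)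
    (by
      have e1 : (seg v (i + 1) (m + 1) ++ [w]).getLast hne = w := by simp
      have e2 : (seg v (i + 1) (m + 1) ++ [w]).head hne = v (i + 1) := by
        have h0 : (seg v (i + 1) (m + 1) ++ [w]).head? = some (v (i + 1)) := by
          simp only [List.head?_append, head?_seg]
          simp
        rw [List.head?_eq_some_head hne] at h0
        exact Option.some.inj h0
      rw [e1, e2]
      exact h2)
    (by
      simp only [List.length_append, length_seg, List.length_singleton]
      omega)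
  refine ⟨u, c, hc1, ?_, ?_⟩
  · rw [hc2]
    simp [length_seg]
  · intro z
    rw [hc3, List.mem_append, List.mem_singleton, mem_seg]
    constructor
    · rintro (⟨s, _, rfl⟩ | rfl)
      · exact Or.inl ⟨_, rfl⟩
      · exact Or.inr rfl
    · rintro (⟨t, rfl⟩ | rfl)
      · left
        obtain ⟨s, hs, h⟩ := hc.exists_window (i + 1) t
        exact ⟨s, hs, h⟩
      · exact Or.inr rfl

/-- The three-cut rearrangement `S₃ w S₂ S₁`. Positions: `S₂ = [t, t + b]`,
`S₃ = [t + b + 1, t + b + 1 + a]`, `S₁ = [t + b + a + 2, t + b + a + 2 + c]`, `n = a + b + c + 3`. -/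
theorem three_cut {n : ℕ} {v : ℤ → V} (hc : CycFn G n v) {Q : Finset V}
    (hQ : ∀ x ∈ Q, ∀ y ∈ Q, x ≠ y → G.Adj x y) (t : ℤ) (a b c : ℕ) (hn : n = a + b + c + 3)
    {w : V} (hw : ∀ i, w ≠ v i)
    (h1 : G.Adj w (v (t + b + a + 1))) (h2 : G.Adj w (v t))
    (he : v (t + b) ∈ Q) (he1 : v (t + b + 1) ∈ Q) (hp1 : v (t + b + a + 2) ∈ Q)
    (hlast : v (t - 1) ∈ Q) :
    ∃ (u : V) (c' : G.Walk u u), c'.IsCycle ∧ c'.length = n + 1 ∧
      ∀ z, z ∈ c'.support ↔ (∃ i, z = v i) ∨ z = w := by
  classical
  subst hn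
  set n := a + b + c + 3 with hn
  have hn3 := hc.n_ge
  have hlast' : v (t + b + a + 2 + c) = v (t - 1) := by
    rw [hc.eq_iff]
    have : t + (b : ℤ) + a + 2 + c - (t - 1) = (n : ℤ) := by
      rw [hn]; push_cast; ring
    rw [this]
  let S3 := seg v (t + b + 1) (a + 1)
  let S2 := seg v t (b + 1)
  let S1 := seg v (t + b + a + 2) (c + 1)
  let L := S3 ++ ([w] ++ (S2 ++ S1))
  have hS3 : ∀ z, z ∈ S3 ↔ ∃ s : ℕ, s < a + 1 ∧ z = v (t + b + 1 + s) := fun z => mem_seg
  have hS2 : ∀ z, z ∈ S2 ↔ ∃ s : ℕ, s < b + 1 ∧ z = v (t + s) := fun z => mem_seg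
  have hS1 : ∀ z, z ∈ S1 ↔ ∃ s : ℕ, s < c + 1 ∧ z = v (t + b + a + 2 + s) := fun z => mem_seg
  have hvinj : ∀ x y : ℤ, 0 ≤ x → x < n → 0 ≤ y → y < n → v (t + x) = v (t + y) → x = y := by
    intro x y h1 h2 h3 h4 h
    have := hc.inj_window h (by omega) (by omega)
    omega
  have hne : L ≠ [] := by simp [L, S3, seg]
  have hd23 : ∀ x ∈ S2, x ∉ S1 := by
    intro x hx hx'
    obtain ⟨s, hs, rfl⟩ := (hS2 _).1 hx
    obtain ⟨s', hs', h⟩ := (hS1 _).1 hx'
    have e : t + ((b : ℤ) + a + 2 + s') = t + b + a + 2 + s' := by ring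
    have := hvinj s ((b : ℤ) + a + 2 + s') (by omega) (by omega) (by omega) (by omega) (by rw [e]; exact h)
    omega
  have hd12 : ∀ x ∈ S3, x ∉ S2 := by
    intro x hx hx'
    obtain ⟨s, hs, rfl⟩ := (hS3 _).1 hx
    obtain ⟨s', hs', h⟩ := (hS2 _).1 hx'
    have e : t + ((b : ℤ) + 1 + s) = t + b + 1 + s := by ring
    have := hvinj ((b : ℤ) + 1 + s) s' (by omega) (by omega) (by omega) (by omega) (by rw [e]; exact h)
    omega
  have hd13 : ∀ x ∈ S3, x ∉ S1 := by
    intro x hx hx'
    obtain ⟨s, hs, rfl⟩ := (hS3 _).1 hx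
    obtain ⟨s', hs', h⟩ := (hS1 _).1 hx'
    have e : t + ((b : ℤ) + 1 + s) = t + b + 1 + s := by ring
    have e' : t + ((b : ℤ) + a + 2 + s') = t + b + a + 2 + s' := by ring
    have := hvinj ((b : ℤ) + 1 + s) ((b : ℤ) + a + 2 + s') (by omega) (by omega) (by omega) (by omega)
      (by rw [e, e']; exact h)
    omega
  have hnd : L.Nodup := by
    simp only [L]
    rw [List.nodup_append]
    refine ⟨seg_nodup hc _ _ (by omega), ?_, ?_⟩
    · rw [List.nodup_append]
      refine ⟨by simp, ?_, ?_⟩
      · rw [List.nodup_append]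
        refine ⟨seg_nodup hc _ _ (by omega), seg_nodup hc _ _ (by omega), ?_⟩
        intro x hx y hy hxy
        subst hxy
        exact hd23 x hx hy
      · intro x hx y hy hxy
        subst hxy
        rw [List.mem_singleton] at hx
        subst hx
        rcases List.mem_append.1 hy with h | h
        · obtain ⟨s, _, h'⟩ := (hS2 _).1 h
          exact hw _ h'
        · obtain ⟨s, _, h'⟩ := (hS1 _).1 h
          exact hw _ h'
    · intro x hx y hy hxy
      subst hxy
      rcases List.mem_append.1 hy with h | h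
      · rw [List.mem_singleton] at h
        subst h
        obtain ⟨s, _, h'⟩ := (hS3 _).1 hx
        exact hw _ h'
      · rcases List.mem_append.1 h with h | h
        · exact hd12 x hx h
        · exact hd13 x hx h
  have hS3last : S3.getLast? = some (v (t + b + a + 1)) := by
    have := getLast?_seg v (t + b + 1) a
    have e : t + (b : ℤ) + 1 + a = t + b + a + 1 := by ring
    rw [e] at this
    exact this
  have hS2last : S2.getLast? = some (v (t + b)) := getLast?_seg v t b
  have hS2head : S2.head? = some (v t) := head?_seg v t b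
  have hS1head : S1.head? = some (v (t + b + a + 2)) := head?_seg v _ c
  have hS1last : S1.getLast? = some (v (t + b + a + 2 + c)) := getLast?_seg v _ c
  have hS3head : S3.head? = some (v (t + b + 1)) := head?_seg v _ a
  have hchain : L.IsChain G.Adj := by
    simp only [L]
    rw [List.isChain_append]
    refine ⟨seg_chain hc _ _, ?_, ?_⟩
    · rw [List.isChain_append]
      refine ⟨by simp, ?_, ?_⟩
      · rw [List.isChain_append]
        refine ⟨seg_chain hc _ _, seg_chain hc _ _, ?_⟩
        intro x hx y hy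
        rw [hS2last] at hx
        rw [hS1head] at hy
        simp only [Option.mem_def, Option.some.injEq] at hx hy
        subst hx hy
        refine hQ _ he _ hp1 ?_
        intro h
        have e : t + ((b : ℤ) + a + 2) = t + b + a + 2 := by ring
        have := hvinj b ((b : ℤ) + a + 2) (by omega) (by omega) (by omega) (by omega) (by rw [e]; exact h)
        omega
      · intro x hx y hy
        simp only [List.getLast?_singleton, Option.mem_def, Option.some.injEq] at hx
        subst hx
        have hy' : y ∈ (S2 ++ S1).head? := hy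
        rw [List.head?_append, hS2head] at hy'
        simp only [Option.some_or, Option.mem_def, Option.some.injEq] at hy'
        subst hy'
        exact h2
    · intro x hx y hy
      rw [hS3last] at hx
      simp only [List.head?_append, List.head?_cons, Option.some_or, Option.mem_def,
        Option.some.injEq] at hx hy
      subst hx hy
      exact h1.symm
  have hclose : G.Adj (L.getLast hne) (L.head hne) := by
    have e1 : L.getLast hne = v (t + b + a + 2 + c) := by
      have : L.getLast? = some (v (t + b + a + 2 + c)) := by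
        simp only [L, List.getLast?_append, hS1last]
        simp
      rw [List.getLast?_eq_some_getLast hne] at this
      exact Option.some.inj this
    have e2 : L.head hne = v (t + b + 1) := by
      have : L.head? = some (v (t + b + 1)) := by
        simp only [L, List.head?_append, hS3head]
        simp
      rw [List.head?_eq_some_head hne] at this
      exact Option.some.inj this
    rw [e1, e2, hlast']
    refine hQ _ hlast _ he1 ?_
    intro h
    have h' : v (t + (b + a + c + 2 : ℕ)) = v (t + ((b : ℤ) + 1)) := by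
      have e3 : v (t + (b + a + c + 2 : ℕ)) = v (t - 1) := by
        rw [hc.eq_iff]
        have : t + ((b + a + c + 2 : ℕ) : ℤ) - (t - 1) = (n : ℤ) := by
          rw [hn]; push_cast; ring
        rw [this]
      rw [e3, h]
      congr 1
      ring
    have := hvinj ((b + a + c + 2 : ℕ) : ℤ) ((b : ℤ) + 1) (by omega) (by omega) (by omega) (by omega) h'
    omega
  have hlenL : L.length = n + 1 := by
    simp only [L, S3, S2, S1, List.length_append, length_seg, List.length_singleton]
    omega
  obtain ⟨u, c', hc1, hc2, hc3⟩ := spans_of_list (G := G) L hne hnd hchain hclose (by omega)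
  refine ⟨u, c', hc1, by omega, ?_⟩
  intro z
  rw [hc3]
  simp only [L, List.mem_append, List.mem_singleton, hS3, hS2, hS1]
  constructor
  · rintro (⟨s, _, rfl⟩ | rfl | ⟨s, _, rfl⟩ | ⟨s, _, rfl⟩)
    · exact Or.inl ⟨_, rfl⟩
    · exact Or.inr rfl
    · exact Or.inl ⟨_, rfl⟩
    · exact Or.inl ⟨_, rfl⟩
  · rintro (⟨i, rfl⟩ | rfl)
    · obtain ⟨s, hs, h⟩ := hc.exists_window t i
      have hs' : (s : ℤ) < n := by omega
      by_cases h1' : s ≤ b
      · right; right; left
        exact ⟨s, by omega, h⟩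
      · by_cases h2' : s ≤ b + 1 + a
        · left
          refine ⟨s - (b + 1), by omega, ?_⟩
          rw [h]
          congr 1
          have : ((s - (b + 1) : ℕ) : ℤ) = (s : ℤ) - (b + 1) := by omega
          rw [this]
          ring
        · right; right; right
          refine ⟨s - (b + a + 2), by omega, ?_⟩
          rw [h]
          congr 1
          have : ((s - (b + a + 2) : ℕ) : ℤ) = (s : ℤ) - (b + a + 2) := by omega
          rw [this]
          ring
    · exact Or.inr (Or.inl rfl)

/-- The property "a cycle on `V(v) + w` does not exist". -/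
def NoExt (G : SimpleGraph V) (n : ℕ) (v : ℤ → V) : Prop :=
  ∀ w : V, (∀ i, w ≠ v i) → ¬ ∃ (u : V) (c : G.Walk u u), c.IsCycle ∧ c.length = n + 1 ∧
    ∀ z, z ∈ c.support ↔ (∃ t, z = v t) ∨ z = w

/-- `z` is a "type 2" unit with witness `w`: `w` is off the cycle, adjacent to `v z`, `v (z+1) ∈ Q`
and adjacent to all `v i` with `v (i+1) ∉ Q`. -/
structure Type2 (G : SimpleGraph V) (v : ℤ → V) (Q : Finset V) (z : ℤ) (w : V) : Prop where
  off : ∀ i, w ≠ v i
  adjz : G.Adj w (v z)
  unit : v (z + 1) ∈ Q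
  adjS : ∀ i, v (i + 1) ∉ Q → G.Adj w (v i)

/-- A type 2 unit lies in `Q`. -/
lemma Type2.mem {n : ℕ} {v : ℤ → V} {Q : Finset V} {z : ℤ} {w : V} (hc : CycFn G n v)
    (hext : NoExt G n v) (h : Type2 G v Q z w) : v z ∈ Q := by
  by_contra hz
  have h1 := h.adjS (z - 1) (by simpa using hz)
  have h2 := h.adjz
  refine hext w h.off (insert_vertex hc h.off h1 ?_)
  simpa using h2

/-- Position independence. -/
lemma Type2.congr {n : ℕ} {v : ℤ → V} {Q : Finset V} {z p : ℤ} {w : V} (hc : CycFn G n v)
    (h : Type2 G v Q z w) (hp : v p = v z) : Type2 G v Q p w := by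
  refine ⟨h.off, hp ▸ h.adjz, ?_, h.adjS⟩
  have h1 := (hc.eq_iff _ _).1 hp
  have : v (p + 1) = v (z + 1) := by
    rw [hc.eq_iff]
    have e : p + 1 - (z + 1) = p - z := by ring
    rw [e]
    exact h1
  rw [this]
  exact h.unit

/-- The first `QQ`-position `e` after a first tail `t`: a type 2 unit equals `v e`. -/
lemma Type2.eq_first {n : ℕ} {v : ℤ → V} {Q : Finset V} {z : ℤ} {w : V} (hc : CycFn G n v)
    (hQ : ∀ x ∈ Q, ∀ y ∈ Q, x ≠ y → G.Adj x y) (hext : NoExt G n v) (h : Type2 G v Q z w)
    {t : ℤ} (ht1 : v (t - 1) ∈ Q) (ht2 : v (t + 1) ∉ Q) {e : ℕ} (he1 : v (t + e) ∈ Q)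
    (he2 : v (t + e + 1) ∈ Q) (hmin : ∀ s : ℕ, s < e → v (t + s) ∈ Q → v (t + s + 1) ∉ Q) :
    v z = v (t + e) := by
  classical
  have hn3 := hc.n_ge
  have hzQ := h.mem hc hext
  obtain ⟨p, hp, hpz⟩ := hc.exists_window t z
  have hT : Type2 G v Q (t + p) w := h.congr hc hpz.symm
  have hpQ : v (t + p) ∈ Q := hpz ▸ hzQ
  have hpQ1 : v (t + p + 1) ∈ Q := hT.unit
  have hep : e ≤ p := by
    by_contra hlt
    exact hmin p (by omega) hpQ hpQ1
  rcases Nat.eq_or_lt_of_le hep with heq | hlt
  · rw [hpz, heq]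
  exfalso
  have hadjt : G.Adj w (v t) := h.adjS t ht2
  by_cases hlast : p + 1 = n
  · -- consecutive
    refine hext w h.off (insert_vertex hc h.off (i := t + p) hT.adjz ?_)
    have : v (t + p + 1) = v t := by
      rw [hc.eq_iff]
      have e1 : t + (p : ℤ) + 1 - t = (n : ℤ) := by
        rw [← hlast]; push_cast; ring
      rw [e1]
    rw [this]
    exact hadjt
  · have hlt2 : p + 2 ≤ n := by omega
    obtain ⟨c, hc'⟩ : ∃ c, n = (p - e - 1) + e + c + 3 := ⟨n - (p + 2), by omega⟩
    have e1 : t + (e : ℤ) + ((p - e - 1 : ℕ) : ℤ) + 1 = t + p := by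
      have : ((p - e - 1 : ℕ) : ℤ) = (p : ℤ) - e - 1 := by omega
      rw [this]
      ring
    have e2 : t + (e : ℤ) + ((p - e - 1 : ℕ) : ℤ) + 2 = t + p + 1 := by
      have : ((p - e - 1 : ℕ) : ℤ) = (p : ℤ) - e - 1 := by omega
      rw [this]
      ring
    refine hext w h.off (three_cut hc hQ t (p - e - 1) e c hc' h.off ?_ hadjt he1 he2 ?_ ht1)
    · rw [e1]
      exact hT.adjz
    · rw [e2]
      exact hpQ1

/-- **At most one type 2 unit**, if the cycle has a vertex outside `Q`. -/
theorem type2_unique {n : ℕ} {v : ℤ → V} {Q : Finset V} (hc : CycFn G n v)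
    (hQ : ∀ x ∈ Q, ∀ y ∈ Q, x ≠ y → G.Adj x y) (hext : NoExt G n v) (hne : ∃ i, v i ∉ Q)
    {z₁ z₂ : ℤ} {w₁ w₂ : V} (h₁ : Type2 G v Q z₁ w₁) (h₂ : Type2 G v Q z₂ w₂) : v z₁ = v z₂ := by
  classical
  have hn3 := hc.n_ge
  have hz := h₁.mem hc hext
  have hz1 := h₁.unit
  -- the first non-`Q` vertex after `z₁`
  obtain ⟨i0, hi0⟩ := hne
  have hex : ∃ x : ℕ, v (z₁ + x) ∉ Q := by
    obtain ⟨s, _, hs⟩ := hc.exists_window z₁ i0
    exact ⟨s, hs ▸ hi0⟩
  let x := Nat.find hex
  have hx : v (z₁ + x) ∉ Q := Nat.find_spec hex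
  have hxm : ∀ y : ℕ, y < x → v (z₁ + y) ∈ Q := by
    intro y hy
    by_contra hcon
    exact Nat.find_min hex hy hcon
  have hx0 : x ≠ 0 := by
    intro h0
    rw [h0] at hx
    simp only [Nat.cast_zero, add_zero] at hx
    exact hx hz
  have hx1 : x ≠ 1 := by
    intro h0
    rw [h0] at hx
    simp only [Nat.cast_one] at hx
    exact hx hz1
  -- the tail
  obtain ⟨y, hy⟩ : ∃ y, x = y + 2 := ⟨x - 2, by omega⟩
  set t : ℤ := z₁ + y + 1 with ht
  have ht1 : v (t - 1) ∈ Q := by
    have := hxm y (by omega)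
    have e : t - 1 = z₁ + y := by rw [ht]; ring
    rw [e]
    exact this
  have ht2 : v (t + 1) ∉ Q := by
    have e : t + 1 = z₁ + x := by
      rw [ht, hy]; push_cast; ring
    rw [e]
    exact hx
  -- the first QQ position from `t`
  have hex2 : ∃ e : ℕ, v (t + e) ∈ Q ∧ v (t + e + 1) ∈ Q := by
    obtain ⟨s, _, hs⟩ := hc.exists_window t z₁
    refine ⟨s, hs ▸ hz, ?_⟩
    have : v (t + s + 1) = v (z₁ + 1) := by
      have h1 := (hc.eq_iff _ _).1 hs
      rw [hc.eq_iff]
      have e : t + (s : ℤ) + 1 - (z₁ + 1) = -(z₁ - (t + s)) := by ring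
      rw [e]
      exact dvd_neg.2 h1
    rw [this]
    exact hz1
  let e := Nat.find hex2
  obtain ⟨he1, he2⟩ : v (t + e) ∈ Q ∧ v (t + e + 1) ∈ Q := Nat.find_spec hex2
  have hmin : ∀ s : ℕ, s < e → v (t + s) ∈ Q → v (t + s + 1) ∉ Q := by
    intro s hs h1 h2
    exact Nat.find_min hex2 hs ⟨h1, h2⟩
  rw [h₁.eq_first hc hQ hext ht1 ht2 he1 he2 hmin, h₂.eq_first hc hQ hext ht1 ht2 he1 he2 hmin]

/-- Counting neighbours on the cycle: a vertex off the cycle has at most one neighbour whose
successor lies in `Q`.  (Crossing with `s = 1`.) -/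
lemma unique_nbr_succ_Q {n : ℕ} {v : ℤ → V} {Q : Finset V} (hc : CycFn G n v)
    (hQ : ∀ x ∈ Q, ∀ y ∈ Q, x ≠ y → G.Adj x y) (hext : NoExt G n v) {u : V} (hu : ∀ i, u ≠ v i)
    {i j : ℤ} (hi : G.Adj u (v i)) (hj : G.Adj u (v j)) (hi1 : v (i + 1) ∈ Q) (hj1 : v (j + 1) ∈ Q) :
    v i = v j := by
  classical
  by_contra hne
  have hne' : v i ≠ v j := hne
  let g : G.Walk (v i) (v j) := Walk.cons hi.symm (Walk.cons hj Walk.nil)
  have hg : g.IsPath := by
    simp only [g, Walk.cons_isPath_iff, Walk.IsPath.nil, Walk.support_nil,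
      Walk.support_cons, List.mem_cons, true_and, not_or, List.not_mem_nil, not_false_eq_true,
      and_true, or_false]
    exact ⟨hu j, ⟨(hu i).symm, hne'⟩⟩
  obtain ⟨w, c, hc1, hc2, hc3⟩ := crossing hc hQ hi1 hj1 hne' g hg (by
    intro z hz h1 h2 t
    simp only [g, Walk.support_cons, Walk.support_nil, List.mem_cons, List.mem_singleton,
      List.not_mem_nil, or_false] at hz
    rcases hz with rfl | rfl | rfl
    · exact absurd rfl h1
    · exact hu t
    · exact absurd rfl h2) (by simp [g])
  refine hext u hu ⟨w, c, hc1, by simp [g] at hc2; omega, ?_⟩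
  intro z
  rw [hc3]
  simp only [g, Walk.support_cons, Walk.support_nil, List.mem_cons, List.mem_singleton,
    List.not_mem_nil, or_false]
  constructor
  · rintro (h | rfl | rfl | rfl)
    · exact Or.inl h
    · exact Or.inl ⟨_, rfl⟩
    · exact Or.inr rfl
    · exact Or.inl ⟨_, rfl⟩
  · rintro (h | rfl)
    · exact Or.inl h
    · exact Or.inr (Or.inr (Or.inl rfl))

/-- The vertex set of the cycle. -/
noncomputable def cycVerts (v : ℤ → V) (n : ℕ) : Finset V :=
  (Finset.range n).image (fun s : ℕ => v s)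

lemma mem_cycVerts {n : ℕ} {v : ℤ → V} (hc : CycFn G n v) {z : V} :
    z ∈ cycVerts v n ↔ ∃ i, v i = z := by
  unfold cycVerts
  simp only [Finset.mem_image, Finset.mem_range]
  constructor
  · rintro ⟨s, _, rfl⟩
    exact ⟨_, rfl⟩
  · rintro ⟨i, rfl⟩
    obtain ⟨s, hs, h⟩ := hc.exists_window 0 i
    refine ⟨s, hs, ?_⟩
    rw [h]
    simp

lemma card_cycVerts {n : ℕ} {v : ℤ → V} (hc : CycFn G n v) : (cycVerts v n).card = n := by
  unfold cycVerts
  rw [Finset.card_image_of_injOn, Finset.card_range]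
  intro s hs t ht hst
  have hs' := Finset.mem_range.1 hs
  have ht' := Finset.mem_range.1 ht
  have := hc.inj_window hst (by omega) (by omega)
  omega

/-- A vertex off the cycle has at most `|V(v) \ Q| + 1` neighbours on the cycle; if equality holds
it is adjacent to every `v i` with `v (i + 1) ∉ Q`. -/
theorem card_nbrs_on_cycle {n : ℕ} {v : ℤ → V} {Q : Finset V} (hc : CycFn G n v)
    (hQ : ∀ x ∈ Q, ∀ y ∈ Q, x ≠ y → G.Adj x y) (hext : NoExt G n v) {u : V} (hu : ∀ i, u ≠ v i)
    [DecidablePred (G.Adj u)] :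
    ((cycVerts v n).filter (G.Adj u)).card ≤ (cycVerts v n \ Q).card + 1 ∧
    (((cycVerts v n).filter (G.Adj u)).card = (cycVerts v n \ Q).card + 1 →
      ∀ i, v (i + 1) ∉ Q → G.Adj u (v i)) := by
  classical
  set T := (cycVerts v n).filter (G.Adj u) with hT
  set D := cycVerts v n \ Q with hD
  -- the successor map on `T`
  have hpos : ∀ x ∈ T, ∃ i, v i = x := fun x hx => (mem_cycVerts hc).1 (Finset.mem_filter.1 hx).1
  choose! f hf using hpos
  let T1 := T.filter (fun x => v (f x + 1) ∈ Q)
  let T2 := T.filter (fun x => v (f x + 1) ∉ Q)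
  have hT12 : T.card = T1.card + T2.card := by
    rw [Finset.card_filter_add_card_filter_not]
  have hT1 : T1.card ≤ 1 := by
    rw [Finset.card_le_one]
    intro a ha b hb
    obtain ⟨ha1, ha2⟩ := Finset.mem_filter.1 ha
    obtain ⟨hb1, hb2⟩ := Finset.mem_filter.1 hb
    have hA := (Finset.mem_filter.1 ha1).2
    have hB := (Finset.mem_filter.1 hb1).2
    rw [← hf a ha1] at hA ⊢
    rw [← hf b hb1] at hB ⊢
    exact unique_nbr_succ_Q hc hQ hext hu hA hB ha2 hb2
  have hinj : Set.InjOn (fun x => v (f x + 1)) (T2 : Set V) := by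
    intro a ha b hb hab
    have ha' := (Finset.mem_filter.1 (Finset.mem_coe.1 ha)).1
    have hb' := (Finset.mem_filter.1 (Finset.mem_coe.1 hb)).1
    have h1 := (hc.eq_iff _ _).1 hab
    rw [← hf a ha', ← hf b hb', hc.eq_iff]
    have e : f a + 1 - (f b + 1) = f a - f b := by ring
    rw [e] at h1
    exact h1
  have hmaps : ∀ x ∈ T2, v (f x + 1) ∈ D := by
    intro x hx
    refine Finset.mem_sdiff.2 ⟨(mem_cycVerts hc).2 ⟨_, rfl⟩, (Finset.mem_filter.1 hx).2⟩
  have hT2 : T2.card ≤ D.card := Finset.card_le_card_of_injOn _ hmaps hinj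
  refine ⟨by omega, ?_⟩
  intro heq i hi
  have hcard : T2.card = D.card := by omega
  have himg : T2.image (fun x => v (f x + 1)) = D := by
    apply Finset.eq_of_subset_of_card_le
    · intro y hy
      obtain ⟨x, hx, rfl⟩ := Finset.mem_image.1 hy
      exact hmaps x hx
    · rw [Finset.card_image_of_injOn hinj]
      omega
  have hmem : v (i + 1) ∈ D := Finset.mem_sdiff.2 ⟨(mem_cycVerts hc).2 ⟨_, rfl⟩, hi⟩
  rw [← himg] at hmem
  obtain ⟨x, hx, hxe⟩ := Finset.mem_image.1 hmem
  have hx' := (Finset.mem_filter.1 hx).1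
  have h2 : v (f x) = v i := by
    have h1 := (hc.eq_iff _ _).1 hxe
    rw [hc.eq_iff]
    have e : f x - i = f x + 1 - (i + 1) := by ring
    rw [e]
    exact h1
  rw [← h2, hf x hx']
  exact (Finset.mem_filter.1 hx').2

end Crest.Agent.CycleRamsey
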