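import Crest.Agent.Lib.CycleRamsey.LemmaAB

/-!
# The layer recurrence (helper7 #1690) for the regime `ω ≤ k/2` of S0075 (helper11)

Abstract layers `L j` (BFS layers from `v`).  If no layer `L j`, `1 ≤ j ≤ c`, carries a chorded cycle
on at least `k` vertices, the graph has no clique on `c + 1` vertices and (H) holds, then
there is an independent set on `k + 1` vertices.
-/

set_option autoImplicit false
set_option linter.unusedSectionVars false
set_option linter.unusedVariables false

namespace Crest.Agent.CycleRamsey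

open SimpleGraph

variable {V : Type} [DecidableEq V] {G : SimpleGraph V}

/-- Abstract BFS layers from `v`. -/
structure LayerSys (G : SimpleGraph V) (v : V) (L : ℕ → Finset V) : Prop where
  zero : L 0 = {v}
  one : ∀ x ∈ L 1, G.Adj v x
  disj : ∀ i j, i ≠ j → Disjoint (L i) (L j)
  gap : ∀ i j, ∀ x ∈ L i, ∀ y ∈ L j, G.Adj x y → j ≤ i + 1
  closed : ∀ r, ∀ x ∈ L r, ∀ y, G.Adj x y → ∃ j, j ≤ r + 1 ∧ y ∈ L j

/-- The parity sum of independent sets. -/
def parU (T : ℕ → Finset V) : ℕ → Finset V
  | 0 => T 0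
  | 1 => T 1
  | (r + 2) => T (r + 2) ∪ parU T r

/-- Ball. -/
def ballU (L : ℕ → Finset V) (r : ℕ) : Finset V := (Finset.range (r + 1)).biUnion L

lemma mem_ballU {L : ℕ → Finset V} {r : ℕ} {x : V} :
    x ∈ ballU L r ↔ ∃ j, j ≤ r ∧ x ∈ L j := by
  simp only [ballU, Finset.mem_biUnion, Finset.mem_range]
  constructor
  · rintro ⟨j, hj, hx⟩; exact ⟨j, by omega, hx⟩
  · rintro ⟨j, hj, hx⟩; exact ⟨j, by omega, hx⟩

lemma card_ballU {L : ℕ → Finset V} (hd : ∀ i j, i ≠ j → Disjoint (L i) (L j)) (r : ℕ) :
    (ballU L r).card = ∑ j ∈ Finset.range (r + 1), (L j).card := by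
  unfold ballU
  rw [Finset.card_biUnion]
  intro i _ j _ hij
  exact hd i j hij

lemma parU_sub {L T : ℕ → Finset V} (hT : ∀ j, T j ⊆ L j) (r : ℕ) :
    ∀ x ∈ parU T r, ∃ j, j ≤ r ∧ j % 2 = r % 2 ∧ x ∈ L j := by
  induction r using Nat.twoStepInduction with
  | zero => intro x hx; exact ⟨0, le_refl _, rfl, hT 0 hx⟩
  | one => intro x hx; exact ⟨1, le_refl _, rfl, hT 1 hx⟩
  | more r ih1 ih2 =>
    intro x hx
    simp only [parU, Finset.mem_union] at hx
    rcases hx with hx | hx
    · exact ⟨r + 2, le_refl _, rfl, hT _ hx⟩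
    · obtain ⟨j, h1, h2, h3⟩ := ih1 x hx
      exact ⟨j, by omega, by omega, h3⟩

lemma parU_indep {v : V} {L T : ℕ → Finset V} (hL : LayerSys G v L) (hT : ∀ j, T j ⊆ L j)
    (hI : ∀ j, Indep G (T j)) (r : ℕ) : Indep G (parU T r) := by
  induction r using Nat.twoStepInduction with
  | zero => exact hI 0
  | one => exact hI 1
  | more r ih1 ih2 =>
    intro x hx y hy hxy
    simp only [parU, Finset.mem_union] at hx hy
    rcases hx with hx | hx <;> rcases hy with hy | hy
    · exact hI _ x hx y hy hxy
    · intro hadj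
      obtain ⟨j, h1, h2, h3⟩ := parU_sub hT r y hy
      have := hL.gap _ _ y h3 x (hT _ hx) hadj.symm
      omega
    · intro hadj
      obtain ⟨j, h1, h2, h3⟩ := parU_sub hT r x hx
      have := hL.gap _ _ x h3 y (hT _ hy) hadj
      omega
    · exact ih1 x hx y hy hxy

lemma card_parU_add {v : V} {L T : ℕ → Finset V} (hL : LayerSys G v L) (hT : ∀ j, T j ⊆ L j)
    (r : ℕ) : (parU T r).card + (parU T (r + 1)).card =
      ∑ j ∈ Finset.range (r + 2), (T j).card := by
  induction r with
  | zero => simp [parU, Finset.sum_range_succ]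
  | succ r ih =>
    have hdisj : Disjoint (T (r + 2)) (parU T r) := by
      rw [Finset.disjoint_left]
      intro x hx hx'
      obtain ⟨j, h1, h2, h3⟩ := parU_sub hT r x hx'
      exact Finset.disjoint_left.1 (hL.disj (r + 2) j (by omega)) (hT _ hx) h3
    have e : parU T (r + 1 + 1) = T (r + 2) ∪ parU T r := rfl
    rw [e, Finset.card_union_of_disjoint hdisj, Finset.sum_range_succ, ← ih]
    omega

/-- The layer recurrence. -/
theorem layer_recurrence {k c : ℕ} {v : V} {L : ℕ → Finset V} (hc : 3 ≤ c)
    (hk : k = 2 * c ∨ k = 2 * c + 1) (hL : LayerSys G v L)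
    (hω : ∀ K : Finset V, (∀ x ∈ K, ∀ y ∈ K, x ≠ y → G.Adj x y) → K.card ≤ c)
    (hch : ∀ j, 1 ≤ j → j ≤ c → ∀ (x : V) (p : G.Walk x x), IsChorded p →
      (∀ z ∈ p.support, z ∈ L j) → p.length + 1 ≤ k)
    (hH : ∀ T U : Finset V, Indep G T → T.Nonempty → T ⊆ U →
      (∀ x ∈ T, ∀ y, G.Adj x y → y ∈ U) → k * T.card + 1 ≤ U.card) :
    ∃ T, Indep G T ∧ k + 1 ≤ T.card := by
  classical
  -- the correction term
  obtain ⟨e', he', hek⟩ : ∃ e' : ℕ, e' ≤ 1 ∧ ((k = 2 * c ∧ e' = 1) ∨ (k = 2 * c + 1 ∧ e' = 0)) := by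
    rcases hk with h | h
    · exact ⟨1, le_refl _, Or.inl ⟨h, rfl⟩⟩
    · exact ⟨0, by omega, Or.inr ⟨h, rfl⟩⟩
  -- Lemma A on the layers
  have hA : ∀ j, 1 ≤ j → j ≤ c → ∃ T, T ⊆ L j ∧ Indep G T ∧ (L j).card ≤ c * T.card := by
    intro j h1 h2
    by_cases hne : (L j).Nonempty
    · obtain ⟨T, h3, h4, h5⟩ := lemmaAB (G := G) (c := c) (e := 0) (w := c) hc (by omega) (by omega)
        (L j) hne ⟨fun K hK hcl => hω K hcl, fun x p hp hs => by
          have := hch j h1 h2 x p hp hs
          omega⟩
      exact ⟨T, h3, h4, by omega⟩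
    · rw [Finset.not_nonempty_iff_eq_empty] at hne
      exact ⟨∅, by simp, by simp [Indep], by simp [hne]⟩
  -- L 1 is nonempty
  have hv1 : ∀ y, G.Adj v y → y ∈ L 1 := by
    intro y hy
    have hv : v ∈ L 0 := by rw [hL.zero]; simp
    obtain ⟨j, hj, hyj⟩ := hL.closed 0 v hv y hy
    rcases Nat.lt_or_ge j 1 with h | h
    · have : j = 0 := by omega
      subst this
      rw [hL.zero] at hyj
      simp only [Finset.mem_singleton] at hyj
      subst hyj
      exact absurd hy (G.loopless.irrefl _)
    · have : j = 1 := by omega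
      subst this
      exact hyj
  have hL1card : k + 1 ≤ (L 0 ∪ L 1).card := by
    have hv : v ∈ L 0 := by rw [hL.zero]; simp
    have := hH {v} (L 0 ∪ L 1) (by
      intro a ha b hb hab
      simp only [Finset.mem_singleton] at ha hb
      exact absurd (ha.trans hb.symm) hab) (by simp) (by
      intro a ha
      simp only [Finset.mem_singleton] at ha
      subst ha
      exact Finset.mem_union_left _ hv) (by
      intro a ha y hy
      simp only [Finset.mem_singleton] at ha
      subst ha
      exact Finset.mem_union_right _ (hv1 y hy))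
    simpa using this
  have hL1ne : (L 1).Nonempty := by
    by_contra hne
    rw [Finset.not_nonempty_iff_eq_empty] at hne
    rw [hne, Finset.union_empty, hL.zero] at hL1card
    simp at hL1card
    omega
  have hB : ∃ T, T ⊆ L 1 ∧ Indep G T ∧ (L 1).card + e' ≤ c * T.card := by
    rcases hek with ⟨h1, h2⟩ | ⟨h1, h2⟩
    · subst h2
      refine lemmaAB (G := G) (c := c) (e := 1) (w := c - 1) hc (by omega) (by omega) (L 1) hL1ne
        ⟨fun K hK hcl => ?_, fun x p hp hs => by
          have := hch 1 (le_refl _) (by omega) x p hp hs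
          omega⟩
      have hvK : v ∉ K := by
        intro hv
        have h3 := hK hv
        have h4 := hL.one v h3
        exact G.loopless.irrefl _ h4
      have := hω (insert v K) (by
        intro a ha b hb hab
        rcases Finset.mem_insert.1 ha with h1 | h1 <;> rcases Finset.mem_insert.1 hb with h2 | h2
        · exact absurd (h1.trans h2.symm) hab
        · rw [h1]; exact hL.one b (hK h2)
        · rw [h2]; exact (hL.one a (hK h1)).symm
        · exact hcl a h1 b h2 hab)
      rw [Finset.card_insert_of_notMem hvK] at this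
      omega
    · subst h2
      obtain ⟨T, h3, h4, h5⟩ := hA 1 (le_refl _) (by omega)
      exact ⟨T, h3, h4, by omega⟩
  -- select the sets
  have hex : ∀ j, ∃ T, T ⊆ L j ∧ Indep G T ∧ (j = 0 → T = {v}) ∧
      (1 ≤ j → j ≤ c → (L j).card ≤ c * T.card) ∧ (j = 1 → (L j).card + e' ≤ c * T.card) := by
    intro j
    rcases Nat.eq_zero_or_pos j with rfl | hj
    · refine ⟨{v}, by rw [hL.zero], ?_, fun _ => rfl, fun h => by omega, fun h => by omega⟩
      intro a ha b hb hab
      simp only [Finset.mem_singleton] at ha hb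
      exact absurd (ha.trans hb.symm) hab
    · by_cases hj1 : j = 1
      · subst hj1
        obtain ⟨T, h1, h2, h3⟩ := hB
        exact ⟨T, h1, h2, fun h => by omega, fun _ _ => by omega, fun _ => h3⟩
      · by_cases hjc : j ≤ c
        · obtain ⟨T, h1, h2, h3⟩ := hA j hj hjc
          exact ⟨T, h1, h2, fun h => by omega, fun _ _ => h3, fun h => by omega⟩
        · exact ⟨∅, by simp, by simp [Indep], fun h => by omega, fun _ h => by omega,
            fun h => by omega⟩
  choose T hTs hTi hT0 hTc hT1 using hex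
  let P : ℕ → ℕ := fun r => (parU T r).card
  have hP0 : P 0 = 1 := by simp [P, parU, hT0 0 rfl]
  -- vertex count
  have hcount : ∀ r, r + 1 ≤ c → ∑ j ∈ Finset.range (r + 2), (L j).card + e' + c ≤
      1 + c * ∑ j ∈ Finset.range (r + 2), (T j).card := by
    intro r
    induction r with
    | zero =>
      intro _
      have h0 : (L 0).card = 1 := by rw [hL.zero]; simp
      have h1 := hT1 1 rfl
      have h2 : (T 0).card = 1 := by rw [hT0 0 rfl]; simp
      simp only [Finset.sum_range_succ, Finset.sum_range_zero, zero_add, Nat.mul_add, h0, h2, mul_one]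
      omega
    | succ r ih =>
      intro hr
      have h1 := ih (by omega)
      have h2 := hTc (r + 2) (by omega) (by omega)
      rw [Finset.sum_range_succ _ (r + 2), Finset.sum_range_succ _ (r + 2), Nat.mul_add]
      omega
  -- parU nonempty
  have hne : ∀ r, (parU T r).Nonempty := by
    intro r
    induction r using Nat.twoStepInduction with
    | zero => rw [show parU T 0 = T 0 from rfl, hT0 0 rfl]; simp
    | one =>
      rw [show parU T 1 = T 1 from rfl]
      by_contra h
      rw [Finset.not_nonempty_iff_eq_empty] at h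
      have h1 := hT1 1 rfl
      rw [h] at h1
      simp only [Finset.card_empty, mul_zero] at h1
      have := Finset.card_pos.2 hL1ne
      omega
    | more r ih1 ih2 =>
      obtain ⟨x, hx⟩ := ih1
      exact ⟨x, by
        rw [show parU T (r + 2) = T (r + 2) ∪ parU T r from rfl]
        exact Finset.mem_union_right _ hx⟩
  -- (H)
  have hHr : ∀ r, k * P r + 1 ≤ ∑ j ∈ Finset.range (r + 2), (L j).card := by
    intro r
    have h1 := hH (parU T r) (ballU L (r + 1)) (parU_indep hL hTs hTi r) (hne r) (by
      intro x hx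
      obtain ⟨j, h1, h2, h3⟩ := parU_sub hTs r x hx
      exact mem_ballU.2 ⟨j, by omega, h3⟩) (by
      intro x hx y hy
      obtain ⟨j, h1, h2, h3⟩ := parU_sub hTs r x hx
      obtain ⟨j', h4, h5⟩ := hL.closed j x h3 y hy
      exact mem_ballU.2 ⟨j', by omega, h5⟩)
    rw [card_ballU hL.disj] at h1
    exact h1
  -- recurrence
  have hstep : ∀ r, r + 1 ≤ c → P r + 2 ≤ P (r + 1) := by
    intro r hr
    have h1 := hHr r
    have h2 := hcount r hr
    have h3 : P r + P (r + 1) = ∑ j ∈ Finset.range (r + 2), (T j).card := card_parU_add hL hTs r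
    rw [← h3] at h2
    have h4 : 1 ≤ P r := Finset.card_pos.2 (hne r)
    by_contra hcon
    have h5 : P (r + 1) ≤ P r + 1 := by omega
    have h6 : c * P (r + 1) ≤ c * (P r + 1) := Nat.mul_le_mul_left _ h5
    rw [Nat.mul_add] at h2
    rw [Nat.mul_add, Nat.mul_one] at h6
    rcases hek with ⟨h7, h8⟩ | ⟨h7, h8⟩
    · subst h7; subst h8
      have : 2 * c * P r = c * P r + c * P r := by ring
      omega
    · subst h7; subst h8
      have : (2 * c + 1) * P r = c * P r + c * P r + P r := by ring
      omega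
  have hlow : ∀ r, r ≤ c → 2 * r + 1 ≤ P r := by
    intro r
    induction r with
    | zero => intro _; simp [hP0]
    | succ r ih =>
      intro hr
      have := hstep r (by omega)
      have := ih (by omega)
      omega
  refine ⟨parU T c, parU_indep hL hTs hTi c, ?_⟩
  rcases hek with ⟨h7, h8⟩ | ⟨h7, h8⟩
  · have := hlow c (le_refl _)
    change k + 1 ≤ P c
    omega
  · -- k odd: the last step gains 3
    have hc1 : c - 1 + 1 = c := by omega
    have h1 := hHr (c - 1)
    have h2 := hcount (c - 1) (by omega)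
    have h3 : P (c - 1) + P (c - 1 + 1) = ∑ j ∈ Finset.range (c - 1 + 2), (T j).card :=
      card_parU_add hL hTs (c - 1)
    rw [← h3] at h2
    have h4 := hlow (c - 1) (by omega)
    change k + 1 ≤ P c
    rw [hc1] at h2
    by_contra hcon
    have hPc : P c ≤ 2 * c + 1 := by omega
    subst h7; subst h8
    rw [hc1] at *
    generalize P (c - 1) = p at *
    generalize hq : P c = q at *
    generalize ∑ j ∈ Finset.range (c - 1 + 2), (L j).card = S at *
    have hp : 2 * c ≤ p + 1 := by omega
    have h6 := Nat.mul_le_mul_left (c + 1) hp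
    have h9 := Nat.mul_le_mul_left c hPc
    nlinarith

end Crest.Agent.CycleRamsey
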