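import Crest.Agent.Lib.CycleRamsey.SubCycle

/-!
# Rule C (helper11, row 54, S0075)

`v` a cycle containing the clique `Q`.  A *closed* set is a union of arcs (maximal runs of non-`Q`
vertices of the cycle).  `ruleC`: a closed set `C` and `K ⊆ Q` containing the `Q`-vertices next to
`C` span a cycle.  `ruleC_main`: if the cycle has `W` non-`Q` vertices, `r + 1 ≤ W ≤ q + r - 1`
and `r + 3 ≤ q`, then `G` has a cycle of length `q + r + 1`.
-/

set_option autoImplicit false
set_option linter.unusedSectionVars false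
set_option linter.unusedVariables false
set_option linter.unreachableTactic false
set_option linter.unusedTactic false

namespace Crest.Agent.CycleRamsey

open SimpleGraph
open Crest.Agent.Lib.CycleRamsey (HasCycle)

variable {V : Type} [DecidableEq V] {G : SimpleGraph V}

/-- `C` is a union of arcs of the cycle `v` with respect to `Q`. -/
structure ArcClosed (v : ℤ → V) (Q C : Finset V) : Prop where
  notQ : ∀ z ∈ C, z ∉ Q
  on : ∀ z ∈ C, ∃ i, v i = z
  succ : ∀ i, v i ∈ C → v (i + 1) ∉ Q → v (i + 1) ∈ C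
  pred : ∀ i, v i ∈ C → v (i - 1) ∉ Q → v (i - 1) ∈ C

/-- Rule C: closed set plus clique vertices containing the boundary span a cycle. -/
theorem ruleC {n : ℕ} {v : ℤ → V} (hc : CycFn G n v) {Q C K : Finset V}
    (hQ : ∀ x ∈ Q, ∀ y ∈ Q, x ≠ y → G.Adj x y) (hC : ArcClosed v Q C) (hK : K ⊆ Q)
    (hQv : ∀ a ∈ Q, ∃ i, v i = a)
    (hbd : ∀ i, v i ∈ C → (v (i + 1) ∈ Q → v (i + 1) ∈ K) ∧ (v (i - 1) ∈ Q → v (i - 1) ∈ K))
    (h3 : 3 ≤ (C ∪ K).card) : Spans G (C ∪ K) := by
  classical
  refine subCycle hc Q hQ (C ∪ K) ?_ ?_ h3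
  · intro z hz
    rcases Finset.mem_union.1 hz with h | h
    · exact hC.on z h
    · exact hQv z (hK h)
  · intro i hi hnQ
    have hiC : v i ∈ C := by
      rcases Finset.mem_union.1 hi with h | h
      · exact h
      · exact absurd (hK h) hnQ
    constructor
    · by_cases h1 : v (i + 1) ∈ Q
      · exact Finset.mem_union_right _ ((hbd i hiC).1 h1)
      · exact Finset.mem_union_left _ (hC.succ i hiC h1)
    · by_cases h1 : v (i - 1) ∈ Q
      · exact Finset.mem_union_right _ ((hbd i hiC).2 h1)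
      · exact Finset.mem_union_left _ (hC.pred i hiC h1)

section Arcs

variable {n : ℕ} {v : ℤ → V} {Q C : Finset V}

/-- The arc starting at a left end: its length. -/
lemma exists_arc_len (hc : CycFn G n v) (hQne : ∃ i0, v i0 ∈ Q) (s : ℤ) :
    ∃ ℓ : ℕ, 1 ≤ ℓ ∧ v (s + ℓ) ∈ Q ∧ (∀ t : ℕ, 1 ≤ t → t < ℓ → v (s + t) ∉ Q) ∧ ℓ ≤ n := by
  classical
  obtain ⟨i0, hi0⟩ := hQne
  have hex : ∃ ℓ : ℕ, 1 ≤ ℓ ∧ v (s + ℓ) ∈ Q := by
    obtain ⟨t, ht, h⟩ := hc.exists_window (s + 1) i0
    refine ⟨t + 1, by omega, ?_⟩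
    have e : s + ((t + 1 : ℕ) : ℤ) = s + 1 + t := by push_cast; ring
    rw [e, ← h]
    exact hi0
  let ℓ := Nat.find hex
  have h1 : 1 ≤ ℓ ∧ v (s + ℓ) ∈ Q := Nat.find_spec hex
  refine ⟨ℓ, h1.1, h1.2, ?_, ?_⟩
  · intro t ht1 ht2 hq
    exact Nat.find_min hex ht2 ⟨ht1, hq⟩
  · obtain ⟨t, ht, h⟩ := hc.exists_window (s + 1) i0
    have : ℓ ≤ t + 1 := Nat.find_min' hex ⟨by omega, by
      have e : s + ((t + 1 : ℕ) : ℤ) = s + 1 + t := by push_cast; ring
      rw [e, ← h]
      exact hi0⟩
    omega

/-- Left ends of a closed set. -/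
noncomputable def leftEnds (v : ℤ → V) (Q C : Finset V) : Finset V := by
  classical exact C.filter (fun z => ∃ i, v i = z ∧ v (i - 1) ∈ Q)

lemma mem_leftEnds {z : V} : z ∈ leftEnds v Q C ↔ z ∈ C ∧ ∃ i, v i = z ∧ v (i - 1) ∈ Q := by
  classical
  unfold leftEnds
  simp

/-- Counting the left ends of a closed set all of whose arcs are big. -/
theorem card_leftEnds_mul_le (hc : CycFn G n v) (hQne : ∃ i0, v i0 ∈ Q) (hC : ArcClosed v Q C)
    (e : ℕ) (hm : ∀ A : Finset V, A ⊆ C → A.Nonempty → ArcClosed v Q A → ArcClosed v Q (C \ A) →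
      e + 1 ≤ A.card) :
    (leftEnds v Q C).card * (e + 1) ≤ C.card := by
  classical
  -- choose a position for each left end
  have hpos : ∀ z ∈ leftEnds v Q C, ∃ s : ℤ, v s = z ∧ v (s - 1) ∈ Q := fun z hz =>
    (mem_leftEnds.1 hz).2
  choose! pos hpos1 hpos2 using hpos
  -- the arc
  have harc : ∀ s : ℤ, ∃ ℓ : ℕ, 1 ≤ ℓ ∧ v (s + ℓ) ∈ Q ∧ (∀ t : ℕ, 1 ≤ t → t < ℓ → v (s + t) ∉ Q) ∧ ℓ ≤ n :=
    fun s => exists_arc_len hc hQne s
  choose len hlen1 hlen2 hlen3 hlen4 using harc
  let arc : V → Finset V := fun z =>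
    (Finset.range (len (pos z))).image (fun t : ℕ => v (pos z + t))
  have hmem_arc : ∀ z y, y ∈ arc z ↔ ∃ t : ℕ, t < len (pos z) ∧ v (pos z + t) = y := by
    intro z y
    simp only [arc, Finset.mem_image, Finset.mem_range]
  -- arcs lie in C
  have hsub : ∀ z ∈ leftEnds v Q C, ∀ t : ℕ, t < len (pos z) → v (pos z + t) ∈ C := by
    intro z hz t
    induction t with
    | zero =>
      intro _
      have := hpos1 z hz
      simp only [Nat.cast_zero, add_zero]
      rw [this]
      exact (mem_leftEnds.1 hz).1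
    | succ t ih =>
      intro ht
      have h1 := ih (by omega)
      have h2 := hlen3 (pos z) (t + 1) (by omega) ht
      have e1 : pos z + ((t + 1 : ℕ) : ℤ) = pos z + t + 1 := by push_cast; ring
      rw [e1] at h2 ⊢
      exact hC.succ _ h1 h2
  -- the arc is closed
  have hclosed : ∀ z ∈ leftEnds v Q C, ArcClosed v Q (arc z) := by
    intro z hz
    refine ⟨?_, ?_, ?_, ?_⟩
    · intro y hy
      obtain ⟨t, ht, rfl⟩ := (hmem_arc z y).1 hy
      exact hC.notQ _ (hsub z hz t ht)
    · intro y hy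
      obtain ⟨t, ht, rfl⟩ := (hmem_arc z y).1 hy
      exact ⟨_, rfl⟩
    · intro i hi hnQ
      obtain ⟨t, ht, hvt⟩ := (hmem_arc z _).1 hi
      -- v (i+1) = v (pos z + (t+1))
      have hd : v (i + 1) = v (pos z + (t + 1 : ℕ)) := by
        have h1 := (hc.eq_iff _ _).1 hvt
        rw [hc.eq_iff]
        have e1 : i + 1 - (pos z + ((t + 1 : ℕ) : ℤ)) = -(pos z + t - i) := by push_cast; ring
        rw [e1]
        exact dvd_neg.2 h1
      by_cases hlt : t + 1 < len (pos z)
      · exact (hmem_arc z _).2 ⟨t + 1, hlt, hd.symm⟩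
      · exfalso
        have : t + 1 = len (pos z) := by omega
        rw [hd, this] at hnQ
        exact hnQ (hlen2 _)
    · intro i hi hnQ
      obtain ⟨t, ht, hvt⟩ := (hmem_arc z _).1 hi
      have hd : v (i - 1) = v (pos z + t - 1) := by
        have h1 := (hc.eq_iff _ _).1 hvt
        rw [hc.eq_iff]
        have e1 : i - 1 - (pos z + (t : ℤ) - 1) = -(pos z + t - i) := by ring
        rw [e1]
        exact dvd_neg.2 h1
      rcases Nat.eq_zero_or_pos t with h0 | h0
      · exfalso
        subst h0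
        rw [hd] at hnQ
        simp only [Nat.cast_zero, add_zero] at hnQ
        exact hnQ (hpos2 z hz)
      · refine (hmem_arc z _).2 ⟨t - 1, by omega, ?_⟩
        rw [hd]
        congr 1
        have : ((t - 1 : ℕ) : ℤ) = t - 1 := by omega
        rw [this]
        ring
  -- the complement is closed
  have hclosed' : ∀ z ∈ leftEnds v Q C, ArcClosed v Q (C \ arc z) := by
    intro z hz
    refine ⟨?_, ?_, ?_, ?_⟩
    · intro y hy
      exact hC.notQ y (Finset.mem_sdiff.1 hy).1
    · intro y hy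
      exact hC.on y (Finset.mem_sdiff.1 hy).1
    · intro i hi hnQ
      have h1 := Finset.mem_sdiff.1 hi
      refine Finset.mem_sdiff.2 ⟨hC.succ i h1.1 hnQ, fun h2 => h1.2 ?_⟩
      have := (hclosed z hz).pred (i + 1) h2 (by
        simpa using hC.notQ _ h1.1)
      simpa using this
    · intro i hi hnQ
      have h1 := Finset.mem_sdiff.1 hi
      refine Finset.mem_sdiff.2 ⟨hC.pred i h1.1 hnQ, fun h2 => h1.2 ?_⟩
      have := (hclosed z hz).succ (i - 1) h2 (by
        simpa using hC.notQ _ h1.1)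
      simpa using this
  -- each arc is big
  have hbig : ∀ z ∈ leftEnds v Q C, e + 1 ≤ (arc z).card := by
    intro z hz
    refine hm (arc z) ?_ ?_ (hclosed z hz) (hclosed' z hz)
    · intro y hy
      obtain ⟨t, ht, rfl⟩ := (hmem_arc z y).1 hy
      exact hsub z hz t ht
    · exact ⟨_, (hmem_arc z _).2 ⟨0, by have := hlen1 (pos z); omega, rfl⟩⟩
  -- arcs are pairwise disjoint
  have hdisj : ∀ z ∈ leftEnds v Q C, ∀ z' ∈ leftEnds v Q C, z ≠ z' → Disjoint (arc z) (arc z') := by
    intro z hz z' hz' hne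
    rw [Finset.disjoint_left]
    intro y hy hy'
    obtain ⟨t, ht, hvt⟩ := (hmem_arc z y).1 hy
    obtain ⟨t', ht', hvt'⟩ := (hmem_arc z' y).1 hy'
    have key : ∀ (a b : V) (ta tb : ℕ), a ∈ leftEnds v Q C → b ∈ leftEnds v Q C →
        ta < len (pos a) → tb < len (pos b) → v (pos a + ta) = v (pos b + tb) → ta < tb → False := by
      intro a b ta tb ha hb hta htb heq hlt
      -- position of the predecessor of `pos a` inside the arc of `b`
      have h1 := hpos2 a ha
      have hd : v (pos a - 1) = v (pos b + (tb - ta - 1 : ℕ)) := by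
        have h2 := (hc.eq_iff _ _).1 heq
        rw [hc.eq_iff]
        have e1 : pos a - 1 - (pos b + ((tb - ta - 1 : ℕ) : ℤ)) = pos a + ta - (pos b + tb) := by
          have : ((tb - ta - 1 : ℕ) : ℤ) = (tb : ℤ) - ta - 1 := by omega
          rw [this]
          ring
        rw [e1]
        exact h2
      rw [hd] at h1
      have h3 := hsub b hb (tb - ta - 1) (by omega)
      exact hC.notQ _ h3 h1
    rcases lt_trichotomy t t' with hlt | heq | hgt
    · exact key z z' t t' hz hz' ht ht' (hvt.trans hvt'.symm) hlt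
    · subst heq
      have h1 := (hc.eq_iff _ _).1 (hvt.trans hvt'.symm)
      apply hne
      rw [← hpos1 z hz, ← hpos1 z' hz', hc.eq_iff]
      have e1 : pos z - pos z' = pos z + t - (pos z' + t) := by ring
      rw [e1]
      exact h1
    · exact key z' z t' t hz' hz ht' ht (hvt'.trans hvt.symm) hgt
  have hbU : (leftEnds v Q C).biUnion arc ⊆ C := by
    intro y hy
    obtain ⟨z, hz, hy'⟩ := Finset.mem_biUnion.1 hy
    obtain ⟨t, ht, rfl⟩ := (hmem_arc z y).1 hy'
    exact hsub z hz t ht
  have hcard := Finset.card_le_card hbU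
  rw [Finset.card_biUnion hdisj] at hcard
  have hsum : (leftEnds v Q C).card * (e + 1) ≤ ∑ z ∈ leftEnds v Q C, (arc z).card := by
    have := Finset.card_nsmul_le_sum (leftEnds v Q C) (fun z => (arc z).card) (e + 1) hbig
    simpa [smul_eq_mul] using this
  exact hsum.trans hcard

/-- The reversed parametrisation. -/
lemma CycFn.rev (hc : CycFn G n v) : CycFn G n (fun i => v (-i)) where
  eq_iff i j := by
    rw [hc.eq_iff]
    have e : -i - -j = -(i - j) := by ring
    rw [e, dvd_neg]
  adj i := by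
    have := hc.adj (-(i + 1))
    have e : -(i + 1) + 1 = -i := by ring
    rw [e] at this
    exact this.symm
  n_ge := hc.n_ge

lemma ArcClosed.rev (hC : ArcClosed v Q C) : ArcClosed (fun i => v (-i)) Q C where
  notQ := hC.notQ
  on z hz := by
    obtain ⟨i, hi⟩ := hC.on z hz
    exact ⟨-i, by simpa using hi⟩
  succ i hi hq := by
    have := hC.pred (-i) hi (by
      have e : -i - 1 = -(i + 1) := by ring
      rw [e]
      exact hq)
    have e : -i - 1 = -(i + 1) := by ring
    rw [e] at this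
    exact this
  pred i hi hq := by
    have := hC.succ (-i) hi (by
      have e : -i + 1 = -(i - 1) := by ring
      rw [e]
      exact hq)
    have e : -i + 1 = -(i - 1) := by ring
    rw [e] at this
    exact this

/-- The `Q`-vertices next to `C` on the cycle. -/
noncomputable def bdry (v : ℤ → V) (Q C : Finset V) : Finset V := by
  classical exact Q.filter (fun a => ∃ i, v i = a ∧ (v (i + 1) ∈ C ∨ v (i - 1) ∈ C))

lemma mem_bdry {a : V} : a ∈ bdry v Q C ↔ a ∈ Q ∧ ∃ i, v i = a ∧ (v (i + 1) ∈ C ∨ v (i - 1) ∈ C) := by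
  classical
  unfold bdry
  simp

/-- Boundary counted by the left and right ends. -/
theorem card_bdry_le (hc : CycFn G n v) :
    (bdry v Q C).card ≤ (leftEnds v Q C).card + (leftEnds (fun i => v (-i)) Q C).card := by
  classical
  let B1 := (bdry v Q C).filter (fun a => ∃ i, v i = a ∧ v (i + 1) ∈ C)
  let B2 := (bdry v Q C).filter (fun a => ∃ i, v i = a ∧ v (i - 1) ∈ C)
  have hU : bdry v Q C ⊆ B1 ∪ B2 := by
    intro a ha
    obtain ⟨h0, i, hi, h1 | h1⟩ := mem_bdry.1 ha
    · exact Finset.mem_union_left _ (Finset.mem_filter.2 ⟨ha, i, hi, h1⟩)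
    · exact Finset.mem_union_right _ (Finset.mem_filter.2 ⟨ha, i, hi, h1⟩)
  have h1 : B1.card ≤ (leftEnds v Q C).card := by
    have hex : ∀ a ∈ B1, ∃ i, v i = a ∧ v (i + 1) ∈ C := fun a ha => (Finset.mem_filter.1 ha).2
    choose! f hf1 hf2 using hex
    refine Finset.card_le_card_of_injOn (fun a => v (f a + 1)) ?_ ?_
    · intro a ha
      refine mem_leftEnds.2 ⟨hf2 a ha, f a + 1, rfl, ?_⟩
      have e : f a + 1 - 1 = f a := by ring
      rw [e, hf1 a ha]
      exact (mem_bdry.1 (Finset.mem_filter.1 ha).1).1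
    · intro a ha b hb hab
      have h2 := (hc.eq_iff _ _).1 hab
      rw [← hf1 a ha, ← hf1 b hb, hc.eq_iff]
      have e : f a + 1 - (f b + 1) = f a - f b := by ring
      rw [e] at h2
      exact h2
  have h2 : B2.card ≤ (leftEnds (fun i => v (-i)) Q C).card := by
    have hex : ∀ a ∈ B2, ∃ i, v i = a ∧ v (i - 1) ∈ C := fun a ha => (Finset.mem_filter.1 ha).2
    choose! f hf1 hf2 using hex
    refine Finset.card_le_card_of_injOn (fun a => v (f a - 1)) ?_ ?_
    · intro a ha
      refine mem_leftEnds.2 ⟨hf2 a ha, -(f a - 1), by simp, ?_⟩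
      have e : -(-(f a - 1) - 1) = f a := by ring
      simp only [e]
      rw [hf1 a ha]
      exact (mem_bdry.1 (Finset.mem_filter.1 ha).1).1
    · intro a ha b hb hab
      have h2 := (hc.eq_iff _ _).1 hab
      rw [← hf1 a ha, ← hf1 b hb, hc.eq_iff]
      have e : f a - 1 - (f b - 1) = f a - f b := by ring
      rw [e] at h2
      exact h2
  calc (bdry v Q C).card ≤ (B1 ∪ B2).card := Finset.card_le_card hU
    _ ≤ B1.card + B2.card := Finset.card_union_le _ _
    _ ≤ _ := Nat.add_le_add h1 h2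

/-- Rule C with a count. -/
theorem ruleC_card (hc : CycFn G n v) (hQ : ∀ x ∈ Q, ∀ y ∈ Q, x ≠ y → G.Adj x y)
    (hC : ArcClosed v Q C) (hQv : ∀ a ∈ Q, ∃ i, v i = a) {t : ℕ} (ht1 : (bdry v Q C).card ≤ t)
    (ht2 : t ≤ Q.card) (h3 : 3 ≤ C.card + t) : HasCycle G (C.card + t) := by
  classical
  have hsub : bdry v Q C ⊆ Q := fun a ha => (mem_bdry.1 ha).1
  obtain ⟨K, hK1, hK2, hK3⟩ := Finset.exists_subsuperset_card_eq hsub ht1 ht2
  have hdisj : Disjoint C K := by
    rw [Finset.disjoint_left]
    intro a ha ha'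
    exact hC.notQ a ha (hK2 ha')
  have hcard : (C ∪ K).card = C.card + t := by
    rw [Finset.card_union_of_disjoint hdisj, hK3]
  have hS := ruleC hc hQ hC hK2 hQv (by
    intro i hi
    constructor
    · intro h
      apply hK1
      refine mem_bdry.2 ⟨h, i + 1, rfl, Or.inr ?_⟩
      simpa using hi
    · intro h
      apply hK1
      refine mem_bdry.2 ⟨h, i - 1, rfl, Or.inl ?_⟩
      simpa using hi) (by rw [hcard]; exact h3)
  have := hS.hasCycle
  rwa [hcard] at this

/-- Rule C, main range arithmetic: cycle through `Q` with `W` non-`Q` vertices,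
`r + 1 ≤ W ≤ q + r - 1`, `r + 3 ≤ q`. -/
theorem ruleC_main (hc : CycFn G n v) (hQ : ∀ x ∈ Q, ∀ y ∈ Q, x ≠ y → G.Adj x y)
    (hQv : ∀ a ∈ Q, ∃ i, v i = a) {r : ℕ} (hr : r + 3 ≤ Q.card) (hW1 : r + 1 + Q.card ≤ n)
    (hW2 : n + 1 ≤ 2 * Q.card + r) : HasCycle G (Q.card + r + 1) := by
  classical
  have hQne : ∃ i0, v i0 ∈ Q := by
    obtain ⟨a, ha⟩ : Q.Nonempty := Finset.card_pos.1 (by omega)
    obtain ⟨i, hi⟩ := hQv a ha
    exact ⟨i, hi ▸ ha⟩
  -- the set of non-Q vertices
  let N : Finset V := ((Finset.range n).image (fun s : ℕ => v s)) \ Q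
  have hall : ((Finset.range n).image (fun s : ℕ => v s)).card = n := by
    rw [Finset.card_image_of_injOn, Finset.card_range]
    intro s hs t ht hst
    have hs' := Finset.mem_range.1 hs
    have ht' := Finset.mem_range.1 ht
    have := hc.inj_window hst (by omega) (by omega)
    omega
  have hsubQ : Q ⊆ (Finset.range n).image (fun s : ℕ => v s) := by
    intro a ha
    obtain ⟨i, hi⟩ := hQv a ha
    obtain ⟨s, hs, hs'⟩ := hc.exists_window 0 i
    refine Finset.mem_image.2 ⟨s, Finset.mem_range.2 hs, ?_⟩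
    rw [← hi, hs']
    simp
  have hNcard : N.card = n - Q.card := by
    rw [Finset.card_sdiff_of_subset hsubQ, hall]
  have hmemN : ∀ i, v i ∉ Q → v i ∈ N := by
    intro i hi
    refine Finset.mem_sdiff.2 ⟨?_, hi⟩
    obtain ⟨s, hs, hs'⟩ := hc.exists_window 0 i
    refine Finset.mem_image.2 ⟨s, Finset.mem_range.2 hs, ?_⟩
    rw [hs']
    simp
  have hNcl : ArcClosed v Q N := by
    refine ⟨fun z hz => (Finset.mem_sdiff.1 hz).2, ?_, fun i _ h => hmemN _ h, fun i _ h => hmemN _ h⟩
    intro z hz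
    obtain ⟨s, _, rfl⟩ := Finset.mem_image.1 (Finset.mem_sdiff.1 hz).1
    exact ⟨s, rfl⟩
  -- a minimal closed set with at least r+1 elements
  let F : Finset (Finset V) := N.powerset.filter (fun C => ArcClosed v Q C ∧ r + 1 ≤ C.card)
  have hFne : F.Nonempty := ⟨N, Finset.mem_filter.2 ⟨Finset.mem_powerset.2 (Finset.Subset.refl _),
    hNcl, by omega⟩⟩
  obtain ⟨C, hCF, hCmin⟩ := Finset.exists_min_image F Finset.card hFne
  obtain ⟨hCN, hC, hCcard⟩ := Finset.mem_filter.1 hCF
  have hCN' := Finset.mem_powerset.1 hCN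
  obtain ⟨e, he⟩ : ∃ e, C.card = r + 1 + e := ⟨C.card - (r + 1), by omega⟩
  have hm : ∀ A : Finset V, A ⊆ C → A.Nonempty → ArcClosed v Q A → ArcClosed v Q (C \ A) →
      e + 1 ≤ A.card := by
    intro A hA hAne _ hcl
    by_contra hlt
    have hcardA : (C \ A).card = C.card - A.card := Finset.card_sdiff_of_subset hA
    have hpos := Finset.card_pos.2 hAne
    have hAle := Finset.card_le_card hA
    have hmem : C \ A ∈ F := Finset.mem_filter.2 ⟨Finset.mem_powerset.2
      (Finset.sdiff_subset.trans hCN'), hcl, by omega⟩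
    have := hCmin _ hmem
    omega
  have hL := card_leftEnds_mul_le hc hQne hC e hm
  have hR := card_leftEnds_mul_le hc.rev (by
    obtain ⟨i0, hi0⟩ := hQne
    exact ⟨-i0, by simpa using hi0⟩) hC.rev e (fun A hA hne h1 h2 => hm A hA hne (by
      refine ⟨h1.notQ, ?_, ?_, ?_⟩
      · intro z hz
        obtain ⟨i, hi⟩ := h1.on z hz
        exact ⟨-i, hi⟩
      · intro i hi hq
        have := h1.pred (-i) (by simpa using hi) (by
          have e' : - (-i - 1) = i + 1 := by ring
          simpa [e'] using hq)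
        have e' : - (-i - 1) = i + 1 := by ring
        simpa [e'] using this
      · intro i hi hq
        have := h1.succ (-i) (by simpa using hi) (by
          have e' : - (-i + 1) = i - 1 := by ring
          simpa [e'] using hq)
        have e' : - (-i + 1) = i - 1 := by ring
        simpa [e'] using this) (by
      refine ⟨h2.notQ, ?_, ?_, ?_⟩
      · intro z hz
        obtain ⟨i, hi⟩ := h2.on z hz
        exact ⟨-i, hi⟩
      · intro i hi hq
        have := h2.pred (-i) (by simpa using hi) (by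
          have e' : - (-i - 1) = i + 1 := by ring
          simpa [e'] using hq)
        have e' : - (-i - 1) = i + 1 := by ring
        simpa [e'] using this
      · intro i hi hq
        have := h2.succ (-i) (by simpa using hi) (by
          have e' : - (-i + 1) = i - 1 := by ring
          simpa [e'] using hq)
        have e' : - (-i + 1) = i - 1 := by ring
        simpa [e'] using this))
  have hB := card_bdry_le (Q := Q) (C := C) hc
  set a := (leftEnds v Q C).card with ha
  set b := (leftEnds (fun i => v (-i)) Q C).card with hb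
  -- numeric
  have hCle : C.card ≤ n - Q.card := by
    rw [← hNcard]
    exact Finset.card_le_card hCN'
  have heq : e + 2 ≤ Q.card := by omega
  have hbd : (bdry v Q C).card ≤ Q.card - e := by
    rcases Nat.eq_zero_or_pos e with h0 | h0
    · have := Finset.card_le_card (show bdry v Q C ⊆ Q from fun x hx => (mem_bdry.1 hx).1)
      omega
    · rw [he] at hL hR
      by_cases her : e + 1 ≤ r
      · obtain ⟨d, hd⟩ : ∃ d, r = e + 1 + d := ⟨r - (e + 1), by omega⟩
        obtain ⟨x, hx⟩ : ∃ x, Q.card = r + 3 + x := ⟨Q.card - (r + 3), by omega⟩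
        have hgoal : a + b ≤ d + 4 + x := by
          by_contra hcon
          have h1 : (d + 5 + x) * (e + 1) ≤ (a + b) * (e + 1) :=
            Nat.mul_le_mul_right _ (by omega)
          have h2 : (a + b) * (e + 1) = a * (e + 1) + b * (e + 1) := by ring
          have h3 : d * 1 ≤ d * e := Nat.mul_le_mul_left _ (by omega)
          subst hd
          nlinarith
        omega
      · have ha1 : a ≤ 1 := by
          by_contra hcon
          have h1 : 2 * (e + 1) ≤ a * (e + 1) := Nat.mul_le_mul_right _ (by omega)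
          omega
        have hb1 : b ≤ 1 := by
          by_contra hcon
          have h1 : 2 * (e + 1) ≤ b * (e + 1) := Nat.mul_le_mul_right _ (by omega)
          omega
        omega
  have := ruleC_card hc hQ hC hQv hbd (by omega) (by omega)
  have e2 : C.card + (Q.card - e) = Q.card + r + 1 := by omega
  rwa [e2] at this

end Arcs

end Crest.Agent.CycleRamsey
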