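import Crest.Agent.Lib.CycleRamsey.Small5

/-!
# Cycle–complete Ramsey numbers: the case `k = 3` (helper19, row 54, S0075)
No `C_4`, independence number at most `3`.  Also the triangle-free case for every `k ≥ 3`.
-/

set_option autoImplicit false
set_option linter.unusedSectionVars false
set_option linter.unusedVariables false

open Finset

namespace Crest.Agent.Lib.CycleRamsey

variable {V : Type} [Fintype V] [DecidableEq V] {G : SimpleGraph V}

/-- A triangle-free minimal counterexample does not exist, for `3 ≤ k`, `a ≤ k`. -/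
theorem MinCE.no_triangleFree {k a : ℕ} (h : MinCE k a G) (hk : 3 ≤ k) (hak : a ≤ k)
    (htf : ∀ x y z, G.Adj x y → G.Adj y z → G.Adj x z → False) : False := by
  classical
  have hV : Nonempty V := by
    rw [← Fintype.card_pos_iff, h.card]
    omega
  obtain ⟨v⟩ := hV
  have hindep : ∀ w, G.IsIndepSet ((nbrs G w : Finset V) : Set V) := by
    intro w x hx y hy _ hadj
    exact htf w x y (mem_nbrs.1 hx) hadj (mem_nbrs.1 hy)
  have hreg : ∀ w, (nbrs G w).card = k := by
    intro w
    have h1 := h.degree_ge w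
    have h2 := h.noIndep _ (hindep w)
    omega
  have haeq : a = k := by
    have h1 := h.degree_ge v
    have h2 := h.noIndep _ (hindep v)
    omega
  subst haeq
  set n := nbrs G v with hn
  have hvn : v ∉ n := by simp [hn]
  set R := univ \ insert v n with hR
  have hRcard : R.card = a * a + 1 - (a + 1) := by
    rw [hR, Finset.card_sdiff_of_subset (subset_univ _), Finset.card_univ, h.card,
      Finset.card_insert_of_notMem hvn, hreg v]
  let C : V → Finset V := fun x => (nbrs G x).erase v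
  have hCcard : ∀ x ∈ n, (C x).card = a - 1 := by
    intro x hx
    have hvx : v ∈ nbrs G x := mem_nbrs.2 (mem_nbrs.1 hx).symm
    simp only [C]
    rw [Finset.card_erase_of_mem hvx, hreg x]
  have hcover : ∀ u ∈ R, ∃ x ∈ n, u ∈ C x := by
    intro u hu
    by_contra hno
    push Not at hno
    have hu' : u ∉ insert v n := (mem_sdiff.1 hu).2
    simp only [mem_insert, not_or] at hu'
    have hnoadj : ∀ x ∈ n, ¬ G.Adj x u := by
      intro x hx hadj
      exact hno x hx (mem_erase.2 ⟨hu'.1, mem_nbrs.2 hadj⟩)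
    have hind : G.IsIndepSet ((insert u n : Finset V) : Set V) := by
      intro x hx y hy hxy hadj
      simp only [coe_insert, Set.mem_insert_iff, Finset.mem_coe] at hx hy
      rcases hx with rfl | hx <;> rcases hy with rfl | hy
      · exact hxy rfl
      · exact hnoadj y hy hadj.symm
      · exact hnoadj x hx hadj
      · exact hindep v hx hy hxy hadj
    have := h.noIndep _ hind
    rw [Finset.card_insert_of_notMem hu'.2, hreg v] at this
    omega
  have hdisj : ∀ x ∈ n, ∀ y ∈ n, x ≠ y → ∀ u, u ∈ C x → u ∈ C y → False := by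
    intro x hx y hy hxy u hux huy
    have hsub : R ⊆ (n.erase y).biUnion C ∪ (C y).erase u := by
      intro w hw
      obtain ⟨z, hz, hwz⟩ := hcover w hw
      by_cases hzy : z = y
      · subst hzy
        by_cases hwu : w = u
        · subst hwu
          exact mem_union_left _ (mem_biUnion.2 ⟨x, mem_erase.2 ⟨hxy, hx⟩, hux⟩)
        · exact mem_union_right _ (mem_erase.2 ⟨hwu, hwz⟩)
      · exact mem_union_left _ (mem_biUnion.2 ⟨z, mem_erase.2 ⟨hzy, hz⟩, hwz⟩)
    have h1 := Finset.card_le_card hsub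
    have h2 := Finset.card_union_le ((n.erase y).biUnion C) ((C y).erase u)
    have h3 : ((n.erase y).biUnion C).card ≤ (n.erase y).card * (a - 1) := by
      apply Finset.card_biUnion_le_card_mul
      intro z hz
      exact (hCcard z (mem_of_mem_erase hz)).le
    rw [Finset.card_erase_of_mem hy, hreg v] at h3
    rw [Finset.card_erase_of_mem huy, hCcard y hy] at h2
    obtain ⟨j, rfl⟩ : ∃ j, a = j + 3 := ⟨a - 3, by omega⟩
    rw [hRcard] at h1
    have e1 : j + 3 - 1 = j + 2 := by omega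
    rw [e1] at h3 h2
    have e2 : (j + 3) * (j + 3) + 1 - (j + 3 + 1) = (j + 2) * (j + 2) + (j + 2) := by
      have : (j + 3) * (j + 3) = (j + 2) * (j + 2) + (j + 2) + (j + 3) := by ring
      omega
    rw [e2] at h1
    omega
  -- two children of a neighbour of `v`
  have hnpos : n.Nonempty := by
    rw [← Finset.card_pos, hreg v]
    omega
  obtain ⟨x, hx⟩ := hnpos
  have hC2 : 1 < (C x).card := by
    rw [hCcard x hx]
    omega
  obtain ⟨u, hu, w, hw, huw⟩ := Finset.one_lt_card.1 hC2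
  have hu' := mem_erase.1 hu
  have hw' := mem_erase.1 hw
  have huR : u ∉ n := fun hh => htf v x u (mem_nbrs.1 hx) (mem_nbrs.1 hu'.2) (mem_nbrs.1 hh)
  have hwR : w ∉ n := fun hh => htf v x w (mem_nbrs.1 hx) (mem_nbrs.1 hw'.2) (mem_nbrs.1 hh)
  have hnoadj : ∀ b, b ∈ C x → ∀ z ∈ n.erase x, ¬ G.Adj z b := by
    intro b hb z hz hadj
    have hz' := mem_erase.1 hz
    have hb' := mem_erase.1 hb
    exact hdisj z hz'.2 x hx hz'.1 b (mem_erase.2 ⟨hb'.1, mem_nbrs.2 hadj⟩) hb
  have hind : G.IsIndepSet ((insert u (insert w (n.erase x)) : Finset V) : Set V) := by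
    intro p hp q hq hpq hadj
    simp only [coe_insert, Set.mem_insert_iff, Finset.mem_coe] at hp hq
    have hval : ∀ b ∈ n.erase x, b ∈ n := fun b hb => mem_of_mem_erase hb
    rcases hp with rfl | rfl | hp <;> rcases hq with rfl | rfl | hq
    · exact hpq rfl
    · exact htf x p q (mem_nbrs.1 hu'.2) hadj (mem_nbrs.1 hw'.2)
    · exact hnoadj p hu q hq hadj.symm
    · exact htf x q p (mem_nbrs.1 hu'.2) hadj.symm (mem_nbrs.1 hw'.2)
    · exact hpq rfl
    · exact hnoadj p hw q hq hadj.symm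
    · exact hnoadj q hu p hp hadj
    · exact hnoadj q hw p hp hadj
    · exact hindep v (hval p hp) (hval q hq) hpq hadj
  have hle := h.noIndep _ hind
  rw [Finset.card_insert_of_notMem (by
      simp only [mem_insert, not_or]
      exact ⟨huw, fun hh => huR (mem_of_mem_erase hh)⟩),
    Finset.card_insert_of_notMem (fun hh => hwR (mem_of_mem_erase hh)),
    Finset.card_erase_of_mem hx, hreg v] at hle
  omega

section Tri

variable {a : ℕ} {Q : Finset V}

theorem ear1_3 (h : MinCE 3 a G) (hQ : G.IsClique (Q : Set V)) (hc : Q.card = 3) {p q e : V}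
    (hp : p ∈ Q) (hq : q ∈ Q) (hpq : p ≠ q) (he : e ∉ Q) (h1 : G.Adj p e) (h2 : G.Adj q e) :
    False :=
  h.noCycle (hasCycle_ear hQ hp hq hpq [e] (by simp) (by simpa using he)
    (by simp [h1, h2.symm]) (t := 3) (by omega) (by omega) (by simp))

theorem ear2_3 (h : MinCE 3 a G) (hQ : G.IsClique (Q : Set V)) (hc : Q.card = 3) {p q e f : V}
    (hp : p ∈ Q) (hq : q ∈ Q) (hpq : p ≠ q) (he : e ∉ Q) (hf : f ∉ Q) (h1 : G.Adj p e)
    (h2 : G.Adj e f) (h3 : G.Adj q f) : False :=
  h.noCycle (hasCycle_ear hQ hp hq hpq [e, f] (by simp [h2.ne]) (by simp [he, hf])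
    (by simp [h1, h2, h3.symm]) (t := 2) (by omega) (by omega) (by simp))

theorem common_le_one (h : MinCE 3 a G) {b c t t' : V} (hbc : b ≠ c) (htt' : t ≠ t')
    (h1 : G.Adj b t) (h2 : G.Adj c t) (h3 : G.Adj c t') (h4 : G.Adj b t') : False :=
  h.noCycle (cycle4 h1 h2.symm h3 h4.symm hbc htt')

theorem D_nonempty (h : MinCE 3 a G) (hc : Q.card = 3) {u : V} (hu : u ∈ Q) :
    (nbrs G u \ Q).Nonempty := by
  classical
  by_contra hno
  rw [Finset.not_nonempty_iff_eq_empty, Finset.sdiff_eq_empty_iff_subset] at hno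
  have hsub : nbrs G u ⊆ Q.erase u := by
    intro w hw
    exact mem_erase.2 ⟨(mem_nbrs.1 hw).ne.symm, hno hw⟩
  have h1 := Finset.card_le_card hsub
  rw [Finset.card_erase_of_mem hu, hc] at h1
  have h2 := h.degree_ge u
  omega

/-- **The triangle case of `k = 3`.** -/
theorem tri_case3 (h : MinCE 3 a G) (ha : a ≤ 3) (hQ : G.IsClique (Q : Set V)) (hc : Q.card = 3) :
    False := by
  classical
  have haeq : a = 3 := le_antisymm ha (h.le_of_clique (by norm_num) hQ hc)
  subst haeq
  obtain ⟨x, y, z, hxy, hxz, hyz, rfl⟩ := Finset.card_eq_three.1 hc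
  set Q : Finset V := {x, y, z} with hQdef
  have hx : x ∈ Q := by simp [hQdef]
  have hy : y ∈ Q := by simp [hQdef]
  have hz : z ∈ Q := by simp [hQdef]
  let D : V → Finset V := fun u => nbrs G u \ Q
  have memD : ∀ {u e}, e ∈ D u ↔ G.Adj u e ∧ e ∉ Q := by
    intro u e
    simp [D]
  have hDne : ∀ {u}, u ∈ Q → (D u).Nonempty := fun {u} hu => D_nonempty h hc hu
  have hDdisj : ∀ {p q e}, p ∈ Q → q ∈ Q → p ≠ q → e ∈ D p → e ∉ D q := by
    intro p q e hp hq hpq he he'
    exact ear1_3 h hQ hc hp hq hpq (memD.1 he).2 (memD.1 he).1 (memD.1 he').1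
  have hDanti : ∀ {p q e f}, p ∈ Q → q ∈ Q → p ≠ q → e ∈ D p → f ∈ D q → ¬ G.Adj e f := by
    intro p q e f hp hq hpq he hf hadj
    exact ear2_3 h hQ hc hp hq hpq (memD.1 he).2 (memD.1 hf).2 (memD.1 he).1 hadj (memD.1 hf).1
  -- each `D p` is a clique
  have hDcl : ∀ {p q r e e'}, p ∈ Q → q ∈ Q → r ∈ Q → p ≠ q → p ≠ r → q ≠ r → e ∈ D p → e' ∈ D p →
      e ≠ e' → G.Adj e e' := by
    intro p q r e e' hp hq hr hpq hpr hqr he he' hee'
    by_contra hnadj
    obtain ⟨f, hf⟩ := hDne hq
    obtain ⟨g, hg⟩ := hDne hr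
    have := h.pairwise_len_le [e, e', f, g] (by
      simp only [List.pairwise_cons, List.mem_cons, List.not_mem_nil, or_false, forall_eq_or_imp,
        forall_eq, IsEmpty.forall_iff, implies_true, List.Pairwise.nil, and_true]
      have dne : ∀ {b c p' q'}, p' ∈ Q → q' ∈ Q → p' ≠ q' → b ∈ D p' → c ∈ D q' → b ≠ c := by
        intro b c p' q' hp' hq' hne hb hc hbc
        exact hDdisj hp' hq' hne hb (hbc ▸ hc)
      exact ⟨⟨⟨hee', hnadj⟩, ⟨dne hp hq hpq he hf, hDanti hp hq hpq he hf⟩,
          ⟨dne hp hr hpr he hg, hDanti hp hr hpr he hg⟩⟩,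
        ⟨⟨dne hp hq hpq he' hf, hDanti hp hq hpq he' hf⟩,
          ⟨dne hp hr hpr he' hg, hDanti hp hr hpr he' hg⟩⟩,
        ⟨dne hq hr hqr hf hg, hDanti hq hr hqr hf hg⟩⟩)
    simp at this
  have hDcard : ∀ {p q r}, p ∈ Q → q ∈ Q → r ∈ Q → p ≠ q → p ≠ r → q ≠ r → (D p).card ≤ 2 := by
    intro p q r hp hq hr hpq hpr hqr
    by_contra hgt
    obtain ⟨e1, h1, e2, h2, e3, h3, h12, h13, h23⟩ := Finset.two_lt_card.1 (by omega : 2 < (D p).card)
    have a12 := hDcl hp hq hr hpq hpr hqr h1 h2 h12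
    have a23 := hDcl hp hq hr hpq hpr hqr h2 h3 h23
    exact h.noCycle (cycle4 (memD.1 h1).1 a12 a23 (memD.1 h3).1.symm
      (fun e => (memD.1 h2).1.ne e) h13)
  -- the remaining vertices
  set T := univ \ (Q ∪ D x ∪ D y ∪ D z) with hT
  have hTcard : 10 ≤ T.card + 3 + (D x).card + (D y).card + (D z).card := by
    have h1 : T.card + (Q ∪ D x ∪ D y ∪ D z).card = 10 := by
      rw [hT, Finset.card_sdiff_add_card_eq_card (subset_univ _), Finset.card_univ, h.card]
    have h2 := Finset.card_union_le (Q ∪ D x ∪ D y) (D z)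
    have h3 := Finset.card_union_le (Q ∪ D x) (D y)
    have h4 := Finset.card_union_le Q (D x)
    omega
  have hTmem : ∀ t ∈ T, t ∉ Q ∧ ∀ u ∈ Q, ¬ G.Adj u t := by
    intro t ht
    have ht' := (mem_sdiff.1 ht).2
    simp only [mem_union, not_or] at ht'
    refine ⟨ht'.1.1.1, ?_⟩
    intro u hu hadj
    simp only [hQdef, mem_insert, mem_singleton] at hu
    rcases hu with rfl | rfl | rfl
    · exact ht'.1.1.2 (memD.2 ⟨hadj, ht'.1.1.1⟩)
    · exact ht'.1.2 (memD.2 ⟨hadj, ht'.1.1.1⟩)
    · exact ht'.2 (memD.2 ⟨hadj, ht'.1.1.1⟩)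
  let Full : V → V → Prop := fun t p => ∀ e ∈ D p, G.Adj t e
  -- two homes out of three are full
  have hfull2 : ∀ {p q r t}, p ∈ Q → q ∈ Q → r ∈ Q → p ≠ q → p ≠ r → q ≠ r → t ∈ T →
      Full t p ∨ Full t q := by
    intro p q r t hp hq hr hpq hpr hqr ht
    by_contra hno
    simp only [Full, not_or] at hno
    push Not at hno
    obtain ⟨⟨e, he, hte⟩, f, hf, htf⟩ := hno
    have htm := hTmem t ht
    have := h.pairwise_len_le [t, e, f, r] (by
      simp only [List.pairwise_cons, List.mem_cons, List.not_mem_nil, or_false, forall_eq_or_imp,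
        forall_eq, IsEmpty.forall_iff, implies_true, List.Pairwise.nil, and_true]
      have hte' : t ≠ e := fun hh => htm.2 p hp (by rw [hh]; exact (memD.1 he).1)
      have htf' : t ≠ f := fun hh => htm.2 q hq (by rw [hh]; exact (memD.1 hf).1)
      have htr : t ≠ r := fun hh => htm.1 (hh ▸ hr)
      have hef : e ≠ f := fun hh => hDdisj hp hq hpq he (hh ▸ hf)
      have her : e ≠ r := fun hh => (memD.1 he).2 (hh ▸ hr)
      have hfr : f ≠ r := fun hh => (memD.1 hf).2 (hh ▸ hr)
      have hner : ¬ G.Adj e r := fun hadj =>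
        hDdisj hp hr hpr he (memD.2 ⟨hadj.symm, (memD.1 he).2⟩)
      have hnfr : ¬ G.Adj f r := fun hadj =>
        hDdisj hq hr hqr hf (memD.2 ⟨hadj.symm, (memD.1 hf).2⟩)
      exact ⟨⟨⟨hte', hte⟩, ⟨htf', htf⟩, ⟨htr, fun hadj => htm.2 r hr hadj.symm⟩⟩,
        ⟨⟨hef, hDanti hp hq hpq he hf⟩, ⟨her, hner⟩⟩, ⟨hfr, hnfr⟩⟩)
    simp at this
  -- a full home is a singleton
  have hfull1 : ∀ {p t}, p ∈ Q → t ∈ T → Full t p → (D p).card = 1 := by
    intro p t hp ht hfull
    have h1 : 0 < (D p).card := Finset.card_pos.2 (hDne hp)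
    by_contra hne
    obtain ⟨e, he, e', he', hee'⟩ := Finset.one_lt_card.1 (by omega : 1 < (D p).card)
    have hpt : p ≠ t := fun hh => (hTmem t ht).1 (hh ▸ hp)
    exact common_le_one h hpt hee' (memD.1 he).1 (hfull e he) (hfull e' he') (memD.1 he').1
  -- the sets of vertices of `T` full on two homes
  let TT : V → V → Finset V := fun p q => T.filter (fun t => Full t p ∧ Full t q)
  have hTT : ∀ {p q r}, p ∈ Q → q ∈ Q → r ∈ Q → p ≠ q → p ≠ r → q ≠ r →
      (TT p q).card + (D p).card ≤ 2 ∧ (TT p q).card + (D q).card ≤ 2 := by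
    intro p q r hp hq hr hpq hpr hqr
    have h1 : (TT p q).card ≤ 1 := by
      by_contra hgt
      obtain ⟨t, ht, t', ht', htt'⟩ := Finset.one_lt_card.1 (by omega : 1 < (TT p q).card)
      obtain ⟨e, he⟩ := hDne hp
      obtain ⟨f, hf⟩ := hDne hq
      have hef : e ≠ f := fun hh => hDdisj hp hq hpq he (hh ▸ hf)
      have ht1 := (mem_filter.1 ht).2
      have ht2 := (mem_filter.1 ht').2
      exact common_le_one h hef htt' (ht1.1 e he).symm (ht1.2 f hf).symm (ht2.2 f hf).symm
        (ht2.1 e he).symm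
    have hp2 := hDcard hp hq hr hpq hpr hqr
    have hq2 := hDcard hq hp hr hpq.symm hqr hpr
    by_cases hne : (TT p q).Nonempty
    · obtain ⟨t, ht⟩ := hne
      have ht' := mem_filter.1 ht
      have e1 := hfull1 hp ht'.1 ht'.2.1
      have e2 := hfull1 hq ht'.1 ht'.2.2
      omega
    · rw [Finset.not_nonempty_iff_eq_empty] at hne
      rw [hne]
      simp only [card_empty, zero_add]
      exact ⟨hp2, hq2⟩
  have hcov : T ⊆ TT x y ∪ TT y z ∪ TT x z := by
    intro t ht
    have f1 := hfull2 hx hy hz hxy hxz hyz ht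
    have f2 := hfull2 hy hz hx hyz hxy.symm hxz.symm ht
    have f3 := hfull2 hx hz hy hxz hxy hyz.symm ht
    simp only [mem_union, mem_filter, TT]
    tauto
  have hcovc := Finset.card_le_card hcov
  have c1 := Finset.card_union_le (TT x y ∪ TT y z) (TT x z)
  have c2 := Finset.card_union_le (TT x y) (TT y z)
  have b1 := hTT hx hy hz hxy hxz hyz
  have b2 := hTT hy hz hx hyz hxy.symm hxz.symm
  have b3 := hTT hx hz hy hxz hxy hyz.symm
  have d1 : 0 < (D x).card := Finset.card_pos.2 (hDne hx)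
  have d2 : 0 < (D y).card := Finset.card_pos.2 (hDne hy)
  have d3 : 0 < (D z).card := Finset.card_pos.2 (hDne hz)
  omega

end Tri

/-- **The case `k = 3`.** -/
theorem no_minCE_3 {a : ℕ} (ha : a ≤ 3) (h : MinCE 3 a G) : False := by
  classical
  by_cases htf : ∀ x y z, G.Adj x y → G.Adj y z → G.Adj x z → False
  · exact h.no_triangleFree (by norm_num) ha htf
  · push Not at htf
    obtain ⟨x, y, z, hxy, hyz, hxz, -⟩ := htf
    refine tri_case3 (Q := {x, y, z}) h ha ?_ ?_
    · intro p hp q hq hpq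
      simp only [coe_insert, coe_singleton, Set.mem_insert_iff, Set.mem_singleton_iff] at hp hq
      rcases hp with rfl | rfl | rfl <;> rcases hq with rfl | rfl | rfl <;>
        first
          | exact absurd rfl hpq
          | assumption
          | (apply SimpleGraph.Adj.symm; assumption)
    · rw [Finset.card_insert_of_notMem (by simp [hxy.ne, hxz.ne]),
        Finset.card_insert_of_notMem (by simp [hyz.ne]), Finset.card_singleton]

end Crest.Agent.Lib.CycleRamsey
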