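import Crest.Agent.Lib.CycleRamsey.Small5

/-!
# Cycle–complete Ramsey numbers: the case `k = 4` (helper19, row 54, S0075)
No `C_5`, independence number at most `4`.
-/

set_option autoImplicit false
set_option linter.unusedSectionVars false
set_option linter.unusedVariables false

open Finset

namespace Crest.Agent.Lib.CycleRamsey

variable {V : Type} [Fintype V] [DecidableEq V] {G : SimpleGraph V}

/-- In a `K_4`-free `C_5`-free graph each set of neighbours of a vertex is two-colourable. -/
theorem bip_nbrs4 (h4 : K4Free G) (hC : ¬ HasCycle G 5) (a : V) (Y : Finset V)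
    (hY : ∀ y ∈ Y, G.Adj a y) : Bip G Y := by
  apply bip_of_noP5
  · intro x hx y hy z hz hxy hyz hxz
    exact h4 a x y z (hY x hx) (hY y hy) (hY z hz) hxy hxz hyz
  · intro p hp q hq r hr s hs t ht h1 h2 h3 h4' h13 h14 h15 h24 h25 h35
    apply hC
    exact cycle5 (hY p hp) h1 h2 h3 (hY s hs).symm (hY q hq).ne (hY r hr).ne h13 h14 h24

theorem K4Free_of_noClique {a : ℕ} (h : MinCE 4 a G) (ha : a ≤ 4) : K4Free G := by
  intro x y z t hxy hxz hxt hyz hyt hzt
  refine h.no_clique (k := 4) (by norm_num) ha (Q := {x, y, z, t}) ?_ ?_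
  · intro p hp q hq hpq
    simp only [coe_insert, coe_singleton, Set.mem_insert_iff, Set.mem_singleton_iff] at hp hq
    rcases hp with rfl | rfl | rfl | rfl <;> rcases hq with rfl | rfl | rfl | rfl <;>
      first
        | exact absurd rfl hpq
        | assumption
        | (apply SimpleGraph.Adj.symm; assumption)
  · rw [Finset.card_insert_of_notMem (by simp [hxy.ne, hxz.ne, hxt.ne]),
      Finset.card_insert_of_notMem (by simp [hyz.ne, hyt.ne]),
      Finset.card_insert_of_notMem (by simp [hzt.ne]), Finset.card_singleton]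

section

variable {a : ℕ}

/-- The edge rule: an edge of the second layer has the same parents at both ends. -/
theorem edge_rule4 (h : MinCE 4 a G) {v x y p q : V} (hx : x ∈ L2 G v) (hy : y ∈ L2 G v)
    (hxy : G.Adj x y) (hp : G.Adj v p) (hpx : G.Adj p x) (hq : G.Adj v q) (hqy : G.Adj q y) :
    p = q := by
  by_contra hpq
  have hx' := mem_L2.1 hx
  have hy' := mem_L2.1 hy
  apply h.noCycle
  -- v p x y q
  refine cycle5 hp hpx hxy hqy.symm hq.symm hx'.1.symm hy'.1.symm ?_ hpq ?_
  · rintro rfl; exact hy'.2.1 hp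
  · rintro rfl; exact hx'.2.1 hq

/-- The second layer has at most six vertices. -/
theorem L2_card_le (h : MinCE 4 a G) (ha : a ≤ 4) (h4 : K4Free G) (v : V) :
    (L2 G v).card ≤ 6 := by
  classical
  have hbip2 : Bip G (L2 G v) := by
    apply bip_of_parent_rule (fun a x => G.Adj v a ∧ G.Adj a x)
    · intro x hx
      exact (mem_L2.1 hx).2.2
    · intro x hx m hm y hy hxm hmy hxy p q hp hq
      obtain ⟨c, hc⟩ := (mem_L2.1 hm).2.2
      have h1 := edge_rule4 h hx hm hxm hp.1 hp.2 hc.1 hc.2
      have h2 := edge_rule4 h hm hy hmy hc.1 hc.2 hq.1 hq.2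
      exact h1.trans h2
    · intro p
      by_cases hPa : G.Adj v p
      · obtain ⟨c, hc⟩ := bip_nbrs4 h4 h.noCycle p ((L2 G v).filter (fun x => G.Adj p x))
          (fun y hy => (mem_filter.1 hy).2)
        exact ⟨c, fun x hx y hy hxa hya hxy =>
          hc x (mem_filter.2 ⟨hx, hxa.2⟩) y (mem_filter.2 ⟨hy, hya.2⟩) hxy⟩
      · exact ⟨fun _ => true, fun x _ y _ hxa => absurd hxa.1 hPa⟩
  obtain ⟨T, hTsub, hTi, hTc⟩ := hbip2.half
  have hTle := h.L2_indep_le v hTsub hTi
  omega

/-- Every neighbour of `v` has a neighbour in `N(v)`. -/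
theorem exists_partner (h : MinCE 4 a G) (ha : a ≤ 4) (h4 : K4Free G) {v u : V}
    (huv : G.Adj v u) : ∃ w, G.Adj v w ∧ G.Adj u w := by
  classical
  by_contra hno
  push Not at hno
  have hL := L2_card_le h ha h4 v
  have hdeg := h.degree_ge v
  have huL : u ∈ nbrs G v := mem_nbrs.2 huv
  obtain ⟨S', hS'sub, hS'i, hS'c⟩ := (bip_nbrs4 h4 h.noCycle v ((nbrs G v).erase u)
    (fun y hy => mem_nbrs.1 (mem_of_mem_erase hy))).half
  rw [Finset.card_erase_of_mem huL] at hS'c
  have huS' : u ∉ S' := fun hh => (mem_erase.1 (hS'sub hh)).1 rfl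
  have hSsub : insert u S' ⊆ nbrs G v := by
    intro y hy
    rcases mem_insert.1 hy with rfl | hy
    · exact huL
    · exact mem_of_mem_erase (hS'sub hy)
  have hSi : G.IsIndepSet ((insert u S' : Finset V) : Set V) := by
    intro x hx y hy hxy hadj
    simp only [coe_insert, Set.mem_insert_iff, Finset.mem_coe] at hx hy
    rcases hx with rfl | hx <;> rcases hy with rfl | hy
    · exact hxy rfl
    · exact hno y (mem_of_mem_erase (hS'sub hy) |> mem_nbrs.1) hadj
    · exact hno x (mem_of_mem_erase (hS'sub hx) |> mem_nbrs.1) hadj.symm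
    · exact hS'i hx hy hxy hadj
  have hstar := h.star v hSsub hSi (by simp)
  rw [Finset.card_insert_of_notMem huS'] at hstar
  omega

/-- Every neighbour of `v` has at most one neighbour in `N(v)`. -/
theorem partner_unique (h : MinCE 4 a G) (ha : a ≤ 4) (h4 : K4Free G) {v u w w' : V}
    (huv : G.Adj v u) (hw : G.Adj v w) (huw : G.Adj u w) (hw' : G.Adj v w') (huw' : G.Adj u w') :
    w = w' := by
  classical
  by_contra hne
  have hL := L2_card_le h ha h4 v
  have hdeg := h.degree_ge v
  set L1 := nbrs G v with hL1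
  set B := L1.filter (fun y => G.Adj u y) with hB
  have hBsub : B ⊆ L1 := filter_subset _ _
  have huL : u ∈ L1 := mem_nbrs.2 huv
  have huB : u ∉ B := fun hh => (G.loopless.irrefl u) (mem_filter.1 hh).2
  have hBindep : G.IsIndepSet (B : Set V) := by
    intro x hx y hy hxy hadj
    have hx' := mem_filter.1 (Finset.mem_coe.1 hx)
    have hy' := mem_filter.1 (Finset.mem_coe.1 hy)
    exact h4 v u x y huv (mem_nbrs.1 hx'.1) (mem_nbrs.1 hy'.1) hx'.2 hy'.2 hadj
  have hB2 : 2 ≤ B.card := by
    have : 1 < B.card := Finset.one_lt_card.2 ⟨w, mem_filter.2 ⟨mem_nbrs.2 hw, huw⟩, w',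
      mem_filter.2 ⟨mem_nbrs.2 hw', huw'⟩, hne⟩
    omega
  set R := L1 \ insert u B with hR
  have hRsub : R ⊆ L1 := sdiff_subset
  have hinsert : insert u B ⊆ L1 := by
    intro y hy
    rcases mem_insert.1 hy with rfl | hy
    · exact huL
    · exact hBsub hy
  have hRcard : R.card = L1.card - (B.card + 1) := by
    rw [hR, Finset.card_sdiff_of_subset hinsert, Finset.card_insert_of_notMem huB]
  have hle : B.card + 1 ≤ L1.card := by
    rw [← Finset.card_insert_of_notMem huB]
    exact Finset.card_le_card hinsert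
  obtain ⟨S', hS'sub, hS'i, hS'c⟩ := (bip_nbrs4 h4 h.noCycle v R
    (fun y hy => mem_nbrs.1 (hRsub hy))).half
  have hdisj : Disjoint B S' := by
    rw [Finset.disjoint_left]
    intro y hyB hyS
    have := hS'sub hyS
    rw [hR, mem_sdiff] at this
    exact this.2 (mem_insert_of_mem hyB)
  have hanti : ∀ b ∈ B, ∀ z ∈ S', ¬ G.Adj b z := by
    intro b hb z hz hadj
    have hz' := hS'sub hz
    rw [hR, mem_sdiff] at hz'
    have hzL := hz'.1
    have hznot := hz'.2
    simp only [mem_insert, not_or] at hznot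
    have hb' := mem_filter.1 hb
    -- another element of `B`
    obtain ⟨b', hb'B, hbb'⟩ : ∃ b' ∈ B, b' ≠ b := by
      by_cases hwb : w = b
      · exact ⟨w', mem_filter.2 ⟨mem_nbrs.2 hw', huw'⟩, fun h' => hne (hwb.trans h'.symm)⟩
      · exact ⟨w, mem_filter.2 ⟨mem_nbrs.2 hw, huw⟩, hwb⟩
    have hb'' := mem_filter.1 hb'B
    apply h.noCycle
    -- v z b u b'
    refine cycle5 (mem_nbrs.1 hzL) hadj.symm hb'.2.symm hb''.2 (mem_nbrs.1 hb''.1).symm
      (mem_nbrs.1 hb'.1).ne huv.ne ?_ ?_ hbb'.symm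
    · exact hznot.1
    · exact fun e => hznot.2 (e ▸ hb'B)
  have hSi : G.IsIndepSet ((B ∪ S' : Finset V) : Set V) := by
    intro x hx y hy hxy hadj
    simp only [coe_union, Set.mem_union, Finset.mem_coe] at hx hy
    rcases hx with hx | hx <;> rcases hy with hy | hy
    · exact hBindep hx hy hxy hadj
    · exact hanti x hx y hy hadj
    · exact hanti y hy x hx hadj.symm
    · exact hS'i hx hy hxy hadj
  have hSsub : B ∪ S' ⊆ nbrs G v := by
    intro y hy
    rcases mem_union.1 hy with hy | hy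
    · exact hBsub hy
    · exact hRsub (hS'sub hy)
  have hSne : (B ∪ S').Nonempty := ⟨w, mem_union_left _ (mem_filter.2 ⟨mem_nbrs.2 hw, huw⟩)⟩
  have hstar := h.star v hSsub hSi hSne
  rw [Finset.card_union_of_disjoint hdisj] at hstar
  rw [← hL1] at hstar
  omega

/-- **The case `k = 4`.** -/
theorem no_minCE_4 (ha : a ≤ 4) (h : MinCE 4 a G) : False := by
  classical
  have h4 := K4Free_of_noClique h ha
  have hV : Nonempty V := by
    rw [← Fintype.card_pos_iff, h.card]
    omega
  obtain ⟨v⟩ := hV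
  have hex : ∀ p ∈ nbrs G v, ∃ x ∈ L2 G v, G.Adj p x ∧ ∀ b, G.Adj v b → G.Adj b x → b = p := by
    intro p hp
    have hvp := mem_nbrs.1 hp
    obtain ⟨p', hvp', hpp'⟩ := exists_partner h ha h4 hvp
    -- a neighbour of `p` other than `v`, `p'`
    have hdeg := h.degree_ge p
    have h2lt : ({v, p'} : Finset V).card < (nbrs G p).card := by
      have := Finset.card_le_two (a := v) (b := p')
      omega
    obtain ⟨x, hx, hxnot⟩ := Finset.exists_mem_notMem_of_card_lt_card h2lt
    simp only [mem_insert, mem_singleton, not_or] at hxnot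
    have hpx := mem_nbrs.1 hx
    have hnvx : ¬ G.Adj v x := by
      intro hvx
      exact hxnot.2 (partner_unique h ha h4 hvp hvx hpx hvp' hpp')
    -- the partner of `x` in `N(p)`
    obtain ⟨y, hpy, hxy⟩ := exists_partner h ha h4 hpx
    have hyv : y ≠ v := by
      rintro rfl
      exact hnvx hxy.symm
    have hnvy : ¬ G.Adj v y := by
      intro hvy
      have hyp' : y = p' := partner_unique h ha h4 hvp hvy hpy hvp' hpp'
      subst hyp'
      -- `y` has the two partners `v` and `x` in `N(p)`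
      have := partner_unique h ha h4 hpy hvp.symm hvy.symm hpx hxy.symm
      exact hxnot.1 this.symm
    have hxL : x ∈ L2 G v := mem_L2.2 ⟨hxnot.1, hnvx, p, hvp, hpx⟩
    have hyL : y ∈ L2 G v := mem_L2.2 ⟨hyv, hnvy, p, hvp, hpy⟩
    exact ⟨x, hxL, hpx, fun b hb hbx => edge_rule4 h hxL hyL hxy hb hbx hvp hpy⟩
  choose! f hfL hfadj hfuniq using hex
  have hinj : Set.InjOn f (nbrs G v : Set V) := by
    intro p hp q hq hpq
    have hp' := Finset.mem_coe.1 hp
    have hq' := Finset.mem_coe.1 hq
    apply hfuniq q hq' p (mem_nbrs.1 hp')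
    rw [← hpq]
    exact hfadj p hp'
  have hcard : ((nbrs G v).image f).card = (nbrs G v).card := Finset.card_image_of_injOn hinj
  have hsub : (nbrs G v).image f ⊆ L2 G v := by
    intro y hy
    obtain ⟨p, hp, rfl⟩ := mem_image.1 hy
    exact hfL p hp
  have hind : G.IsIndepSet (((nbrs G v).image f : Finset V) : Set V) := by
    intro x hx y hy hxy hadj
    obtain ⟨p, hp, rfl⟩ := mem_image.1 (Finset.mem_coe.1 hx)
    obtain ⟨q, hq, rfl⟩ := mem_image.1 (Finset.mem_coe.1 hy)
    have := edge_rule4 h (hfL p hp) (hfL q hq) hadj (mem_nbrs.1 hp) (hfadj p hp) (mem_nbrs.1 hq)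
      (hfadj q hq)
    exact hxy (by rw [this])
  have hle := h.L2_indep_le v hsub hind
  have hdeg := h.degree_ge v
  omega

end

end Crest.Agent.Lib.CycleRamsey
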