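import Crest.Agent.Lib.CycleRamsey.Small

/-!
# Cycle–complete Ramsey numbers: the case `k = 5` (helper19, row 54, S0075)
No `C_6`, independence number at most `5`.
-/

set_option autoImplicit false
set_option linter.unusedSectionVars false
set_option linter.unusedVariables false

open Finset

namespace Crest.Agent.Lib.CycleRamsey

variable {V : Type} [Fintype V] [DecidableEq V] {G : SimpleGraph V}

/-- Graph without `K_4`: no four mutually adjacent vertices. -/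
def K4Free (G : SimpleGraph V) : Prop :=
  ∀ x y z t : V, G.Adj x y → G.Adj x z → G.Adj x t → G.Adj y z → G.Adj y t → G.Adj z t → False

/-- In a `K_4`-free `C_6`-free graph each set of neighbours of a vertex is two-colourable. -/
theorem bip_nbrs5 (h4 : K4Free G) (hC : ¬ HasCycle G 6) (a : V) (Y : Finset V)
    (hY : ∀ y ∈ Y, G.Adj a y) : Bip G Y := by
  apply bip_of_noP5
  · intro x hx y hy z hz hxy hyz hxz
    exact h4 a x y z (hY x hx) (hY y hy) (hY z hz) hxy hxz hyz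
  · intro p hp q hq r hr s hs t ht h1 h2 h3 h4' h13 h14 h15 h24 h25 h35
    apply hC
    have hp' := hY p hp
    have hq' := hY q hq
    have hr' := hY r hr
    have hs' := hY s hs
    have ht' := hY t ht
    exact cycle6 hp' h1 h2 h3 h4' ht'.symm hq'.ne hr'.ne hs'.ne h13 h14 h15 h24 h25 h35

/-- The `K_4`-free case of `k = 5`. -/
theorem noK4_case5 {a : ℕ} (h : MinCE 5 a G) (ha : a ≤ 5) (h4 : K4Free G) : False := by
  classical
  have hV : Nonempty V := by
    rw [← Fintype.card_pos_iff, h.card]; omega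
  obtain ⟨v⟩ := hV
  -- the first layer
  have hdeg := h.degree_ge v
  obtain ⟨S, hSsub, hSi, hSc⟩ := (bip_nbrs5 h4 h.noCycle v (nbrs G v)
    (fun y hy => mem_nbrs.1 hy)).half
  have hSne : S.Nonempty := by
    rw [← Finset.card_pos]; omega
  have hstar := h.star v hSsub hSi hSne
  -- the second layer
  have hbip2 : Bip G (L2 G v) := by
    apply bip_of_parent_rule (fun a x => G.Adj v a ∧ G.Adj a x)
    · intro x hx
      exact (mem_L2.1 hx).2.2
    · intro x hx m hm y hy hxm hmy hxy a b ha hb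
      by_contra hab
      have hx' := mem_L2.1 hx
      have hm' := mem_L2.1 hm
      have hy' := mem_L2.1 hy
      apply h.noCycle
      -- v a x m y b
      refine cycle6 ha.1 ha.2 hxm hmy hb.2.symm hb.1.symm hx'.1.symm hm'.1.symm hy'.1.symm ?_ ?_
        hab hxy ?_ ?_
      · rintro rfl; exact hm'.2.1 ha.1
      · rintro rfl; exact hy'.2.1 ha.1
      · rintro rfl; exact hx'.2.1 hb.1
      · rintro rfl; exact hm'.2.1 hb.1
    · intro a
      by_cases hPa : G.Adj v a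
      · obtain ⟨c, hc⟩ := bip_nbrs5 h4 h.noCycle a ((L2 G v).filter (fun x => G.Adj a x))
          (fun y hy => (mem_filter.1 hy).2)
        exact ⟨c, fun x hx y hy hxa hya hxy =>
          hc x (mem_filter.2 ⟨hx, hxa.2⟩) y (mem_filter.2 ⟨hy, hya.2⟩) hxy⟩
      · exact ⟨fun _ => true, fun x _ y _ hxa => absurd hxa.1 hPa⟩
  obtain ⟨T, hTsub, hTi, hTc⟩ := hbip2.half
  have hTle := h.L2_indep_le v hTsub hTi
  omega

/-- A list of pairwise nonadjacent distinct vertices has at most `a` elements. -/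
theorem MinCE.pairwise_len_le {k a : ℕ} (h : MinCE k a G) (l : List V)
    (hl : l.Pairwise (fun u w => u ≠ w ∧ ¬ G.Adj u w)) : l.length ≤ a := by
  classical
  have hnd : l.Nodup := hl.imp (fun h => h.1)
  have hi : G.IsIndepSet ((l.toFinset : Finset V) : Set V) := by
    have hsym : ∀ x ∈ l, ∀ y ∈ l, x ≠ y → ¬ G.Adj x y := by
      have hl' : l.Pairwise (fun u w => u ≠ w → ¬ G.Adj u w) := hl.imp (fun h _ => h.2)
      have : Std.Symm (fun u w => u ≠ w → ¬ G.Adj u w) :=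
        ⟨fun u w huw hne hadj => huw hne.symm hadj.symm⟩
      exact List.Pairwise.forall_of_forall (fun x _ hne => absurd rfl hne) hl'
    intro x hx y hy hxy
    exact hsym x (by simpa using hx) y (by simpa using hy) hxy
  have := h.noIndep _ hi
  rwa [List.toFinset_card_of_nodup hnd] at this

section K4

variable {a : ℕ} {Q : Finset V}

theorem ear2_5 (h : MinCE 5 a G) (hQ : G.IsClique (Q : Set V)) (hc : Q.card = 4) {x y u w : V}
    (hx : x ∈ Q) (hy : y ∈ Q) (hxy : x ≠ y) (hu : u ∉ Q) (hw : w ∉ Q) (h1 : G.Adj x u)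
    (h2 : G.Adj u w) (h3 : G.Adj w y) : False :=
  h.noCycle (hasCycle_ear hQ hx hy hxy [u, w] (by simp [h2.ne]) (by simp [hu, hw])
    (by simp [h1, h2, h3]) (t := 4) (by omega) (by omega) (by simp))

theorem ear3_5 (h : MinCE 5 a G) (hQ : G.IsClique (Q : Set V)) (hc : Q.card = 4) {x y u v w : V}
    (hx : x ∈ Q) (hy : y ∈ Q) (hxy : x ≠ y) (hu : u ∉ Q) (hv : v ∉ Q) (hw : w ∉ Q) (huw : u ≠ w)
    (h1 : G.Adj x u) (h2 : G.Adj u v) (h3 : G.Adj v w) (h4 : G.Adj w y) : False :=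
  h.noCycle (hasCycle_ear hQ hx hy hxy [u, v, w] (by simp [h2.ne, h3.ne, huw])
    (by simp [hu, hv, hw]) (by simp [h1, h2, h3, h4]) (t := 3) (by omega) (by omega) (by simp))

theorem ear4_5 (h : MinCE 5 a G) (hQ : G.IsClique (Q : Set V)) (hc : Q.card = 4)
    {x y u v w s : V} (hx : x ∈ Q) (hy : y ∈ Q) (hxy : x ≠ y) (hu : u ∉ Q) (hv : v ∉ Q)
    (hw : w ∉ Q) (hs : s ∉ Q) (huw : u ≠ w) (hus : u ≠ s) (hvs : v ≠ s)
    (h1 : G.Adj x u) (h2 : G.Adj u v) (h3 : G.Adj v w) (h4 : G.Adj w s) (h5 : G.Adj s y) : False :=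
  h.noCycle (hasCycle_ear hQ hx hy hxy [u, v, w, s] (by simp [h2.ne, h3.ne, h4.ne, huw, hus, hvs])
    (by simp [hu, hv, hw, hs]) (by simp [h1, h2, h3, h4, h5]) (t := 2) (by omega) (by omega)
    (by simp))

/-- `f, f'` hanging from `e, e'` with different roots in `Q` are apart. -/
theorem far5 (h : MinCE 5 a G) (hQ : G.IsClique (Q : Set V)) (hc : Q.card = 4) {x y e e' f f' : V}
    (hx : x ∈ Q) (hy : y ∈ Q) (hxy : x ≠ y) (he : e ∉ Q) (he' : e' ∉ Q) (hee' : e ≠ e')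
    (hxe : G.Adj x e) (hye' : G.Adj y e') (hf : f ∉ Q) (hf' : f' ∉ Q) (hef : G.Adj e f)
    (hef' : G.Adj e' f') : f ≠ f' ∧ ¬ G.Adj f f' := by
  have hnadj : ¬ G.Adj e e' := fun hadj =>
    ear2_5 h hQ hc hx hy hxy he he' hxe hadj hye'.symm
  constructor
  · rintro rfl
    exact ear3_5 h hQ hc hx hy hxy he hf he' hee' hxe hef hef'.symm hye'.symm
  · intro hadj
    have h1 : e ≠ f' := by
      rintro rfl
      exact hnadj hef'.symm
    have h2 : f ≠ e' := by
      rintro rfl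
      exact hnadj hef
    exact ear4_5 h hQ hc hx hy hxy he hf hf' he' h1 hee' h2 hxe hef hadj hef'.symm hye'.symm

/-- A private vertex `e` of `u ∈ Q` has two nonadjacent neighbours outside `Q`. -/
theorem private_two (h : MinCE 5 a G) (ha : a ≤ 5) (hQ : G.IsClique (Q : Set V))
    (hc : Q.card = 4) {u e : V} (hu : u ∈ Q) (he : e ∉ Q)
    (hpriv : ∀ u' ∈ Q, u' ≠ u → ¬ G.Adj u' e) :
    ∃ f1 f2, f1 ∉ Q ∧ f2 ∉ Q ∧ G.Adj e f1 ∧ G.Adj e f2 ∧ f1 ≠ f2 ∧ ¬ G.Adj f1 f2 := by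
  classical
  by_contra hno
  push Not at hno
  set M := nbrs G e \ Q with hM
  have hMcard : 4 ≤ M.card := by
    have hsub : nbrs G e ⊆ insert u M := by
      intro w hw
      by_cases hwQ : w ∈ Q
      · by_cases hwu : w = u
        · simp [hwu]
        · exact absurd (mem_nbrs.1 hw).symm (hpriv w hwQ hwu)
      · simp [hM, hw, hwQ]
    have h1 := Finset.card_le_card hsub
    have h2 := Finset.card_insert_le u M
    have h3 := h.degree_ge e
    omega
  obtain ⟨M', hM'sub, hM'c⟩ := Finset.exists_subset_card_eq hMcard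
  have hMmem : ∀ w ∈ M', w ∉ Q ∧ G.Adj e w := by
    intro w hw
    have := hM'sub hw
    simp only [hM, mem_sdiff, mem_nbrs] at this
    exact ⟨this.2, this.1⟩
  have heM' : e ∉ M' := fun hh => (hMmem e hh).2.ne rfl
  apply h.no_clique (k := 5) (by norm_num) ha (Q := insert e M')
  · intro p hp q hq hpq
    simp only [coe_insert, Set.mem_insert_iff, Finset.mem_coe] at hp hq
    rcases hp with rfl | hp <;> rcases hq with rfl | hq
    · exact absurd rfl hpq
    · exact (hMmem q hq).2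
    · exact (hMmem p hp).2.symm
    · have hp' := hMmem p hp
      have hq' := hMmem q hq
      by_contra hnadj
      exact hnadj (hno p q hp'.1 hq'.1 hp'.2 hq'.2 hpq)
  · rw [Finset.card_insert_of_notMem heM', hM'c]

/-- Two different pairs in `Q`, first case: a common vertex. -/
theorem share_one5 (h : MinCE 5 a G) (hQ : G.IsClique (Q : Set V)) (hc : Q.card = 4)
    {c p q w w' : V} (hcQ : c ∈ Q) (hpQ : p ∈ Q) (hqQ : q ∈ Q) (hcp : c ≠ p) (hcq : c ≠ q)
    (hpq : p ≠ q) (hw : w ∉ Q) (hw' : w' ∉ Q) (hww' : w ≠ w') (h1 : G.Adj w c) (h2 : G.Adj w p)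
    (h3 : G.Adj w' c) (h4 : G.Adj w' q) : False := by
  classical
  -- the fourth vertex
  have h3lt : ({c, p, q} : Finset V).card < Q.card := by
    rw [hc]
    exact lt_of_le_of_lt (Finset.card_le_three) (by norm_num)
  obtain ⟨r, hrQ, hr⟩ := Finset.exists_mem_notMem_of_card_lt_card h3lt
  simp only [mem_insert, mem_singleton, not_or] at hr
  have hne : ∀ {y}, y ∈ Q → w ≠ y := fun {y} hy he => hw (he ▸ hy)
  have hne' : ∀ {y}, y ∈ Q → w' ≠ y := fun {y} hy he => hw' (he ▸ hy)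
  have hqr : G.Adj q r := hQ (by simpa using hqQ) (by simpa using hrQ) (Ne.symm hr.2.2)
  have hrp : G.Adj r p := hQ (by simpa using hrQ) (by simpa using hpQ) hr.2.1
  -- p w c w' q r
  apply h.noCycle
  exact cycle6 h2.symm h1 h3.symm h4 hqr hrp hcp.symm (hne' hpQ).symm hpq (hww') (hne hqQ)
    (hne hrQ) hcq (fun e => hr.1 e.symm) (hne' hrQ)

/-- Two different pairs in `Q`, second case: disjoint pairs. -/
theorem disj_two5 (h : MinCE 5 a G) (hQ : G.IsClique (Q : Set V))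
    {p q p' q' w w' : V} (hp : p ∈ Q) (hq : q ∈ Q) (hp' : p' ∈ Q) (hq' : q' ∈ Q)
    (h1 : p ≠ q) (h2 : p ≠ p') (h3 : p ≠ q') (h4 : q ≠ p') (h5 : q ≠ q') (h6 : p' ≠ q')
    (hw : w ∉ Q) (hw' : w' ∉ Q) (hww' : w ≠ w') (a1 : G.Adj w p) (a2 : G.Adj w q)
    (a3 : G.Adj w' p') (a4 : G.Adj w' q') : False := by
  have hne : ∀ {y}, y ∈ Q → w ≠ y := fun {y} hy he => hw (he ▸ hy)
  have hne' : ∀ {y}, y ∈ Q → w' ≠ y := fun {y} hy he => hw' (he ▸ hy)
  have hqp' : G.Adj q p' := hQ (by simpa using hq) (by simpa using hp') h4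
  have hq'p : G.Adj q' p := hQ (by simpa using hq') (by simpa using hp) (Ne.symm h3)
  apply h.noCycle
  -- p w q p' w' q'
  exact cycle6 a1.symm a2 hqp' a3.symm a4 hq'p h1 h2 (hne' hp).symm (hne hp') hww' (hne hq')
    (hne' hq).symm h5 h6

/-- The pair rule. -/
theorem pair_rule5 (h : MinCE 5 a G) (hQ : G.IsClique (Q : Set V)) (hc : Q.card = 4)
    {x y x' y' w w' : V} (hx : x ∈ Q) (hy : y ∈ Q) (hx' : x' ∈ Q) (hy' : y' ∈ Q) (hxy : x ≠ y)
    (hxy' : x' ≠ y') (hw : w ∉ Q) (hw' : w' ∉ Q) (hww' : w ≠ w') (a1 : G.Adj w x) (a2 : G.Adj w y)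
    (a3 : G.Adj w' x') (a4 : G.Adj w' y') : (x = x' ∧ y = y') ∨ (x = y' ∧ y = x') := by
  by_contra hno
  push Not at hno
  by_cases e1 : x = x'
  · subst e1
    have : y ≠ y' := hno.1 rfl
    exact share_one5 h hQ hc hx hy hy' hxy hxy' this hw hw' hww' a1 a2 a3 a4
  by_cases e2 : x = y'
  · subst e2
    have : y ≠ x' := hno.2 rfl
    exact share_one5 h hQ hc hx hy hx' hxy hxy'.symm this hw hw' hww' a1 a2 a4 a3
  by_cases e3 : y = x'
  · subst e3
    exact share_one5 h hQ hc hy hx hy' hxy.symm hxy' (Ne.symm e2 |>.symm) hw hw' hww' a2 a1 a3 a4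
  by_cases e4 : y = y'
  · subst e4
    exact share_one5 h hQ hc hy hx hx' hxy.symm hxy'.symm e1 hw hw' hww' a2 a1 a4 a3
  exact disj_two5 h hQ hx hy hx' hy' hxy e1 e2 e3 e4 hxy' hw hw' hww' a1 a2 a3 a4

/-- Three different vertices of `Q` with private vertices: six independent vertices. -/
theorem three_private (h : MinCE 5 a G) (ha : a ≤ 5) (hQ : G.IsClique (Q : Set V))
    (hc : Q.card = 4) {u1 u2 u3 e1 e2 e3 : V} (hu1 : u1 ∈ Q) (hu2 : u2 ∈ Q) (hu3 : u3 ∈ Q)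
    (h12 : u1 ≠ u2) (h13 : u1 ≠ u3) (h23 : u2 ≠ u3)
    (he1 : e1 ∉ Q) (he2 : e2 ∉ Q) (he3 : e3 ∉ Q)
    (a1 : G.Adj u1 e1) (a2 : G.Adj u2 e2) (a3 : G.Adj u3 e3)
    (p1 : ∀ u' ∈ Q, u' ≠ u1 → ¬ G.Adj u' e1) (p2 : ∀ u' ∈ Q, u' ≠ u2 → ¬ G.Adj u' e2)
    (p3 : ∀ u' ∈ Q, u' ≠ u3 → ¬ G.Adj u' e3) : False := by
  obtain ⟨f1, f1', hf1, hf1', g1, g1', n1, m1⟩ := private_two h ha hQ hc hu1 he1 p1
  obtain ⟨f2, f2', hf2, hf2', g2, g2', n2, m2⟩ := private_two h ha hQ hc hu2 he2 p2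
  obtain ⟨f3, f3', hf3, hf3', g3, g3', n3, m3⟩ := private_two h ha hQ hc hu3 he3 p3
  have e12 : e1 ≠ e2 := by
    rintro rfl
    exact p1 u2 hu2 h12.symm a2
  have e13 : e1 ≠ e3 := by
    rintro rfl
    exact p1 u3 hu3 h13.symm a3
  have e23 : e2 ≠ e3 := by
    rintro rfl
    exact p2 u3 hu3 h23.symm a3
  have F12 := fun {f f'} (hf : f ∉ Q) (hf' : f' ∉ Q) (hef : G.Adj e1 f) (hef' : G.Adj e2 f') =>
    far5 h hQ hc hu1 hu2 h12 he1 he2 e12 a1 a2 hf hf' hef hef'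
  have F13 := fun {f f'} (hf : f ∉ Q) (hf' : f' ∉ Q) (hef : G.Adj e1 f) (hef' : G.Adj e3 f') =>
    far5 h hQ hc hu1 hu3 h13 he1 he3 e13 a1 a3 hf hf' hef hef'
  have F23 := fun {f f'} (hf : f ∉ Q) (hf' : f' ∉ Q) (hef : G.Adj e2 f) (hef' : G.Adj e3 f') =>
    far5 h hQ hc hu2 hu3 h23 he2 he3 e23 a2 a3 hf hf' hef hef'
  have := h.pairwise_len_le [f1, f1', f2, f2', f3, f3'] (by
    simp only [List.pairwise_cons, List.mem_cons, List.not_mem_nil, or_false, forall_eq_or_imp,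
      forall_eq, IsEmpty.forall_iff, implies_true, List.Pairwise.nil, and_true]
    exact ⟨⟨⟨n1, m1⟩, F12 hf1 hf2 g1 g2, F12 hf1 hf2' g1 g2', F13 hf1 hf3 g1 g3, F13 hf1 hf3' g1 g3'⟩,
      ⟨F12 hf1' hf2 g1' g2, F12 hf1' hf2' g1' g2', F13 hf1' hf3 g1' g3, F13 hf1' hf3' g1' g3'⟩,
      ⟨⟨n2, m2⟩, F23 hf2 hf3 g2 g3, F23 hf2 hf3' g2 g3'⟩,
      ⟨F23 hf2' hf3 g2' g3, F23 hf2' hf3' g2' g3'⟩, ⟨n3, m3⟩⟩)
  simp at this
  omega

/-- Every vertex of `Q` has two neighbours outside `Q`. -/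
theorem two_out5 (h : MinCE 5 a G) (hc : Q.card = 4) {u : V} (hu : u ∈ Q) :
    ∃ w w', w ∉ Q ∧ w' ∉ Q ∧ w ≠ w' ∧ G.Adj u w ∧ G.Adj u w' := by
  classical
  have hsub : nbrs G u ⊆ (nbrs G u \ Q) ∪ Q.erase u := by
    intro w hw
    by_cases hwQ : w ∈ Q
    · exact mem_union_right _ (mem_erase.2 ⟨(mem_nbrs.1 hw).ne.symm, hwQ⟩)
    · exact mem_union_left _ (mem_sdiff.2 ⟨hw, hwQ⟩)
  have h1 := Finset.card_le_card hsub
  have h2 := Finset.card_union_le (nbrs G u \ Q) (Q.erase u)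
  have h3 := h.degree_ge u
  rw [Finset.card_erase_of_mem hu, hc] at h2
  have h4 : 1 < (nbrs G u \ Q).card := by omega
  obtain ⟨w, hw, w', hw', hne⟩ := Finset.one_lt_card.1 h4
  rw [mem_sdiff, mem_nbrs] at hw hw'
  exact ⟨w, w', hw.2, hw'.2, hne, hw.1, hw'.1⟩

/-- A vertex `w` hanging from `x` and `f` hanging from `e` hanging from `y ≠ x` are apart. -/
theorem far_w5 (h : MinCE 5 a G) (hQ : G.IsClique (Q : Set V)) (hc : Q.card = 4) {x y w e f : V}
    (hx : x ∈ Q) (hy : y ∈ Q) (hxy : x ≠ y) (hw : w ∉ Q) (he : e ∉ Q) (hf : f ∉ Q) (hwe : w ≠ e)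
    (hxw : G.Adj x w) (hye : G.Adj y e) (hef : G.Adj e f) : w ≠ f ∧ ¬ G.Adj w f := by
  constructor
  · rintro rfl
    exact ear2_5 h hQ hc hx hy hxy hw he hxw hef.symm hye.symm
  · intro hadj
    exact ear3_5 h hQ hc hx hy hxy hw hf he hwe hxw hadj hef.symm hye.symm

/-- The case of a `K_4` (no `K_5`, by `MinCE.no_clique`). -/
theorem K4_case5 (h : MinCE 5 a G) (ha : a ≤ 5) (hQ : G.IsClique (Q : Set V)) (hc : Q.card = 4) :
    False := by
  classical
  set Q0 := Q.filter (fun u => ∃ e, e ∉ Q ∧ G.Adj u e ∧ ∀ u' ∈ Q, u' ≠ u → ¬ G.Adj u' e) with hQ0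
  by_cases h3 : 2 < Q0.card
  · obtain ⟨u1, h1, u2, h2, u3, h3', h12, h13, h23⟩ := Finset.two_lt_card.1 h3
    rw [hQ0, mem_filter] at h1 h2 h3'
    obtain ⟨hu1, e1, he1, a1, p1⟩ := h1
    obtain ⟨hu2, e2, he2, a2, p2⟩ := h2
    obtain ⟨hu3, e3, he3, a3, p3⟩ := h3'
    exact three_private h ha hQ hc hu1 hu2 hu3 h12 h13 h23 he1 he2 he3 a1 a2 a3 p1 p2 p3
  · have hcard : 1 < (Q \ Q0).card := by
      have hsub : Q0 ⊆ Q := filter_subset _ _
      rw [Finset.card_sdiff_of_subset hsub, hc]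
      omega
    obtain ⟨u1, hu1', u2, hu2', hne⟩ := Finset.one_lt_card.1 hcard
    rw [mem_sdiff] at hu1' hu2'
    have hu1 := hu1'.1
    have hu2 := hu2'.1
    -- no private vertices at `u1`, `u2`
    have hother : ∀ u ∈ Q, u ∉ Q0 → ∀ e, e ∉ Q → G.Adj u e → ∃ b ∈ Q, b ≠ u ∧ G.Adj b e := by
      intro u hu hu0 e he hue
      by_contra hno
      push Not at hno
      exact hu0 (mem_filter.2 ⟨hu, e, he, hue, fun u' hu' hne' => hno u' hu' hne'⟩)
    obtain ⟨w1, w1', hw1, hw1', hww, a1, a1'⟩ := two_out5 h hc hu1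
    obtain ⟨b, hbQ, hbu, hbw⟩ := hother u1 hu1 hu1'.2 w1 hw1 a1
    obtain ⟨b', hbQ', hbu', hbw'⟩ := hother u1 hu1 hu1'.2 w1' hw1' a1'
    have hbb' : b = b' := by
      rcases pair_rule5 h hQ hc hu1 hbQ hu1 hbQ' hbu.symm hbu'.symm hw1 hw1' hww a1.symm hbw.symm
        a1'.symm hbw'.symm with h' | h'
      · exact h'.2
      · exact absurd h'.1 (Ne.symm hbu')
    subst hbb'
    obtain ⟨w2, w2', hw2, hw2', hww2, a2, a2'⟩ := two_out5 h hc hu2
    obtain ⟨c, hcQ, hcu, hcw⟩ := hother u2 hu2 hu2'.2 w2 hw2 a2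
    have hbu2 : b = u2 := by
      by_cases he : w2 = w1
      · subst he
        by_contra hbne
        rcases pair_rule5 h hQ hc hu1 hu2 hu1 hbQ hne hbu.symm hw2 hw1' hww a1.symm a2.symm
          a1'.symm hbw'.symm with h' | h'
        · exact hbne h'.2.symm
        · exact hbu (h'.1.symm)
      · rcases pair_rule5 h hQ hc hu1 hbQ hu2 hcQ hbu.symm hcu.symm hw1 hw2 (Ne.symm he) a1.symm
          hbw.symm a2.symm hcw.symm with h' | h'
        · exact absurd h'.1 hne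
        · exact h'.2
    subst hbu2
    -- no other neighbour in `Q`
    have hZ : ∀ z ∈ Q, z ≠ u1 → z ≠ b → ¬ G.Adj z w1 := by
      intro z hz hz1 hz2 hadj
      rcases pair_rule5 h hQ hc hu1 hz hu1 hbQ hz1.symm hbu.symm hw1 hw1' hww a1.symm hadj.symm
        a1'.symm hbw'.symm with h' | h'
      · exact hz2 h'.2
      · exact hbu h'.1.symm
    have hZ' : ∀ z ∈ Q, z ≠ u1 → z ≠ b → ¬ G.Adj z w1' := by
      intro z hz hz1 hz2 hadj
      rcases pair_rule5 h hQ hc hu1 hz hu1 hbQ hz1.symm hbu.symm hw1' hw1 hww.symm a1'.symm hadj.symm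
        a1.symm hbw.symm with h' | h'
      · exact hz2 h'.2
      · exact hbu h'.1.symm
    -- vertices outside with two nbrs in `Q` avoid `z`
    have hY : ∀ z ∈ Q, z ≠ u1 → z ≠ b → ∀ e, e ∉ Q → G.Adj z e → ∀ u' ∈ Q, u' ≠ z →
        ¬ G.Adj u' e := by
      intro z hz hz1 hz2 e he hze u' hu' hne' hadj
      have hew : e ≠ w1 := by
        rintro rfl
        exact hZ z hz hz1 hz2 hze
      rcases pair_rule5 h hQ hc hz hu' hu1 hbQ hne'.symm hbu.symm he hw1 hew hze.symm hadj.symm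
        a1.symm hbw.symm with h' | h'
      · exact hz1 h'.1
      · exact hz2 h'.1
    -- the two other vertices of `Q`
    have hcard2 : 1 < ((Q.erase u1).erase b).card := by
      rw [Finset.card_erase_of_mem (mem_erase.2 ⟨hbu, hbQ⟩), Finset.card_erase_of_mem hu1, hc]
      norm_num
    obtain ⟨z, hz, t, ht, hzt⟩ := Finset.one_lt_card.1 hcard2
    simp only [mem_erase] at hz ht
    obtain ⟨hzb, hzu, hzQ⟩ := hz
    obtain ⟨htb, htu, htQ⟩ := ht
    obtain ⟨ez, _, hez, _, _, az, _⟩ := two_out5 h hc hzQ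
    obtain ⟨et, _, het, _, _, at', _⟩ := two_out5 h hc htQ
    have pz := hY z hzQ hzu hzb ez hez az
    have pt := hY t htQ htu htb et het at'
    obtain ⟨f1, f1', hf1, hf1', g1, g1', n1, m1⟩ := private_two h ha hQ hc hzQ hez pz
    obtain ⟨f2, f2', hf2, hf2', g2, g2', n2, m2⟩ := private_two h ha hQ hc htQ het pt
    have hezt : ez ≠ et := by
      rintro rfl
      exact pz t htQ hzt.symm at'
    have F := fun {f f'} (hf : f ∉ Q) (hf' : f' ∉ Q) (hef : G.Adj ez f) (hef' : G.Adj et f') =>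
      far5 h hQ hc hzQ htQ hzt hez het hezt az at' hf hf' hef hef'
    have hw1z : w1 ≠ ez := by
      rintro rfl
      exact hZ z hzQ hzu hzb az
    have hw1t : w1 ≠ et := by
      rintro rfl
      exact hZ t htQ htu htb at'
    have hw1z' : w1' ≠ ez := by
      rintro rfl
      exact hZ' z hzQ hzu hzb az
    have hw1t' : w1' ≠ et := by
      rintro rfl
      exact hZ' t htQ htu htb at'
    have Wz := fun {f} (hf : f ∉ Q) (hef : G.Adj ez f) =>
      far_w5 h hQ hc hu1 hzQ hzu.symm hw1 hez hf hw1z a1 az hef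
    have Wt := fun {f} (hf : f ∉ Q) (hef : G.Adj et f) =>
      far_w5 h hQ hc hu1 htQ htu.symm hw1 het hf hw1t a1 at' hef
    have Wz' := fun {f} (hf : f ∉ Q) (hef : G.Adj ez f) =>
      far_w5 h hQ hc hu1 hzQ hzu.symm hw1' hez hf hw1z' a1' az hef
    have Wt' := fun {f} (hf : f ∉ Q) (hef : G.Adj et f) =>
      far_w5 h hQ hc hu1 htQ htu.symm hw1' het hf hw1t' a1' at' hef
    have hww' : ¬ G.Adj w1 w1' := fun hadj =>
      ear2_5 h hQ hc hu1 hbQ hbu.symm hw1 hw1' a1 hadj hbw'.symm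
    have := h.pairwise_len_le [w1, w1', f1, f1', f2, f2'] (by
      simp only [List.pairwise_cons, List.mem_cons, List.not_mem_nil, or_false, forall_eq_or_imp,
        forall_eq, IsEmpty.forall_iff, implies_true, List.Pairwise.nil, and_true]
      exact ⟨⟨⟨hww, hww'⟩, Wz hf1 g1, Wz hf1' g1', Wt hf2 g2, Wt hf2' g2'⟩,
        ⟨Wz' hf1 g1, Wz' hf1' g1', Wt' hf2 g2, Wt' hf2' g2'⟩,
        ⟨⟨n1, m1⟩, F hf1 hf2 g1 g2, F hf1 hf2' g1 g2'⟩,
        ⟨F hf1' hf2 g1' g2, F hf1' hf2' g1' g2'⟩, ⟨n2, m2⟩⟩)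
    simp at this
    omega

end K4

/-- **The case `k = 5`.** -/
theorem no_minCE_5 {a : ℕ} (ha : a ≤ 5) (h : MinCE 5 a G) : False := by
  classical
  by_cases h4 : K4Free G
  · exact noK4_case5 h ha h4
  · unfold K4Free at h4
    push Not at h4
    obtain ⟨x, y, z, t, hxy, hxz, hxt, hyz, hyt, hzt, -⟩ := h4
    refine K4_case5 (Q := {x, y, z, t}) h ha ?_ ?_
    · intro p hp q hq hpq
      simp only [coe_insert, coe_singleton, Set.mem_insert_iff, Set.mem_singleton_iff] at hp hq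
      rcases hp with rfl | rfl | rfl | rfl <;> rcases hq with rfl | rfl | rfl | rfl <;>
        first
          | exact absurd rfl hpq
          | assumption
          | (apply SimpleGraph.Adj.symm; assumption)
    · rw [Finset.card_insert_of_notMem (by simp [hxy.ne, hxz.ne, hxt.ne]),
        Finset.card_insert_of_notMem (by simp [hyz.ne, hyt.ne]),
        Finset.card_insert_of_notMem (by simp [hzt.ne]), Finset.card_singleton]

end Crest.Agent.Lib.CycleRamsey
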