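import Crest.Agent.Lib.CycleRamsey.Small3
import Crest.Agent.Lib.CycleRamsey.Small4

/-!
# Cycle–complete Ramsey numbers: `k = 3, 4, 5` (helper19, row 54, S0075)
-/

set_option autoImplicit false

namespace Crest.Agent.Lib.CycleRamsey

theorem CR_three {a : ℕ} (ha : a ≤ 3) : CR 3 a :=
  CR_of_no_minCE 3 a (fun b hb V _ _ G h => no_minCE_3 (by omega) h)

theorem CR_four {a : ℕ} (ha : a ≤ 4) : CR 4 a :=
  CR_of_no_minCE 4 a (fun b hb V _ _ G h => no_minCE_4 (by omega) h)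

theorem CR_five {a : ℕ} (ha : a ≤ 5) : CR 5 a :=
  CR_of_no_minCE 5 a (fun b hb V _ _ G h => no_minCE_5 (by omega) h)

end Crest.Agent.Lib.CycleRamsey
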