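import Crest.Agent.Lib.CycleRamsey.Basic

/-!
# Verstraete's theta lemma: combinatorial core (row 54)

Let `f : ℤ → Bool` be periodic with periods `n` and `ℓ`, `1 ≤ ℓ < n`, and let `2 ≤ t ≤ n - 2`.
Suppose the endpoints of all paths of length `ℓ` through the chord `v₀ v_t` of the `n`-cycle
with a chord have the same colour.  Then both reflections `x ↦ t + 1 - x` and `x ↦ t - 1 - x`
preserve `f`, and hence `f` has period `2`.
-/

set_option autoImplicit false

namespace Crest.Agent.Lib.CycleRamsey

/-- `p` is a period of `f`. -/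
def Per (f : ℤ → Bool) (p : ℤ) : Prop := ∀ i, f (i + p) = f i

theorem Per.neg {f : ℤ → Bool} {p : ℤ} (h : Per f p) : Per f (-p) := fun i => by
  have := h (i + -p)
  rw [show i + -p + p = i by ring] at this
  exact this.symm

theorem Per.add {f : ℤ → Bool} {p q : ℤ} (h : Per f p) (h' : Per f q) : Per f (p + q) := fun i => by
  rw [show i + (p + q) = i + p + q by ring, h', h]

theorem Per.mul {f : ℤ → Bool} {p : ℤ} (h : Per f p) (m : ℤ) : Per f (m * p) := by
  induction m using Int.induction_on with
  | zero => intro i; simp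
  | succ m ih =>
    rw [show ((m : ℤ) + 1) * p = (m : ℤ) * p + p by ring]
    exact ih.add h
  | pred m ih =>
    rw [show (-(m : ℤ) - 1) * p = -(m : ℤ) * p + -p by ring]
    exact ih.add h.neg

theorem Per.gcd {f : ℤ → Bool} {p q : ℤ} (h : Per f p) (h' : Per f q) : Per f (Int.gcd p q) := by
  rw [Int.gcd_eq_gcd_ab]
  rw [show p * Int.gcdA p q = Int.gcdA p q * p by ring,
    show q * Int.gcdB p q = Int.gcdB p q * q by ring]
  exact (h.mul _).add (h'.mul _)

/-- A reflection identity on a window of length `≥ g`, `g` a period, holds everywhere. -/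
theorem refl_of_window {f : ℤ → Bool} {g c L w : ℤ} (hg : Per f g) (hg0 : 0 < g) (hw : g ≤ w)
    (h : ∀ x, L ≤ x → x < L + w → f (c - x) = f x) : ∀ x, f (c - x) = f x := by
  intro x
  have hq := Int.emod_add_mul_ediv (x - L) g
  set m := (x - L) / g with hm
  set r := (x - L) % g with hr
  have hr0 : 0 ≤ r := Int.emod_nonneg _ hg0.ne'
  have hr1 : r < g := Int.emod_lt_of_pos _ hg0
  have hx : x = (L + r) + m * g := by rw [mul_comm]; linarith
  have h1 := h (L + r) (by omega) (by omega)
  have h2 := (hg.mul m) (L + r)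
  have h3 := (hg.mul (-m)) (c - (L + r))
  rw [hx, h2, show c - (L + r + m * g) = c - (L + r) + -m * g by ring, h3]
  exact h1

/-- A translation identity on a window of length `≥ g`, `g` a period, holds everywhere. -/
theorem per_of_window {f : ℤ → Bool} {g c L w : ℤ} (hg : Per f g) (hg0 : 0 < g) (hw : g ≤ w)
    (h : ∀ x, L ≤ x → x < L + w → f (c + x) = f x) : Per f c := by
  intro x
  have hq := Int.emod_add_mul_ediv (x - L) g
  set m := (x - L) / g with hm
  set r := (x - L) % g with hr
  have hr0 : 0 ≤ r := Int.emod_nonneg _ hg0.ne'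
  have hr1 : r < g := Int.emod_lt_of_pos _ hg0
  have hx : x = (L + r) + m * g := by rw [mul_comm]; linarith
  have h1 := h (L + r) (by omega) (by omega)
  have h2 := (hg.mul m) (L + r)
  have h3 := (hg.mul m) (c + (L + r))
  rw [hx, h2, show L + r + m * g + c = c + (L + r) + m * g by ring, h3]
  exact h1

/-- The core of Verstraete's lemma. -/
theorem theta_core (f : ℤ → Bool) (n t ℓ : ℤ) (ht2 : 2 ≤ t) (htn : t + 2 ≤ n) (hℓ : 1 ≤ ℓ)
    (hℓn : ℓ < n) (hn : Per f n) (hl : Per f ℓ)
    (T2 : ∀ a b : ℤ, 0 ≤ a → 0 ≤ b → a ≤ n - t - 1 → b ≤ t - 1 → a + b + 1 = ℓ →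
      f (-a) = f (t - b))
    (T2' : ∀ a b : ℤ, 0 ≤ a → 0 ≤ b → a ≤ t - 1 → b ≤ n - t - 1 → a + b + 1 = ℓ →
      f a = f (t + b))
    (T1 : ∀ a b : ℤ, 0 ≤ a → 0 ≤ b → a + b + 1 = ℓ → t + ℓ - 1 < n → f (-a) = f (t + b))
    (T1' : ∀ a b : ℤ, 0 ≤ a → 0 ≤ b → a + b + 1 = ℓ → ℓ - 1 < t → f a = f (t - b)) :
    (∀ x, f (t + 1 - x) = f x) ∧ (∀ x, f (t - 1 - x) = f x) := by
  -- the basic period
  set g : ℤ := (Int.gcd ℓ n : ℤ) with hgdef
  have hg : Per f g := hl.gcd hn
  have hgpos : 0 < g := by
    rw [hgdef]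
    exact_mod_cast Int.gcd_pos_of_ne_zero_left _ (by omega)
  have hgl : g ∣ ℓ := Int.gcd_dvd_left _ _
  have hgn : g ∣ n := Int.gcd_dvd_right _ _
  have hgleℓ : g ≤ ℓ := Int.le_of_dvd (by omega) hgl
  have hglen : g ≤ n - ℓ := Int.le_of_dvd (by omega) (dvd_sub hgn hgl)
  -- rewriting by the period ℓ
  have hlp : ∀ x, f (x + ℓ) = f x := hl
  by_cases h1 : ℓ ≤ t
  · by_cases h2 : ℓ ≤ n - t
    · -- Case A
      constructor
      · refine refl_of_window (L := -ℓ + 1) (w := ℓ) hg hgpos hgleℓ ?_
        intro x hx1 hx2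
        have := T2 (-x) (ℓ - 1 + x) (by omega) (by omega) (by omega) (by omega) (by omega)
        rw [neg_neg] at this
        rw [this, show t + 1 - x = t - (ℓ - 1 + x) + ℓ by ring, hlp]
      · refine refl_of_window (L := 0) (w := ℓ) hg hgpos hgleℓ ?_
        intro x hx1 hx2
        have := T2' x (ℓ - 1 - x) (by omega) (by omega) (by omega) (by omega) (by omega)
        rw [this, show t + (ℓ - 1 - x) = t - 1 - x + ℓ by ring, hlp]
    · -- Case D: `n - t < ℓ ≤ t`
      have hp : Per f (t + 1) := by
        refine per_of_window (L := 0) (w := ℓ) hg hgpos hgleℓ ?_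
        intro x hx1 hx2
        have := T1' x (ℓ - 1 - x) (by omega) (by omega) (by omega) (by omega)
        rw [this, show t + 1 + x = t - (ℓ - 1 - x) + ℓ by ring, hlp]
      have hp' : Per f (n - t - 1) := by
        have := hn.add hp.neg
        rwa [show n + -(t + 1) = n - t - 1 by ring] at this
      set g' : ℤ := (Int.gcd g (n - t - 1) : ℤ) with hg'def
      have hg' : Per f g' := hg.gcd hp'
      have hg'pos : 0 < g' := by
        rw [hg'def]
        exact_mod_cast Int.gcd_pos_of_ne_zero_left _ hgpos.ne'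
      have hg'le : g' ≤ n - t - 1 := Int.le_of_dvd (by omega) (Int.gcd_dvd_right _ _)
      have hg'l : Per f ℓ := hl
      constructor
      · refine refl_of_window (L := -(n - t - 1)) (w := n - t) hg' hg'pos (by omega) ?_
        intro x hx1 hx2
        have := T2 (-x) (ℓ - 1 + x) (by omega) (by omega) (by omega) (by omega) (by omega)
        rw [neg_neg] at this
        rw [this, show t + 1 - x = t - (ℓ - 1 + x) + ℓ by ring, hlp]
      · refine refl_of_window (L := ℓ - (n - t)) (w := n - t) hg' hg'pos (by omega) ?_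
        intro x hx1 hx2
        have := T2' x (ℓ - 1 - x) (by omega) (by omega) (by omega) (by omega) (by omega)
        rw [this, show t + (ℓ - 1 - x) = t - 1 - x + ℓ by ring, hlp]
  · by_cases h2 : ℓ ≤ n - t
    · -- Case C: `t < ℓ ≤ n - t`
      have hp : Per f (t - 1) := by
        refine per_of_window (L := -ℓ + 1) (w := ℓ) hg hgpos hgleℓ ?_
        intro x hx1 hx2
        have := T1 (-x) (ℓ - 1 + x) (by omega) (by omega) (by omega) (by omega)
        rw [neg_neg] at this
        rw [this, show t + (ℓ - 1 + x) = t - 1 + x + ℓ by ring, hlp]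
      set g' : ℤ := (Int.gcd g (t - 1) : ℤ) with hg'def
      have hg' : Per f g' := hg.gcd hp
      have hg'pos : 0 < g' := by
        rw [hg'def]
        exact_mod_cast Int.gcd_pos_of_ne_zero_left _ hgpos.ne'
      have hg'le : g' ≤ t - 1 := Int.le_of_dvd (by omega) (Int.gcd_dvd_right _ _)
      constructor
      · refine refl_of_window (L := -ℓ + 1) (w := t) hg' hg'pos (by omega) ?_
        intro x hx1 hx2
        have := T2 (-x) (ℓ - 1 + x) (by omega) (by omega) (by omega) (by omega) (by omega)
        rw [neg_neg] at this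
        rw [this, show t + 1 - x = t - (ℓ - 1 + x) + ℓ by ring, hlp]
      · refine refl_of_window (L := 0) (w := t) hg' hg'pos (by omega) ?_
        intro x hx1 hx2
        have := T2' x (ℓ - 1 - x) (by omega) (by omega) (by omega) (by omega) (by omega)
        rw [this, show t + (ℓ - 1 - x) = t - 1 - x + ℓ by ring, hlp]
    · -- Case B: `ℓ > t`, `ℓ > n - t`
      constructor
      · refine refl_of_window (L := -(n - t - 1)) (w := n - ℓ) hg hgpos hglen ?_
        intro x hx1 hx2
        have := T2 (-x) (ℓ - 1 + x) (by omega) (by omega) (by omega) (by omega) (by omega)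
        rw [neg_neg] at this
        rw [this, show t + 1 - x = t - (ℓ - 1 + x) + ℓ by ring, hlp]
      · refine refl_of_window (L := ℓ - (n - t)) (w := n - ℓ) hg hgpos hglen ?_
        intro x hx1 hx2
        have := T2' x (ℓ - 1 - x) (by omega) (by omega) (by omega) (by omega) (by omega)
        rw [this, show t + (ℓ - 1 - x) = t - 1 - x + ℓ by ring, hlp]

end Crest.Agent.Lib.CycleRamsey
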